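import Mathlib

namespace Vale.Agent.Lib.P161

open MeasureTheory ProbabilityTheory Set Filter Topology
open scoped NNReal ENNReal InnerProductSpace unitInterval

/-- Open-interval predicate on the unit interval. -/
def ker_inn (u : I) : Prop := 0 < (u : ℝ) ∧ (u : ℝ) < 1

open Classical in
/-- Generalised inverse of the cumulative distribution function of `m`, zero at both endpoints. -/
noncomputable def ker_q (m : Measure ℝ) (u : I) : ℝ :=
  if ker_inn u then sInf {z : ℝ | (u : ℝ) ≤ cdf m z} else 0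

lemma ker_q_of_not {m : Measure ℝ} {u : I} (hu : ¬ ker_inn u) : ker_q m u = 0 := by
  simp [ker_q, hu]

lemma ker_q_le_iff (m : Measure ℝ) [IsProbabilityMeasure m] {u : I} (hu : ker_inn u) (z : ℝ) :
    ker_q m u ≤ z ↔ (u : ℝ) ≤ cdf m z := by
  have hq : ker_q m u = sInf {z : ℝ | (u : ℝ) ≤ cdf m z} := by simp [ker_q, hu]
  rcases hu with ⟨hu0, hu1⟩
  set S : Set ℝ := {z : ℝ | (u : ℝ) ≤ cdf m z} with hS
  have hne : S.Nonempty := by
    have := (tendsto_cdf_atTop m).eventually (lt_mem_nhds hu1)
    obtain ⟨w, hw⟩ := this.exists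
    exact ⟨w, le_of_lt hw⟩
  have hbdd : BddBelow S := by
    have := (tendsto_cdf_atBot m).eventually (gt_mem_nhds hu0)
    obtain ⟨w, hw⟩ := this.exists
    refine ⟨w, fun t ht => ?_⟩
    by_contra hlt
    push Not at hlt
    have h1 := monotone_cdf m hlt.le
    have h2 : (u : ℝ) ≤ cdf m t := ht
    linarith
  rw [hq]
  constructor
  · intro h
    by_contra hlt
    push Not at hlt
    -- the value at the infimum is below `u`
    have hmono := monotone_cdf m h
    have hlt' : cdf m (sInf S) < (u : ℝ) := lt_of_le_of_lt hmono hlt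
    have hrc : ContinuousWithinAt (cdf m) (Ici (sInf S)) (sInf S) :=
      (cdf m).right_continuous _
    have hev : ∀ᶠ t in 𝓝[Ici (sInf S)] (sInf S), cdf m t < (u : ℝ) :=
      hrc.eventually (gt_mem_nhds hlt')
    rw [eventually_nhdsWithin_iff] at hev
    obtain ⟨ε, hε, hball⟩ := Metric.eventually_nhds_iff.mp hev
    have hlb : sInf S + ε / 2 ≤ sInf S := by
      apply le_csInf hne
      intro t ht
      by_contra hlt2
      push Not at hlt2
      have h3 : cdf m (sInf S + ε / 2) < (u : ℝ) := by
        apply hball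
        · rw [Real.dist_eq]
          rw [show sInf S + ε / 2 - sInf S = ε / 2 by ring]
          rw [abs_of_pos (by linarith)]
          linarith
        · simp only [mem_Ici]; linarith
      have h4 := monotone_cdf m hlt2.le
      have h5 : (u : ℝ) ≤ cdf m t := ht
      linarith
    linarith
  · intro h
    exact csInf_le hbdd h

lemma ker_measurable_q (m : Measure ℝ) [IsProbabilityMeasure m] : Measurable (ker_q m) := by
  apply measurable_of_Iic
  intro z
  have hinn : MeasurableSet {u : I | ker_inn u} := by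
    have h1 : MeasurableSet {u : I | 0 < (u : ℝ)} :=
      measurableSet_lt measurable_const measurable_subtype_coe
    have h2 : MeasurableSet {u : I | (u : ℝ) < 1} :=
      measurableSet_lt measurable_subtype_coe measurable_const
    exact h1.inter h2
  have hle : MeasurableSet {u : I | (u : ℝ) ≤ cdf m z} :=
    measurableSet_le measurable_subtype_coe measurable_const
  have : ker_q m ⁻¹' Iic z =
      ({u : I | ker_inn u} ∩ {u : I | (u : ℝ) ≤ cdf m z}) ∪
        ({u : I | ker_inn u}ᶜ ∩ {u : I | (0 : ℝ) ≤ z}) := by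
    ext u
    by_cases hu : ker_inn u
    · simp [hu, ker_q_le_iff m hu z]
    · simp [hu, ker_q_of_not hu]
  rw [this]
  refine (hinn.inter hle).union (hinn.compl.inter ?_)
  by_cases hz : (0 : ℝ) ≤ z <;> simp [hz]

lemma ker_ae_inn : ∀ᵐ u ∂(volume : Measure I), ker_inn u := by
  have h0 : ∀ᵐ u ∂(volume : Measure I), u ≠ (0 : I) := by
    simp [ae_iff, measure_singleton]
  have h1 : ∀ᵐ u ∂(volume : Measure I), u ≠ (1 : I) := by
    simp [ae_iff, measure_singleton]
  filter_upwards [h0, h1] with u hu0 hu1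
  refine ⟨?_, ?_⟩
  · exact unitInterval.pos_iff_ne_zero.mpr hu0
  · exact unitInterval.lt_one_iff_ne_one.mpr hu1

theorem ker_map_q (m : Measure ℝ) [IsProbabilityMeasure m] :
    Measure.map (ker_q m) (volume : Measure I) = m := by
  have hfin : IsProbabilityMeasure (Measure.map (ker_q m) (volume : Measure I)) :=
    Measure.isProbabilityMeasure_map (ker_measurable_q m).aemeasurable
  refine Measure.ext_of_Iic _ _ fun z => ?_
  rw [Measure.map_apply (ker_measurable_q m) measurableSet_Iic, ← ofReal_cdf m z]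
  have hc0 := cdf_nonneg m z
  have hc1 := cdf_le_one m z
  let c : I := ⟨cdf m z, hc0, hc1⟩
  have hae : (ker_q m ⁻¹' Iic z : Set I) =ᵐ[volume] (Iic c : Set I) := by
    filter_upwards [ker_ae_inn] with u hu
    apply propext
    change ker_q m u ≤ z ↔ u ≤ c
    rw [ker_q_le_iff m hu z]
    rfl
  rw [measure_congr hae, unitInterval.volume_Iic]

theorem exists_param {S : Type*} [MeasurableSpace S] [StandardBorelSpace S]
    (ν : Measure S) [IsProbabilityMeasure ν] :
    ∃ ι : unitInterval → S, Measurable ι ∧ Measure.map ι (volume : Measure unitInterval) = ν := by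
  obtain ⟨f, hf⟩ := MeasureTheory.exists_measurableEmbedding_real S
  have hne : Nonempty S := by
    by_contra h
    rw [not_nonempty_iff] at h
    have : ν = 0 := Measure.eq_zero_of_isEmpty ν
    exact IsProbabilityMeasure.ne_zero ν this
  obtain ⟨g, hg, hgf⟩ := hf.exists_measurable_extend (g := (id : S → S)) measurable_id
    (fun _ => hne)
  have hgf' : g ∘ f = id := hgf
  have hm : IsProbabilityMeasure (Measure.map f ν) :=
    Measure.isProbabilityMeasure_map hf.measurable.aemeasurable
  refine ⟨g ∘ ker_q (Measure.map f ν), hg.comp (ker_measurable_q _), ?_⟩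
  rw [← Measure.map_map hg (ker_measurable_q _), ker_map_q,
    Measure.map_map hg hf.measurable, hgf', Measure.map_id]

/-- key inequality on cosh -/
lemma ker_tanh_lip (r a : ℝ) (ha : 0 ≤ a) : Real.tanh (r + a) - Real.tanh r ≤ a := by
  -- `y - tanh y` is monotone
  have hd : ∀ y, HasDerivAt (fun y => y - Real.sinh y / Real.cosh y)
      (1 - (Real.cosh y * Real.cosh y - Real.sinh y * Real.sinh y) / Real.cosh y ^ 2) y := by
    intro y
    exact (hasDerivAt_id y).sub ((Real.hasDerivAt_sinh y).div (Real.hasDerivAt_cosh y)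
      (Real.cosh_pos y).ne')
  have hm : Monotone (fun y => y - Real.sinh y / Real.cosh y) := by
    apply monotone_of_deriv_nonneg
    · exact fun y => (hd y).differentiableAt
    · intro y
      rw [(hd y).deriv]
      have h1 := Real.cosh_sq y
      have hc := Real.cosh_pos y
      have h2 : (Real.cosh y * Real.cosh y - Real.sinh y * Real.sinh y) = 1 := by nlinarith
      rw [h2, sub_nonneg, div_le_one (by positivity)]
      nlinarith [Real.one_le_cosh y]
  have := hm (by linarith : r ≤ r + a)
  simp only [Real.tanh_eq_sinh_div_cosh] at *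
  linarith

lemma ker_cosh_key {t z a : ℝ} (htz : t ≤ z) (ha : 0 ≤ a) :
    Real.cosh t * Real.cosh (z + a) ≤
      Real.cosh z * Real.cosh (t + a) * Real.exp ((z - t) * a) := by
  -- `log cosh (r + a) - log cosh r - a r` is antitone
  have hd : ∀ r, HasDerivAt (fun r => Real.log (Real.cosh (r + a)) - Real.log (Real.cosh r) - a * r)
      (Real.tanh (r + a) - Real.tanh r - a) r := by
    intro r
    have h1 : HasDerivAt (fun r => Real.log (Real.cosh (r + a)))
        (Real.sinh (r + a) * 1 / Real.cosh (r + a)) r := by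
      have := (Real.hasDerivAt_cosh (r + a)).comp r ((hasDerivAt_id r).add_const a)
      exact this.log (Real.cosh_pos _).ne'
    have h2 : HasDerivAt (fun r => Real.log (Real.cosh r)) (Real.sinh r / Real.cosh r) r :=
      (Real.hasDerivAt_cosh r).log (Real.cosh_pos _).ne'
    have h3 : HasDerivAt (fun r => a * r) (a * 1) r := (hasDerivAt_id r).const_mul a
    have := (h1.sub h2).sub h3
    have e : Real.tanh (r + a) - Real.tanh r - a =
        Real.sinh (r + a) * 1 / Real.cosh (r + a) - Real.sinh r / Real.cosh r - a * 1 := by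
      rw [Real.tanh_eq_sinh_div_cosh, Real.tanh_eq_sinh_div_cosh]
      ring
    rw [e]
    exact this
  have hm : Antitone (fun r => Real.log (Real.cosh (r + a)) - Real.log (Real.cosh r) - a * r) := by
    apply antitone_of_deriv_nonpos
    · exact fun y => (hd y).differentiableAt
    · intro y
      rw [(hd y).deriv]
      linarith [ker_tanh_lip y a ha]
  have h := hm htz
  simp only at h
  have hpos : ∀ r, 0 < Real.cosh r := Real.cosh_pos
  have h5 : Real.log (Real.cosh t * Real.cosh (z + a)) ≤
      Real.log (Real.cosh z * Real.cosh (t + a) * Real.exp ((z - t) * a)) := by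
    rw [Real.log_mul (hpos _).ne' (hpos _).ne',
      Real.log_mul (mul_pos (hpos _) (hpos _)).ne' (Real.exp_pos _).ne',
      Real.log_mul (hpos _).ne' (hpos _).ne', Real.log_exp]
    nlinarith
  exact (Real.log_le_log_iff (mul_pos (hpos _) (hpos _))
    (mul_pos (mul_pos (hpos _) (hpos _)) (Real.exp_pos _))).mp h5

/-- The density of the site kernel. -/
noncomputable def ker_den (s x z : ℝ) : ℝ :=
  (Real.sqrt (2 * Real.pi * s))⁻¹ * Real.exp (-s / 2) * Real.exp (-(z - x) ^ 2 / (2 * s)) *
    Real.cosh z / Real.cosh x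

lemma ker_den_pos {s : ℝ} (hs : 0 < s) (x z : ℝ) : 0 < ker_den s x z := by
  unfold ker_den
  have : 0 < Real.sqrt (2 * Real.pi * s) := Real.sqrt_pos.mpr (by positivity)
  have h1 := Real.cosh_pos z
  have h2 := Real.cosh_pos x
  positivity

lemma ker_den_meas (s x : ℝ) : Measurable (ker_den s x) := by
  unfold ker_den
  fun_prop

lemma ker_den_eq {s : ℝ} (hs : 0 < s) (x z : ℝ) :
    (1 + Real.tanh x) / 2 * ((Real.sqrt (2 * Real.pi * s))⁻¹ *
        Real.exp (-(z - (x + s)) ^ 2 / (2 * s))) +
      (1 - Real.tanh x) / 2 * ((Real.sqrt (2 * Real.pi * s))⁻¹ *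
        Real.exp (-(z - (x - s)) ^ 2 / (2 * s))) = ker_den s x z := by
  have hc := (Real.cosh_pos x).ne'
  have e1 : Real.exp (-(z - (x + s)) ^ 2 / (2 * s)) =
      Real.exp (-(z - x) ^ 2 / (2 * s)) * Real.exp (-s / 2) * (Real.exp z * Real.exp (-x)) := by
    rw [← Real.exp_add, ← Real.exp_add, ← Real.exp_add]
    congr 1
    field_simp
    ring
  have e2 : Real.exp (-(z - (x - s)) ^ 2 / (2 * s)) =
      Real.exp (-(z - x) ^ 2 / (2 * s)) * Real.exp (-s / 2) * (Real.exp (-z) * Real.exp x) := by
    rw [← Real.exp_add, ← Real.exp_add, ← Real.exp_add]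
    congr 1
    field_simp
    ring
  rw [e1, e2, Real.tanh_eq_sinh_div_cosh]
  unfold ker_den
  rw [Real.cosh_eq z]
  have h3 : Real.exp (-x) * Real.exp x = 1 := by
    rw [← Real.exp_add]; simp
  have h4 : 1 + Real.sinh x / Real.cosh x = Real.exp x / Real.cosh x := by
    rw [eq_div_iff hc, add_mul, div_mul_cancel₀ _ hc, one_mul, Real.cosh_eq, Real.sinh_eq]; ring
  have h5 : 1 - Real.sinh x / Real.cosh x = Real.exp (-x) / Real.cosh x := by
    rw [eq_div_iff hc, sub_mul, div_mul_cancel₀ _ hc, one_mul, Real.cosh_eq, Real.sinh_eq]; ring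
  rw [h4, h5]
  field_simp
  linear_combination h3


/-- Monotone likelihood ratio comparison with a shift. -/
lemma ker_mlr {p q : ℝ → ℝ} (hpm : Measurable p) (hqm : Measurable q)
    (hp0 : ∀ t, 0 < p t) (hq0 : ∀ t, 0 < q t)
    {P Q : Measure ℝ} [IsProbabilityMeasure P] [IsProbabilityMeasure Q]
    (hP : P = volume.withDensity (fun t => ENNReal.ofReal (p t)))
    (hQ : Q = volume.withDensity (fun t => ENNReal.ofReal (q t)))
    {a : ℝ} (h : ∀ t z, t ≤ z → q t * p (z + a) ≤ q z * p (t + a)) (z : ℝ) :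
    cdf Q z ≤ cdf P (z + a) := by
  set pz : ℝ := p (z + a) with hpz
  set qz : ℝ := q z with hqz
  have hpz0 : 0 < pz := hp0 _
  have hqz0 : 0 < qz := hq0 _
  have hpmE : Measurable (fun t => ENNReal.ofReal (p t)) := hpm.ennreal_ofReal
  have hqmE : Measurable (fun t => ENNReal.ofReal (q t)) := hqm.ennreal_ofReal
  -- translation
  have htr : ∀ (S : Set ℝ), MeasurableSet S →
      ∫⁻ t in (fun t => t + a) ⁻¹' S, ENNReal.ofReal (p (t + a)) =
        ∫⁻ t in S, ENNReal.ofReal (p t) := by
    intro S hS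
    exact (measurePreserving_add_right (volume : Measure ℝ) a).setLIntegral_comp_preimage hS hpmE
  have h1 : Q (Iic z) * ENNReal.ofReal pz ≤ ENNReal.ofReal qz * P (Iic (z + a)) := by
    have e1 : P (Iic (z + a)) = ∫⁻ t in Iic z, ENNReal.ofReal (p (t + a)) := by
      rw [hP, withDensity_apply _ measurableSet_Iic, ← htr _ measurableSet_Iic]
      congr 2
      ext t
      simp
    have hpa : Measurable (fun t => ENNReal.ofReal (p (t + a))) :=
      hpmE.comp (measurable_add_const a)
    rw [e1, hQ, withDensity_apply _ measurableSet_Iic, ← lintegral_mul_const _ hqmE,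
      ← lintegral_const_mul _ hpa]
    refine setLIntegral_mono' measurableSet_Iic fun t ht => ?_
    rw [← ENNReal.ofReal_mul (hq0 t).le, ← ENNReal.ofReal_mul hqz0.le]
    exact ENNReal.ofReal_le_ofReal (h t z ht)
  have h2 : ENNReal.ofReal qz * P (Ioi (z + a)) ≤ Q (Ioi z) * ENNReal.ofReal pz := by
    have e1 : P (Ioi (z + a)) = ∫⁻ t in Ioi z, ENNReal.ofReal (p (t + a)) := by
      rw [hP, withDensity_apply _ measurableSet_Ioi, ← htr _ measurableSet_Ioi]
      congr 2
      ext t
      simp
    have hpa : Measurable (fun t => ENNReal.ofReal (p (t + a))) :=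
      hpmE.comp (measurable_add_const a)
    rw [e1, hQ, withDensity_apply _ measurableSet_Ioi, ← lintegral_mul_const _ hqmE,
      ← lintegral_const_mul _ hpa]
    refine setLIntegral_mono' measurableSet_Ioi fun t ht => ?_
    rw [← ENNReal.ofReal_mul (hq0 t).le, ← ENNReal.ofReal_mul hqz0.le]
    exact ENNReal.ofReal_le_ofReal (h z t (le_of_lt ht))
  set A : ℝ := cdf P (z + a) with hA
  set C : ℝ := cdf Q z with hC
  have hA0 : 0 ≤ A := cdf_nonneg _ _
  have hA1 : A ≤ 1 := cdf_le_one _ _
  have hC0 : 0 ≤ C := cdf_nonneg _ _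
  have hC1 : C ≤ 1 := cdf_le_one _ _
  have ePI : P (Iic (z + a)) = ENNReal.ofReal A := (ofReal_cdf P _).symm
  have eQI : Q (Iic z) = ENNReal.ofReal C := (ofReal_cdf Q _).symm
  have ePO : P (Ioi (z + a)) = ENNReal.ofReal (1 - A) := by
    rw [← compl_Iic, prob_compl_eq_one_sub measurableSet_Iic, ePI,
      ENNReal.ofReal_sub _ hA0, ENNReal.ofReal_one]
  have eQO : Q (Ioi z) = ENNReal.ofReal (1 - C) := by
    rw [← compl_Iic, prob_compl_eq_one_sub measurableSet_Iic, eQI,
      ENNReal.ofReal_sub _ hC0, ENNReal.ofReal_one]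
  rw [ePI, eQI, ← ENNReal.ofReal_mul hC0, ← ENNReal.ofReal_mul hqz0.le,
    ENNReal.ofReal_le_ofReal_iff (by positivity)] at h1
  rw [ePO, eQO, ← ENNReal.ofReal_mul hqz0.le, ← ENNReal.ofReal_mul (by linarith),
    ENNReal.ofReal_le_ofReal_iff (by nlinarith)] at h2
  have h3 : C * pz * (1 - A) ≤ qz * A * (1 - A) :=
    mul_le_mul_of_nonneg_right h1 (by linarith)
  have h4 : qz * (1 - A) * A ≤ (1 - C) * pz * A :=
    mul_le_mul_of_nonneg_right h2 hA0
  have h5 : (C * (1 - A)) * pz ≤ (A * (1 - C)) * pz := by nlinarith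
  have h6 := le_of_mul_le_mul_right h5 hpz0
  linarith

/-- The site kernel. -/
noncomputable def siteKer (s : ℝ≥0) (x : ℝ) : Measure ℝ :=
  ENNReal.ofReal ((1 + Real.tanh x) / 2) • gaussianReal (x + s) s +
  ENNReal.ofReal ((1 - Real.tanh x) / 2) • gaussianReal (x - s) s

lemma ker_c1 (x : ℝ) : 0 ≤ (1 + Real.tanh x) / 2 := by
  have := Real.neg_one_lt_tanh x
  linarith

lemma ker_c2 (x : ℝ) : 0 ≤ (1 - Real.tanh x) / 2 := by
  have := Real.tanh_lt_one x
  linarith

instance ker_isProb (s : ℝ≥0) (x : ℝ) : IsProbabilityMeasure (siteKer s x) := by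
  constructor
  simp only [siteKer, Measure.coe_add, Measure.coe_smul, Pi.add_apply, Pi.smul_apply,
    measure_univ, smul_eq_mul, mul_one]
  rw [← ENNReal.ofReal_add (ker_c1 x) (ker_c2 x)]
  have : (1 + Real.tanh x) / 2 + (1 - Real.tanh x) / 2 = 1 := by ring
  rw [this, ENNReal.ofReal_one]

lemma ker_site_density {s : ℝ≥0} (hs : s ≠ 0) (x : ℝ) :
    siteKer s x = volume.withDensity (fun z => ENNReal.ofReal (ker_den s x z)) := by
  have hs' : (0 : ℝ) < s := by
    have := pos_iff_ne_zero.mpr hs
    exact_mod_cast this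
  unfold siteKer
  rw [gaussianReal_of_var_ne_zero _ hs, gaussianReal_of_var_ne_zero _ hs,
    ← withDensity_smul _ (measurable_gaussianPDF _ _), ← withDensity_smul _ (measurable_gaussianPDF _ _),
    ← withDensity_add_left ((measurable_gaussianPDF _ _).const_smul _)]
  congr 1
  ext z
  simp only [Pi.add_apply, Pi.smul_apply, smul_eq_mul, gaussianPDF, gaussianPDFReal]
  rw [← ENNReal.ofReal_mul (ker_c1 x), ← ENNReal.ofReal_mul (ker_c2 x),
    ← ENNReal.ofReal_add (mul_nonneg (ker_c1 x) (by positivity))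
      (mul_nonneg (ker_c2 x) (by positivity)), ker_den_eq hs']

/-- First comparison: stochastic monotonicity. -/
lemma ker_cdf_mono {s : ℝ≥0} (hs : s ≠ 0) (x : ℝ) {η : ℝ} (hη : 0 ≤ η) (z : ℝ) :
    cdf (siteKer s (x + η)) z ≤ cdf (siteKer s x) z := by
  have hs' : (0 : ℝ) < s := by
    have := pos_iff_ne_zero.mpr hs
    exact_mod_cast this
  have key := ker_mlr (p := ker_den s x) (q := ker_den s (x + η))
    (ker_den_meas _ _) (ker_den_meas _ _) (ker_den_pos hs' _) (ker_den_pos hs' _)
    (ker_site_density hs x) (ker_site_density hs (x + η)) (a := 0) ?_ z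
  · simpa using key
  · intro t w htw
    simp only [add_zero]
    unfold ker_den
    have hN : 0 < Real.sqrt (2 * Real.pi * s) := Real.sqrt_pos.mpr (by positivity)
    have hc := Real.cosh_pos
    have hE : Real.exp (-(t - (x + η)) ^ 2 / (2 * s)) * Real.exp (-(w - x) ^ 2 / (2 * s)) ≤
        Real.exp (-(w - (x + η)) ^ 2 / (2 * s)) * Real.exp (-(t - x) ^ 2 / (2 * s)) := by
      rw [← Real.exp_add, ← Real.exp_add]
      apply Real.exp_le_exp.mpr
      rw [← add_div, ← add_div]
      apply div_le_div_of_nonneg_right _ (by positivity)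
      nlinarith
    have hK : 0 ≤ ((Real.sqrt (2 * Real.pi * s))⁻¹ * Real.exp (-(s : ℝ) / 2)) ^ 2 *
        (Real.cosh t * Real.cosh w) / (Real.cosh (x + η) * Real.cosh x) := by
      have := hc t
      have := hc w
      have := hc x
      have := hc (x + η)
      positivity
    have := mul_le_mul_of_nonneg_left hE hK
    calc _ = _ := by ring
      _ ≤ _ := this
      _ = _ := by ring

/-- Second comparison: the shift by `η / (1 - s)` dominates. -/
lemma ker_cdf_shift {s : ℝ≥0} (hs : s ≠ 0) (hs1 : s < 1) (x : ℝ) {η : ℝ} (hη : 0 ≤ η) (z : ℝ) :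
    cdf (siteKer s x) z ≤ cdf (siteKer s (x + η)) (z + η / (1 - s)) := by
  have hs' : (0 : ℝ) < s := by
    have := pos_iff_ne_zero.mpr hs
    exact_mod_cast this
  have hs1' : (s : ℝ) < 1 := by exact_mod_cast hs1
  have h1s : (0 : ℝ) < 1 - s := by linarith
  refine ker_mlr (p := ker_den s (x + η)) (q := ker_den s x)
    (ker_den_meas _ _) (ker_den_meas _ _) (ker_den_pos hs' _) (ker_den_pos hs' _)
    (ker_site_density hs (x + η)) (ker_site_density hs x) ?_ z
  intro t w htw
  set a : ℝ := η / (1 - s) with ha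
  have ha0 : 0 ≤ a := div_nonneg hη h1s.le
  have hb : a - η = a * s := by
    rw [ha]
    field_simp
    ring
  unfold ker_den
  have hN : 0 < Real.sqrt (2 * Real.pi * s) := Real.sqrt_pos.mpr (by positivity)
  have hc := Real.cosh_pos
  have hkey := ker_cosh_key htw ha0
  have hE : Real.exp (-(t - x) ^ 2 / (2 * s)) * Real.exp (-(w + a - (x + η)) ^ 2 / (2 * s)) =
      Real.exp (-(w - x) ^ 2 / (2 * s)) * Real.exp (-(t + a - (x + η)) ^ 2 / (2 * s)) *
        Real.exp (-((w - t) * a)) := by
    rw [← Real.exp_add, ← Real.exp_add, ← Real.exp_add]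
    congr 1
    have e1 : w + a - (x + η) = w - x + a * s := by linear_combination hb
    have e2 : t + a - (x + η) = t - x + a * s := by linear_combination hb
    rw [e1, e2]
    field_simp
    ring
  have hexp : Real.exp ((w - t) * a) * Real.exp (-((w - t) * a)) = 1 := by
    rw [← Real.exp_add]; simp
  have hK : 0 ≤ ((Real.sqrt (2 * Real.pi * s))⁻¹ * Real.exp (-(s : ℝ) / 2)) ^ 2 *
      (Real.exp (-(w - x) ^ 2 / (2 * s)) * Real.exp (-(t + a - (x + η)) ^ 2 / (2 * s)) *
        Real.exp (-((w - t) * a))) / (Real.cosh x * Real.cosh (x + η)) := by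
    have := hc x
    have := hc (x + η)
    positivity
  have hmul := mul_le_mul_of_nonneg_left hkey hK
  calc ((Real.sqrt (2 * Real.pi * s))⁻¹ * Real.exp (-(s : ℝ) / 2) * Real.exp (-(t - x) ^ 2 / (2 * s)) *
          Real.cosh t / Real.cosh x) *
        ((Real.sqrt (2 * Real.pi * s))⁻¹ * Real.exp (-(s : ℝ) / 2) *
          Real.exp (-(w + a - (x + η)) ^ 2 / (2 * s)) * Real.cosh (w + a) / Real.cosh (x + η))
      = ((Real.sqrt (2 * Real.pi * s))⁻¹ * Real.exp (-(s : ℝ) / 2)) ^ 2 *
          (Real.exp (-(t - x) ^ 2 / (2 * s)) * Real.exp (-(w + a - (x + η)) ^ 2 / (2 * s))) /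
          (Real.cosh x * Real.cosh (x + η)) * (Real.cosh t * Real.cosh (w + a)) := by ring
    _ = _ := by rw [hE]
    _ ≤ _ := hmul
    _ = _ := by
      have : Real.cosh w * Real.cosh (t + a) * Real.exp ((w - t) * a) *
          Real.exp (-((w - t) * a)) = Real.cosh w * Real.cosh (t + a) := by
        rw [mul_assoc, hexp, mul_one]
      linear_combination (((Real.sqrt (2 * Real.pi * s))⁻¹ * Real.exp (-(s : ℝ) / 2)) ^ 2 *
        (Real.exp (-(w - x) ^ 2 / (2 * s)) * Real.exp (-(t + a - (x + η)) ^ 2 / (2 * s))) /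
        (Real.cosh x * Real.cosh (x + η))) * this

/-- Lipschitz estimate for the inverse distribution functions. -/
lemma ker_q_step {s : ℝ≥0} (hs : s ≠ 0) (hs1 : s < 1) (x : ℝ) {η : ℝ} (hη : 0 ≤ η) (u : I) :
    ker_q (siteKer s x) u ≤ ker_q (siteKer s (x + η)) u ∧
      ker_q (siteKer s (x + η)) u ≤ ker_q (siteKer s x) u + η / (1 - s) := by
  by_cases hu : ker_inn u
  · constructor
    · rw [ker_q_le_iff _ hu]
      refine le_trans ?_ (ker_cdf_mono hs x hη _)
      exact (ker_q_le_iff _ hu _).mp le_rfl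
    · rw [ker_q_le_iff _ hu]
      refine le_trans ?_ (ker_cdf_shift hs hs1 x hη _)
      exact (ker_q_le_iff _ hu _).mp le_rfl
  · have hs1' : (s : ℝ) < 1 := by exact_mod_cast hs1
    have h1s : (0 : ℝ) < 1 - s := by linarith
    have : 0 ≤ η / (1 - (s : ℝ)) := div_nonneg hη h1s.le
    simp only [ker_q_of_not hu]
    constructor <;> linarith

lemma ker_q_lip {s : ℝ≥0} (hs : s ≠ 0) (hs1 : s < 1) (x y : ℝ) (u : I) :
    |ker_q (siteKer s x) u - ker_q (siteKer s y) u| ≤ |x - y| / (1 - s) := by
  rcases le_total x y with hxy | hxy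
  · obtain ⟨h1, h2⟩ := ker_q_step hs hs1 x (sub_nonneg.mpr hxy) u
    rw [add_sub_cancel] at h1 h2
    rw [abs_sub_comm, abs_sub_comm x y, abs_of_nonneg (sub_nonneg.mpr h1),
      abs_of_nonneg (sub_nonneg.mpr hxy)]
    linarith
  · obtain ⟨h1, h2⟩ := ker_q_step hs hs1 y (sub_nonneg.mpr hxy) u
    rw [add_sub_cancel] at h1 h2
    rw [abs_of_nonneg (sub_nonneg.mpr h1), abs_of_nonneg (sub_nonneg.mpr hxy)]
    linarith

theorem exists_F (s : ℝ≥0) (h0 : 0 < s) (h1 : s < 1) :
    ∃ F : ℝ → unitInterval → ℝ, Measurable (Function.uncurry F) ∧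
      (∀ x, Measure.map (F x) (volume : Measure unitInterval) = siteKer s x) ∧
      (∀ᵐ u ∂(volume : Measure unitInterval), ∀ x y, |F x u - F y u| ≤ |x - y| / (1 - s)) ∧
      MemLp (F 0) 2 (volume : Measure unitInterval) := by
  have hs : s ≠ 0 := h0.ne'
  have hs1' : (s : ℝ) < 1 := by exact_mod_cast h1
  have h1s : (0 : ℝ) < 1 - s := by linarith
  refine ⟨fun x u => ker_q (siteKer s x) u, ?_, fun x => ker_map_q _,
    Filter.Eventually.of_forall fun u x y => ker_q_lip hs h1 x y u, ?_⟩
  · apply measurable_uncurry_of_continuous_of_measurable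
    · intro u
      have hL : LipschitzWith (Real.toNNReal (1 / (1 - s)))
          (fun x => ker_q (siteKer s x) u) := by
        apply LipschitzWith.of_dist_le_mul
        intro x y
        rw [Real.dist_eq, Real.dist_eq, Real.coe_toNNReal _ (by positivity)]
        have := ker_q_lip hs h1 x y u
        calc _ ≤ _ := this
          _ = _ := by ring
      exact hL.continuous
    · intro x
      exact ker_measurable_q _
  · have hG : MemLp (id : ℝ → ℝ) 2 (siteKer s 0) := by
      rw [memLp_two_iff_integrable_sq aestronglyMeasurable_id]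
      have hGi : ∀ m : ℝ, Integrable (fun x => (id x : ℝ) ^ 2) (gaussianReal m s) := fun m =>
        (memLp_two_iff_integrable_sq aestronglyMeasurable_id).mp
          (memLp_id_gaussianReal' 2 (by simp))
      unfold siteKer
      exact ((hGi _).smul_measure ENNReal.ofReal_ne_top).add_measure
        ((hGi _).smul_measure ENNReal.ofReal_ne_top)
    rw [← ker_map_q (siteKer s 0)] at hG
    exact (memLp_map_measure_iff aestronglyMeasurable_id
      (ker_measurable_q _).aemeasurable).mp hG

end Vale.Agent.Lib.P161
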