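import Mathlib

/-!
The Efron-Stein inequality for a finite set of coordinates of an infinite product of a probability
measure.
-/

namespace Vale.Agent.Lib.P161

open MeasureTheory ProbabilityTheory

variable {ι X : Type*} [MeasurableSpace X] [DecidableEq ι]

/-- Replace the coordinates in `W` of `x` by those of `t`. -/
def es_repl (W : Finset ι) (x t : ι → X) : ι → X := fun i => if i ∈ W then t i else x i

lemma es_repl_measurable (W : Finset ι) :
    Measurable (fun p : (ι → X) × (ι → X) => es_repl W p.1 p.2) := by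
  refine measurable_pi_iff.2 fun i => ?_
  by_cases h : i ∈ W
  · have : (fun p : (ι → X) × (ι → X) => es_repl W p.1 p.2 i) = fun p => p.2 i := by
      funext p; simp [es_repl, h]
    rw [this]
    exact (measurable_pi_apply i).comp measurable_snd
  · have : (fun p : (ι → X) × (ι → X) => es_repl W p.1 p.2 i) = fun p => p.1 i := by
      funext p; simp [es_repl, h]
    rw [this]
    exact (measurable_pi_apply i).comp measurable_fst

lemma es_mp (m : Measure X) [IsProbabilityMeasure m] (W : Finset ι) :
    MeasurePreserving (fun p : (ι → X) × (ι → X) => es_repl W p.1 p.2)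
      ((Measure.infinitePi fun _ : ι => m).prod (Measure.infinitePi fun _ : ι => m))
      (Measure.infinitePi fun _ : ι => m) := by
  refine ⟨es_repl_measurable W, ?_⟩
  refine Measure.eq_infinitePi _ fun s t ht => ?_
  have hmeas : MeasurableSet (Set.pi (s : Set ι) t) :=
    MeasurableSet.pi s.countable_toSet fun i _ => ht i
  rw [Measure.map_apply (es_repl_measurable W) hmeas]
  have hpre : (fun p : (ι → X) × (ι → X) => es_repl W p.1 p.2) ⁻¹' (Set.pi (s : Set ι) t) =
      (Set.pi ((s.filter (· ∉ W) : Finset ι) : Set ι) t) ×ˢ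
        (Set.pi ((s.filter (· ∈ W) : Finset ι) : Set ι) t) := by
    ext ⟨x, y⟩
    simp only [Set.mem_preimage, Set.mem_pi, Finset.mem_coe, Set.mem_prod, Finset.mem_filter,
      es_repl]
    constructor
    · intro h
      refine ⟨fun i hi => ?_, fun i hi => ?_⟩
      · simpa [hi.2] using h i hi.1
      · simpa [hi.2] using h i hi.1
    · rintro ⟨h1, h2⟩ i hi
      by_cases hW : i ∈ W
      · simpa [hW] using h2 i ⟨hi, hW⟩
      · simpa [hW] using h1 i ⟨hi, hW⟩
  rw [hpre, Measure.prod_prod, Measure.infinitePi_pi _ (fun i _ => ht i),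
    Measure.infinitePi_pi _ (fun i _ => ht i), Finset.prod_filter_not_mul_prod_filter]

/-- Average over the coordinates in `W`. -/
noncomputable def es_avg (m : Measure X) (W : Finset ι) (G : (ι → X) → ℝ) (x : ι → X) : ℝ :=
  ∫ t, G (es_repl W x t) ∂(Measure.infinitePi fun _ : ι => m)

section

variable (m : Measure X) [IsProbabilityMeasure m]

lemma es_integrable {α : Type*} [MeasurableSpace α] (ν : Measure α) [IsFiniteMeasure ν]
    {f : α → ℝ} (hf : Measurable f) {C : ℝ} (hC : ∀ x, |f x| ≤ C) : Integrable f ν :=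
  Integrable.of_bound hf.aestronglyMeasurable C (Filter.Eventually.of_forall fun x => by
    simpa using hC x)

lemma es_sq_le {α : Type*} [MeasurableSpace α] (ν : Measure α) [IsProbabilityMeasure ν]
    {f : α → ℝ} (hf : Measurable f) {C : ℝ} (hC : ∀ x, |f x| ≤ C) :
    (∫ x, f x ∂ν) ^ 2 ≤ ∫ x, f x ^ 2 ∂ν := by
  have h1 : Integrable f ν := es_integrable ν hf hC
  have hC0 : 0 ≤ C := (abs_nonneg _).trans (hC (Classical.choice (by
    by_contra h
    have : IsEmpty α := not_nonempty_iff.1 h
    have := IsProbabilityMeasure.ne_zero ν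
    exact this (Measure.eq_zero_of_isEmpty ν))))
  have h2 : Integrable (fun x => f x ^ 2) ν :=
    es_integrable ν (hf.pow_const 2) (C := C ^ 2) (fun x => by
      rw [abs_pow]; exact pow_le_pow_left₀ (abs_nonneg _) (hC x) 2)
  set c := ∫ x, f x ∂ν with hc
  have h3 : 0 ≤ ∫ x, (f x - c) ^ 2 ∂ν := integral_nonneg fun x => sq_nonneg _
  have h4 : ∫ x, (f x - c) ^ 2 ∂ν = ∫ x, f x ^ 2 ∂ν - c ^ 2 := by
    have : ∀ x, (f x - c) ^ 2 = f x ^ 2 - 2 * c * f x + c ^ 2 := fun x => by ring
    simp_rw [this]
    have hA : Integrable (fun x => f x ^ 2 - 2 * c * f x) ν := h2.sub (h1.const_mul _)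
    rw [integral_add hA (integrable_const _),
      integral_sub h2 (h1.const_mul _), integral_const_mul, integral_const]
    simp only [probReal_univ, smul_eq_mul, one_mul, ← hc]
    ring
  linarith

variable {m}

lemma es_avg_measurable (W : Finset ι) {G : (ι → X) → ℝ} (hG : Measurable G) :
    Measurable (es_avg m W G) := by
  have h : Measurable (fun p : (ι → X) × (ι → X) => G (es_repl W p.1 p.2)) :=
    hG.comp (es_repl_measurable W)
  exact (h.stronglyMeasurable.integral_prod_right'
    (ν := Measure.infinitePi fun _ : ι => m)).measurable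

lemma es_avg_bdd (W : Finset ι) {G : (ι → X) → ℝ} {C : ℝ} (hC : ∀ x, |G x| ≤ C) (x : ι → X) :
    |es_avg m W G x| ≤ C := by
  have := norm_integral_le_of_norm_le_const (μ := (Measure.infinitePi fun _ : ι => m))
    (f := fun t => G (es_repl W x t)) (C := C) (Filter.Eventually.of_forall fun t => by
      simpa using hC _)
  simpa [es_avg] using this

lemma es_avg_integral (W : Finset ι) {G : (ι → X) → ℝ} (hG : Measurable G) {C : ℝ}
    (hC : ∀ x, |G x| ≤ C) :
    ∫ x, es_avg m W G x ∂(Measure.infinitePi fun _ : ι => m) =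
      ∫ x, G x ∂(Measure.infinitePi fun _ : ι => m) := by
  have h : Measurable (fun p : (ι → X) × (ι → X) => G (es_repl W p.1 p.2)) :=
    hG.comp (es_repl_measurable W)
  have hint : Integrable (fun p : (ι → X) × (ι → X) => G (es_repl W p.1 p.2))
      ((Measure.infinitePi fun _ : ι => m).prod (Measure.infinitePi fun _ : ι => m)) :=
    es_integrable _ h (fun p => hC _)
  unfold es_avg
  rw [← integral_prod _ hint]
  have := (es_mp m W).map_eq
  conv_rhs => rw [← this]
  rw [integral_map (es_repl_measurable W).aemeasurable hG.aestronglyMeasurable]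

lemma es_repl_repl (W : Finset ι) (x s t : ι → X) :
    es_repl W (es_repl W x s) t = es_repl W x t := by
  funext i; by_cases h : i ∈ W <;> simp [es_repl, h]

lemma es_avg_repl (W : Finset ι) (G : (ι → X) → ℝ) (x s : ι → X) :
    es_avg m W G (es_repl W x s) = es_avg m W G x := by
  unfold es_avg; simp_rw [es_repl_repl]

lemma es_orth (W : Finset ι) {F K : (ι → X) → ℝ} (hF : Measurable F) (hK : Measurable K) {C D : ℝ}
    (hFC : ∀ x, |F x| ≤ C) (hKD : ∀ x, |K x| ≤ D) :
    ∫ x, F x * es_avg m W K x ∂(Measure.infinitePi fun _ : ι => m) =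
      ∫ x, es_avg m W F x * es_avg m W K x ∂(Measure.infinitePi fun _ : ι => m) := by
  set L := es_avg m W K with hL
  have hLm : Measurable L := es_avg_measurable W hK
  have hLb : ∀ x, |L x| ≤ D := es_avg_bdd W hKD
  have hFL : Measurable (fun x => F x * L x) := hF.mul hLm
  have hFLb : ∀ x, |F x * L x| ≤ C * D := fun x => by
    rw [abs_mul]
    exact mul_le_mul (hFC x) (hLb x) (abs_nonneg _) ((abs_nonneg _).trans (hFC x))
  rw [← es_avg_integral W hFL hFLb]
  congr 1
  funext x
  unfold es_avg
  have : ∀ t, F (es_repl W x t) * L (es_repl W x t) = F (es_repl W x t) * L x := fun t => by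
    rw [hL, es_avg_repl]
  simp_rw [this]
  rw [integral_mul_const]

lemma es_avg_sq_le (W : Finset ι) {K : (ι → X) → ℝ} (hK : Measurable K) {D : ℝ}
    (hKD : ∀ x, |K x| ≤ D) (x : ι → X) :
    es_avg m W K x ^ 2 ≤ es_avg m W (fun y => K y ^ 2) x := by
  unfold es_avg
  have hm : Measurable (fun t => K (es_repl W x t)) :=
    hK.comp ((es_repl_measurable W).comp (measurable_const.prodMk measurable_id))
  exact es_sq_le _ hm (fun t => hKD _)

lemma es_sq_bdd {K : (ι → X) → ℝ} {D : ℝ} (hKD : ∀ x, |K x| ≤ D) (x : ι → X) :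
    |K x ^ 2| ≤ D ^ 2 := by
  rw [abs_pow]; exact pow_le_pow_left₀ (abs_nonneg _) (hKD x) 2

lemma es_contract (W : Finset ι) {K : (ι → X) → ℝ} (hK : Measurable K) {D : ℝ}
    (hKD : ∀ x, |K x| ≤ D) :
    ∫ x, es_avg m W K x ^ 2 ∂(Measure.infinitePi fun _ : ι => m) ≤
      ∫ x, K x ^ 2 ∂(Measure.infinitePi fun _ : ι => m) := by
  have hK2 : Measurable (fun y => K y ^ 2) := hK.pow_const 2
  rw [← es_avg_integral (m := m) W hK2 (es_sq_bdd hKD)]
  refine integral_mono (es_integrable _ ((es_avg_measurable W hK).pow_const 2) (es_sq_bdd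
    (es_avg_bdd W hKD)))
    (es_integrable _ (es_avg_measurable W hK2) (es_avg_bdd W (es_sq_bdd hKD)))
    (fun x => es_avg_sq_le W hK hKD x)

lemma es_avg_insert_left {W : Finset ι} (i : ι) {G : (ι → X) → ℝ} (hG : Measurable G) {C : ℝ}
    (hC : ∀ x, |G x| ≤ C) (x : ι → X) :
    es_avg m W (es_avg m {i} G) x = es_avg m (insert i W) G x := by
  have hF : Measurable (fun u => G (es_repl (insert i W) x u)) :=
    hG.comp ((es_repl_measurable (insert i W)).comp (measurable_const.prodMk measurable_id))
  have := es_avg_integral (m := m) {i} hF (fun u => hC _)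
  simp only [es_avg] at this ⊢
  rw [← this]
  congr 1
  funext t
  congr 1
  funext s
  congr 1
  funext j
  by_cases h1 : j = i
  · subst h1; simp [es_repl]
  · by_cases h2 : j ∈ W <;> simp [es_repl, h1, h2]

lemma es_avg_insert_right {W : Finset ι} {i : ι} (hi : i ∉ W) {G : (ι → X) → ℝ}
    (hG : Measurable G) {C : ℝ} (hC : ∀ x, |G x| ≤ C) (x : ι → X) :
    es_avg m {i} (es_avg m W G) x = es_avg m (insert i W) G x := by
  have hF : Measurable (fun u => G (es_repl (insert i W) x u)) :=
    hG.comp ((es_repl_measurable (insert i W)).comp (measurable_const.prodMk measurable_id))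
  have := es_avg_integral (m := m) {i} hF (fun u => hC _)
  simp only [es_avg] at this ⊢
  rw [← this]
  have hP : Integrable (Function.uncurry fun t s : ι → X =>
      G (es_repl (insert i W) x (es_repl {i} t s)))
      ((Measure.infinitePi fun _ : ι => m).prod (Measure.infinitePi fun _ : ι => m)) := by
    refine es_integrable _ ?_ (fun p => hC _)
    exact hG.comp ((es_repl_measurable (insert i W)).comp
      (measurable_const.prodMk (es_repl_measurable {i})))
  rw [integral_integral_swap hP]
  congr 1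
  funext s
  congr 1
  funext t
  congr 1
  funext j
  by_cases h1 : j = i
  · subst h1; simp [es_repl, hi]
  · by_cases h2 : j ∈ W <;> simp [es_repl, h1, h2]

lemma es_avg_empty (G : (ι → X) → ℝ) (x : ι → X) : es_avg m ∅ G x = G x := by
  have : ∀ t : ι → X, es_repl ∅ x t = x := fun t => by funext i; simp [es_repl]
  simp [es_avg, this]

lemma es_avg_sub (W : Finset ι) {F K : (ι → X) → ℝ} (hF : Measurable F) (hK : Measurable K)
    {C D : ℝ} (hFC : ∀ x, |F x| ≤ C) (hKD : ∀ x, |K x| ≤ D) (x : ι → X) :
    es_avg m W (fun y => F y - K y) x = es_avg m W F x - es_avg m W K x := by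
  have hr : Measurable (fun t => es_repl W x t) :=
    (es_repl_measurable W).comp (measurable_const.prodMk measurable_id)
  unfold es_avg
  exact integral_sub (es_integrable _ (hF.comp hr) (fun t => hFC _))
    (es_integrable _ (hK.comp hr) (fun t => hKD _))

lemma es_sub_bdd {F K : (ι → X) → ℝ} {C D : ℝ} (hFC : ∀ x, |F x| ≤ C) (hKD : ∀ x, |K x| ≤ D)
    (x : ι → X) : |F x - K x| ≤ C + D :=
  (abs_sub _ _).trans (add_le_add (hFC x) (hKD x))

/-- The step of the induction. -/
lemma es_step {W : Finset ι} {i : ι} (hi : i ∉ W) {G : (ι → X) → ℝ} (hG : Measurable G) {C : ℝ}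
    (hC : ∀ x, |G x| ≤ C) :
    ∫ x, (G x - es_avg m (insert i W) G x) ^ 2 ∂(Measure.infinitePi fun _ : ι => m) ≤
      ∫ x, (G x - es_avg m W G x) ^ 2 ∂(Measure.infinitePi fun _ : ι => m) +
        ∫ x, (G x - es_avg m {i} G x) ^ 2 ∂(Measure.infinitePi fun _ : ι => m) := by
  set H := es_avg m W G with hH
  have hHm : Measurable H := es_avg_measurable W hG
  have hHb : ∀ x, |H x| ≤ C := es_avg_bdd W hC
  set Gi := es_avg m {i} G with hGi
  have hGim : Measurable Gi := es_avg_measurable {i} hG
  have hGib : ∀ x, |Gi x| ≤ C := es_avg_bdd {i} hC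
  set K : (ι → X) → ℝ := fun y => G y - Gi y with hK
  have hKm : Measurable K := hG.sub hGim
  have hKb : ∀ x, |K x| ≤ C + C := es_sub_bdd hC hGib
  set L := es_avg m W K with hL
  have hLm : Measurable L := es_avg_measurable W hKm
  have hLb : ∀ x, |L x| ≤ C + C := es_avg_bdd W hKb
  have hE : ∀ x, es_avg m (insert i W) G x = H x - L x := fun x => by
    rw [hL, hK, es_avg_sub W hG hGim hC hGib, ← hH, hGi, es_avg_insert_left i hG hC]
    ring
  have hsq : ∀ x, (G x - es_avg m (insert i W) G x) ^ 2 =
      (G x - H x) ^ 2 + (2 * (G x * L x) - 2 * (H x * L x)) + L x ^ 2 := fun x => by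
    rw [hE]; ring
  have hGHm : Measurable (fun x => (G x - H x) ^ 2) := (hG.sub hHm).pow_const 2
  have hGHb : ∀ x, |(G x - H x) ^ 2| ≤ (C + C) ^ 2 := es_sq_bdd (es_sub_bdd hC hHb)
  have hGL : Integrable (fun x => G x * L x) (Measure.infinitePi fun _ : ι => m) :=
    es_integrable _ (hG.mul hLm) (C := C * (C + C)) (fun x => by
      rw [abs_mul]
      exact mul_le_mul (hC x) (hLb x) (abs_nonneg _) ((abs_nonneg _).trans (hC x)))
  have hHL : Integrable (fun x => H x * L x) (Measure.infinitePi fun _ : ι => m) :=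
    es_integrable _ (hHm.mul hLm) (C := C * (C + C)) (fun x => by
      rw [abs_mul]
      exact mul_le_mul (hHb x) (hLb x) (abs_nonneg _) ((abs_nonneg _).trans (hC x)))
  have hGH2 : Integrable (fun x => (G x - H x) ^ 2) (Measure.infinitePi fun _ : ι => m) :=
    es_integrable _ hGHm hGHb
  have hL2 : Integrable (fun x => L x ^ 2) (Measure.infinitePi fun _ : ι => m) :=
    es_integrable _ (hLm.pow_const 2) (es_sq_bdd hLb)
  have hcross : Integrable (fun x => 2 * (G x * L x) - 2 * (H x * L x))
      (Measure.infinitePi fun _ : ι => m) := (hGL.const_mul 2).sub (hHL.const_mul 2)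
  simp_rw [hsq]
  have hA : Integrable (fun x => (G x - H x) ^ 2 + (2 * (G x * L x) - 2 * (H x * L x)))
      (Measure.infinitePi fun _ : ι => m) := hGH2.add hcross
  have hG2 : Integrable (fun x => 2 * (G x * L x)) (Measure.infinitePi fun _ : ι => m) :=
    hGL.const_mul 2
  have hH2 : Integrable (fun x => 2 * (H x * L x)) (Measure.infinitePi fun _ : ι => m) :=
    hHL.const_mul 2
  rw [integral_add hA hL2, integral_add hGH2 hcross,
    integral_sub hG2 hH2, integral_const_mul, integral_const_mul,
    es_orth W hG hKm hC hKb]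
  have := es_contract (m := m) W hKm hKb
  linarith

lemma es_main (W : Finset ι) {G : (ι → X) → ℝ} (hG : Measurable G) {C : ℝ}
    (hC : ∀ x, |G x| ≤ C) :
    ∫ x, (G x - es_avg m W G x) ^ 2 ∂(Measure.infinitePi fun _ : ι => m) ≤
      ∑ i ∈ W, ∫ x, (G x - es_avg m {i} G x) ^ 2 ∂(Measure.infinitePi fun _ : ι => m) := by
  induction W using Finset.induction_on with
  | empty => simp [es_avg_empty]
  | insert i W hi ih =>
    rw [Finset.sum_insert hi]
    have := es_step (m := m) hi hG hC
    linarith

lemma es_single (i : ι) {G : (ι → X) → ℝ} (hG : Measurable G) {C : ℝ} (hC : ∀ x, |G x| ≤ C) :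
    ∫ x, (G x - es_avg m {i} G x) ^ 2 ∂(Measure.infinitePi fun _ : ι => m) ≤
      ∫ x, ∫ t, (G x - G (es_repl {i} x t)) ^ 2 ∂(Measure.infinitePi fun _ : ι => m)
        ∂(Measure.infinitePi fun _ : ι => m) := by
  have hGim : Measurable (es_avg m {i} G) := es_avg_measurable {i} hG
  have hGib : ∀ x, |es_avg m {i} G x| ≤ C := es_avg_bdd {i} hC
  have hJ : Measurable (fun p : (ι → X) × (ι → X) => (G p.1 - G (es_repl {i} p.1 p.2)) ^ 2) :=
    ((hG.comp measurable_fst).sub (hG.comp (es_repl_measurable {i}))).pow_const 2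
  have hJb : ∀ p : (ι → X) × (ι → X), |(G p.1 - G (es_repl {i} p.1 p.2)) ^ 2| ≤ (C + C) ^ 2 := by
    intro p
    rw [abs_pow]
    exact pow_le_pow_left₀ (abs_nonneg _) ((abs_sub _ _).trans (add_le_add (hC _) (hC _))) 2
  have hOut : Measurable (fun x => ∫ t, (G x - G (es_repl {i} x t)) ^ 2
      ∂(Measure.infinitePi fun _ : ι => m)) :=
    (hJ.stronglyMeasurable.integral_prod_right'
      (ν := Measure.infinitePi fun _ : ι => m)).measurable
  have hOutb : ∀ x, |∫ t, (G x - G (es_repl {i} x t)) ^ 2
      ∂(Measure.infinitePi fun _ : ι => m)| ≤ (C + C) ^ 2 := fun x => by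
    have := norm_integral_le_of_norm_le_const (μ := (Measure.infinitePi fun _ : ι => m))
      (f := fun t => (G x - G (es_repl {i} x t)) ^ 2) (C := (C + C) ^ 2)
      (Filter.Eventually.of_forall fun t => by simpa using hJb (x, t))
    simpa using this
  refine integral_mono (es_integrable _ ((hG.sub hGim).pow_const 2) (es_sq_bdd (es_sub_bdd hC hGib)))
    (es_integrable _ hOut hOutb) (fun x => ?_)
  have hr : Measurable (fun t => es_repl {i} x t) :=
    (es_repl_measurable {i}).comp (measurable_const.prodMk measurable_id)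
  have hGr : Measurable (fun t => G (es_repl {i} x t)) := hG.comp hr
  have hD : G x - es_avg m {i} G x = ∫ t, (G x - G (es_repl {i} x t))
      ∂(Measure.infinitePi fun _ : ι => m) := by
    rw [integral_sub (integrable_const _) (es_integrable _ hGr (fun t => hC _)), integral_const]
    simp [es_avg]
  show (G x - es_avg m {i} G x) ^ 2 ≤ _
  rw [hD]
  exact es_sq_le _ (measurable_const.sub hGr) (C := C + C) (fun t =>
    (abs_sub _ _).trans (add_le_add (hC _) (hC _)))

end

/-- The Efron-Stein inequality for the coordinates in a finite set `W`. -/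
theorem efron_stein (m : Measure X) [IsProbabilityMeasure m] (W : Finset ι) {G : (ι → X) → ℝ}
    (hG : Measurable G) {C : ℝ} (hC : ∀ x, |G x| ≤ C) :
    ∫ x, (G x - es_avg m W G x) ^ 2 ∂(Measure.infinitePi fun _ : ι => m) ≤
      ∑ i ∈ W, ∫ x, ∫ t, (G x - G (es_repl {i} x t)) ^ 2 ∂(Measure.infinitePi fun _ : ι => m)
        ∂(Measure.infinitePi fun _ : ι => m) :=
  (es_main W hG hC).trans (Finset.sum_le_sum fun i _ => es_single i hG hC)

end Vale.Agent.Lib.P161
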