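import Vale.Agent.Lib.P161.Core

/-!
The chain as a contraction of the Hilbert space, its fixed point, and the properties of the fixed
point: it is a function of the noise and has the law of the starting field.
-/

namespace Vale.Agent.Lib.P161

open MeasureTheory ProbabilityTheory
open scoped ENNReal NNReal InnerProductSpace

variable {d : ℕ}

section Center

variable (θ : ℝ) [Corr θ]

lemma UU_oneL (g : Aut d) : UU θ g (oneL θ) = oneL θ := by
  apply Lp.ext
  refine (UU_coe θ g _).trans ?_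
  refine ((mp_act θ g.symm).quasiMeasurePreserving.ae_eq_comp (oneL_coe θ)).trans ?_
  exact (oneL_coe θ).symm

/-- Removing the mean. -/
noncomputable def cen (η : HH d θ) : HH d θ := η - ⟪oneL θ, η⟫_ℝ • oneL θ

lemma cen_sub (η η' : HH d θ) : cen θ η - cen θ η' = cen θ (η - η') := by
  unfold cen
  rw [inner_sub_right, sub_smul]
  abel

lemma inner_oneL_cen (η : HH d θ) : ⟪oneL θ, cen θ η⟫_ℝ = 0 := by
  unfold cen
  rw [inner_sub_right, inner_smul_right, inner_oneL_self]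
  ring

lemma norm_cen_le (η : HH d θ) : ‖cen θ η‖ ≤ ‖η‖ := by
  have h1 : ⟪cen θ η, ⟪oneL θ, η⟫_ℝ • oneL θ⟫_ℝ = 0 := by
    rw [inner_smul_right, real_inner_comm (oneL θ) (cen θ η), inner_oneL_cen, mul_zero]
  have h2 : η = cen θ η + ⟪oneL θ, η⟫_ℝ • oneL θ := by
    unfold cen
    abel
  have h3 := norm_add_sq_eq_norm_sq_add_norm_sq_of_inner_eq_zero _ _ h1
  rw [← h2] at h3
  have h4 : ‖cen θ η‖ * ‖cen θ η‖ ≤ ‖η‖ * ‖η‖ := by
    rw [h3]
    nlinarith [mul_self_nonneg ‖⟪oneL θ, η⟫_ℝ • (oneL θ : HH d θ)‖]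
  exact abs_le_of_sq_le_sq' (by nlinarith) (norm_nonneg _) |>.2

lemma cen_of_inner_zero {η : HH d θ} (h : ⟪oneL θ, η⟫_ℝ = 0) : cen θ η = η := by
  unfold cen
  rw [h, zero_smul, sub_zero]

lemma cen_mem {η : HH d θ} (h : ∀ k : Aut d, k root = root → UU θ k η = η) : cen θ η ∈ KK θ := by
  refine ⟨inner_oneL_cen θ η, fun k hk => ?_⟩
  unfold cen
  rw [map_sub, map_smul, UU_oneL, h k hk]

lemma oneL_NN : (oneL θ : HH d θ) ∈ NN θ := by
  refine mem_NN_of_ae θ (f := fun _ => 1) measurable_const ?_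
  exact oneL_coe θ

lemma cen_NN {η : HH d θ} (h : η ∈ NN θ) : cen θ η ∈ NN θ :=
  (NN θ).sub_mem h ((NN θ).smul_mem _ (oneL_NN θ))

/-- A field whose law is that of an invariant field has mean zero. -/
lemma inner_oneL_of_flaw {W : HH d θ} {x : KS d θ} (h : flaw θ W = flaw θ x.v) : ⟪oneL θ, W⟫_ℝ = 0 := by
  have e : ∀ Z : HH d θ, ⟪oneL θ, Z⟫_ℝ = ∫ t, t root ∂(flaw θ Z) := by
    intro Z
    unfold flaw
    rw [integral_map (measurable_fmap θ Z).aemeasurable (measurable_pi_apply _).aestronglyMeasurable]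
    rw [← inner_oneL_UU θ (gm root) Z, ← integral_eq_inner]
    rfl
  rw [e, h, ← e]
  exact x.2.1

end Center

section Noise0

variable (θ : ℝ) [Corr θ]

lemma mp_z0P : MeasurePreserving (fun ω : Om d => z0 ω.2) (PP d θ) (nu0 d) :=
  mp_z0.comp (mp_snd θ)

/-- Functions of the noise at time zero. -/
noncomputable def J0 : Lp ℝ 2 (nu0 d) →ₗᵢ[ℝ] HH d θ :=
  Lp.compMeasurePreservingₗᵢ ℝ _ (mp_z0P θ)

lemma J0_coe (f : Lp ℝ 2 (nu0 d)) : J0 θ f =ᵐ[PP d θ] f ∘ (fun ω : Om d => z0 ω.2) :=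
  Lp.coeFn_compMeasurePreserving f (mp_z0P θ)

/-- The subspace of functions of the noise at time zero. -/
noncomputable def ZZ : Submodule ℝ (HH d θ) := LinearMap.range (J0 θ).toLinearMap

lemma ZZ_closed : IsClosed (ZZ (d := d) θ : Set (HH d θ)) := by
  have : (ZZ (d := d) θ : Set (HH d θ)) = Set.range (J0 θ) := LinearMap.coe_range _
  rw [this]
  exact (J0 θ).isometry.isClosedEmbedding.isClosed_range

lemma exists_rep0 {ξ : HH d θ} (hξ : ξ ∈ ZZ θ) :
    ∃ f : (Word d → Zv) → ℝ, Measurable f ∧ ξ =ᵐ[PP d θ] f ∘ (fun ω : Om d => z0 ω.2) := by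
  obtain ⟨f, rfl⟩ := hξ
  exact ⟨f, (Lp.stronglyMeasurable f).measurable, J0_coe θ f⟩

lemma mem_ZZ_of_ae {ξ : HH d θ} {f : (Word d → Zv) → ℝ} (hf : Measurable f)
    (h : ξ =ᵐ[PP d θ] f ∘ (fun ω : Om d => z0 ω.2)) : ξ ∈ ZZ θ := by
  have h1 : MemLp (f ∘ (fun ω : Om d => z0 ω.2)) 2 (PP d θ) := (memLp_congr_ae h).mp (Lp.memLp ξ)
  have h2 : MemLp f 2 (nu0 d) := by
    rw [← (mp_z0P θ).map_eq]
    exact (memLp_map_measure_iff hf.aestronglyMeasurable (mp_z0P θ).measurable.aemeasurable).mpr h1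
  refine ⟨h2.toLp f, ?_⟩
  apply Lp.ext
  refine (J0_coe θ _).trans ?_
  refine Filter.EventuallyEq.trans ?_ h.symm
  exact (mp_z0P θ).quasiMeasurePreserving.ae_eq_comp h2.coeFn_toLp

lemma gL_mem_ZZ (v : Word d) : gL θ v 0 ∈ ZZ θ := by
  refine mem_ZZ_of_ae θ (f := fun t => (t v).1) ?_ (gL_coe θ v 0)
  exact measurable_fst.comp (measurable_pi_apply v)

lemma WW_le_ZZ : WW (d := d) θ 0 ≤ ZZ θ := by
  refine Submodule.topologicalClosure_minimal _ ?_ (ZZ_closed θ)
  rw [Submodule.span_le]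
  rintro _ ⟨v, rfl⟩
  exact gL_mem_ZZ θ v

end Noise0

section Chain

variable {β c : ℝ} {s : ℝ≥0} [Corr (Real.tanh β)] (O : Ops d (Real.tanh β) β c s) (K : SiteF s)

/-- The downward step. -/
noncomputable def YY (ξ : KS d (Real.tanh β)) : KS d (Real.tanh β) :=
  O.T (SK (Real.tanh β) ξ) + O.E (gK (Real.tanh β) 0)

/-- One step of the chain. -/
noncomputable def TT (hs : s < 1) (ξ : KS d (Real.tanh β)) : KS d (Real.tanh β) :=
  KS.mk (cen (Real.tanh β) (UpL K (Real.tanh β) hs (YY O ξ).v))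
    (cen_mem (Real.tanh β) fun _ hk => UpL_stab K (Real.tanh β) hs (KS.mem _) hk)

lemma TT_lip (hs : s < 1) {a : ℝ} (hT : ∀ x, ‖O.T x‖ ≤ a * ‖x‖) (ξ ξ' : KS d (Real.tanh β)) :
    ‖TT O K hs ξ - TT O K hs ξ'‖ ≤ (1 - s : ℝ)⁻¹ * a * ‖ξ - ξ'‖ := by
  have hs' : (0 : ℝ) < 1 - s := by
    have : (s : ℝ) < 1 := by exact_mod_cast hs
    linarith
  have e1 : ‖TT O K hs ξ - TT O K hs ξ'‖ = ‖cen (Real.tanh β)
      (UpL K (Real.tanh β) hs (YY O ξ).v - UpL K (Real.tanh β) hs (YY O ξ').v)‖ := by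
    rw [KS.norm_eq, ← cen_sub]
    rfl
  have e2 : (YY O ξ).v - (YY O ξ').v = (O.T (SK (Real.tanh β) (ξ - ξ'))).v := by
    unfold YY
    rw [map_sub, map_sub]
    simp
  have h1 := UpL_lip K (Real.tanh β) hs (YY O ξ).v (YY O ξ').v
  rw [e2] at h1
  have h2 : ‖(O.T (SK (Real.tanh β) (ξ - ξ'))).v‖ ≤ a * ‖ξ - ξ'‖ := by
    have := hT (SK (Real.tanh β) (ξ - ξ'))
    rwa [norm_SK] at this
  rw [e1]
  refine (norm_cen_le _ _).trans (h1.trans ?_)
  rw [mul_assoc]
  exact mul_le_mul_of_nonneg_left h2 (inv_nonneg.mpr hs'.le)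

lemma TT_NN (hs : s < 1) {ξ : KS d (Real.tanh β)} (hξ : ξ.v ∈ NN (Real.tanh β)) :
    (TT O K hs ξ).v ∈ NN (Real.tanh β) := by
  refine cen_NN _ (UpL_NN K _ hs ?_)
  refine (NN _).add_mem ?_ ?_
  · exact alg_preserves _ (NN_closed _) (fun _ _ h => LL_NN _ h) O.hT _ (SS_NN _ hξ)
  · exact alg_preserves _ (NN_closed _) (fun _ _ h => LL_NN _ h) O.hE _ ⟨_, rfl⟩

/-- The law of the upward step. -/
noncomputable def BB (K : SiteF s) (p : (Word d → ℝ) × (Word d → Zv)) : Word d → ℝ :=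
  fun v => K.F (p.1 v) (p.2 v).2

lemma measurable_BB (K : SiteF s) : Measurable (BB (d := d) K) :=
  measurable_pi_lambda _ fun v => K.meas.comp
    (f := fun p : (Word d → ℝ) × (Word d → Zv) => (p.1 v, (p.2 v).2))
    (((measurable_pi_apply v).comp measurable_fst).prodMk
      (measurable_snd.comp ((measurable_pi_apply v).comp measurable_snd)))

/-- Pushing the product of the law of a field and the noise. -/
lemma map_field_split (θ : ℝ) [Corr θ] (W : HH d θ) {A : (Word d → ℝ) × (Word d → Zv) → (Word d → ℝ)}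
    (hA : Measurable A) {Z : HH d θ}
    (h : fmap θ Z =ᵐ[PP d θ] fun ω => A (fmap θ W (shf ω), z0 ω.2)) :
    flaw θ Z = ((flaw θ W).prod (nu0 d)).map A := by
  have h1 : (flaw θ W).prod (nu0 d) =
      ((PP d θ).prod (nu0 d)).map (Prod.map (fmap θ W) id) := by
    unfold flaw
    rw [← Measure.map_id (μ := nu0 d)]
    rw [Measure.map_prod_map _ _ (measurable_fmap θ W) measurable_id]
    simp
  rw [h1, Measure.map_map hA ((measurable_fmap θ W).prodMap measurable_id),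
    ← (mp_split θ).map_eq, Measure.map_map (hA.comp ((measurable_fmap θ W).prodMap measurable_id))
    (mp_split θ).measurable]
  unfold flaw
  exact Measure.map_congr h

lemma flaw_UpL (hs : s < 1) (y : HH d (Real.tanh β)) :
    flaw (Real.tanh β) (UpL K (Real.tanh β) hs y) =
      ((flaw (Real.tanh β) y).prod (nu0 d)).map (BB K) := by
  refine map_field_split _ y (measurable_BB K) ?_
  filter_upwards [fmap_UpL K (Real.tanh β) hs y] with ω h
  funext v
  exact h v

/-- The law after the downward step depends only on the law before. -/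
lemma exists_AA : ∃ A : (Word d → ℝ) × (Word d → Zv) → (Word d → ℝ), Measurable A ∧
    ∀ ξ : KS d (Real.tanh β), flaw (Real.tanh β) (YY O ξ).v =
      ((flaw (Real.tanh β) (O.T ξ).v).prod (nu0 d)).map A := by
  have hE : ∀ v : Word d, fld (Real.tanh β) (O.E (gK (Real.tanh β) 0)).v v ∈ ZZ (Real.tanh β) := fun v =>
    WW_le_ZZ _ (UU_WW _ _ (T_g_WW O.hE 0))
  choose e he1 he2 using fun v => exists_rep0 _ (hE v)
  refine ⟨fun p v => p.1 v + e v p.2, ?_, fun ξ => ?_⟩
  · exact measurable_pi_lambda _ fun v => ((measurable_pi_apply v).comp measurable_fst).add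
      ((he1 v).comp measurable_snd)
  · refine map_field_split _ _ (measurable_pi_lambda _ fun v =>
      ((measurable_pi_apply v).comp measurable_fst).add ((he1 v).comp measurable_snd)) ?_
    have e1 : (YY O ξ).v = SS (Real.tanh β) (O.T ξ).v + (O.E (gK (Real.tanh β) 0)).v := by
      unfold YY
      rw [SK_comm O.hT]
      rfl
    rw [e1]
    have h3 : ∀ᵐ ω ∂(PP d (Real.tanh β)), ∀ v, fmap (Real.tanh β) (O.E (gK (Real.tanh β) 0)).v ω v =
        e v (z0 ω.2) := by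
      rw [ae_all_iff]
      intro v
      exact he2 v
    filter_upwards [fmap_add _ (SS (Real.tanh β) (O.T ξ).v) (O.E (gK (Real.tanh β) 0)).v,
      fmap_SS _ (O.T ξ).v, h3] with ω h1 h2 h4
    funext v
    rw [h1]
    simp only [Pi.add_apply]
    rw [h2, h4]
    rfl

lemma flaw_TT_step (hs : s < 1) {ξ ξ' : KS d (Real.tanh β)}
    (h : flaw (Real.tanh β) ξ.v = flaw (Real.tanh β) ξ'.v) :
    flaw (Real.tanh β) (UpL K (Real.tanh β) hs (YY O ξ).v) =
      flaw (Real.tanh β) (UpL K (Real.tanh β) hs (YY O ξ').v) := by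
  obtain ⟨A, _, hA⟩ := exists_AA O
  rw [flaw_UpL, flaw_UpL, hA, hA, flaw_T O.hT h]

lemma TT_flaw (hβ : 0 ≤ β) (h0 : 0 < s) (hs : s < 1) {ξ : KS d (Real.tanh β)}
    (h : flaw (Real.tanh β) ξ.v = flaw (Real.tanh β) (x0K O).v) :
    flaw (Real.tanh β) (TT O K hs ξ).v = flaw (Real.tanh β) (x0K O).v := by
  have h1 : flaw (Real.tanh β) (UpL K (Real.tanh β) hs (YY O ξ).v) = flaw (Real.tanh β) (x0K O).v := by
    rw [flaw_TT_step O K hs h]
    have e : YY O (x0K O) = y0K O := T_S_x0 O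
    rw [e]
    exact core O K hβ h0 hs
  have h2 := inner_oneL_of_flaw _ h1
  have e : (TT O K hs ξ).v = UpL K (Real.tanh β) hs (YY O ξ).v := cen_of_inner_zero _ h2
  rw [e, h1]

include K in
/-- The conclusion of the chain: a function of the noise with the law of the starting field. -/
theorem exists_fixed (hβ : 0 ≤ β) (h0 : 0 < s) (hs : s < 1) {a : ℝ} (ha0 : 0 ≤ a)
    (hT : ∀ x, ‖O.T x‖ ≤ a * ‖x‖) (ha : (1 - s : ℝ)⁻¹ * a < 1) :
    ∃ ξ : KS d (Real.tanh β), ξ.v ∈ NN (Real.tanh β) ∧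
      flaw (Real.tanh β) ξ.v = flaw (Real.tanh β) (x0K O).v := by
  have hs' : (0 : ℝ) < 1 - s := by
    have : (s : ℝ) < 1 := by exact_mod_cast hs
    linarith
  have hκ0 : 0 ≤ (1 - s : ℝ)⁻¹ * a := mul_nonneg (inv_nonneg.mpr hs'.le) ha0
  have hc : ContractingWith ⟨(1 - s : ℝ)⁻¹ * a, hκ0⟩ (TT O K hs) := by
    refine ⟨by exact_mod_cast ha, LipschitzWith.of_dist_le_mul fun x y => ?_⟩
    rw [dist_eq_norm, dist_eq_norm]
    exact TT_lip O K hs hT x y
  refine ⟨hc.fixedPoint, ?_, ?_⟩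
  · have h1 := hc.tendsto_iterate_fixedPoint (0 : KS d (Real.tanh β))
    have h2 : ∀ n : ℕ, ((TT O K hs)^[n] (0 : KS d (Real.tanh β))).v ∈ NN (Real.tanh β) := by
      intro n
      induction n with
      | zero => exact (NN _).zero_mem
      | succ n ih =>
        rw [Function.iterate_succ_apply']
        exact TT_NN O K hs ih
    have h3 := KS.vL.continuous.tendsto _ |>.comp h1
    exact (NN_closed _).mem_of_tendsto h3 (Filter.Eventually.of_forall h2)
  · have h1 := hc.tendsto_iterate_fixedPoint (x0K O)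
    have h2 : ∀ n : ℕ, flaw (Real.tanh β) ((TT O K hs)^[n] (x0K O)).v = flaw (Real.tanh β) (x0K O).v := by
      intro n
      induction n with
      | zero => rfl
      | succ n ih =>
        rw [Function.iterate_succ_apply']
        exact TT_flaw O K hβ h0 hs ih
    have h3 := KS.vL.continuous.tendsto _ |>.comp h1
    exact flaw_limit _ h3 tendsto_const_nhds h2

end Chain

end Vale.Agent.Lib.P161
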