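import Vale.Agent.Lib.P161.Shift

/-!
The Gaussian and spin coordinates as elements of the Hilbert spaces, and the closed Gaussian subspace.
-/

namespace Vale.Agent.Lib.P161

open MeasureTheory ProbabilityTheory
open scoped ENNReal NNReal InnerProductSpace

variable {d : ℕ}

lemma measurable_gcoord (i : Idx d) : Measurable (fun z : Noise d => (z i).1) :=
  measurable_fst.comp (measurable_pi_apply i)

lemma map_eval_nu (i : Idx d) : (nu d).map (fun z : Noise d => z i) = mZ :=
  (measurePreserving_eval_infinitePi (fun _ : Idx d => mZ) i).map_eq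

lemma map_gcoord (i : Idx d) : (nu d).map (fun z : Noise d => (z i).1) = gaussianReal 0 1 := by
  have h : (fun z : Noise d => (z i).1) = Prod.fst ∘ (fun z : Noise d => z i) := rfl
  rw [h, ← Measure.map_map measurable_fst (measurable_pi_apply i), map_eval_nu]
  unfold mZ
  exact Measure.map_fst_prod.trans (by simp)

lemma memLp_gcoord (i : Idx d) : MemLp (fun z : Noise d => (z i).1) 2 (nu d) := by
  have h1 : MemLp id 2 (gaussianReal 0 1) := memLp_id_gaussianReal' 2 (by simp)
  rw [← map_gcoord i] at h1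
  exact (memLp_map_measure_iff measurable_id.aestronglyMeasurable
    (measurable_gcoord i).aemeasurable).mp h1

/-- The Gaussian coordinate with index `i`. -/
noncomputable def gN (i : Idx d) : Lp ℝ 2 (nu d) := (memLp_gcoord i).toLp _

lemma gN_coe (i : Idx d) : gN i =ᵐ[nu d] fun z : Noise d => (z i).1 := (memLp_gcoord i).coeFn_toLp

lemma map_gN (i : Idx d) : Measure.map (gN i : Noise d → ℝ) (nu d) = gaussianReal 0 1 := by
  rw [Measure.map_congr (gN_coe i), map_gcoord]

lemma indep_gN : iIndepFun (fun i : Idx d => (gN i : Noise d → ℝ)) (nu d) := by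
  have h1 : iIndepFun (fun (i : Idx d) (ω : Noise d) => (Prod.fst : Zv → ℝ) (ω i)) (nu d) :=
    iIndepFun_infinitePi (P := fun _ : Idx d => mZ) (X := fun _ => Prod.fst) (fun _ => measurable_fst)
  exact h1.congr fun i => (gN_coe i).symm

/-- The closed Gaussian subspace generated by the coordinates. -/
noncomputable def GG (d : ℕ) : Submodule ℝ (Lp ℝ 2 (nu d)) :=
  (Submodule.span ℝ (Set.range (gN (d := d)))).topologicalClosure

lemma GG_gauss : IsGaussSub (GG d) := isGaussSub_closure gN map_gN indep_gN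

lemma GG_closed : IsClosed (GG d : Set (Lp ℝ 2 (nu d))) :=
  Submodule.isClosed_topologicalClosure _

lemma gN_mem (i : Idx d) : gN i ∈ GG d :=
  Submodule.le_topologicalClosure _ (Submodule.subset_span ⟨i, rfl⟩)

lemma integral_gN (i : Idx d) : ∫ z, gN i z ∂(nu d) = 0 := by
  have h : ∫ z, gN i z ∂(nu d) = ∫ x, id x ∂(Measure.map (gN i : Noise d → ℝ) (nu d)) :=
    (integral_map (gs_meas (gN i)).aemeasurable aestronglyMeasurable_id).symm
  rw [h, map_gN]
  exact integral_id_gaussianReal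

lemma norm_gN (i : Idx d) : ‖gN i‖ ^ 2 = 1 := by
  rw [gs_norm_sq]
  have h : ∫ z, (gN i z) ^ 2 ∂(nu d) = ∫ x, x ^ 2 ∂(Measure.map (gN i : Noise d → ℝ) (nu d)) :=
    (integral_map (gs_meas (gN i)).aemeasurable
      (measurable_id.pow_const 2).aestronglyMeasurable).symm
  rw [h, map_gN]
  have h2 := variance_id_gaussianReal (μ := 0) (v := 1)
  rw [variance_of_integral_eq_zero aemeasurable_id (by simp)] at h2
  simpa using h2

lemma inner_gN_ne {i j : Idx d} (hij : i ≠ j) : ⟪gN i, gN j⟫_ℝ = 0 := by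
  have h1 : ⟪gN i, gN j⟫_ℝ = ∫ z, (z i).1 * (z j).1 ∂(nu d) := by
    rw [L2.inner_def]
    refine integral_congr_ae ?_
    filter_upwards [gN_coe i, gN_coe j] with z h1 h2
    simp only [RCLike.inner_apply, conj_trivial]
    rw [h1, h2]
    ring
  have hd : Disjoint ({i} : Set (Idx d)) {j} := by
    rw [Set.disjoint_singleton]
    exact hij
  have hX : Measurable[noiseSigma {i}] (fun z : Noise d => (z i).1) :=
    measurable_fst.comp (meas_noise (Set.mem_singleton i))
  have hY : Measurable[noiseSigma {j}] (fun z : Noise d => (z j).1) :=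
    measurable_fst.comp (meas_noise (Set.mem_singleton j))
  rw [h1, integral_mul_noise hd hX hY]
  have h3 : ∫ z, (z i).1 ∂(nu d) = 0 := by
    rw [← integral_gN i]
    exact integral_congr_ae (gN_coe i).symm
  rw [h3, zero_mul]

lemma inner_gN (i j : Idx d) : ⟪gN i, gN j⟫_ℝ = if i = j then 1 else 0 := by
  split_ifs with h
  · rw [h, real_inner_self_eq_norm_sq, norm_gN]
  · exact inner_gN_ne h

section Hilbert

variable (θ : ℝ) [Corr θ]

/-- The Gaussian coordinate at a vertex and a time. -/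
noncomputable def gL (v : Word d) (k : ℕ) : HH d θ := JJ θ (gN (v, k))

lemma gL_coe (v : Word d) (k : ℕ) : gL θ v k =ᵐ[PP d θ] fun ω => (ω.2 (v, k)).1 := by
  refine (JJ_coe θ _).trans ?_
  exact (mp_snd θ).quasiMeasurePreserving.ae_eq_comp (gN_coe (v, k))

lemma UU_gL (g : Aut d) (v : Word d) (k : ℕ) : UU θ g (gL θ v k) = gL θ (g v) k := by
  apply Lp.ext
  refine (UU_coe θ g _).trans ?_
  refine ((mp_act θ g.symm).quasiMeasurePreserving.ae_eq_comp (gL_coe θ v k)).trans ?_
  refine Filter.EventuallyEq.trans ?_ (gL_coe θ (g v) k).symm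
  refine Filter.Eventually.of_forall fun ω => ?_
  show (ω.2 (g.symm.symm v, k)).1 = (ω.2 (g v, k)).1
  rfl

lemma SS_gL (v : Word d) (k : ℕ) : SS θ (gL θ v k) = gL θ v (k + 1) := by
  apply Lp.ext
  refine (SS_coe θ _).trans ?_
  refine ((mp_shf θ).quasiMeasurePreserving.ae_eq_comp (gL_coe θ v k)).trans ?_
  refine Filter.EventuallyEq.trans ?_ (gL_coe θ v (k + 1)).symm
  exact Filter.Eventually.of_forall fun ω => rfl

lemma inner_gL (v w : Word d) (k k' : ℕ) :
    ⟪gL θ v k, gL θ w k'⟫_ℝ = if (v, k) = (w, k') then 1 else 0 := by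
  rw [gL, gL, LinearIsometry.inner_map_map, inner_gN]

/-- The closed Gaussian subspace, in the big Hilbert space. -/
noncomputable def GJ : Submodule ℝ (HH d θ) := (GG d).map (JJ θ).toLinearMap

lemma GJ_closed : IsClosed (GJ (d := d) θ : Set (HH d θ)) := by
  have : (GJ (d := d) θ : Set (HH d θ)) = JJ θ '' (GG d : Set (Lp ℝ 2 (nu d))) := Submodule.map_coe _ _
  rw [this]
  haveI : CompleteSpace (GG d) := GG_closed.completeSpace_coe
  exact ((JJ θ).isometry.isClosedEmbedding.isClosedMap) _ GG_closed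

lemma gL_mem_GJ (v : Word d) (k : ℕ) : gL θ v k ∈ GJ θ := ⟨_, gN_mem _, rfl⟩

/-- The closed span of the Gaussians at a given time. -/
noncomputable def WW (k : ℕ) : Submodule ℝ (HH d θ) :=
  (Submodule.span ℝ (Set.range fun v : Word d => gL θ v k)).topologicalClosure

lemma WW_closed (k : ℕ) : IsClosed (WW (d := d) θ k : Set (HH d θ)) :=
  Submodule.isClosed_topologicalClosure _

lemma gL_mem_WW (v : Word d) (k : ℕ) : gL θ v k ∈ WW θ k :=
  Submodule.le_topologicalClosure _ (Submodule.subset_span ⟨v, rfl⟩)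

lemma WW_le_GJ (k : ℕ) : WW (d := d) θ k ≤ GJ θ := by
  refine Submodule.topologicalClosure_minimal _ ?_ (GJ_closed θ)
  rw [Submodule.span_le]
  rintro _ ⟨v, rfl⟩
  exact gL_mem_GJ θ v k

/-- A general tool: a continuous linear map sending the generators to a closed subspace sends the
closed span to it. -/
lemma map_closure_span {E F : Type*} [NormedAddCommGroup E] [NormedSpace ℝ E]
    [NormedAddCommGroup F] [NormedSpace ℝ F] {s : Set E} {W : Submodule ℝ F}
    (hW : IsClosed (W : Set F)) (f : E →L[ℝ] F) (h : ∀ x ∈ s, f x ∈ W) {x : E}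
    (hx : x ∈ (Submodule.span ℝ s).topologicalClosure) : f x ∈ W := by
  have h1 : Submodule.span ℝ s ≤ W.comap (f : E →ₗ[ℝ] F) := by
    rw [Submodule.span_le]
    exact h
  have h2 : IsClosed ((W.comap (f : E →ₗ[ℝ] F) : Submodule ℝ E) : Set E) := hW.preimage f.continuous
  exact Submodule.topologicalClosure_minimal _ h1 h2 hx

lemma UU_WW (g : Aut d) {k : ℕ} {ξ : HH d θ} (hξ : ξ ∈ WW θ k) : UU θ g ξ ∈ WW θ k := by
  refine map_closure_span (WW_closed θ k) (UU θ g).toContinuousLinearMap ?_ hξ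
  rintro _ ⟨v, rfl⟩
  show UU θ g (gL θ v k) ∈ _
  rw [UU_gL]
  exact gL_mem_WW θ _ k

lemma LL_WW {k : ℕ} {ξ : HH d θ} (hξ : ξ ∈ WW θ k) : LL θ ξ ∈ WW θ k := by
  rw [LL_apply]
  exact Submodule.sum_mem _ fun i _ => UU_WW θ _ hξ

lemma SS_WW {k : ℕ} {ξ : HH d θ} (hξ : ξ ∈ WW θ k) : SS θ ξ ∈ WW θ (k + 1) := by
  refine map_closure_span (WW_closed θ (k + 1)) (SS θ).toContinuousLinearMap ?_ hξ
  rintro _ ⟨v, rfl⟩
  show SS θ (gL θ v k) ∈ _
  rw [SS_gL]
  exact gL_mem_WW θ _ _

lemma UU_GJ (g : Aut d) {ξ : HH d θ} (hξ : ξ ∈ GJ θ) : UU θ g ξ ∈ GJ θ := by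
  obtain ⟨X, hX, rfl⟩ := hξ
  refine map_closure_span (GJ_closed θ) ((UU θ g).toContinuousLinearMap.comp
    (JJ θ).toContinuousLinearMap) ?_ hX
  rintro _ ⟨⟨v, k⟩, rfl⟩
  show UU θ g (gL θ v k) ∈ _
  rw [UU_gL]
  exact gL_mem_GJ θ _ _

lemma LL_GJ {ξ : HH d θ} (hξ : ξ ∈ GJ θ) : LL θ ξ ∈ GJ θ := by
  rw [LL_apply]
  exact Submodule.sum_mem _ fun i _ => UU_GJ θ _ hξ

/-- Orthogonality of different times. -/
lemma WW_orth {k k' : ℕ} (hk : k ≠ k') {x y : HH d θ} (hx : x ∈ WW θ k) (hy : y ∈ WW θ k') :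
    ⟪x, y⟫_ℝ = 0 := by
  have h1 : ∀ v, ⟪gL θ v k, y⟫_ℝ = 0 := by
    intro v
    have hc : IsClosed {y : HH d θ | ⟪gL θ v k, y⟫_ℝ = 0} :=
      isClosed_eq (continuous_const.inner continuous_id) continuous_const
    have hs : ((Submodule.span ℝ (Set.range fun w : Word d => gL θ w k')) : Set (HH d θ)) ⊆
        {y : HH d θ | ⟪gL θ v k, y⟫_ℝ = 0} := by
      intro z hz
      induction hz using Submodule.span_induction with
      | mem z hz =>
        obtain ⟨w, rfl⟩ := hz
        show ⟪gL θ v k, gL θ w k'⟫_ℝ = 0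
        rw [inner_gL, if_neg]
        intro h
        exact hk (Prod.mk.inj h).2
      | zero => exact inner_zero_right _
      | add a b _ _ ha hb =>
        show ⟪gL θ v k, a + b⟫_ℝ = 0
        rw [inner_add_right, ha, hb, add_zero]
      | smul c a _ ha =>
        show ⟪gL θ v k, c • a⟫_ℝ = 0
        rw [inner_smul_right, ha, mul_zero]
    exact closure_minimal hs hc hy
  have hc : IsClosed {x : HH d θ | ⟪x, y⟫_ℝ = 0} :=
    isClosed_eq (continuous_id.inner continuous_const) continuous_const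
  have hs : ((Submodule.span ℝ (Set.range fun w : Word d => gL θ w k)) : Set (HH d θ)) ⊆
      {x : HH d θ | ⟪x, y⟫_ℝ = 0} := by
    intro z hz
    induction hz using Submodule.span_induction with
    | mem z hz =>
      obtain ⟨w, rfl⟩ := hz
      exact h1 w
    | zero => exact inner_zero_left _
    | add a b _ _ ha hb =>
      show ⟪a + b, y⟫_ℝ = 0
      rw [inner_add_left, ha, hb, add_zero]
    | smul c a _ ha =>
      show ⟪c • a, y⟫_ℝ = 0
      rw [inner_smul_left, ha, mul_zero]
  exact closure_minimal hs hc hx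

lemma memLp_spin (v : Word d) : MemLp (fun ω : Om d => sp (ω.1 v)) 2 (PP d θ) := by
  refine MemLp.of_bound ?_ 1 (Filter.Eventually.of_forall fun ω => ?_)
  · exact (meas_sp.comp ((measurable_pi_apply v).comp measurable_fst)).aestronglyMeasurable
  · rw [Real.norm_eq_abs, abs_sp]

/-- The spin coordinate at a vertex. -/
noncomputable def spL (v : Word d) : HH d θ := (memLp_spin θ v).toLp _

lemma spL_coe (v : Word d) : spL θ v =ᵐ[PP d θ] fun ω => sp (ω.1 v) := (memLp_spin θ v).coeFn_toLp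

lemma UU_spL (g : Aut d) (v : Word d) : UU θ g (spL θ v) = spL θ (g v) := by
  apply Lp.ext
  refine (UU_coe θ g _).trans ?_
  refine ((mp_act θ g.symm).quasiMeasurePreserving.ae_eq_comp (spL_coe θ v)).trans ?_
  refine Filter.EventuallyEq.trans ?_ (spL_coe θ (g v)).symm
  exact Filter.Eventually.of_forall fun ω => rfl

lemma SS_spL (v : Word d) : SS θ (spL θ v) = spL θ v := by
  apply Lp.ext
  refine (SS_coe θ _).trans ?_
  refine ((mp_shf θ).quasiMeasurePreserving.ae_eq_comp (spL_coe θ v)).trans ?_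
  refine Filter.EventuallyEq.trans ?_ (spL_coe θ v).symm
  exact Filter.Eventually.of_forall fun ω => rfl

lemma integral_sp_ising (v : Word d) : ∫ σ, sp (σ v) ∂(isingLaw d θ) = 0 := by
  have h1 : ∫ σ, sp (negS σ v) ∂(isingLaw d θ) = ∫ σ, sp (σ v) ∂(isingLaw d θ) :=
    mp_integral ⟨measurable_negS, isingLaw_map_negS θ⟩ (f := negS) (h := fun σ => sp (σ v))
      (meas_sp.comp (measurable_pi_apply v)).aestronglyMeasurable
  have h2 : ∀ σ : Word d → Bool, sp (negS σ v) = - sp (σ v) := fun σ => sp_not _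
  simp_rw [h2] at h1
  rw [integral_neg] at h1
  linarith

lemma inner_oneL_spL (v : Word d) : ⟪oneL θ, spL θ v⟫_ℝ = 0 := by
  rw [← integral_eq_inner, integral_congr_ae (spL_coe θ v)]
  unfold PP
  rw [integral_fun_fst (f := fun σ : Word d → Bool => sp (σ v))]
  simp only [probReal_univ, one_smul]
  exact integral_sp_ising θ v

lemma inner_oneL_gL (v : Word d) (k : ℕ) : ⟪oneL θ, gL θ v k⟫_ℝ = 0 := by
  rw [← integral_eq_inner, gL, integral_congr_ae (JJ_coe θ _)]
  have := mp_integral (mp_snd (d := d) θ) (h := (gN (v, k) : Noise d → ℝ)) (Lp.aestronglyMeasurable _)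
  exact this.trans (integral_gN _)

end Hilbert

section KSpace

variable (θ : ℝ) [Corr θ]

/-- The spin at the root, as an element of `KS`. -/
noncomputable def soK : KS d θ := KS.mk (spL θ root) ⟨inner_oneL_spL θ root, fun k hk => by
  rw [UU_spL, hk]⟩

/-- The Gaussian at the root and time `k`, as an element of `KS`. -/
noncomputable def gK (k : ℕ) : KS d θ := KS.mk (gL θ root k) ⟨inner_oneL_gL θ root k, fun g hg => by
  rw [UU_gL, hg]⟩

@[simp] lemma soK_v : (soK θ : KS d θ).v = spL θ root := rfl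

@[simp] lemma gK_v (k : ℕ) : (gK θ k : KS d θ).v = gL θ root k := rfl

lemma fld_so (v : Word d) : fld θ (soK θ : KS d θ).v v = spL θ v := by
  simp only [soK_v, fld]
  rw [UU_spL, gm_root]

lemma fld_g (k : ℕ) (v : Word d) : fld θ (gK θ k : KS d θ).v v = gL θ v k := by
  simp only [gK_v, fld]
  rw [UU_gL, gm_root]

lemma SK_so : SK θ (soK θ : KS d θ) = soK θ := KS.ext (SS_spL θ root)

lemma SK_g (k : ℕ) : SK θ (gK θ k : KS d θ) = gK θ (k + 1) := KS.ext (SS_gL θ root k)

end KSpace

end Vale.Agent.Lib.P161
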