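import Vale.Agent.Lib.P161.Up

/-!
The key law computation: the upward step undoes the downward step, so the law of the starting
field is stationary for the chain.
-/

namespace Vale.Agent.Lib.P161

open MeasureTheory ProbabilityTheory
open scoped ENNReal NNReal InnerProductSpace

variable {d : ℕ}

lemma integrable_bdd {α : Type*} [MeasurableSpace α] {μ : Measure α} [IsFiniteMeasure μ]
    {f : α → ℝ} (hm : Measurable f) {C : ℝ} (hb : ∀ x, |f x| ≤ C) : Integrable f μ :=
  Integrable.of_bound hm.aestronglyMeasurable C (Filter.Eventually.of_forall fun x => by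
    simpa using hb x)

section Test

variable {θ : ℝ} [Corr θ]

/-- Laws of fields are determined by bounded test functions of finitely many coordinates. -/
lemma flaw_eq_of_test {W W' : HH d θ}
    (h : ∀ (F : Finset (Word d)) (φ : (↥F → ℝ) → ℝ), Measurable φ → (∃ C, ∀ x, |φ x| ≤ C) →
      ∫ ω, φ (fun v : ↥F => fmap θ W ω v) ∂(PP d θ) = ∫ ω, φ (fun v : ↥F => fmap θ W' ω v) ∂(PP d θ)) :
    flaw θ W = flaw θ W' := by
  classical
  have key : ∀ (J : Finset (Word d)) (A : Set (↥J → ℝ)) (_ : MeasurableSet A) (Z : HH d θ),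
      ∫ ω, A.indicator (fun _ => (1 : ℝ)) (fun v : ↥J => fmap θ Z ω v) ∂(PP d θ) =
        ((flaw θ Z).map J.restrict).real A := by
    intro J A hA Z
    have hm : Measurable (fun ω : Om d => (J.restrict (fmap θ Z ω))) :=
      (Finset.measurable_restrict J).comp (measurable_fmap θ Z)
    have h1 : (flaw θ Z).map J.restrict = (PP d θ).map (fun ω => J.restrict (fmap θ Z ω)) := by
      unfold flaw
      rw [Measure.map_map (Finset.measurable_restrict J) (measurable_fmap θ Z)]
      rfl
    rw [h1, ← integral_indicator_one hA, integral_map hm.aemeasurable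
      ((measurable_one.indicator hA).aestronglyMeasurable)]
    rfl
  have hlim : IsProjectiveLimit (flaw θ W) (fun J => (flaw θ W').map J.restrict) := by
    intro J
    haveI : IsProbabilityMeasure ((flaw θ W).map J.restrict) :=
      Measure.isProbabilityMeasure_map (Finset.measurable_restrict J).aemeasurable
    haveI : IsProbabilityMeasure ((flaw θ W').map J.restrict) :=
      Measure.isProbabilityMeasure_map (Finset.measurable_restrict J).aemeasurable
    ext A hA
    have h2 := h J (A.indicator fun _ => (1 : ℝ)) (measurable_const.indicator hA)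
      ⟨1, fun x => by
        by_cases hx : x ∈ A <;> simp [hx]⟩
    rw [key J A hA W, key J A hA W'] at h2
    exact (measureReal_eq_measureReal_iff).mp h2
  have hlim' : IsProjectiveLimit (flaw θ W') (fun J => (flaw θ W').map J.restrict) := fun J => rfl
  haveI : ∀ J : Finset (Word d), IsProbabilityMeasure ((flaw θ W').map J.restrict) := fun J =>
    Measure.isProbabilityMeasure_map (Finset.measurable_restrict J).aemeasurable
  exact hlim.unique hlim'

end Test

section Marginals

lemma map_nu0_restrict (F : Finset (Word d)) :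
    (nu0 d).map F.restrict = Measure.pi (fun _ : ↥F => mZ) := by
  unfold nu0
  exact Measure.infinitePi_map_restrict (μ := fun _ : Word d => mZ)

lemma map_nu0_snd (F : Finset (Word d)) :
    (nu0 d).map (fun z (v : ↥F) => (z v).2) = Measure.pi (fun _ : ↥F => (volume : Measure unitInterval)) := by
  have h1 : (fun (z : Word d → Zv) (v : ↥F) => (z v).2) =
      (fun (w : ↥F → Zv) (v : ↥F) => (w v).2) ∘ F.restrict := rfl
  have hm : Measurable (fun (w : ↥F → Zv) (v : ↥F) => (w v).2) :=
    measurable_pi_lambda _ fun v => measurable_snd.comp (measurable_pi_apply v)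
  rw [h1, ← Measure.map_map hm (Finset.measurable_restrict F), map_nu0_restrict]
  have h2 := Measure.pi_map_pi (μ := fun _ : ↥F => mZ) (f := fun _ : ↥F => (Prod.snd : Zv → unitInterval))
    (fun _ => measurable_snd.aemeasurable)
  refine h2.trans ?_
  congr 1
  funext v
  unfold mZ
  exact Measure.map_snd_prod.trans (by simp)

lemma map_nu0_fst (F : Finset (Word d)) :
    (nu0 d).map (fun z (v : ↥F) => (z v).1) = Measure.pi (fun _ : ↥F => gaussianReal 0 1) := by
  have h1 : (fun (z : Word d → Zv) (v : ↥F) => (z v).1) =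
      (fun (w : ↥F → Zv) (v : ↥F) => (w v).1) ∘ F.restrict := rfl
  have hm : Measurable (fun (w : ↥F → Zv) (v : ↥F) => (w v).1) :=
    measurable_pi_lambda _ fun v => measurable_fst.comp (measurable_pi_apply v)
  rw [h1, ← Measure.map_map hm (Finset.measurable_restrict F), map_nu0_restrict]
  have h2 := Measure.pi_map_pi (μ := fun _ : ↥F => mZ) (f := fun _ : ↥F => (Prod.fst : Zv → ℝ))
    (fun _ => measurable_fst.aemeasurable)
  refine h2.trans ?_
  congr 1
  funext v
  unfold mZ
  exact Measure.map_fst_prod.trans (by simp)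

end Marginals

section Split

variable (θ : ℝ) [Corr θ]

lemma integral_split {H : Om d × (Word d → Zv) → ℝ} (hH : Measurable H) {C : ℝ} (hb : ∀ p, |H p| ≤ C) :
    ∫ ω, H (shf ω, z0 ω.2) ∂(PP d θ) = ∫ ω', ∫ z, H (ω', z) ∂(nu0 d) ∂(PP d θ) := by
  have h1 := mp_integral (mp_split (d := d) θ) hH.aestronglyMeasurable
  rw [h1, integral_prod _ (integrable_bdd hH hb)]

end Split

section Psi

variable {F : Finset (Word d)} (s : ℝ≥0) (φ : (↥F → ℝ) → ℝ)

/-- The expectation of the test function after Gaussian smoothing with drift `s η`. -/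
noncomputable def PsiN (η : ↥F → Bool) (x : ↥F → ℝ) : ℝ :=
  ∫ t, φ (fun v => x v + s * sp (η v) + √s * t v) ∂(Measure.pi fun _ : ↥F => gaussianReal 0 1)

variable {s φ}

lemma measurable_PsiN (hφ : Measurable φ) (η : ↥F → Bool) : Measurable (PsiN s φ η) := by
  have h : StronglyMeasurable (Function.uncurry fun (x : ↥F → ℝ) (t : ↥F → ℝ) =>
      φ (fun v => x v + s * sp (η v) + √s * t v)) := by
    refine Measurable.stronglyMeasurable ?_
    refine hφ.comp (measurable_pi_lambda _ fun v => ?_)
    have h1 : Measurable (fun p : (↥F → ℝ) × (↥F → ℝ) => p.1 v) :=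
      (measurable_pi_apply v).comp measurable_fst
    have h2 : Measurable (fun p : (↥F → ℝ) × (↥F → ℝ) => p.2 v) :=
      (measurable_pi_apply v).comp measurable_snd
    exact (h1.add_const _).add (h2.const_mul _)
  exact (h.integral_prod_right (ν := Measure.pi fun _ : ↥F => gaussianReal 0 1)).measurable

lemma abs_PsiN_le {C : ℝ} (hC : ∀ x, |φ x| ≤ C) (η : ↥F → Bool) (x : ↥F → ℝ) : |PsiN s φ η x| ≤ C := by
  have h := norm_integral_le_of_norm_le_const (μ := Measure.pi fun _ : ↥F => gaussianReal 0 1)
    (f := fun t => φ (fun v => x v + s * sp (η v) + √s * t v)) (C := C)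
    (Filter.Eventually.of_forall fun t => by simpa using hC _)
  unfold PsiN
  simpa using h

lemma PsiN_eq_nu0 (hφ : Measurable φ) (η : ↥F → Bool) (x : ↥F → ℝ) :
    PsiN s φ η x = ∫ z, φ (fun v => x v + s * sp (η v) + √s * (z v.1).1) ∂(nu0 d) := by
  unfold PsiN
  rw [← map_nu0_fst F, integral_map]
  · refine Measurable.aemeasurable ?_
    exact measurable_pi_lambda _ fun v => measurable_fst.comp (measurable_pi_apply _)
  · refine Measurable.aestronglyMeasurable ?_
    refine hφ.comp (measurable_pi_lambda _ fun v => ?_)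
    exact measurable_const.add ((measurable_pi_apply v).const_mul _)

/-- The mixture formula, for the noise at time zero. -/
lemma step_mix (K : SiteF s) (h0 : 0 < s) (hφ : Measurable φ) {C : ℝ} (hC : ∀ x, |φ x| ≤ C)
    (x : Word d → ℝ) :
    ∫ z, φ (fun v : ↥F => K.F (x v) (z v.1).2) ∂(nu0 d) =
      ∑ η : ↥F → Bool, (∏ v : ↥F, (1 + sp (η v) * Real.tanh (x v)) / 2) *
        PsiN s φ η (fun v : ↥F => x v) := by
  classical
  have h1 := integral_mixture s h0 K.meas K.law hφ hC (fun v : ↥F => x v)
  have hm : Measurable (fun u : ↥F → unitInterval => φ (fun v => K.F (x v) (u v))) := by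
    refine hφ.comp (measurable_pi_lambda _ fun v => ?_)
    have : Measurable (fun u : ↥F → unitInterval => (x v, u v)) :=
      measurable_const.prodMk (measurable_pi_apply v)
    exact K.meas.comp this
  have h2 : ∫ z, φ (fun v : ↥F => K.F (x v) (z v.1).2) ∂(nu0 d) =
      ∫ u, φ (fun v => K.F (x v) (u v)) ∂(Measure.pi fun _ : ↥F => (volume : Measure unitInterval)) := by
    rw [← map_nu0_snd F, integral_map _ hm.aestronglyMeasurable]
    refine Measurable.aemeasurable ?_
    exact measurable_pi_lambda _ fun v => measurable_snd.comp (measurable_pi_apply _)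
  rw [h2, h1]
  rfl

end Psi

lemma measurable_tanh' : Measurable Real.tanh := by
  have : Real.tanh = fun x => Real.sinh x / Real.cosh x := by
    funext x
    exact Real.tanh_eq_sinh_div_cosh x
  rw [this]
  exact Real.measurable_sinh.div Real.measurable_cosh

section Core

variable {β c : ℝ} {s : ℝ≥0} [Corr (Real.tanh β)] (O : Ops d (Real.tanh β) β c s) (K : SiteF s)

/-- The extension of a configuration on a finite set. -/
noncomputable def extB {F : Finset (Word d)} (η : ↥F → Bool) (v : Word d) : Bool :=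
  open Classical in if h : v ∈ F then η ⟨v, h⟩ else false

lemma extB_coe {F : Finset (Word d)} (η : ↥F → Bool) (v : ↥F) : extB η v.1 = η v := by
  unfold extB
  rw [dif_pos v.2]

/-- The Gaussian parts. -/
lemma gram_Xi (v w : Word d) :
    ⟪gRep (XiK O).v (XiK_mem O) v, gRep (XiK O).v (XiK_mem O) w⟫_ℝ = qK (c - s) β v w := by
  rw [inner_gRep]
  exact cov_XiK O v w

lemma gram_G (v w : Word d) :
    ⟪gRep (GK O).v (GK_mem O) v, gRep (GK O).v (GK_mem O) w⟫_ℝ = qK c β v w := by
  rw [inner_gRep]
  exact cov_GK O v w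

lemma gram_X (v w : Word d) :
    ⟪gRep (XK O).v (XK_mem O) v, gRep (XK O).v (XK_mem O) w⟫_ℝ = qK c β v w := by
  rw [inner_gRep]
  exact cov_XK O s.2 v w

/-- The Hubbard-Stratonovich identity in the form needed here. -/
lemma hs_step (hβ : 0 ≤ β) (F : Finset (Word d)) (η : ↥F → Bool) {Ψ : (↥F → ℝ) → ℝ}
    (hΨ : Measurable Ψ) {C : ℝ} (hC : ∀ x, |Ψ x| ≤ C) :
    ∫ ω, (∏ v : ↥F, (1 + sp (η v) * Real.tanh (fmap (Real.tanh β) (y0K O).v ω v)) / 2) *
        Ψ (fun v : ↥F => fmap (Real.tanh β) (y0K O).v ω v) ∂(PP d (Real.tanh β)) =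
    ∫ ω, (open Classical in if (fun v : ↥F => ω.1 v) = η then 1 else 0) *
        Ψ (fun v : ↥F => fmap (Real.tanh β) (y0K O).v ω v) ∂(PP d (Real.tanh β)) := by
  classical
  set Xi := gRep (XiK O).v (XiK_mem O) with hXi
  have hgram : ∀ v w, ⟪Xi v, Xi w⟫_ℝ = (if v = w then (c - s) else 0) +
      (open Classical in if (treeGraph d).Adj v w then β else 0) := by
    intro v w
    rw [hXi, gram_Xi O v w]
    unfold qK
    congr
  have hs := hs_identity GG_gauss Xi (fun v => gRep_mem _ _ v) hβ hgram F (extB η) hΨ hC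
  have hlocm : ∀ (a : ℝ) (v : Word d), Measurable (fun σ : Word d → Bool => locF a β σ v) := by
    intro a v
    unfold locF
    refine ((meas_sp.comp (measurable_pi_apply v)).const_mul a).add (Measurable.const_mul ?_ β)
    exact Finset.measurable_sum _ fun i _ => meas_sp.comp (measurable_pi_apply _)
  have hpair : ∀ v : Word d, Measurable (fun ω : Om d => locF (c - s) β ω.1 v + Xi v ω.2) := fun v =>
    ((hlocm _ v).comp measurable_fst).add ((gs_meas (Xi v)).comp measurable_snd)
  have hprodm : Measurable (fun ω : Om d => ∏ v : ↥F,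
      (1 + sp (η v) * Real.tanh (locF (c - s) β ω.1 v + Xi v ω.2)) / 2) :=
    Finset.measurable_prod _ fun v _ => ((measurable_tanh'.comp (hpair v)).const_mul _
      |>.const_add _).div_const _
  have hprodb : ∀ ω : Om d, |∏ v : ↥F,
      (1 + sp (η v) * Real.tanh (locF (c - s) β ω.1 v + Xi v ω.2)) / 2| ≤ 1 := by
    intro ω
    rw [Finset.abs_prod]
    refine Finset.prod_le_one (fun _ _ => abs_nonneg _) fun v _ => ?_
    have h1 := Real.tanh_lt_one (locF (c - s) β ω.1 v + Xi v ω.2)
    have h2 := Real.neg_one_lt_tanh (locF (c - s) β ω.1 v + Xi v ω.2)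
    rw [abs_le]
    rcases Bool.eq_false_or_eq_true (η v) with h | h <;> rw [h] <;> simp <;> constructor <;> linarith
  have hΨm : Measurable (fun ω : Om d => Ψ (fun v : ↥F => locF (c - s) β ω.1 v + Xi v ω.2)) :=
    hΨ.comp (measurable_pi_lambda _ fun v => hpair v)
  have hL : ∫ ω, (∏ v : ↥F, (1 + sp (η v) * Real.tanh (fmap (Real.tanh β) (y0K O).v ω v)) / 2) *
        Ψ (fun v : ↥F => fmap (Real.tanh β) (y0K O).v ω v) ∂(PP d (Real.tanh β)) =
      ∫ σ, ∫ y, (∏ v ∈ F, (1 + sp (extB η v) * Real.tanh (locF (c - s) β σ v + Xi v y)) / 2) *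
        Ψ (fun v : ↥F => locF (c - s) β σ v.1 + Xi v.1 y) ∂(nu d) ∂(isingLaw d (Real.tanh β)) := by
    have h1 : Integrable (fun ω : Om d => (∏ v : ↥F,
        (1 + sp (η v) * Real.tanh (locF (c - s) β ω.1 v + Xi v ω.2)) / 2) *
        Ψ (fun v : ↥F => locF (c - s) β ω.1 v + Xi v ω.2)) (PP d (Real.tanh β)) :=
      integrable_bdd (hprodm.mul hΨm) (C := 1 * C) fun ω => by
        rw [abs_mul]
        exact mul_le_mul (hprodb ω) (hC _) (abs_nonneg _) zero_le_one
    have h2 := integral_prod _ h1
    unfold PP at *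
    rw [integral_congr_ae (g := fun ω : Om d => (∏ v : ↥F,
        (1 + sp (η v) * Real.tanh (locF (c - s) β ω.1 v + Xi v ω.2)) / 2) *
        Ψ (fun v : ↥F => locF (c - s) β ω.1 v + Xi v ω.2)), h2]
    · refine integral_congr_ae (Filter.Eventually.of_forall fun σ => ?_)
      refine integral_congr_ae (Filter.Eventually.of_forall fun y => ?_)
      simp only
      congr 1
      rw [← Finset.prod_coe_sort F]
      refine Finset.prod_congr rfl fun v _ => ?_
      rw [extB_coe]
    · filter_upwards [fmap_y0 O] with ω h3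
      simp only [h3]
      rfl
  have hR : ∫ ω, (open Classical in if (fun v : ↥F => ω.1 v) = η then 1 else 0) *
        Ψ (fun v : ↥F => fmap (Real.tanh β) (y0K O).v ω v) ∂(PP d (Real.tanh β)) =
      ∫ σ, ∫ y, (open Classical in if ∀ v ∈ F, σ v = extB η v then 1 else 0) *
        Ψ (fun v : ↥F => locF (c - s) β σ v.1 + Xi v.1 y) ∂(nu d) ∂(isingLaw d (Real.tanh β)) := by
    have hset : ∀ σ : Word d → Bool, ((fun v : ↥F => σ v) = η) ↔ ∀ v ∈ F, σ v = extB η v := by
      intro σ
      constructor
      · rintro rfl v hv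
        have := extB_coe (fun v : ↥F => σ v) ⟨v, hv⟩
        exact this.symm
      · intro h
        funext v
        rw [h v.1 v.2, extB_coe]
    have hindm : Measurable (fun ω : Om d => (if (fun v : ↥F => ω.1 v) = η then (1 : ℝ) else 0)) := by
      have : Measurable (fun σ : Word d → Bool => (fun v : ↥F => σ v)) :=
        measurable_pi_lambda _ fun v => measurable_pi_apply _
      exact (Measurable.of_discrete (f := fun t : ↥F → Bool => if t = η then (1 : ℝ) else 0)).comp
        (this.comp measurable_fst)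
    have h1 : Integrable (fun ω : Om d => (if (fun v : ↥F => ω.1 v) = η then (1 : ℝ) else 0) *
        Ψ (fun v : ↥F => locF (c - s) β ω.1 v + Xi v ω.2)) (PP d (Real.tanh β)) :=
      integrable_bdd (hindm.mul hΨm) (C := 1 * C) fun ω => by
        rw [abs_mul]
        refine mul_le_mul ?_ (hC _) (abs_nonneg _) zero_le_one
        split_ifs <;> simp
    have h2 := integral_prod _ h1
    unfold PP at *
    rw [integral_congr_ae (g := fun ω : Om d => (if (fun v : ↥F => ω.1 v) = η then (1 : ℝ) else 0) *
        Ψ (fun v : ↥F => locF (c - s) β ω.1 v + Xi v ω.2)), h2]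
    · refine integral_congr_ae (Filter.Eventually.of_forall fun σ => ?_)
      refine integral_congr_ae (Filter.Eventually.of_forall fun y => ?_)
      simp only
      congr 1
      simp only [hset σ]
    · filter_upwards [fmap_y0 O] with ω h3
      simp only [h3]
      rfl
  rw [hL, hR]
  exact hs.symm

lemma measurable_locF (a b : ℝ) (v : Word d) : Measurable (fun σ : Word d → Bool => locF a b σ v) := by
  unfold locF
  refine ((meas_sp.comp (measurable_pi_apply v)).const_mul a).add (Measurable.const_mul ?_ b)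
  exact Finset.measurable_sum _ fun i _ => meas_sp.comp (measurable_pi_apply _)

lemma locF_sub (a b t : ℝ) (σ : Word d → Bool) (v : Word d) :
    locF (a - t) b σ v + t * sp (σ v) = locF a b σ v := by
  unfold locF
  ring

/-- Replacing the Gaussian part by another Gaussian family with the same covariance. -/
lemma gauss_swap {F : Finset (Word d)} {X X' : Word d → Lp ℝ 2 (nu d)} (hX : ∀ v, X v ∈ GG d)
    (hX' : ∀ v, X' v ∈ GG d) (h : ∀ v w, ⟪X v, X w⟫_ℝ = ⟪X' v, X' w⟫_ℝ) {φ : (↥F → ℝ) → ℝ}
    (hφ : Measurable φ) (a : ↥F → ℝ) :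
    ∫ z, φ (fun v : ↥F => a v + X v z) ∂(nu d) = ∫ z, φ (fun v : ↥F => a v + X' v z) ∂(nu d) := by
  have h1 := law_eq_of_gram GG_gauss (F := ↥F) (X := fun v => X v) (X' := fun v => X' v)
    (fun v => hX v) (fun v => hX' v) (fun v w => h v w)
  have hψ : Measurable (fun t : ↥F → ℝ => φ (fun v => a v + t v)) :=
    hφ.comp (measurable_pi_lambda _ fun v => measurable_const.add (measurable_pi_apply v))
  have e : ∀ Y : ↥F → Lp ℝ 2 (nu d), ∫ z, φ (fun v : ↥F => a v + Y v z) ∂(nu d) =
      ∫ t, φ (fun v => a v + t v) ∂(Measure.map (fun y i => (Y i : Noise d → ℝ) y) (nu d)) := by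
    intro Y
    rw [integral_map _ hψ.aestronglyMeasurable]
    exact (measurable_pi_lambda _ fun v => gs_meas (Y v)).aemeasurable
  rw [e (fun v => X v), e (fun v => X' v), h1]

/-- The key computation: the starting field is stationary. -/
theorem core (hβ : 0 ≤ β) (h0 : 0 < s) (hs : s < 1) :
    flaw (Real.tanh β) (UpL K (Real.tanh β) hs (y0K O).v) = flaw (Real.tanh β) (x0K O).v := by
  classical
  refine flaw_eq_of_test fun F φ hφ ⟨C, hC⟩ => ?_
  set θ := Real.tanh β with hθ
  set y := (y0K O).v with hy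
  have hfy := measurable_fmap θ y
  set Xi := gRep (XiK O).v (XiK_mem O) with hXi
  set X := gRep (XK O).v (XK_mem O) with hXdef
  set G := gRep (GK O).v (GK_mem O) with hGdef
  -- first part: mixture
  have hA : ∫ ω, φ (fun v : ↥F => fmap θ (UpL K θ hs y) ω v) ∂(PP d θ) =
      ∫ ω', ∑ η : ↥F → Bool, (∏ v : ↥F, (1 + sp (η v) * Real.tanh (fmap θ y ω' v)) / 2) *
        PsiN s φ η (fun v : ↥F => fmap θ y ω' v) ∂(PP d θ) := by
    have h1 : ∫ ω, φ (fun v : ↥F => fmap θ (UpL K θ hs y) ω v) ∂(PP d θ) =
        ∫ ω, φ (fun v : ↥F => K.F (fmap θ y (shf ω) v) ((z0 ω.2 v).2)) ∂(PP d θ) := by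
      refine integral_congr_ae ?_
      filter_upwards [fmap_UpL K θ hs y] with ω h
      simp only [h]
      rfl
    have hH : Measurable (fun p : Om d × (Word d → Zv) =>
        φ (fun v : ↥F => K.F (fmap θ y p.1 v) ((p.2 v).2))) := by
      refine hφ.comp (measurable_pi_lambda _ fun v => ?_)
      exact K.meas.comp (f := fun p : Om d × (Word d → Zv) => (fmap θ y p.1 v, (p.2 v).2))
        (((measurable_pi_apply _).comp (hfy.comp measurable_fst)).prodMk
        (measurable_snd.comp ((measurable_pi_apply _).comp measurable_snd)))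
    rw [h1, integral_split θ hH (C := C) fun p => hC _]
    exact integral_congr_ae (Filter.Eventually.of_forall fun ω' =>
      step_mix K h0 hφ hC (fmap θ y ω'))
  -- integrability of the terms
  have hprodm : ∀ η : ↥F → Bool, Measurable (fun ω : Om d => ∏ v : ↥F,
      (1 + sp (η v) * Real.tanh (fmap θ y ω v)) / 2) := fun η =>
    Finset.measurable_prod _ fun v _ => ((measurable_tanh'.comp ((measurable_pi_apply _).comp hfy)).const_mul _
      |>.const_add _).div_const _
  have hprodb : ∀ (η : ↥F → Bool) (ω : Om d), |∏ v : ↥F,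
      (1 + sp (η v) * Real.tanh (fmap θ y ω v)) / 2| ≤ 1 := by
    intro η ω
    rw [Finset.abs_prod]
    refine Finset.prod_le_one (fun _ _ => abs_nonneg _) fun v _ => ?_
    have h1 := Real.tanh_lt_one (fmap θ y ω v)
    have h2 := Real.neg_one_lt_tanh (fmap θ y ω v)
    rw [abs_le]
    rcases Bool.eq_false_or_eq_true (η v) with h | h <;> rw [h] <;> simp <;> constructor <;> linarith
  have hpsim : ∀ η : ↥F → Bool, Measurable (fun ω : Om d => PsiN s φ η (fun v : ↥F => fmap θ y ω v)) :=
    fun η => (measurable_PsiN hφ η).comp (measurable_pi_lambda _ fun v =>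
      (measurable_pi_apply _).comp hfy)
  have hint1 : ∀ η : ↥F → Bool, Integrable (fun ω' : Om d =>
      (∏ v : ↥F, (1 + sp (η v) * Real.tanh (fmap θ y ω' v)) / 2) *
        PsiN s φ η (fun v : ↥F => fmap θ y ω' v)) (PP d θ) := fun η =>
    integrable_bdd ((hprodm η).mul (hpsim η)) (C := 1 * C) fun ω => by
      rw [abs_mul]
      exact mul_le_mul (hprodb η ω) (abs_PsiN_le hC η _) (abs_nonneg _) zero_le_one
  have hindm : ∀ η : ↥F → Bool, Measurable (fun ω : Om d =>
      (if (fun v : ↥F => ω.1 v) = η then (1 : ℝ) else 0)) := by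
    intro η
    have : Measurable (fun σ : Word d → Bool => (fun v : ↥F => σ v)) :=
      measurable_pi_lambda _ fun v => measurable_pi_apply _
    exact (Measurable.of_discrete (f := fun t : ↥F → Bool => if t = η then (1 : ℝ) else 0)).comp
      (this.comp measurable_fst)
  have hint2 : ∀ η : ↥F → Bool, Integrable (fun ω' : Om d =>
      (if (fun v : ↥F => ω'.1 v) = η then (1 : ℝ) else 0) *
        PsiN s φ η (fun v : ↥F => fmap θ y ω' v)) (PP d θ) := fun η =>
    integrable_bdd ((hindm η).mul (hpsim η)) (C := 1 * C) fun ω => by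
      rw [abs_mul]
      refine mul_le_mul ?_ (abs_PsiN_le hC η _) (abs_nonneg _) zero_le_one
      split_ifs <;> simp
  -- second part: Hubbard-Stratonovich
  have hB : ∫ ω', ∑ η : ↥F → Bool, (∏ v : ↥F, (1 + sp (η v) * Real.tanh (fmap θ y ω' v)) / 2) *
        PsiN s φ η (fun v : ↥F => fmap θ y ω' v) ∂(PP d θ) =
      ∫ ω', PsiN s φ (fun v : ↥F => ω'.1 v) (fun v : ↥F => fmap θ y ω' v) ∂(PP d θ) := by
    rw [integral_finsetSum _ fun η _ => hint1 η]
    have h2 : ∀ η : ↥F → Bool, ∫ ω', (∏ v : ↥F, (1 + sp (η v) * Real.tanh (fmap θ y ω' v)) / 2) *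
        PsiN s φ η (fun v : ↥F => fmap θ y ω' v) ∂(PP d θ) =
        ∫ ω', (if (fun v : ↥F => ω'.1 v) = η then (1 : ℝ) else 0) *
        PsiN s φ η (fun v : ↥F => fmap θ y ω' v) ∂(PP d θ) := fun η => by
      have := hs_step O hβ F η (measurable_PsiN (s := s) hφ η) (abs_PsiN_le hC η)
      convert this
    simp_rw [h2]
    rw [← integral_finsetSum _ fun η _ => hint2 η]
    refine integral_congr_ae (Filter.Eventually.of_forall fun ω' => ?_)
    simp only [ite_mul, one_mul, zero_mul, Finset.sum_ite_eq, Finset.mem_univ, if_true]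
  -- third part: fresh noise
  have hH2 : Measurable (fun p : Om d × (Word d → Zv) =>
      φ (fun v : ↥F => fmap θ y p.1 v + s * sp (p.1.1 v) + √s * (p.2 v).1)) := by
    refine hφ.comp (measurable_pi_lambda _ fun v => ?_)
    refine (((measurable_pi_apply _).comp (hfy.comp measurable_fst)).add
      ((meas_sp.comp ((measurable_pi_apply _).comp (measurable_fst.comp measurable_fst))).const_mul _)).add
      ((measurable_fst.comp ((measurable_pi_apply _).comp measurable_snd)).const_mul _)
  have hE : ∫ ω', PsiN s φ (fun v : ↥F => ω'.1 v) (fun v : ↥F => fmap θ y ω' v) ∂(PP d θ) =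
      ∫ ω, φ (fun v : ↥F => locF c β ω.1 v + X v ω.2) ∂(PP d θ) := by
    have h1 : ∫ ω', PsiN s φ (fun v : ↥F => ω'.1 v) (fun v : ↥F => fmap θ y ω' v) ∂(PP d θ) =
        ∫ ω', ∫ z, φ (fun v : ↥F => fmap θ y ω' v + s * sp (ω'.1 v) + √s * (z v).1) ∂(nu0 d) ∂(PP d θ) :=
      integral_congr_ae (Filter.Eventually.of_forall fun ω' => PsiN_eq_nu0 hφ _ _)
    rw [h1, ← integral_split θ hH2 (C := C) fun p => hC _]
    refine integral_congr_ae ?_
    filter_upwards [(mp_shf θ).quasiMeasurePreserving.ae (fmap_y0 O), fmap_XK O] with ω h2 h3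
    congr 1
    funext v
    have h4 : (shf ω).1 = ω.1 := rfl
    rw [h2 v, h3 v, h4, ← locF_sub c β s ω.1 v]
    have h5 : (z0 ω.2 v.1).1 = (ω.2 (v.1, 0)).1 := rfl
    rw [h5]
    ring
  -- fourth part: Gaussian comparison
  have hG : ∫ ω, φ (fun v : ↥F => locF c β ω.1 v + X v ω.2) ∂(PP d θ) =
      ∫ ω, φ (fun v : ↥F => fmap θ (x0K O).v ω v) ∂(PP d θ) := by
    have hm1 : Measurable (fun ω : Om d => φ (fun v : ↥F => locF c β ω.1 v + X v ω.2)) :=
      hφ.comp (measurable_pi_lambda _ fun v => ((measurable_locF c β v.1).comp measurable_fst).add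
        ((gs_meas (X v.1)).comp measurable_snd))
    have hm2 : Measurable (fun ω : Om d => φ (fun v : ↥F => locF c β ω.1 v + G v ω.2)) :=
      hφ.comp (measurable_pi_lambda _ fun v => ((measurable_locF c β v.1).comp measurable_fst).add
        ((gs_meas (G v.1)).comp measurable_snd))
    have h1 : ∫ ω, φ (fun v : ↥F => fmap θ (x0K O).v ω v) ∂(PP d θ) =
        ∫ ω, φ (fun v : ↥F => locF c β ω.1 v + G v ω.2) ∂(PP d θ) := by
      refine integral_congr_ae ?_
      filter_upwards [fmap_x0 O] with ω h
      congr 1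
      funext v
      exact h v
    rw [h1]
    unfold PP
    rw [integral_prod _ (integrable_bdd hm1 (C := C) fun p => hC _),
      integral_prod _ (integrable_bdd hm2 (C := C) fun p => hC _)]
    refine integral_congr_ae (Filter.Eventually.of_forall fun σ => ?_)
    show ∫ z, φ (fun v : ↥F => locF c β σ v + X v z) ∂(nu d) =
      ∫ z, φ (fun v : ↥F => locF c β σ v + G v z) ∂(nu d)
    exact gauss_swap (fun v => gRep_mem _ _ v) (fun v => gRep_mem _ _ v)
      (fun v w => (gram_X O v w).trans (gram_G O v w).symm) hφ _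
  rw [hA, hB, hE, hG]

end Core

end Vale.Agent.Lib.P161
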