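import Vale.Agent.Lib.P161.Ising

/-!
Decay of correlations of the Ising measure between the far apart images of a ball.
-/

namespace Vale.Agent.Lib.P161

open MeasureTheory ProbabilityTheory

variable {d : ℕ}

/-- The `σ`-algebra generated by the sign coordinates in a set. -/
def coordSigma (A : Set (Word d)) : MeasurableSpace (Word d → Bool) :=
  ⨆ v ∈ A, MeasurableSpace.comap (fun t : Word d → Bool => t v) inferInstance

lemma coordSigma_le (A : Set (Word d)) : coordSigma A ≤ MeasurableSpace.pi := by
  refine iSup₂_le fun v _ => ?_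
  exact (measurable_pi_apply v).comap_le

lemma coordSigma_mono {A B : Set (Word d)} (h : A ⊆ B) : coordSigma A ≤ coordSigma B :=
  biSup_mono h

lemma meas_coord {A : Set (Word d)} {v : Word d} (hv : v ∈ A) :
    Measurable[coordSigma A] (fun t : Word d → Bool => t v) :=
  measurable_iff_comap_le.mpr (le_iSup₂_of_le v hv le_rfl)

variable (θ : ℝ) [Corr θ]

lemma indep_coords {A B : Set (Word d)} (h : Disjoint A B) :
    Indep (coordSigma A) (coordSigma B) (tLaw d θ) := by
  have h1 : iIndepFun (fun (i : Word d) (ω : Word d → Bool) => (id : Bool → Bool) (ω i)) (tLaw d θ) :=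
    iIndepFun_infinitePi (P := mrg θ) (X := fun _ => id) (fun _ => measurable_id)
  have h2 := h1.iIndep
  exact indep_iSup_of_disjoint (fun v => (measurable_pi_apply v).comap_le) h2 h

lemma integral_mul_coords {A B : Set (Word d)} (h : Disjoint A B) {X Y : (Word d → Bool) → ℝ}
    (hX : Measurable[coordSigma A] X) (hY : Measurable[coordSigma B] Y) :
    ∫ t, X t * Y t ∂(tLaw d θ) = (∫ t, X t ∂(tLaw d θ)) * ∫ t, Y t ∂(tLaw d θ) := by
  have hI : IndepFun X Y (tLaw d θ) := by
    rw [IndepFun_iff_Indep]
    exact indep_of_indep_of_le_left (indep_of_indep_of_le_right (indep_coords θ h) hY.comap_le)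
      hX.comap_le
  exact hI.integral_fun_mul_eq_mul_integral
    ((hX.mono (coordSigma_le A) le_rfl).aestronglyMeasurable)
    ((hY.mono (coordSigma_le B) le_rfl).aestronglyMeasurable)

omit [Corr θ] in
lemma meas_tau_coords {A : Set (Word d)} (v : Word d) (hA : ∀ p : Word d, p.1 <:+ v.1 → p ∈ A) :
    Measurable[coordSigma A] (fun t : Word d → Bool => tau t v) := by
  obtain ⟨l, hl⟩ := v
  induction l with
  | nil =>
    exact meas_coord (hA root (List.suffix_refl _))
  | cons a l ih =>
    have h1 := ih hl.tail (fun p hp => hA p (hp.trans (List.suffix_cons a l)))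
    have h2 : Measurable[coordSigma A] (fun t : Word d → Bool => t ⟨a :: l, hl⟩) :=
      meas_coord (hA _ (List.suffix_refl _))
    have h3 : (fun t : Word d → Bool => tau t ⟨a :: l, hl⟩) =
        fun t => xor (tau t ⟨l, hl.tail⟩) (t ⟨a :: l, hl⟩) := by
      funext t
      exact tau_step t (v := ⟨a :: l, hl⟩) (by simp [root])
    rw [h3]
    have h4 : Measurable (fun p : Bool × Bool => xor p.1 p.2) := Measurable.of_discrete
    exact h4.comp (h1.prodMk h2)

/-- The sign of `tau` as a real function. -/
noncomputable def spT (v : Word d) (t : Word d → Bool) : ℝ := sp (tau t v)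

lemma meas_sp : Measurable sp := Measurable.of_discrete

omit [Corr θ] in
lemma meas_spT_coords {A : Set (Word d)} (v : Word d) (hA : ∀ p : Word d, p.1 <:+ v.1 → p ∈ A) :
    Measurable[coordSigma A] (spT v) :=
  meas_sp.comp (meas_tau_coords v hA)

lemma integral_sp_bern {θ : ℝ} (h0 : -1 ≤ θ) (h1 : θ ≤ 1) : ∫ b, sp b ∂(bern θ) = θ := by
  simp only [bern]
  rw [integral_add_measure, integral_smul_measure, integral_smul_measure, integral_dirac,
    integral_dirac]
  · simp only [sp_false, sp_true, ENNReal.toReal_ofReal (by linarith : 0 ≤ (1 + θ) / 2),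
      ENNReal.toReal_ofReal (by linarith : 0 ≤ (1 - θ) / 2)]
    simp only [smul_eq_mul]
    ring
  · exact (integrable_dirac (by simp)).smul_measure (by simp)
  · exact (integrable_dirac (by simp)).smul_measure (by simp)

lemma map_eval_tLaw (v : Word d) : (tLaw d θ).map (fun t => t v) = mrg θ v :=
  (measurePreserving_eval_infinitePi (mrg θ) v).map_eq

lemma integral_sp_coord (v : Word d) :
    ∫ t, sp (t v) ∂(tLaw d θ) = if v = root then 0 else θ := by
  have h1 : ∫ t, sp (t v) ∂(tLaw d θ) = ∫ b, sp b ∂(mrg θ v) := by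
    rw [← map_eval_tLaw θ v, integral_map (measurable_pi_apply v).aemeasurable
      (meas_sp.aestronglyMeasurable)]
  rw [h1]
  unfold mrg
  split_ifs
  · exact integral_sp_bern (by norm_num) (by norm_num)
  · exact integral_sp_bern (by linarith [Corr.nonneg (θ := θ)]) Corr.le_one

omit [Corr θ] in
lemma spT_step {v : Word d} (hv : v ≠ root) (t : Word d → Bool) :
    spT v t = spT (parent v) t * sp (t v) := by
  unfold spT
  rw [tau_step t hv, sp_xor]

lemma integral_mul_spT_step {A : Set (Word d)} {v : Word d} (hv : v ≠ root) (hvA : v ∉ A)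
    {X : (Word d → Bool) → ℝ} (hX : Measurable[coordSigma A] X) :
    ∫ t, X t * spT v t ∂(tLaw d θ) = θ * ∫ t, X t * spT (parent v) t ∂(tLaw d θ) := by
  set B : Set (Word d) := A ∪ {p | p.1 <:+ (parent v).1} with hB
  have h1 : Measurable[coordSigma B] (fun t => X t * spT (parent v) t) :=
    (hX.mono (coordSigma_mono Set.subset_union_left) le_rfl).mul
      (meas_spT_coords _ fun p hp => Or.inr hp)
  have h2 : Measurable[coordSigma ({v} : Set (Word d))] (fun t : Word d → Bool => sp (t v)) :=
    meas_sp.comp (meas_coord rfl)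
  have hdis : Disjoint B ({v} : Set (Word d)) := by
    rw [Set.disjoint_singleton_right]
    rintro (h | h)
    · exact hvA h
    · have h3 : len v ≤ len (parent v) := List.IsSuffix.length_le h
      have := len_parent hv
      omega
  have h3 := integral_mul_coords θ hdis h1 h2
  have h4 : ∀ t, X t * spT v t = (X t * spT (parent v) t) * sp (t v) := by
    intro t; rw [spT_step hv t]; ring
  simp_rw [h4]
  rw [h3, integral_sp_coord, if_neg hv]
  ring

lemma integral_mul_spT_iter {r : ℕ} {X : (Word d → Bool) → ℝ}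
    (hX : Measurable[coordSigma {p : Word d | len p ≤ r}] X) :
    ∀ (k : ℕ) (y : Word d), len y = r + k →
      ∃ x : Word d, ∫ t, X t * spT y t ∂(tLaw d θ) = θ ^ k * ∫ t, X t * spT x t ∂(tLaw d θ) := by
  intro k
  induction k with
  | zero => intro y _; exact ⟨y, by simp⟩
  | succ k ih =>
    intro y hy
    have hne : y ≠ root := by
      rintro rfl
      simp at hy
    have hl := len_parent hne
    obtain ⟨x, hx⟩ := ih (parent y) (by omega)
    refine ⟨x, ?_⟩
    rw [integral_mul_spT_step θ hne (by simp only [Set.mem_ofPred_eq]; omega) hX, hx]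
    ring

lemma integral_spT_zero : ∀ (k : ℕ) (v : Word d), len v = k → ∫ t, spT v t ∂(tLaw d θ) = 0 := by
  intro k
  induction k with
  | zero =>
    intro v hv
    have := len_eq_zero hv
    subst this
    have h := integral_sp_coord θ (root : Word d)
    simpa [spT] using h
  | succ k ih =>
    intro v hv
    have hne : v ≠ root := by
      rintro rfl
      simp at hv
    have hl := len_parent hne
    have h := integral_mul_spT_step θ (A := ∅) (X := fun _ => 1) hne (by simp) measurable_const
    simp only [one_mul] at h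
    rw [h, ih (parent v) (by omega), mul_zero]

/-- A bounded measurable function is integrable. -/
lemma integrable_of_bdd {f : (Word d → Bool) → ℝ} (hm : Measurable f) {C : ℝ} (hb : ∀ t, |f t| ≤ C) :
    Integrable f (tLaw d θ) :=
  Integrable.of_bound hm.aestronglyMeasurable C (Filter.Eventually.of_forall hb)

omit [Corr θ] in
lemma abs_spT (v : Word d) (t : Word d → Bool) : |spT v t| = 1 := abs_sp _

omit [Corr θ] in
lemma measurable_spT (v : Word d) : Measurable (spT v) := meas_sp.comp (measurable_tau_coord v)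

/-- The covariance splitting at the vertex `y`. -/
lemma cov_split {m : ℕ} {y : Word d} (hy : len y = m) {X Yp Ym : (Word d → Bool) → ℝ} {C : ℝ}
    (hX : Measurable[coordSigma {p : Word d | len p ≤ m}] X)
    (hYp : Measurable[coordSigma {p : Word d | m < len p}] Yp)
    (hYm : Measurable[coordSigma {p : Word d | m < len p}] Ym)
    (bX : ∀ t, |X t| ≤ C) (bYp : ∀ t, |Yp t| ≤ C) (bYm : ∀ t, |Ym t| ≤ C) :
    let Y : (Word d → Bool) → ℝ := fun t => Yp t + spT y t * Ym t
    ∫ t, X t * Y t ∂(tLaw d θ) = (∫ t, X t ∂(tLaw d θ)) * (∫ t, Y t ∂(tLaw d θ)) +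
      (∫ t, X t * spT y t ∂(tLaw d θ)) * ∫ t, Y t * spT y t ∂(tLaw d θ) := by
  intro Y
  have hdis : Disjoint {p : Word d | len p ≤ m} {p : Word d | m < len p} := by
    rw [Set.disjoint_left]
    intro p h1 h2
    simp only [Set.mem_ofPred_eq] at h1 h2
    omega
  have hsy : Measurable[coordSigma {p : Word d | len p ≤ m}] (spT y) :=
    meas_spT_coords y fun p hp => by
      have : len p ≤ len y := List.IsSuffix.length_le hp
      simpa [hy] using (by omega : len p ≤ m)
  have mle := coordSigma_le ({p : Word d | len p ≤ m})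
  have mgt := coordSigma_le ({p : Word d | m < len p})
  have mX : Measurable X := hX.mono mle le_rfl
  have mYp : Measurable Yp := hYp.mono mgt le_rfl
  have mYm : Measurable Ym := hYm.mono mgt le_rfl
  have ms : Measurable (spT y) := measurable_spT y
  have C0 : 0 ≤ C := (abs_nonneg _).trans (bX (fun _ => false))
  have hs1 : ∀ t, |spT y t| = 1 := abs_spT y
  have int1 : ∀ {f g : (Word d → Bool) → ℝ}, Measurable f → Measurable g →
      (∀ t, |f t| ≤ C) → (∀ t, |g t| ≤ C) → Integrable (fun t => f t * g t) (tLaw d θ) := by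
    intro f g hf hg bf bg
    refine integrable_of_bdd θ (hf.mul hg) (C := C * C) fun t => ?_
    rw [abs_mul]
    exact mul_le_mul (bf t) (bg t) (abs_nonneg _) C0
  have int2 : ∀ {f g : (Word d → Bool) → ℝ}, Measurable f → Measurable g →
      (∀ t, |f t| ≤ C) → (∀ t, |g t| ≤ C) →
      Integrable (fun t => f t * (spT y t * g t)) (tLaw d θ) := by
    intro f g hf hg bf bg
    refine integrable_of_bdd θ (hf.mul (ms.mul hg)) (C := C * C) fun t => ?_
    rw [abs_mul, abs_mul, hs1, one_mul]
    exact mul_le_mul (bf t) (bg t) (abs_nonneg _) C0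
  have e1 : ∫ t, X t * Y t ∂(tLaw d θ) =
      (∫ t, X t ∂(tLaw d θ)) * (∫ t, Yp t ∂(tLaw d θ)) +
        (∫ t, X t * spT y t ∂(tLaw d θ)) * ∫ t, Ym t ∂(tLaw d θ) := by
    have h1 : ∀ t, X t * Y t = X t * Yp t + (X t * spT y t) * Ym t := by
      intro t; simp only [Y]; ring
    simp_rw [h1]
    rw [integral_add (int1 mX mYp bX bYp) ?_]
    · rw [integral_mul_coords θ hdis hX hYp,
        integral_mul_coords θ hdis (X := fun t => X t * spT y t) (hX.mul hsy) hYm]
    · refine (int2 mX mYm bX bYm).congr (Filter.Eventually.of_forall fun t => ?_)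
      simp only; ring
  have e2 : ∫ t, Y t ∂(tLaw d θ) = ∫ t, Yp t ∂(tLaw d θ) := by
    have h0 := integral_spT_zero θ _ y rfl
    have h1 : Integrable (fun t => spT y t * Ym t) (tLaw d θ) := by
      refine integrable_of_bdd θ (ms.mul mYm) (C := C) fun t => ?_
      rw [abs_mul, hs1, one_mul]
      exact bYm t
    have h2 : Integrable Yp (tLaw d θ) := integrable_of_bdd θ mYp bYp
    simp only [Y]
    rw [integral_add h2 h1, integral_mul_coords θ hdis hsy hYm, h0]
    simp
  have e3 : ∫ t, Y t * spT y t ∂(tLaw d θ) = ∫ t, Ym t ∂(tLaw d θ) := by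
    have h0 := integral_spT_zero θ _ y rfl
    have h1 : ∀ t, Y t * spT y t = spT y t * Yp t + Ym t := by
      intro t
      simp only [Y]
      have : spT y t * spT y t = 1 := sp_mul_self _
      linear_combination Ym t * this
    simp_rw [h1]
    have h2 : Integrable (fun t => spT y t * Yp t) (tLaw d θ) := by
      refine integrable_of_bdd θ (ms.mul mYp) (C := C) fun t => ?_
      rw [abs_mul, hs1, one_mul]
      exact bYp t
    have h3 : Integrable Ym (tLaw d θ) := integrable_of_bdd θ mYm bYm
    rw [integral_add h2 h3, integral_mul_coords θ hdis hsy hYp, h0]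
    simp
  rw [e1, e2, e3]

/-- Relative sign of a word with respect to a suffix `y`. -/
def relT (y : List (Fin d)) (t : Word d → Bool) : List (Fin d) → Bool
  | [] => false
  | i :: w => open Classical in if i :: w = y then false else xor (relT y t w) (extT t (i :: w))

lemma goT_eq_xor (y : List (Fin d)) (t : Word d → Bool) :
    ∀ l : List (Fin d), y <:+ l → goT t l = xor (goT t y) (relT y t l)
  | [], h => by
    have : y = [] := List.suffix_nil.mp h
    subst this
    simp [relT]
  | i :: w, h => by
    by_cases hl : i :: w = y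
    · subst hl
      simp [relT]
    · have h2 : y <:+ w := by
        rcases List.suffix_cons_iff.mp h with h3 | h3
        · exact absurd h3.symm hl
        · exact h3
      have ih := goT_eq_xor y t w h2
      simp only [relT, hl, if_false, goT]
      rw [ih, Bool.xor_assoc]

lemma meas_relT {y : List (Fin d)} :
    ∀ (l : List (Fin d)), l.IsChain (· ≠ ·) → y <:+ l →
    Measurable[coordSigma {p : Word d | y.length < len p}]
      (fun t : Word d → Bool => relT y t l)
  | [], _, _ => measurable_const
  | i :: w, hc, h => by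
    by_cases hl : i :: w = y
    · have : (fun t : Word d → Bool => relT y t (i :: w)) = fun _ => false := by
        funext t; simp [relT, hl]
      rw [this]; exact measurable_const
    · have h2 : y <:+ w := by
        rcases List.suffix_cons_iff.mp h with h3 | h3
        · exact absurd h3.symm hl
        · exact h3
      have ih := meas_relT w hc.tail h2
      have h4 : (fun t : Word d → Bool => relT y t (i :: w)) =
          fun t => xor (relT y t w) (t ⟨i :: w, hc⟩) := by
        funext t
        simp [relT, hl, extT, hc]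
      rw [h4]
      have h5 : Measurable[coordSigma {p : Word d | y.length < len p}]
          (fun t : Word d → Bool => t ⟨i :: w, hc⟩) := by
        apply meas_coord
        simp only [Set.mem_ofPred_eq, len, List.length_cons]
        have := h2.length_le
        omega
      have h6 : Measurable (fun p : Bool × Bool => xor p.1 p.2) := Measurable.of_discrete
      exact h6.comp (ih.prodMk h5)

/-- `(∫ Z)² ≤ ∫ Z²` on a probability space, for bounded measurable `Z`. -/
lemma sq_integral_le {Z : (Word d → Bool) → ℝ} (hm : Measurable Z) {C : ℝ} (hb : ∀ t, |Z t| ≤ C) :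
    (∫ t, Z t ∂(tLaw d θ)) ^ 2 ≤ ∫ t, Z t ^ 2 ∂(tLaw d θ) := by
  set a := ∫ t, Z t ∂(tLaw d θ) with ha
  have hZ : Integrable Z (tLaw d θ) := integrable_of_bdd θ hm hb
  have hZ2 : Integrable (fun t => Z t ^ 2) (tLaw d θ) := by
    refine integrable_of_bdd θ (hm.pow_const 2) (C := C ^ 2) fun t => ?_
    rw [abs_pow]
    exact pow_le_pow_left₀ (abs_nonneg _) (hb t) 2
  have h0 : 0 ≤ ∫ t, (Z t - a) ^ 2 ∂(tLaw d θ) := integral_nonneg fun t => sq_nonneg _
  have h1 : ∀ t, (Z t - a) ^ 2 = Z t ^ 2 - 2 * a * Z t + a ^ 2 := fun t => by ring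
  simp_rw [h1] at h0
  have hf : Integrable (fun t => Z t ^ 2 - 2 * a * Z t) (tLaw d θ) := hZ2.sub (hZ.const_mul _)
  rw [integral_add hf (integrable_const _),
    integral_sub hZ2 (hZ.const_mul _), integral_const_mul, ← ha] at h0
  simp only [integral_const, probReal_univ, one_smul] at h0
  nlinarith

/-- Bound of a mixed moment by the second moment. -/
lemma abs_integral_mul_spT_le {Z : (Word d → Bool) → ℝ} (hm : Measurable Z) {C : ℝ}
    (hb : ∀ t, |Z t| ≤ C) (v : Word d) :
    |∫ t, Z t * spT v t ∂(tLaw d θ)| ≤ √(∫ t, Z t ^ 2 ∂(tLaw d θ)) := by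
  apply Real.abs_le_sqrt
  have h := sq_integral_le θ (Z := fun t => Z t * spT v t) (hm.mul (measurable_spT v)) (C := C)
    (fun t => by rw [abs_mul, abs_spT, mul_one]; exact hb t)
  refine h.trans (le_of_eq ?_)
  refine integral_congr_ae (Filter.Eventually.of_forall fun t => ?_)
  have : spT v t * spT v t = 1 := sp_mul_self _
  show (Z t * spT v t) ^ 2 = Z t ^ 2
  linear_combination Z t ^ 2 * this

/-- The ancestor `r` levels up. -/
def anc (r : ℕ) (v : Word d) : Word d := ⟨v.1.drop r, by
  induction r with
  | zero => simpa using v.2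
  | succ r ih =>
    rw [← List.tail_drop]
    exact ih.tail⟩

lemma len_anc (r : ℕ) (v : Word d) : len (anc r v) = len v - r := by
  simp [anc, len]

lemma anc_suffix_aut (γ : Aut d) {r : ℕ} {u : Word d} (hu : len u ≤ r) :
    (anc r (γ root)).1 <:+ (γ u).1 := by
  refine List.IsSuffix.trans ?_ (drop_suffix_aut γ u)
  show (γ root).1.drop r <:+ (γ root).1.drop (len u)
  obtain ⟨k, rfl⟩ := Nat.exists_eq_add_of_le hu
  rw [← List.drop_drop]
  exact List.drop_suffix _ _

/-- A function on a finite type is bounded. -/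
lemma exists_bound {α : Type*} [Finite α] (f : α → ℝ) : ∃ C, ∀ a, |f a| ≤ C := by
  have := Fintype.ofFinite α
  refine ⟨∑ a, |f a|, fun a => ?_⟩
  exact Finset.single_le_sum (f := fun a => |f a|) (fun _ _ => abs_nonneg _) (Finset.mem_univ a)

/-- Decay of correlations in the edge sign picture. -/
theorem cov_decay_t (r : ℕ) (γ : Aut d) (hn : 2 * r < len (γ root))
    (f₁ f₂ : (↥(ball r : Finset (Word d)) → Bool) → ℝ) :
    let X : (Word d → Bool) → ℝ := fun t => f₁ (fun u => tau t u.1)
    let Y : (Word d → Bool) → ℝ := fun t => f₂ (fun u => tau t (γ u.1))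
    |∫ t, X t * Y t ∂(tLaw d θ) - (∫ t, X t ∂(tLaw d θ)) * ∫ t, Y t ∂(tLaw d θ)| ≤
      θ ^ (len (γ root) - 2 * r) * (√(∫ t, X t ^ 2 ∂(tLaw d θ)) * √(∫ t, Y t ^ 2 ∂(tLaw d θ))) := by
  intro X Y
  set y := anc r (γ root) with hy
  set m := len y with hm
  have hlen : m = len (γ root) - r := len_anc r _
  have hsuf : ∀ u : ↥(ball r : Finset (Word d)), y.1 <:+ (γ u.1).1 := fun u =>
    anc_suffix_aut γ (mem_ball.mp u.2)
  obtain ⟨C₁, hC₁⟩ := exists_bound f₁
  obtain ⟨C₂, hC₂⟩ := exists_bound f₂
  set C := max C₁ C₂ with hC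
  have hC0 : 0 ≤ C := (abs_nonneg _).trans ((hC₁ (fun _ => false)).trans (le_max_left _ _))
  have bX : ∀ t, |X t| ≤ C := fun t => (hC₁ _).trans (le_max_left _ _)
  have hYb : ∀ b t, |f₂ (fun u => xor b (relT y.1 t (γ u.1).1))| ≤ C := fun b t =>
    (hC₂ _).trans (le_max_right _ _)
  let Yb : Bool → (Word d → Bool) → ℝ := fun b t => f₂ (fun u => xor b (relT y.1 t (γ u.1).1))
  have mYb : ∀ b, Measurable[coordSigma {p : Word d | m < len p}] (Yb b) := by
    intro b
    have h1 : Measurable[coordSigma {p : Word d | m < len p}]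
        (fun t : Word d → Bool => fun u : ↥(ball r : Finset (Word d)) =>
          xor b (relT y.1 t (γ u.1).1)) := by
      refine @measurable_pi_lambda _ _ _ (coordSigma _) _ _ fun u => ?_
      have h2 := meas_relT (d := d) (y := y.1) (γ u.1).1 (γ u.1).2 (hsuf u)
      have h3 : Measurable (fun c : Bool => xor b c) := Measurable.of_discrete
      exact h3.comp h2
    exact (Measurable.of_discrete (f := f₂)).comp h1
  let Yp : (Word d → Bool) → ℝ := fun t => (Yb false t + Yb true t) / 2
  let Ym : (Word d → Bool) → ℝ := fun t => (Yb false t - Yb true t) / 2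
  have mYp : Measurable[coordSigma {p : Word d | m < len p}] Yp :=
    ((mYb false).add (mYb true)).div_const 2
  have mYm : Measurable[coordSigma {p : Word d | m < len p}] Ym :=
    ((mYb false).sub (mYb true)).div_const 2
  have bYp : ∀ t, |Yp t| ≤ C := fun t => by
    have h1 := hYb false t
    have h2 := hYb true t
    rw [abs_le] at *
    simp only [Yp, Yb]
    constructor <;> linarith [h1.1, h1.2, h2.1, h2.2]
  have bYm : ∀ t, |Ym t| ≤ C := fun t => by
    have h1 := hYb false t
    have h2 := hYb true t
    rw [abs_le] at *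
    simp only [Ym, Yb]
    constructor <;> linarith [h1.1, h1.2, h2.1, h2.2]
  have hYeq : Y = fun t => Yp t + spT y t * Ym t := by
    funext t
    have h1 : (fun u : ↥(ball r : Finset (Word d)) => tau t (γ u.1)) =
        fun u => xor (tau t y) (relT y.1 t (γ u.1).1) := by
      funext u
      exact goT_eq_xor y.1 t _ (hsuf u)
    simp only [Y, Yp, Ym, spT]
    rw [h1]
    cases hb : tau t y
    · simp only [Yb, sp_false]; ring
    · simp only [Yb, sp_true]; ring
  have mXr : Measurable[coordSigma {p : Word d | len p ≤ r}] X := by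
    have h1 : Measurable[coordSigma {p : Word d | len p ≤ r}]
        (fun t : Word d → Bool => fun u : ↥(ball r : Finset (Word d)) => tau t u.1) := by
      refine @measurable_pi_lambda _ _ _ (coordSigma _) _ _ fun u => ?_
      refine meas_tau_coords u.1 fun p hp => ?_
      have h2 : len p ≤ len u.1 := List.IsSuffix.length_le hp
      have h3 := mem_ball.mp u.2
      simp only [Set.mem_ofPred_eq]
      omega
    exact (Measurable.of_discrete (f := f₁)).comp h1
  have hrm : r ≤ m := by omega
  have mX : Measurable[coordSigma {p : Word d | len p ≤ m}] X :=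
    mXr.mono (coordSigma_mono fun p hp => by simp only [Set.mem_ofPred_eq] at hp ⊢; omega) le_rfl
  have hsplit := cov_split θ (m := m) (y := y) rfl mX mYp mYm (C := C) bX bYp bYm
  simp only at hsplit
  rw [hYeq]
  rw [hsplit]
  have hk : m = r + (len (γ root) - 2 * r) := by omega
  obtain ⟨x, hx⟩ := integral_mul_spT_iter θ mXr (len (γ root) - 2 * r) y hk
  have mXpi : Measurable X := mXr.mono (coordSigma_le _) le_rfl
  have mYpi : Measurable (fun t => Yp t + spT y t * Ym t) :=
    (mYp.mono (coordSigma_le _) le_rfl).add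
      ((measurable_spT y).mul (mYm.mono (coordSigma_le _) le_rfl))
  have bY2 : ∀ t, |Yp t + spT y t * Ym t| ≤ C + C := fun t => by
    refine (abs_add_le _ _).trans (add_le_add (bYp t) ?_)
    rw [abs_mul, abs_spT, one_mul]
    exact bYm t
  have h1 := abs_integral_mul_spT_le θ mXpi bX x
  have h2 := abs_integral_mul_spT_le θ mYpi bY2 y
  have hθ : 0 ≤ θ ^ (len (γ root) - 2 * r) := pow_nonneg Corr.nonneg _
  rw [add_sub_cancel_left, abs_mul, hx, abs_mul, abs_of_nonneg hθ, mul_assoc]
  exact mul_le_mul_of_nonneg_left (mul_le_mul h1 h2 (abs_nonneg _) (Real.sqrt_nonneg _)) hθ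

/-- Decay of correlations for the Ising measure. -/
theorem cov_decay (r : ℕ) (γ : Aut d) (hn : 2 * r < len (γ root))
    (f₁ f₂ : (↥(ball r : Finset (Word d)) → Bool) → ℝ) :
    let X : (Word d → Bool) → ℝ := fun σ => f₁ (fun u => σ u.1)
    let Y : (Word d → Bool) → ℝ := fun σ => f₂ (fun u => σ (γ u.1))
    |∫ σ, X σ * Y σ ∂(isingLaw d θ) - (∫ σ, X σ ∂(isingLaw d θ)) * ∫ σ, Y σ ∂(isingLaw d θ)| ≤
      θ ^ (len (γ root) - 2 * r) *
        (√(∫ σ, X σ ^ 2 ∂(isingLaw d θ)) * √(∫ σ, Y σ ^ 2 ∂(isingLaw d θ))) := by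
  intro X Y
  have mres : Measurable (fun (σ : Word d → Bool) (u : ↥(ball r : Finset (Word d))) => σ u.1) :=
    measurable_pi_lambda _ fun u => measurable_pi_apply _
  have mres2 : Measurable (fun (σ : Word d → Bool) (u : ↥(ball r : Finset (Word d))) => σ (γ u.1)) :=
    measurable_pi_lambda _ fun u => measurable_pi_apply _
  have mX : Measurable X := (Measurable.of_discrete (f := f₁)).comp mres
  have mY : Measurable Y := (Measurable.of_discrete (f := f₂)).comp mres2
  have key : ∀ {g : (Word d → Bool) → ℝ}, Measurable g →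
      ∫ σ, g σ ∂(isingLaw d θ) = ∫ t, g (tau t) ∂(tLaw d θ) := fun hg =>
    integral_map measurable_tau.aemeasurable hg.aestronglyMeasurable
  rw [key (g := fun σ => X σ * Y σ) (mX.mul mY), key mX, key mY,
    key (g := fun σ => X σ ^ 2) (mX.pow_const 2), key (g := fun σ => Y σ ^ 2) (mY.pow_const 2)]
  exact cov_decay_t θ r γ hn f₁ f₂

end Vale.Agent.Lib.P161
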