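import Mathlib

/-!
The objects in which the main theorem is stated: the `d`-regular tree as the graph of reduced words
over `Fin d`, its automorphisms, and the weights of the Ising model.
-/

namespace Vale.Agent.Lib.P161

variable {d : ℕ}

/-- Vertices of the `d`-regular tree: reduced words over `Fin d`. -/
abbrev Word (d : ℕ) : Type := {l : List (Fin d) // l.IsChain (· ≠ ·)}

/-- The `d`-regular tree: two reduced words are adjacent when one is the other with its head removed. -/
def treeGraph (d : ℕ) : SimpleGraph (Word d) where
  Adj v w := (v.1 ≠ [] ∧ v.1.tail = w.1) ∨ (w.1 ≠ [] ∧ w.1.tail = v.1)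
  symm := ⟨fun _ _ h => Or.symm h⟩
  loopless := ⟨fun v h => by
    rcases h with ⟨h1, h2⟩ | ⟨h1, h2⟩ <;>
    · have := congrArg List.length h2
      cases hv : v.1 with
      | nil => exact h1 hv
      | cons a l => simp [hv] at this⟩

/-- Automorphisms of the tree. -/
abbrev Aut (d : ℕ) : Type := treeGraph d ≃g treeGraph d

/-- The spin attached to a Boolean: `false` is `+1` and `true` is `-1`. -/
def sp (b : Bool) : ℝ := if b then -1 else 1

/-- The edge weight `(1 + θ s s') / 2`. -/
noncomputable def wt (θ : ℝ) (a b : Bool) : ℝ := (1 + θ * sp a * sp b) / 2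

lemma wt_comm (θ : ℝ) (a b : Bool) : wt θ a b = wt θ b a := by
  unfold wt
  ring

/-- The edges of the tree inside a finite set. -/
noncomputable def edgesIn (D : Finset (Word d)) : Finset (Sym2 (Word d)) :=
  open Classical in D.sym2.filter (fun e => e ∈ (treeGraph d).edgeSet)

/-- The weight of an edge. -/
noncomputable def eWt (θ : ℝ) (η : Word d → Bool) : Sym2 (Word d) → ℝ :=
  Sym2.lift ⟨fun a b => wt θ (η a) (η b), fun _ _ => wt_comm _ _ _⟩

end Vale.Agent.Lib.P161
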