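import Vale.Agent.Lib.P161.Chain

/-!
From the fixed point of the chain to a factor of the noise with the law of the Ising model.
-/

namespace Vale.Agent.Lib.P161

open MeasureTheory ProbabilityTheory
open scoped ENNReal NNReal InnerProductSpace

variable {d : ℕ}

/-- The sign chosen from a field value `x` and a uniform variable `u`: the first value of `Bool` with
probability `(1 + tanh x) / 2`. -/
noncomputable def dec (x : ℝ) (u : unitInterval) : Bool :=
  open Classical in !decide ((u : ℝ) < (1 + Real.tanh x) / 2)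

/-- The probability of a sign. -/
noncomputable def qq (b : Bool) (x : ℝ) : ℝ := (1 + sp b * Real.tanh x) / 2

lemma qq_nonneg (b : Bool) (x : ℝ) : 0 ≤ qq b x := by
  have h1 := Real.tanh_lt_one x
  have h2 := Real.neg_one_lt_tanh x
  unfold qq
  rcases Bool.eq_false_or_eq_true b with h | h <;> rw [h] <;> simp <;> linarith

lemma qq_le_one (b : Bool) (x : ℝ) : qq b x ≤ 1 := by
  have h1 := Real.tanh_lt_one x
  have h2 := Real.neg_one_lt_tanh x
  unfold qq
  rcases Bool.eq_false_or_eq_true b with h | h <;> rw [h] <;> simp <;> linarith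

lemma measurable_qq (b : Bool) : Measurable (qq b) :=
  ((measurable_tanh'.const_mul _).const_add _).div_const _

lemma measurable_dec : Measurable (fun p : ℝ × unitInterval => dec p.1 p.2) := by
  classical
  refine measurable_to_bool ?_
  have h : (fun p : ℝ × unitInterval => dec p.1 p.2) ⁻¹' {true} =
      {p | (1 + Real.tanh p.1) / 2 ≤ (p.2 : ℝ)} := by
    ext p
    simp [dec, not_lt]
  rw [h]
  refine measurableSet_le ?_ ?_
  · exact ((measurable_tanh'.comp measurable_fst).const_add _).div_const _
  · exact measurable_subtype_coe.comp measurable_snd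

lemma volume_dec (x : ℝ) (b : Bool) :
    (volume : Measure unitInterval) {u | dec x u = b} = ENNReal.ofReal (qq b x) := by
  classical
  set p := (1 + Real.tanh x) / 2 with hp
  have h1 : 0 ≤ p := by
    have := Real.neg_one_lt_tanh x
    rw [hp]; linarith
  have h2 : p ≤ 1 := by
    have := Real.tanh_lt_one x
    rw [hp]; linarith
  set P : unitInterval := ⟨p, h1, h2⟩ with hP
  cases b with
  | false =>
    have hset : {u : unitInterval | dec x u = false} = Set.Iio P := by
      ext u
      simp only [dec, Set.mem_ofPred_eq, Set.mem_Iio, Bool.not_eq_false', decide_eq_true_eq]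
      rfl
    rw [hset, unitInterval.volume_Iio]
    unfold qq
    congr 1
    simp [hP, hp]
  | true =>
    have hset : {u : unitInterval | dec x u = true} = Set.Ici P := by
      ext u
      simp only [dec, Set.mem_ofPred_eq, Set.mem_Ici, Bool.not_eq_true', decide_eq_false_iff_not, not_lt]
      rfl
    rw [hset, unitInterval.volume_Ici]
    unfold qq
    congr 1
    simp only [hP, hp, sp_true]
    ring

section Factor

variable {β c s : ℝ} [Corr (Real.tanh β)] (O : Ops d (Real.tanh β) β c s)

/-- Hubbard-Stratonovich for the starting field: the spin law is recovered from the field. -/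
lemma prod_q_x0 (hβ : 0 ≤ β) (D : Finset (Word d)) (η : Word d → Bool) :
    ∫ ω, ∏ v ∈ D, qq (η v) (fmap (Real.tanh β) (x0K O).v ω v) ∂(PP d (Real.tanh β)) =
      (isingLaw d (Real.tanh β)).real (cyl D η) := by
  classical
  set G := gRep (GK O).v (GK_mem O) with hG
  have hgram : ∀ v w, ⟪G v, G w⟫_ℝ = (if v = w then c else 0) +
      (open Classical in if (treeGraph d).Adj v w then β else 0) := by
    intro v w
    rw [hG, inner_gRep]
    have := cov_GK O v w
    unfold covK qK at this
    convert this
  have hs := hs_identity GG_gauss G (fun v => gRep_mem _ _ v) hβ hgram D η (Ψ := fun _ => 1)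
    measurable_const (C := 1) (fun x => by simp)
  simp only [mul_one] at hs
  have h1 : ∫ σ, ∫ _y : Noise d, (open Classical in if ∀ v ∈ D, σ v = η v then (1 : ℝ) else 0) ∂(nu d)
      ∂(isingLaw d (Real.tanh β)) = (isingLaw d (Real.tanh β)).real (cyl D η) := by
    simp only [integral_const, probReal_univ, one_smul]
    have h2 : (fun σ : Word d → Bool => if ∀ v ∈ D, σ v = η v then (1 : ℝ) else 0) =
        (cyl D η).indicator 1 := by
      funext σ
      by_cases hh : ∀ v ∈ D, σ v = η v
      · rw [if_pos hh, Set.indicator_of_mem (show σ ∈ cyl D η from hh)]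
        rfl
      · rw [if_neg hh, Set.indicator_of_notMem (show σ ∉ cyl D η from hh)]
    rw [h2]
    exact integral_indicator_one (measurableSet_cyl D η)
  rw [← h1, hs]
  have hm : Measurable (fun ω : Om d => ∏ v ∈ D, qq (η v) (locF c β ω.1 v + G v ω.2)) :=
    Finset.measurable_prod _ fun v _ => (measurable_qq _).comp
      (((measurable_locF c β v).comp measurable_fst).add ((gs_meas (G v)).comp measurable_snd))
  have hb : ∀ ω : Om d, |∏ v ∈ D, qq (η v) (locF c β ω.1 v + G v ω.2)| ≤ 1 := by
    intro ω
    rw [Finset.abs_prod]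
    refine Finset.prod_le_one (fun _ _ => abs_nonneg _) fun v _ => ?_
    rw [abs_of_nonneg (qq_nonneg _ _)]
    exact qq_le_one _ _
  have h3 : ∫ ω, ∏ v ∈ D, qq (η v) (fmap (Real.tanh β) (x0K O).v ω v) ∂(PP d (Real.tanh β)) =
      ∫ ω, ∏ v ∈ D, qq (η v) (locF c β ω.1 v + G v ω.2) ∂(PP d (Real.tanh β)) := by
    refine integral_congr_ae ?_
    filter_upwards [fmap_x0 O] with ω h
    refine Finset.prod_congr rfl fun v _ => ?_
    rw [h v]
  rw [h3]
  unfold PP
  rw [integral_prod _ (integrable_bdd hm hb)]
  rfl

variable {f : Noise d → ℝ} (hf : Measurable f)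

/-- The value at `v` of the field with value `f` at the root. -/
noncomputable def fN (f : Noise d → ℝ) (v : Word d) (z : Noise d) : ℝ := f (actN (gm v).symm z)

/-- The factor map on the noise. -/
noncomputable def PhiN (f : Noise d → ℝ) (z : Noise d) (v : Word d) : Bool :=
  dec (fN f v (shfN z)) (z (v, 0)).2

include hf in
lemma measurable_fN (v : Word d) : Measurable (fN f v) := hf.comp (measurable_actN _)

include hf in
lemma measurable_PhiN : Measurable (PhiN f) := by
  refine measurable_pi_lambda _ fun v => ?_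
  exact measurable_dec.comp (f := fun z : Noise d => (fN f v (shfN z), (z (v, 0)).2))
    (((measurable_fN hf v).comp measurable_shfN).prodMk
      (measurable_snd.comp (measurable_pi_apply _)))

/-- The field of a function of the noise. -/
lemma fmap_rep {ξ : HH d (Real.tanh β)} (hrep : ξ =ᵐ[PP d (Real.tanh β)] f ∘ Prod.snd) :
    ∀ᵐ ω ∂(PP d (Real.tanh β)), ∀ v, fmap (Real.tanh β) ξ ω v = fN f v ω.2 := by
  rw [ae_all_iff]
  intro v
  have h1 := (mp_act (Real.tanh β) (gm v).symm).quasiMeasurePreserving.ae_eq_comp hrep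
  filter_upwards [UU_coe (Real.tanh β) (gm v) ξ, h1] with ω h2 h3
  simp only [fmap, fld]
  rw [h2, h3]
  rfl

include hf in
/-- The law of the factor on finite sets. -/
lemma law_PhiN (hβ : 0 ≤ β) {ξ : HH d (Real.tanh β)} (hrep : ξ =ᵐ[PP d (Real.tanh β)] f ∘ Prod.snd)
    (hlaw : flaw (Real.tanh β) ξ = flaw (Real.tanh β) (x0K O).v) (D : Finset (Word d)) (η : Word d → Bool) :
    (nu d) {z | ∀ v ∈ D, PhiN f z v = η v} = isingLaw d (Real.tanh β) (cyl D η) := by
  classical
  set S : Set (Noise d × (Word d → Zv)) := {p | ∀ v ∈ D, dec (fN f v p.1) (p.2 v).2 = η v} with hS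
  have hdm : ∀ v : Word d, Measurable (fun p : Noise d × (Word d → Zv) => dec (fN f v p.1) (p.2 v).2) :=
    fun v => measurable_dec.comp (f := fun p : Noise d × (Word d → Zv) => (fN f v p.1, (p.2 v).2))
      (((measurable_fN hf v).comp measurable_fst).prodMk
        (measurable_snd.comp ((measurable_pi_apply v).comp measurable_snd)))
  have hSm : MeasurableSet S := by
    have : S = ⋂ v ∈ D, (fun p : Noise d × (Word d → Zv) => dec (fN f v p.1) (p.2 v).2) ⁻¹' {η v} := by
      ext p
      simp [hS]
    rw [this]
    exact Finset.measurableSet_biInter _ fun v _ => hdm v (measurableSet_singleton _)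
  have h1 : (nu d) {z | ∀ v ∈ D, PhiN f z v = η v} = ((nu d).prod (nu0 d)) S :=
    mp_splitN.measure_preimage hSm.nullMeasurableSet
  rw [h1, Measure.prod_apply hSm]
  have h2 : ∀ z' : Noise d, (nu0 d) (Prod.mk z' ⁻¹' S) = ENNReal.ofReal (∏ v ∈ D, qq (η v) (fN f v z')) := by
    intro z'
    have hset : Prod.mk z' ⁻¹' S = Set.pi (D : Set (Word d)) (fun v => {x : Zv | dec (fN f v z') x.2 = η v}) := by
      ext t
      simp [hS, Set.mem_pi]
    have hmT : ∀ v ∈ D, MeasurableSet {x : Zv | dec (fN f v z') x.2 = η v} := by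
      intro v _
      have hm : Measurable (fun x : Zv => dec (fN f v z') x.2) :=
        measurable_dec.comp (f := fun x : Zv => (fN f v z', x.2)) (measurable_const.prodMk measurable_snd)
      exact hm (measurableSet_singleton (η v))
    rw [hset]
    unfold nu0
    rw [Measure.infinitePi_pi (μ := fun _ : Word d => mZ) hmT, ENNReal.ofReal_prod_of_nonneg
      (fun v _ => qq_nonneg _ _)]
    refine Finset.prod_congr rfl fun v _ => ?_
    rw [← volume_dec]
    have hsn : MeasurePreserving (Prod.snd : Zv → unitInterval) mZ volume := by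
      unfold mZ
      exact measurePreserving_snd
    exact hsn.measure_preimage (measurable_dec.comp (f := fun x : unitInterval => (fN f v z', x))
      (measurable_const.prodMk measurable_id) (measurableSet_singleton (η v))).nullMeasurableSet
  simp_rw [h2]
  have hm : Measurable (fun z' : Noise d => ∏ v ∈ D, qq (η v) (fN f v z')) :=
    Finset.measurable_prod _ fun v _ => (measurable_qq _).comp (measurable_fN hf v)
  have hb : ∀ z' : Noise d, |∏ v ∈ D, qq (η v) (fN f v z')| ≤ 1 := by
    intro ω
    rw [Finset.abs_prod]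
    refine Finset.prod_le_one (fun _ _ => abs_nonneg _) fun v _ => ?_
    rw [abs_of_nonneg (qq_nonneg _ _)]
    exact qq_le_one _ _
  rw [← ofReal_integral_eq_lintegral_ofReal (integrable_bdd hm hb)
    (Filter.Eventually.of_forall fun z' => Finset.prod_nonneg fun v _ => qq_nonneg _ _)]
  have h3 : ∫ z', ∏ v ∈ D, qq (η v) (fN f v z') ∂(nu d) =
      ∫ ω, ∏ v ∈ D, qq (η v) (fmap (Real.tanh β) ξ ω v) ∂(PP d (Real.tanh β)) := by
    rw [← mp_integral (mp_snd (d := d) (Real.tanh β)) hm.aestronglyMeasurable]
    refine integral_congr_ae ?_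
    filter_upwards [fmap_rep hrep] with ω h
    refine Finset.prod_congr rfl fun v _ => ?_
    rw [h v]
  have hT : Measurable (fun t : Word d → ℝ => ∏ v ∈ D, qq (η v) (t v)) :=
    Finset.measurable_prod _ fun v _ => (measurable_qq _).comp (measurable_pi_apply v)
  have h4 : ∀ Z : HH d (Real.tanh β), ∫ ω, ∏ v ∈ D, qq (η v) (fmap (Real.tanh β) Z ω v) ∂(PP d (Real.tanh β)) =
      ∫ t, ∏ v ∈ D, qq (η v) (t v) ∂(flaw (Real.tanh β) Z) := by
    intro Z
    unfold flaw
    rw [integral_map (measurable_fmap _ Z).aemeasurable hT.aestronglyMeasurable]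
  rw [h3, h4, hlaw, ← h4, prod_q_x0 O hβ D η, ofReal_measureReal]

include hf in
/-- Equivariance of the factor map. -/
lemma equivariant_PhiN {ξ : HH d (Real.tanh β)} (hξ : ξ ∈ KK (Real.tanh β))
    (hrep : ξ =ᵐ[PP d (Real.tanh β)] f ∘ Prod.snd) (g : Aut d) :
    ∀ᵐ z ∂(nu d), PhiN f (actN g z) = actS g (PhiN f z) := by
  -- invariance of `f` under the stabiliser
  have hinv : ∀ k : Aut d, k root = root → ∀ᵐ t ∂(nu d), f (actN k t) = f t := by
    intro k hk
    have hk' : k.symm root = root := by
      have := k.symm_apply_apply root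
      rwa [hk] at this
    have h1 := UU_coe (Real.tanh β) k.symm ξ
    rw [hξ.2 _ hk'] at h1
    have h2 := (mp_act (Real.tanh β) k.symm.symm).quasiMeasurePreserving.ae_eq_comp hrep
    have h3 : ∀ᵐ ω ∂(PP d (Real.tanh β)), f (actN k ω.2) = f ω.2 := by
      filter_upwards [h1, h2, hrep] with ω e1 e2 e3
      have e4 : (ξ ∘ act k.symm.symm) ω = (f ∘ Prod.snd ∘ act k.symm.symm) ω := e2
      have e5 : f (actN k ω.2) = (f ∘ Prod.snd ∘ act k.symm.symm) ω := rfl
      rw [e5, ← e4, ← e1, e3]
      rfl
    have hms : MeasurableSet {t : Noise d | f (actN k t) = f t} :=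
      measurableSet_eq_fun (hf.comp (measurable_actN k)) hf
    have h4 := (mp_snd (d := d) (Real.tanh β)).map_eq
    rw [← h4, ae_map_iff (mp_snd (Real.tanh β)).measurable.aemeasurable hms]
    exact h3
  have hall : ∀ v : Word d, ∀ᵐ z ∂(nu d), PhiN f (actN g z) v = actS g (PhiN f z) v := by
    intro v
    set h₂ : Aut d := (gm (g.symm v)).symm with hh₂
    set h₁ : Aut d := g.trans (gm v).symm with hh₁
    set k : Aut d := h₂.symm.trans h₁ with hk
    have hkroot : k root = root := by
      show (gm v).symm (g ((gm (g.symm v)) root)) = root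
      rw [gm_root]
      have e1 : g (g.symm v) = v := g.apply_symm_apply v
      rw [e1]
      have := (gm v).symm_apply_apply root
      rwa [gm_root] at this
    have h5 : MeasurePreserving (fun z : Noise d => actN h₂ (shfN z)) (nu d) (nu d) :=
      (mp_actN h₂).comp mp_shfN
    have h6 := h5.quasiMeasurePreserving.ae (hinv k hkroot)
    filter_upwards [h6] with z hz
    show dec (fN f v (shfN (actN g z))) (actN g z (v, 0)).2 =
      dec (fN f (g.symm v) (shfN z)) (z (g.symm v, 0)).2
    have e2 : (actN g z (v, 0)) = z (g.symm v, 0) := rfl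
    have e3 : fN f v (shfN (actN g z)) = fN f (g.symm v) (shfN z) := by
      have e4 : actN (gm v).symm (shfN (actN g z)) = actN k (actN h₂ (shfN z)) := by
        funext i
        show shfN z (g.symm ((gm v).symm.symm i.1), i.2) = shfN z (h₂.symm (k.symm i.1), i.2)
        congr 2
        show g.symm (gm v i.1) = (gm (g.symm v)) ((gm (g.symm v)).symm (g.symm (gm v i.1)))
        simp
      unfold fN
      rw [e4]
      exact hz
    rw [e2, e3]
  filter_upwards [ae_all_iff.mpr hall] with z hz
  funext v
  exact hz v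

end Factor

end Vale.Agent.Lib.P161
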