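import Mathlib

/-!
Functional calculus for a bounded symmetric operator on a real Hilbert space, done by hand in the
closed subalgebra generated by the operator: inverses, square roots, and a contraction estimate.
-/

namespace Vale.Agent.Lib.P161

open scoped InnerProductSpace

section Generic

variable {A : Type*} [NormedRing A] [NormedAlgebra ℝ A] [CompleteSpace A]

/-- The square root of `1 - z` in a commutative Banach algebra, for `‖z‖ < 1`. -/
lemma sqrt_exists (hcomm : ∀ a b : A, a * b = b * a) (z : A) (hz : ‖z‖ < 1) :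
    ∃ x : A, x * x = 1 - z := by
  set w : ℝ := 1 - √(1 - ‖z‖) with hw
  have hsq : √(1 - ‖z‖) ^ 2 = 1 - ‖z‖ := Real.sq_sqrt (by linarith)
  have hs0 : 0 < √(1 - ‖z‖) := Real.sqrt_pos.mpr (by linarith)
  have hs1 : √(1 - ‖z‖) ≤ 1 := Real.sqrt_le_one.mpr (by linarith [norm_nonneg z])
  have hw0 : 0 ≤ w := by rw [hw]; linarith
  have hw1 : w < 1 := by rw [hw]; linarith
  have hww : (‖z‖ + w ^ 2) / 2 = w := by
    rw [hw]
    nlinarith
  set f : A → A := fun W => (1 / 2 : ℝ) • (z + W * W) with hf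
  set s : Set A := Metric.closedBall 0 w with hs
  have hsub : ∀ W ∈ s, ‖W‖ ≤ w := fun W hW => mem_closedBall_zero_iff.mp hW
  have hmaps : Set.MapsTo f s s := by
    intro W hW
    have hW' := hsub W hW
    simp only [hs, mem_closedBall_zero_iff, hf, norm_smul]
    have h1 : ‖z + W * W‖ ≤ ‖z‖ + w ^ 2 := by
      refine (norm_add_le _ _).trans (add_le_add le_rfl ?_)
      rw [sq]
      exact (norm_mul_le _ _).trans (mul_le_mul hW' hW' (norm_nonneg _) hw0)
    have h2 : ‖(1 / 2 : ℝ)‖ = 1 / 2 := by norm_num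
    rw [h2]
    linarith
  have hcomplete : IsComplete s := Metric.isClosed_closedBall.isComplete
  have hcontr : ContractingWith ⟨w, hw0⟩ (hmaps.restrict f s s) := by
    refine ⟨by exact_mod_cast hw1, ?_⟩
    refine LipschitzWith.of_dist_le_mul ?_
    rintro ⟨a, ha⟩ ⟨b, hb⟩
    have ha' := hsub a ha
    have hb' := hsub b hb
    show dist (f a) (f b) ≤ w * dist a b
    rw [dist_eq_norm, dist_eq_norm]
    have e : f a - f b = (1 / 2 : ℝ) • ((a - b) * (a + b)) := by
      simp only [hf]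
      rw [← smul_sub]
      congr 1
      have := hcomm a b
      noncomm_ring
      rw [this]
      abel
    rw [e, norm_smul]
    have h2 : ‖(1 / 2 : ℝ)‖ = 1 / 2 := by norm_num
    rw [h2]
    have h3 : ‖(a - b) * (a + b)‖ ≤ ‖a - b‖ * (w + w) :=
      (norm_mul_le _ _).trans (mul_le_mul_of_nonneg_left
        ((norm_add_le _ _).trans (add_le_add ha' hb')) (norm_nonneg _))
    linarith
  have h0 : (0 : A) ∈ s := by simpa [hs] using hw0
  obtain ⟨W, _, hW, _⟩ := hcontr.exists_fixedPoint' hcomplete hmaps h0 (edist_ne_top _ _)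
  refine ⟨1 - W, ?_⟩
  have hfix : (1 / 2 : ℝ) • (z + W * W) = W := hW
  have h2 : (2 : ℝ) • W = z + W * W := by
    conv_lhs => rw [← hfix]
    rw [smul_smul]
    norm_num
  have h3 : W + W = z + W * W := by
    rw [← two_smul ℝ W, h2]
  have h4 : (1 - W) * (1 - W) = 1 - (W + W) + W * W := by noncomm_ring
  rw [h4, h3]
  abel

end Generic

variable {K : Type*} [NormedAddCommGroup K] [InnerProductSpace ℝ K]

/-- The closed subalgebra generated by an operator. -/
noncomputable def alg (L : K →L[ℝ] K) : Subalgebra ℝ (K →L[ℝ] K) :=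
  (Algebra.adjoin ℝ {L}).topologicalClosure

lemma self_mem_alg (L : K →L[ℝ] K) : L ∈ alg L :=
  Subalgebra.le_topologicalClosure _ (Algebra.self_mem_adjoin_singleton ℝ L)

lemma adjoin_comm (L : K →L[ℝ] K) {a b : K →L[ℝ] K} (ha : a ∈ Algebra.adjoin ℝ {L})
    (hb : b ∈ Algebra.adjoin ℝ {L}) : a * b = b * a := by
  have h := Algebra.isMulCommutative_adjoin ℝ (s := {L}) (by
    intro a ha b hb
    rw [Set.mem_singleton_iff] at ha hb
    rw [ha, hb])
  have := h.is_comm.comm (⟨a, ha⟩ : Algebra.adjoin ℝ {L}) ⟨b, hb⟩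
  exact congrArg Subtype.val this

/-- Induction principle for the closed subalgebra generated by an operator. -/
theorem alg_induction (L : K →L[ℝ] K) {P : (K →L[ℝ] K) → Prop} (hcl : IsClosed {T | P T})
    (hL : P L) (hr : ∀ r : ℝ, P (algebraMap ℝ _ r)) (hadd : ∀ a b, P a → P b → P (a + b))
    (hmul : ∀ a b, P a → P b → P (a * b)) {T : K →L[ℝ] K} (hT : T ∈ alg L) : P T := by
  have h0 : ∀ a ∈ Algebra.adjoin ℝ {L}, P a := by
    intro a ha
    induction ha using Algebra.adjoin_induction with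
    | mem z hz =>
      rw [Set.mem_singleton_iff] at hz
      rw [hz]
      exact hL
    | algebraMap r => exact hr r
    | add a b _ _ ha hb => exact hadd a b ha hb
    | mul a b _ _ ha hb => exact hmul a b ha hb
  exact closure_minimal (fun x hx => h0 x hx) hcl hT

/-- Elements of the generated closed subalgebra commute. -/
theorem alg_comm (L : K →L[ℝ] K) {T T' : K →L[ℝ] K} (hT : T ∈ alg L) (hT' : T' ∈ alg L) :
    T * T' = T' * T := by
  have h1 : ∀ a ∈ Algebra.adjoin ℝ {L}, ∀ b ∈ alg L, a * b = b * a := by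
    intro a ha b hb
    have hcl : IsClosed {x : K →L[ℝ] K | a * x = x * a} :=
      isClosed_eq (continuous_const.mul continuous_id) (continuous_id.mul continuous_const)
    exact closure_minimal (fun x hx => adjoin_comm L ha hx) hcl hb
  have hcl : IsClosed {x : K →L[ℝ] K | x * T' = T' * x} :=
    isClosed_eq (continuous_id.mul continuous_const) (continuous_const.mul continuous_id)
  exact closure_minimal (fun x hx => h1 x hx T' hT') hcl hT

/-- Elements of the generated closed subalgebra are symmetric. -/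
theorem alg_symm (L : K →L[ℝ] K) (hL : ∀ x y, ⟪L x, y⟫_ℝ = ⟪x, L y⟫_ℝ)
    {T : K →L[ℝ] K} (hT : T ∈ alg L) (x y : K) : ⟪T x, y⟫_ℝ = ⟪x, T y⟫_ℝ := by
  have h0 : ∀ a ∈ Algebra.adjoin ℝ {L}, ∀ x y, ⟪a x, y⟫_ℝ = ⟪x, a y⟫_ℝ := by
    intro a ha
    induction ha using Algebra.adjoin_induction with
    | mem z hz =>
      rw [Set.mem_singleton_iff] at hz
      rw [hz]
      exact hL
    | algebraMap r =>
      intro x y
      simp [Algebra.algebraMap_eq_smul_one, inner_smul_left, inner_smul_right]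
    | add a b _ _ ha hb =>
      intro x y
      simp [inner_add_left, inner_add_right, ha, hb]
    | @mul a b ha' hb' ha hb =>
      intro x y
      have hcomm : a * b = b * a := adjoin_comm L ha' hb'
      have e1 : (a * b) x = a (b x) := rfl
      have e2 : (a * b) y = b (a y) := by rw [hcomm]; rfl
      rw [e1, e2, ha, hb]
  have hcl : IsClosed {T : K →L[ℝ] K | ⟪T x, y⟫_ℝ = ⟪x, T y⟫_ℝ} := by
    refine isClosed_eq ?_ ?_
    · have : Continuous (fun T : K →L[ℝ] K => T x) := by fun_prop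
      exact this.inner continuous_const
    · have : Continuous (fun T : K →L[ℝ] K => T y) := by fun_prop
      exact continuous_const.inner this
  exact closure_minimal (fun a ha => h0 a ha x y) hcl hT

/-- An elementary inequality behind the contraction estimate. -/
lemma poly_ineq {A B C ρ c β s a : ℝ} (hA : 0 ≤ A) (hC : C ≤ ρ ^ 2 * A) (hB1 : B ≤ ρ * A)
    (hB2 : -(ρ * A) ≤ B) (hρ : 0 ≤ ρ) (hβ : 0 ≤ β) (hc : β * ρ < c) (hs : 0 < s)
    (hs' : s < c - β * ρ) (ha : a = 1 - s / (c + β * ρ)) :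
    (c - s) ^ 2 * A + 2 * (c - s) * β * B + β ^ 2 * C ≤
      a ^ 2 * (c ^ 2 * A + 2 * c * β * B + β ^ 2 * C) := by
  have hq : 0 < c + β * ρ := by nlinarith [mul_nonneg hβ hρ]
  set q := c + β * ρ with hqdef
  have hβρ : 0 ≤ β * ρ := mul_nonneg hβ hρ
  have hsq : s < q := by rw [hqdef]; linarith
  have ha0 : 0 ≤ a := by
    rw [ha, sub_nonneg, div_le_one hq]
    exact hsq.le
  have ha1 : a ≤ 1 := by
    rw [ha]
    have : 0 ≤ s / q := by positivity
    linarith
  have haq : a * q = q - s := by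
    rw [ha]
    field_simp
  set k := a ^ 2 * c - (c - s) with hk
  set M := a ^ 2 * c ^ 2 - (c - s) ^ 2 + β ^ 2 * ρ ^ 2 * (a ^ 2 - 1) with hM
  have hp1 : M + 2 * β * ρ * k = 0 := by
    have : M + 2 * β * ρ * k = (a * q) ^ 2 - (q - s) ^ 2 := by
      rw [hM, hk, hqdef]
      ring
    rw [this, haq]
    ring
  have hp2 : 0 ≤ M - 2 * β * ρ * k := by
    set t := c - β * ρ with ht
    have : M - 2 * β * ρ * k = (a * t) ^ 2 - (t - s) ^ 2 := by
      rw [hM, hk, ht]
      ring
    rw [this]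
    have ht0 : 0 < t - s := by rw [ht]; linarith
    have ht1 : t - s ≤ a * t := by
      have : a * t = t - s * (t / q) := by
        rw [ha]
        field_simp
      rw [this]
      have h1 : t / q ≤ 1 := by
        rw [div_le_one hq, ht, hqdef]
        linarith
      nlinarith
    nlinarith
  have hmain : 0 ≤ A * M + 2 * β * B * k := by
    rcases hρ.eq_or_lt with h0 | h0
    · rw [← h0] at hB1 hB2 hp1
      have hB0 : B = 0 := by
        simp only [zero_mul, neg_zero] at hB1 hB2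
        linarith
      rw [hB0]
      have hM0 : 0 ≤ M := by
        simp only [mul_zero, zero_mul, add_zero] at hp1
        linarith
      nlinarith
    · have key : 2 * ρ * (A * M + 2 * β * B * k) =
          (ρ * A + B) * (M + 2 * β * ρ * k) + (ρ * A - B) * (M - 2 * β * ρ * k) := by ring
      have h3 : 0 ≤ (ρ * A + B) * (M + 2 * β * ρ * k) + (ρ * A - B) * (M - 2 * β * ρ * k) := by
        rw [hp1, mul_zero, zero_add]
        exact mul_nonneg (by linarith) hp2
      rw [← key] at h3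
      exact nonneg_of_mul_nonneg_right h3 (by positivity)
  have hC2 : β ^ 2 * (a ^ 2 - 1) * C ≥ β ^ 2 * (a ^ 2 - 1) * (ρ ^ 2 * A) := by
    have h1 : β ^ 2 * (a ^ 2 - 1) ≤ 0 := by
      have : a ^ 2 ≤ 1 := by nlinarith
      nlinarith [sq_nonneg β]
    nlinarith
  have hfinal : a ^ 2 * (c ^ 2 * A + 2 * c * β * B + β ^ 2 * C) -
      ((c - s) ^ 2 * A + 2 * (c - s) * β * B + β ^ 2 * C) =
      (A * M + 2 * β * B * k) + (β ^ 2 * (a ^ 2 - 1) * C - β ^ 2 * (a ^ 2 - 1) * (ρ ^ 2 * A)) := by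
    rw [hM, hk]
    ring
  linarith

variable [CompleteSpace K]

/-- The operators needed in the chain: the inverse and square root of `Q = c + β L`, the operator
`T₁ = 1 - s Q⁻¹`, a square root of `s T₁`, and the contraction bound for `T₁`. -/
theorem exists_ops (L : K →L[ℝ] K) (hL : ∀ x y, ⟪L x, y⟫_ℝ = ⟪x, L y⟫_ℝ)
    {ρ c β s : ℝ} (hρ : 0 ≤ ρ) (hbd : ∀ x, ‖L x‖ ≤ ρ * ‖x‖) (hβ : 0 ≤ β) (hc : β * ρ < c)
    (hc1 : c + β * ρ < 1) (hs : 0 < s) (hs' : s < c - β * ρ) :
    ∃ R Sq T₁ E : K →L[ℝ] K, R ∈ alg L ∧ Sq ∈ alg L ∧ T₁ ∈ alg L ∧ E ∈ alg L ∧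
      (c • (1 : K →L[ℝ] K) + β • L) * R = 1 ∧
      Sq * Sq = c • (1 : K →L[ℝ] K) + β • L ∧
      T₁ = 1 - s • R ∧
      E * E = s • T₁ ∧
      ∀ x, ‖T₁ x‖ ≤ (1 - s / (c + β * ρ)) * ‖x‖ := by
  have hβρ : 0 ≤ β * ρ := mul_nonneg hβ hρ
  have hc0 : 0 < c := by linarith
  have hcl : IsClosed ((alg L : Subalgebra ℝ (K →L[ℝ] K)) : Set (K →L[ℝ] K)) :=
    Subalgebra.isClosed_topologicalClosure _
  haveI : CompleteSpace (alg L) := hcl.completeSpace_coe
  have hcomm : ∀ a b : alg L, a * b = b * a := fun a b =>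
    Subtype.ext (alg_comm L a.2 b.2)
  have hLn : ‖L‖ ≤ ρ := L.opNorm_le_bound hρ hbd
  set L' : alg L := ⟨L, self_mem_alg L⟩ with hL'
  have hnorm : ∀ a : alg L, ‖a‖ = ‖(a : K →L[ℝ] K)‖ := fun a => rfl
  -- the element `z₁`
  set z₁ : alg L := (-(β / c)) • L' with hz₁
  have hz₁n : ‖z₁‖ < 1 := by
    show ‖(-(β / c)) • L‖ < 1
    rw [norm_smul]
    simp only [norm_neg, Real.norm_eq_abs]
    rw [abs_of_nonneg (by positivity)]
    calc β / c * ‖L‖ ≤ β / c * ρ := mul_le_mul_of_nonneg_left hLn (by positivity)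
      _ = β * ρ / c := by ring
      _ < 1 := by rw [div_lt_one hc0]; exact hc
  -- the inverse
  set u := Units.oneSub z₁ hz₁n with hu
  have hu1 : ((u : alg L)) = 1 - z₁ := rfl
  set R' : alg L := (1 / c) • ((u⁻¹ : (alg L)ˣ) : alg L) with hR'
  have hQ' : c • (1 : alg L) + β • L' = c • (1 - z₁) := by
    have e : c * -(β / c) = -β := by field_simp
    rw [hz₁, smul_sub, smul_smul, e, neg_smul, sub_neg_eq_add]
  have hQR : (c • (1 : alg L) + β • L') * R' = 1 := by
    rw [hQ', hR', ← hu1, smul_mul_smul_comm, Units.mul_inv, mul_one_div_cancel hc0.ne', one_smul]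
  -- the root of `Q`
  obtain ⟨x₁, hx₁⟩ := sqrt_exists hcomm z₁ hz₁n
  set Sq' : alg L := √c • x₁ with hSq'
  have hSq2 : Sq' * Sq' = c • (1 : alg L) + β • L' := by
    rw [hSq', smul_mul_smul_comm, hx₁, Real.mul_self_sqrt hc0.le, hQ']
  -- the operator identity `Q R = 1` on vectors
  have hQRv : ∀ x : K, c • ((R' : K →L[ℝ] K) x) + β • L ((R' : K →L[ℝ] K) x) = x := by
    intro x
    have := congrArg (fun a : alg L => (a : K →L[ℝ] K) x) hQR
    simpa using this
  have hRn : ∀ x : K, ‖(R' : K →L[ℝ] K) x‖ ≤ (c - β * ρ)⁻¹ * ‖x‖ := by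
    intro x
    set y := (R' : K →L[ℝ] K) x with hy
    have h1 : ‖c • y‖ - ‖β • L y‖ ≤ ‖x‖ := by
      rw [← hQRv x]
      exact norm_sub_le_norm_add _ _
    rw [norm_smul, norm_smul, Real.norm_eq_abs, Real.norm_eq_abs, abs_of_pos hc0, abs_of_nonneg hβ] at h1
    have h2 : β * ‖L y‖ ≤ β * (ρ * ‖y‖) := mul_le_mul_of_nonneg_left (hbd y) hβ
    have h3 : (c - β * ρ) * ‖y‖ ≤ ‖x‖ := by nlinarith
    have h4 : 0 < c - β * ρ := by linarith
    rw [inv_mul_eq_div, le_div_iff₀ h4]
    linarith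
  -- the element `z₂`
  set z₂ : alg L := s • R' with hz₂
  have hz₂n : ‖z₂‖ < 1 := by
    have h4 : 0 < c - β * ρ := by linarith
    have h1 : ‖(R' : K →L[ℝ] K)‖ ≤ (c - β * ρ)⁻¹ :=
      ContinuousLinearMap.opNorm_le_bound _ (by positivity) hRn
    show ‖s • (R' : K →L[ℝ] K)‖ < 1
    rw [norm_smul, Real.norm_eq_abs, abs_of_pos hs]
    calc s * ‖(R' : K →L[ℝ] K)‖ ≤ s * (c - β * ρ)⁻¹ := mul_le_mul_of_nonneg_left h1 hs.le
      _ < 1 := by
        rw [← div_eq_mul_inv, div_lt_one h4]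
        exact hs'
  obtain ⟨x₂, hx₂⟩ := sqrt_exists hcomm z₂ hz₂n
  set T' : alg L := 1 - z₂ with hT'
  set E' : alg L := √s • x₂ with hE'
  have hE2 : E' * E' = s • T' := by
    rw [hE', smul_mul_smul_comm, hx₂, Real.mul_self_sqrt hs.le]
  refine ⟨R', Sq', T', E', R'.2, Sq'.2, T'.2, E'.2, ?_, ?_, ?_, ?_, ?_⟩
  · have := congrArg (Subtype.val) hQR
    simpa using this
  · have := congrArg (Subtype.val) hSq2
    simpa using this
  · rw [hT', hz₂]
    simp
  · have := congrArg (Subtype.val) hE2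
    simpa using this
  · intro x
    set y := (R' : K →L[ℝ] K) x with hy
    have hx : c • y + β • L y = x := hQRv x
    have hTx : (T' : K →L[ℝ] K) x = (c - s) • y + β • L y := by
      have e : (T' : K →L[ℝ] K) x = x - s • y := by
        rw [hT', hz₂]
        simp [hy]
      rw [e, ← hx, sub_smul]
      abel
    have hA : 0 ≤ ‖y‖ ^ 2 := by positivity
    have hB : |⟪y, L y⟫_ℝ| ≤ ρ * ‖y‖ ^ 2 := by
      refine (abs_real_inner_le_norm _ _).trans ?_
      have := mul_le_mul_of_nonneg_left (hbd y) (norm_nonneg y)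
      nlinarith
    have hC : ‖L y‖ ^ 2 ≤ ρ ^ 2 * ‖y‖ ^ 2 := by
      rw [← mul_pow]
      exact pow_le_pow_left₀ (norm_nonneg _) (hbd y) 2
    have hexp : ∀ t : ℝ, ‖t • y + β • L y‖ ^ 2 =
        t ^ 2 * ‖y‖ ^ 2 + 2 * t * β * ⟪y, L y⟫_ℝ + β ^ 2 * ‖L y‖ ^ 2 := by
      intro t
      rw [norm_add_sq_real, norm_smul, norm_smul, inner_smul_left, inner_smul_right]
      simp only [Real.norm_eq_abs, mul_pow, sq_abs, conj_trivial]
      ring
    have hmain := poly_ineq (A := ‖y‖ ^ 2) (B := ⟪y, L y⟫_ℝ) (C := ‖L y‖ ^ 2) (ρ := ρ) (c := c)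
      (β := β) (s := s) (a := 1 - s / (c + β * ρ)) hA hC ((le_abs_self _).trans hB)
      (neg_le_of_abs_le hB) hρ hβ hc hs hs' rfl
    rw [← hexp (c - s), ← hexp c, hx, ← hTx] at hmain
    have ha0 : 0 ≤ 1 - s / (c + β * ρ) := by
      rw [sub_nonneg, div_le_one (by linarith)]
      linarith
    have := abs_le_of_sq_le_sq' (a := ‖(T' : K →L[ℝ] K) x‖) (b := (1 - s / (c + β * ρ)) * ‖x‖)
      (by rw [mul_pow]; exact hmain) (by positivity)
    exact this.2

end Vale.Agent.Lib.P161
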