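import Vale.Agent.Lib.P161.Tempered
import Vale.Agent.Lib.P161.OpCalc

/-!
The Hilbert space of stabiliser invariant functions of mean zero: each such function is the value
at the root of an equivariant field on the tree, and the adjacency operator acts on it by summing
over neighbours.
-/

namespace Vale.Agent.Lib.P161

open MeasureTheory ProbabilityTheory
open scoped ENNReal NNReal InnerProductSpace

variable {d : ℕ}

/-- The `i`-th neighbour of `v`. -/
noncomputable def nb (v : Word d) (i : Fin d) : Word d := gm v (letter i)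

lemma adj_nb (v : Word d) (i : Fin d) : (treeGraph d).Adj v (nb v i) := by
  have := (adj_aut_root_iff (gm v) (u := nb v i)).mpr ⟨i, rfl⟩
  simpa using this

lemma exists_nb {v u : Word d} (h : (treeGraph d).Adj v u) : ∃ i, nb v i = u := by
  have h' : (treeGraph d).Adj (gm v root) u := by simpa using h
  exact (adj_aut_root_iff (gm v)).mp h'

lemma nb_injective (v : Word d) : Function.Injective (nb v) := aut_letter_injective (gm v)

section Hilbert

variable (θ : ℝ) [Corr θ]

lemma inner_oneL_UU (g : Aut d) (ξ : HH d θ) : ⟪oneL θ, UU θ g ξ⟫_ℝ = ⟪oneL θ, ξ⟫_ℝ := by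
  rw [← integral_eq_inner, ← integral_eq_inner, integral_congr_ae (UU_coe θ g ξ)]
  exact mp_integral (mp_act θ g.symm) (Lp.aestronglyMeasurable ξ)

/-- Invariance under the stabiliser of the root, and mean zero. -/
def KK : Submodule ℝ (HH d θ) where
  carrier := {ξ | ⟪oneL θ, ξ⟫_ℝ = 0 ∧ ∀ k : Aut d, k root = root → UU θ k ξ = ξ}
  add_mem' := by
    rintro ξ η ⟨h1, h2⟩ ⟨h3, h4⟩
    refine ⟨by rw [inner_add_right, h1, h3, add_zero], fun k hk => ?_⟩
    rw [map_add, h2 k hk, h4 k hk]
  zero_mem' := by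
    refine ⟨inner_zero_right _, fun k _ => map_zero _⟩
  smul_mem' := by
    rintro c ξ ⟨h1, h2⟩
    refine ⟨by rw [inner_smul_right, h1, mul_zero], fun k hk => ?_⟩
    rw [map_smul, h2 k hk]

lemma KK_closed : IsClosed ((KK θ : Submodule ℝ (HH d θ)) : Set (HH d θ)) := by
  have h : ((KK θ : Submodule ℝ (HH d θ)) : Set (HH d θ)) =
      {ξ | ⟪oneL θ, ξ⟫_ℝ = 0} ∩ ⋂ k : {k : Aut d // k root = root}, {ξ | UU θ k.1 ξ = ξ} := by
    ext ξ
    simp only [KK, Submodule.coe_set_mk, AddSubmonoid.coe_set_mk, AddSubsemigroup.coe_set_mk,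
      Set.mem_inter_iff, Set.mem_iInter, Subtype.forall]
    rfl
  rw [h]
  refine IsClosed.inter ?_ (isClosed_iInter fun k => ?_)
  · exact isClosed_eq (continuous_const.inner continuous_id) continuous_const
  · exact isClosed_eq (UU θ k.1).continuous continuous_id

/-- The value of a field at a vertex. -/
noncomputable def fld (ξ : HH d θ) (v : Word d) : HH d θ := UU θ (gm v) ξ

lemma UU_eq_of_root {ξ : HH d θ} (hξ : ξ ∈ KK θ) {g g' : Aut d} (h : g root = g' root) :
    UU θ g ξ = UU θ g' ξ := by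
  have hk : (g'.trans g.symm) root = root := by
    show g.symm (g' root) = root
    rw [← h]
    simp
  have h1 : UU θ (g'.trans g.symm) ξ = ξ := hξ.2 _ hk
  have e : (g'.trans g.symm).trans g = g' := RelIso.ext fun v => by
    show g (g.symm (g' v)) = g' v
    simp
  conv_lhs => rw [← h1]
  rw [UU_UU, e]

lemma UU_eq_fld {ξ : HH d θ} (hξ : ξ ∈ KK θ) (g : Aut d) : UU θ g ξ = fld θ ξ (g root) :=
  UU_eq_of_root θ hξ (by simp)

lemma fld_root {ξ : HH d θ} (hξ : ξ ∈ KK θ) : fld θ ξ root = ξ := by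
  have : fld θ ξ root = UU θ SimpleGraph.Iso.refl ξ := (UU_eq_of_root θ hξ (by simp))
  rw [this, UU_refl]

lemma UU_fld {ξ : HH d θ} (hξ : ξ ∈ KK θ) (g : Aut d) (v : Word d) :
    UU θ g (fld θ ξ v) = fld θ ξ (g v) := by
  unfold fld
  rw [UU_UU]
  exact UU_eq_of_root θ hξ (by simp)

lemma fld_LL {ξ : HH d θ} (hξ : ξ ∈ KK θ) (v : Word d) :
    fld θ (LL θ ξ) v = ∑ i : Fin d, fld θ ξ (nb v i) := by
  unfold fld
  rw [UU_LL]
  refine Finset.sum_congr rfl fun i _ => ?_
  exact UU_eq_of_root θ hξ (by simp [nb])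

/-- The adjacency operator preserves the invariant functions. -/
lemma LL_mem {ξ : HH d θ} (hξ : ξ ∈ KK θ) : LL θ ξ ∈ KK θ := by
  refine ⟨?_, fun k hk => ?_⟩
  · rw [LL_apply, inner_sum]
    refine Finset.sum_eq_zero fun i _ => ?_
    rw [inner_oneL_UU, hξ.1]
  · have hex : ∀ i : Fin d, ∃ j : Fin d, k (letter i) = letter j := by
      intro i
      have h1 : (treeGraph d).Adj root (letter i) := adj_root_iff.mpr ⟨i, rfl⟩
      have h2 : (treeGraph d).Adj (k root) (k (letter i)) := k.map_adj_iff.mpr h1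
      rw [hk] at h2
      obtain ⟨j, hj⟩ := adj_root_iff.mp h2
      exact ⟨j, hj⟩
    choose π hπ using hex
    have hinj : Function.Injective π := by
      intro a b hab
      have h1 : k (letter a) = k (letter b) := by rw [hπ, hπ, hab]
      have h2 := k.injective h1
      have h3 : [a] = [b] := congrArg Subtype.val h2
      simpa using h3
    rw [UU_LL, LL_apply]
    have h2 : ∀ i : Fin d, UU θ ((flipAut i).trans k) ξ = UU θ (flipAut (π i)) ξ := fun i =>
      UU_eq_of_root θ hξ (by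
        show k (flipAut i root) = flipAut (π i) root
        rw [flipAut_root, flipAut_root, hπ])
    simp_rw [h2]
    exact hinj.bijective_of_finite.sum_comp (fun j => UU θ (flipAut j) ξ)

/-- The norm squared as an integral. -/
lemma norm_sq_eq_integral (f : HH d θ) : ‖f‖ ^ 2 = ∫ ω, f ω ^ 2 ∂(PP d θ) := by
  rw [← real_inner_self_eq_norm_sq, L2.inner_def]
  refine integral_congr_ae (Filter.Eventually.of_forall fun ω => ?_)
  simp [sq]

/-- `L¹` norm bounded by `L²` norm. -/
lemma integral_abs_le_norm (f : HH d θ) : ∫ ω, |f ω| ∂(PP d θ) ≤ ‖f‖ := by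
  have hf2 : Integrable (fun ω => f ω ^ 2) (PP d θ) := (Lp.memLp f).integrable_sq
  have hf1 : Integrable (fun ω => |f ω|) (PP d θ) :=
    ((Lp.memLp f).integrable (by norm_num)).abs
  set a := ∫ ω, |f ω| ∂(PP d θ) with ha
  have ha0 : 0 ≤ a := integral_nonneg fun ω => abs_nonneg _
  have h0 : 0 ≤ ∫ ω, (|f ω| - a) ^ 2 ∂(PP d θ) := integral_nonneg fun t => sq_nonneg _
  have h1 : ∀ t, (|f t| - a) ^ 2 = f t ^ 2 - 2 * a * |f t| + a ^ 2 := fun t => by
    rw [sub_sq, sq_abs]
    ring
  simp_rw [h1] at h0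
  have hf' : Integrable (fun t => f t ^ 2 - 2 * a * |f t|) (PP d θ) := hf2.sub (hf1.const_mul _)
  rw [integral_add hf' (integrable_const _),
    integral_sub hf2 (hf1.const_mul _), integral_const_mul, ← ha, ← norm_sq_eq_integral] at h0
  simp only [integral_const, probReal_univ, one_smul] at h0
  have h2 : a ^ 2 ≤ ‖f‖ ^ 2 := by nlinarith
  exact (abs_le_of_sq_le_sq' h2 (norm_nonneg _)).2

/-- The characteristic function at `1` of a square integrable function. -/
noncomputable def expE (W : HH d θ) : ℂ := ∫ ω, Complex.exp ((W ω : ℝ) * Complex.I) ∂(PP d θ)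

lemma measurable_coe (W : HH d θ) : Measurable (W : Om d → ℝ) := (Lp.stronglyMeasurable W).measurable

lemma integrable_expI {f : Om d → ℝ} (hf : Measurable f) :
    Integrable (fun ω => Complex.exp ((f ω : ℝ) * Complex.I)) (PP d θ) := by
  refine Integrable.of_bound (C := 1) ?_ (Filter.Eventually.of_forall fun ω => ?_)
  · exact (Complex.measurable_exp.comp
      ((Complex.measurable_ofReal.comp hf).mul_const _)).aestronglyMeasurable
  · rw [Complex.norm_exp_ofReal_mul_I]

lemma expE_lip (W W' : HH d θ) : ‖expE θ W - expE θ W'‖ ≤ ‖W - W'‖ := by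
  unfold expE
  rw [← integral_sub (integrable_expI θ (measurable_coe θ W)) (integrable_expI θ (measurable_coe θ W'))]
  refine (norm_integral_le_integral_norm _).trans ?_
  refine le_trans ?_ (integral_abs_le_norm θ (W - W'))
  refine integral_mono_of_nonneg (Filter.Eventually.of_forall fun ω => norm_nonneg _) ?_ ?_
  · exact ((Lp.memLp (W - W')).integrable (by norm_num)).abs
  · filter_upwards [Lp.coeFn_sub W W'] with ω h
    rw [h, Pi.sub_apply]
    have e : Complex.exp ((W ω : ℝ) * Complex.I) - Complex.exp ((W' ω : ℝ) * Complex.I) =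
        Complex.exp ((W' ω : ℝ) * Complex.I) *
          (Complex.exp (Complex.I * ((W ω - W' ω : ℝ) : ℂ)) - 1) := by
      rw [mul_sub, ← Complex.exp_add, mul_one]
      congr 2
      push_cast
      ring
    rw [e, norm_mul, Complex.norm_exp_ofReal_mul_I, one_mul]
    exact Real.norm_exp_I_mul_ofReal_sub_one_le

lemma expE_continuous : Continuous (expE θ : HH d θ → ℂ) := by
  have : LipschitzWith 1 (expE θ : HH d θ → ℂ) := LipschitzWith.of_dist_le_mul fun a b => by
    rw [dist_eq_norm, dist_eq_norm]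
    simpa using expE_lip θ a b
  exact this.continuous

/-- The values of a field at a point of the sample space. -/
noncomputable def fmap (ξ : HH d θ) (ω : Om d) : Word d → ℝ := fun v => (fld θ ξ v : Om d → ℝ) ω

lemma measurable_fmap (ξ : HH d θ) : Measurable (fmap θ ξ) :=
  measurable_pi_lambda _ fun v => measurable_coe θ _

/-- The law of a field. -/
noncomputable def flaw (ξ : HH d θ) : Measure (Word d → ℝ) := (PP d θ).map (fmap θ ξ)

instance (ξ : HH d θ) : IsProbabilityMeasure (flaw θ ξ) :=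
  Measure.isProbabilityMeasure_map (measurable_fmap θ ξ).aemeasurable

/-- Finite linear combination of the values of a field. -/
noncomputable def linC (ξ : HH d θ) (F : Finset (Word d)) (c : Word d → ℝ) : HH d θ :=
  ∑ v ∈ F, c v • fld θ ξ v

lemma linC_coe (ξ : HH d θ) (F : Finset (Word d)) (c : Word d → ℝ) :
    linC θ ξ F c =ᵐ[PP d θ] fun ω => ∑ v ∈ F, c v * fmap θ ξ ω v := by
  classical
  induction F using Finset.induction_on with
  | empty =>
    simp only [linC, Finset.sum_empty]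
    exact Lp.coeFn_zero _ _ _
  | insert a s ha ih =>
    have e : linC θ ξ (insert a s) c = c a • fld θ ξ a + linC θ ξ s c := by
      simp [linC, Finset.sum_insert ha]
    rw [e]
    filter_upwards [Lp.coeFn_add (c a • fld θ ξ a) (linC θ ξ s c), Lp.coeFn_smul (c a) (fld θ ξ a),
      ih] with ω h1 h2 h3
    rw [h1, Pi.add_apply, h2, Pi.smul_apply, h3, Finset.sum_insert ha]
    rfl

lemma linC_continuous (F : Finset (Word d)) (c : Word d → ℝ) :
    Continuous (fun ξ : HH d θ => linC θ ξ F c) := by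
  unfold linC
  refine continuous_finsetSum _ fun v _ => ?_
  exact (UU θ (gm v)).continuous.const_smul (c v)

lemma expE_linC_eq (ξ : HH d θ) (F : Finset (Word d)) (c : Word d → ℝ) :
    expE θ (linC θ ξ F c) =
      ∫ y, Complex.exp (((∑ v ∈ F, c v * y v : ℝ) : ℂ) * Complex.I) ∂(flaw θ ξ) := by
  unfold flaw expE
  rw [integral_map (measurable_fmap θ ξ).aemeasurable]
  · refine integral_congr_ae ?_
    filter_upwards [linC_coe θ ξ F c] with ω h
    rw [h]
  · refine Measurable.aestronglyMeasurable ?_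
    refine Complex.measurable_exp.comp ((Complex.measurable_ofReal.comp ?_).mul_const _)
    exact Finset.measurable_sum _ fun v _ => (measurable_pi_apply v).const_mul _

theorem expE_of_flaw_eq {ξ ξ' : HH d θ} (h : flaw θ ξ = flaw θ ξ') (F : Finset (Word d))
    (c : Word d → ℝ) : expE θ (linC θ ξ F c) = expE θ (linC θ ξ' F c) := by
  rw [expE_linC_eq, expE_linC_eq, h]

theorem flaw_eq_of_expE {ξ ξ' : HH d θ}
    (h : ∀ (F : Finset (Word d)) (c : Word d → ℝ), expE θ (linC θ ξ F c) = expE θ (linC θ ξ' F c)) :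
    flaw θ ξ = flaw θ ξ' := by
  classical
  have key : ∀ (J : Finset (Word d)) (L : StrongDual ℝ (J → ℝ)) (ζ : HH d θ),
      charFunDual ((flaw θ ζ).map J.restrict) L = expE θ (linC θ ζ J (fun v =>
        if hv : v ∈ J then L (Pi.single ⟨v, hv⟩ 1) else 0)) := by
    intro J L ζ
    rw [charFunDual_apply, integral_map (Finset.measurable_restrict J).aemeasurable, expE_linC_eq]
    · refine integral_congr_ae (Filter.Eventually.of_forall fun y => ?_)
      show Complex.exp ((L (J.restrict y) : ℂ) * Complex.I) = _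
      congr 3
      have e1 : J.restrict y = ∑ j : J, y j • Pi.single j (1 : ℝ) := by
        funext j
        simp [Finset.sum_apply, Pi.single_apply]
      rw [e1, map_sum]
      rw [← Finset.sum_coe_sort J]
      refine Finset.sum_congr rfl fun j _ => ?_
      simp [mul_comm]
    · refine Measurable.aestronglyMeasurable ?_
      refine Complex.measurable_exp.comp ((Complex.measurable_ofReal.comp ?_).mul_const _)
      exact L.continuous.measurable
  have hlim : IsProjectiveLimit (flaw θ ξ) (fun J => (flaw θ ξ').map J.restrict) := by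
    intro J
    refine Measure.ext_of_charFunDual (funext fun L => ?_)
    rw [key, key, h]
  have hlim' : IsProjectiveLimit (flaw θ ξ') (fun J => (flaw θ ξ').map J.restrict) := fun J => rfl
  haveI : ∀ J : Finset (Word d), IsProbabilityMeasure ((flaw θ ξ').map J.restrict) := fun J =>
    Measure.isProbabilityMeasure_map (Finset.measurable_restrict J).aemeasurable
  exact hlim.unique hlim'

/-- Equality of laws passes to limits. -/
theorem flaw_limit {ξs ξs' : ℕ → HH d θ} {ξ ξ' : HH d θ} (h1 : Filter.Tendsto ξs Filter.atTop (nhds ξ))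
    (h2 : Filter.Tendsto ξs' Filter.atTop (nhds ξ')) (h : ∀ n, flaw θ (ξs n) = flaw θ (ξs' n)) :
    flaw θ ξ = flaw θ ξ' := by
  refine flaw_eq_of_expE θ fun F c => ?_
  have t1 := ((expE_continuous θ).comp (linC_continuous θ F c)).tendsto ξ |>.comp h1
  have t2 := ((expE_continuous θ).comp (linC_continuous θ F c)).tendsto ξ' |>.comp h2
  have e : (fun n => expE θ (linC θ (ξs n) F c)) = fun n => expE θ (linC θ (ξs' n) F c) := by
    funext n
    exact expE_of_flaw_eq θ (h n) F c
  exact tendsto_nhds_unique t1 (by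
    show Filter.Tendsto (fun n => expE θ (linC θ (ξs n) F c)) _ _
    rw [e]
    exact t2)

lemma fmap_add (ξ η : HH d θ) : fmap θ (ξ + η) =ᵐ[PP d θ] fmap θ ξ + fmap θ η := by
  have h : ∀ v : Word d, ∀ᵐ ω ∂(PP d θ), fmap θ (ξ + η) ω v = fmap θ ξ ω v + fmap θ η ω v := by
    intro v
    have e : fld θ (ξ + η) v = fld θ ξ v + fld θ η v := map_add _ _ _
    filter_upwards [Lp.coeFn_add (fld θ ξ v) (fld θ η v)] with ω h
    simp only [fmap]
    rw [e, h]
    rfl
  filter_upwards [ae_all_iff.mpr h] with ω h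
  funext v
  exact h v

lemma fmap_smul (r : ℝ) (ξ : HH d θ) : fmap θ (r • ξ) =ᵐ[PP d θ] r • fmap θ ξ := by
  have h : ∀ v : Word d, ∀ᵐ ω ∂(PP d θ), fmap θ (r • ξ) ω v = r * fmap θ ξ ω v := by
    intro v
    have e : fld θ (r • ξ) v = r • fld θ ξ v := map_smul _ _ _
    filter_upwards [Lp.coeFn_smul r (fld θ ξ v)] with ω h
    simp only [fmap]
    rw [e, h]
    rfl
  filter_upwards [ae_all_iff.mpr h] with ω h
  funext v
  exact h v

lemma fmap_LL {ξ : HH d θ} (hξ : ξ ∈ KK θ) :
    fmap θ (LL θ ξ) =ᵐ[PP d θ] fun ω v => ∑ i : Fin d, fmap θ ξ ω (nb v i) := by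
  have h : ∀ v : Word d, ∀ᵐ ω ∂(PP d θ), fmap θ (LL θ ξ) ω v = ∑ i : Fin d, fmap θ ξ ω (nb v i) := by
    intro v
    have h1 : ∀ (s : Finset (Fin d)), ((∑ i ∈ s, fld θ ξ (nb v i) : HH d θ) : Om d → ℝ) =ᵐ[PP d θ]
        fun ω => ∑ i ∈ s, fmap θ ξ ω (nb v i) := by
      classical
      intro s
      induction s using Finset.induction_on with
      | empty =>
        simp only [Finset.sum_empty]
        exact Lp.coeFn_zero _ _ _
      | insert a s ha ih =>
        rw [Finset.sum_insert ha]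
        filter_upwards [Lp.coeFn_add (fld θ ξ (nb v a)) (∑ i ∈ s, fld θ ξ (nb v i)), ih] with ω h1 h2
        rw [h1, Pi.add_apply, h2, Finset.sum_insert ha]
        rfl
    filter_upwards [h1 Finset.univ] with ω h2
    simp only [fmap]
    rw [fld_LL θ hξ]
    exact h2
  filter_upwards [ae_all_iff.mpr h] with ω h
  funext v
  exact h v

end Hilbert

/-- The Hilbert space of invariant functions, as a type of its own. -/
def KS (d : ℕ) (θ : ℝ) [Corr θ] : Type := ↥(KK (d := d) θ)

section KSpace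

variable {θ : ℝ} [Corr θ]

noncomputable instance : NormedAddCommGroup (KS d θ) :=
  inferInstanceAs (NormedAddCommGroup ↥(KK (d := d) θ))

noncomputable instance : InnerProductSpace ℝ (KS d θ) :=
  inferInstanceAs (InnerProductSpace ℝ ↥(KK (d := d) θ))

instance : CompleteSpace (KS d θ) :=
  haveI : CompleteSpace ↥(KK (d := d) θ) := (KK_closed θ).completeSpace_coe
  inferInstanceAs (CompleteSpace ↥(KK (d := d) θ))

/-- The underlying function of an element of `KS`. -/
def KS.v (x : KS d θ) : HH d θ := Subtype.val x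

lemma KS.mem (x : KS d θ) : x.v ∈ KK θ := x.2

/-- Construct an element of `KS`. -/
def KS.mk (ξ : HH d θ) (h : ξ ∈ KK θ) : KS d θ := ⟨ξ, h⟩

@[simp] lemma KS.mk_v (ξ : HH d θ) (h : ξ ∈ KK θ) : (KS.mk ξ h).v = ξ := rfl

lemma KS.ext {x y : KS d θ} (h : x.v = y.v) : x = y := Subtype.ext h

@[simp] lemma KS.add_v (x y : KS d θ) : (x + y).v = x.v + y.v := rfl

@[simp] lemma KS.sub_v (x y : KS d θ) : (x - y).v = x.v - y.v := rfl

@[simp] lemma KS.zero_v : (0 : KS d θ).v = 0 := rfl

@[simp] lemma KS.smul_v (r : ℝ) (x : KS d θ) : (r • x).v = r • x.v := rfl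

lemma KS.norm_eq (x : KS d θ) : ‖x‖ = ‖x.v‖ := rfl

lemma KS.inner_eq (x y : KS d θ) : ⟪x, y⟫_ℝ = ⟪x.v, y.v⟫_ℝ := rfl

/-- The inclusion of `KS` in `L²`. -/
noncomputable def KS.vL : KS d θ →L[ℝ] HH d θ := (KK (d := d) θ).subtypeL

@[simp] lemma KS.vL_apply (x : KS d θ) : KS.vL x = x.v := rfl

variable (θ) in
/-- The adjacency operator on the invariant functions. -/
noncomputable def LK : KS d θ →L[ℝ] KS d θ :=
  ContinuousLinearMap.codRestrict ((LL θ).comp (KS.vL)) (KK θ) fun ξ => LL_mem θ ξ.2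

@[simp] lemma LK_v (ξ : KS d θ) : (LK θ ξ).v = LL θ ξ.v := rfl

lemma LK_symm (x y : KS d θ) : ⟪LK θ x, y⟫_ℝ = ⟪x, LK θ y⟫_ℝ :=
  inner_LL θ x.v y.v

lemma LK_bd (hd : 2 ≤ d) {m : ℝ} (hm0 : 0 < m) (hm : m ^ 2 = (d : ℝ) - 1) (hθ : θ ≤ m⁻¹)
    (x : KS d θ) : ‖LK θ x‖ ≤ 2 * m * ‖x‖ := by
  refine tempered θ hd hm0 hm hθ x.v ?_
  rw [integral_eq_inner]
  exact x.2.1

/-- Polynomials in the adjacency operator act on fields by an explicit map. -/
lemma exists_Lam {T : KS d θ →L[ℝ] KS d θ} (hT : T ∈ Algebra.adjoin ℝ {LK θ}) :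
    ∃ Λ : (Word d → ℝ) → (Word d → ℝ), Measurable Λ ∧
      ∀ ξ : KS d θ, fmap θ (T ξ).v =ᵐ[PP d θ] Λ ∘ fmap θ ξ.v := by
  induction hT using Algebra.adjoin_induction with
  | mem z hz =>
    rw [Set.mem_singleton_iff] at hz
    subst hz
    refine ⟨fun x v => ∑ i : Fin d, x (nb v i), ?_, fun ξ => fmap_LL θ ξ.2⟩
    exact measurable_pi_lambda _ fun v => Finset.measurable_sum _ fun i _ => measurable_pi_apply _
  | algebraMap r =>
    refine ⟨fun x => r • x, measurable_const_smul r, fun ξ => ?_⟩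
    have e : ((algebraMap ℝ (KS d θ →L[ℝ] KS d θ) r) ξ).v = r • ξ.v := by
      simp [Algebra.algebraMap_eq_smul_one]
    rw [e]
    exact fmap_smul θ r ξ.v
  | add a b _ _ ha hb =>
    obtain ⟨Λ₁, h1, h2⟩ := ha
    obtain ⟨Λ₂, h3, h4⟩ := hb
    refine ⟨fun x => Λ₁ x + Λ₂ x, h1.add h3, fun ξ => ?_⟩
    have e : ((a + b) ξ).v = (a ξ).v + (b ξ).v := rfl
    rw [e]
    filter_upwards [fmap_add θ (a ξ).v (b ξ).v, h2 ξ, h4 ξ] with ω e1 e2 e3
    rw [e1, Pi.add_apply, e2, e3]
    rfl
  | mul a b _ _ ha hb =>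
    obtain ⟨Λ₁, h1, h2⟩ := ha
    obtain ⟨Λ₂, h3, h4⟩ := hb
    refine ⟨Λ₁ ∘ Λ₂, h1.comp h3, fun ξ => ?_⟩
    have e : ((a * b) ξ).v = (a (b ξ)).v := rfl
    rw [e]
    filter_upwards [h2 (b ξ), h4 ξ] with ω e1 e2
    rw [e1]
    simp only [Function.comp_apply]
    rw [e2]
    rfl

/-- Elements of the algebra of the adjacency operator send fields of equal law to fields of
equal law. -/
theorem flaw_T {T : KS d θ →L[ℝ] KS d θ} (hT : T ∈ alg (LK θ)) {ξ ξ' : KS d θ}
    (h : flaw θ ξ.v = flaw θ ξ'.v) : flaw θ (T ξ).v = flaw θ (T ξ').v := by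
  obtain ⟨Ts, hTs, hlim⟩ := mem_closure_iff_seq_limit.mp hT
  have hc : ∀ x : KS d θ, Filter.Tendsto (fun n => (Ts n x).v) Filter.atTop (nhds (T x).v) := fun x =>
    KS.vL.continuous.tendsto _ |>.comp
      ((ContinuousLinearMap.apply ℝ _ x).continuous.tendsto T |>.comp hlim)
  refine flaw_limit θ (hc ξ) (hc ξ') fun n => ?_
  obtain ⟨Λ, hΛ, hf⟩ := exists_Lam (hTs n)
  have h1 : ∀ x : KS d θ, flaw θ (Ts n x).v = (flaw θ x.v).map Λ := fun x => by
    unfold flaw
    rw [Measure.map_map hΛ (measurable_fmap θ _)]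
    exact Measure.map_congr (hf x)
  rw [h1, h1, h]

end KSpace

end Vale.Agent.Lib.P161
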