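import Mathlib

namespace Vale.Agent.Lib.P161

open MeasureTheory ProbabilityTheory
open scoped NNReal ENNReal InnerProductSpace

variable {Y : Type*} [MeasurableSpace Y] {ν : Measure Y} [IsProbabilityMeasure ν]

/-- A linear subspace of `L²` consisting of centred Gaussian variables. -/
def IsGaussSub (G : Submodule ℝ (Lp ℝ 2 ν)) : Prop :=
  ∀ X ∈ G, Measure.map (X : Y → ℝ) ν = gaussianReal 0 (‖X‖₊ ^ 2)

omit [IsProbabilityMeasure ν] in
lemma gs_meas (X : Lp ℝ 2 ν) : Measurable (X : Y → ℝ) :=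
  (Lp.stronglyMeasurable X).measurable

/-- characteristic function of an element of `L²` -/
noncomputable def gs_cf (t : ℝ) (X : Lp ℝ 2 ν) : ℂ :=
  ∫ y, Complex.exp (((t * (X : Y → ℝ) y : ℝ) : ℂ) * Complex.I) ∂ν

omit [IsProbabilityMeasure ν] in
lemma gs_charFun_map (t : ℝ) (X : Lp ℝ 2 ν) :
    charFun (Measure.map (X : Y → ℝ) ν) t = gs_cf t X := by
  rw [charFun_apply, integral_map (gs_meas X).aemeasurable (by fun_prop)]
  unfold gs_cf
  refine integral_congr_ae (Filter.Eventually.of_forall fun y => ?_)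
  simp [mul_comm]

lemma gs_int_abs_le (f : Lp ℝ 2 ν) : ∫ y, |(f : Y → ℝ) y| ∂ν ≤ ‖f‖ := by
  have h1 : eLpNorm (f : Y → ℝ) 1 ν ≤ eLpNorm (f : Y → ℝ) 2 ν :=
    eLpNorm_le_eLpNorm_of_exponent_le (by norm_num) (Lp.aestronglyMeasurable f)
  have h2 : eLpNorm (f : Y → ℝ) 2 ν ≠ ∞ := (Lp.memLp f).2.ne
  have h3 : ∫ y, |(f : Y → ℝ) y| ∂ν = (eLpNorm (f : Y → ℝ) 1 ν).toReal := by
    have := integral_norm_eq_lintegral_enorm (Lp.aestronglyMeasurable f)
    simp only [Real.norm_eq_abs] at this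
    rw [this, eLpNorm_one_eq_lintegral_enorm]
  rw [h3, Lp.norm_def]
  exact ENNReal.toReal_mono h2 h1

lemma gs_integrable (f : Lp ℝ 2 ν) : Integrable (f : Y → ℝ) ν :=
  (Lp.memLp f).integrable (by norm_num)

lemma gs_cf_lip (t : ℝ) (X X' : Lp ℝ 2 ν) :
    ‖gs_cf t X - gs_cf t X'‖ ≤ |t| * ‖X - X'‖ := by
  unfold gs_cf
  have hint : ∀ Z : Lp ℝ 2 ν,
      Integrable (fun y => Complex.exp (((t * (Z : Y → ℝ) y : ℝ) : ℂ) * Complex.I)) ν := by
    intro Z
    refine Integrable.of_bound (C := 1) ?_ (Filter.Eventually.of_forall fun y => ?_)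
    · have := gs_meas Z
      exact (by fun_prop : Measurable
        (fun y => Complex.exp (((t * (Z : Y → ℝ) y : ℝ) : ℂ) * Complex.I))).aestronglyMeasurable
    · rw [Complex.norm_exp_ofReal_mul_I]
  rw [← integral_sub (hint X) (hint X')]
  have hdiff := Lp.coeFn_sub X X'
  have hb : ∀ᵐ y ∂ν, ‖Complex.exp (((t * (X : Y → ℝ) y : ℝ) : ℂ) * Complex.I) -
      Complex.exp (((t * (X' : Y → ℝ) y : ℝ) : ℂ) * Complex.I)‖ ≤
      |t| * |((X - X' : Lp ℝ 2 ν) : Y → ℝ) y| := by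
    filter_upwards [hdiff] with y hy
    have hy' : ((X - X' : Lp ℝ 2 ν) : Y → ℝ) y = (X : Y → ℝ) y - (X' : Y → ℝ) y := by
      rw [hy]; rfl
    rw [hy']
    set a : ℝ := (X : Y → ℝ) y
    set b : ℝ := (X' : Y → ℝ) y
    have e : Complex.exp (((t * a : ℝ) : ℂ) * Complex.I) -
        Complex.exp (((t * b : ℝ) : ℂ) * Complex.I) =
        Complex.exp (((t * b : ℝ) : ℂ) * Complex.I) *
          (Complex.exp (Complex.I * ((t * (a - b) : ℝ) : ℂ)) - 1) := by
      rw [mul_sub, ← Complex.exp_add, mul_one]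
      congr 2
      push_cast
      ring
    rw [e, norm_mul, Complex.norm_exp_ofReal_mul_I, one_mul]
    have := Real.norm_exp_I_mul_ofReal_sub_one_le (x := t * (a - b))
    calc _ ≤ ‖t * (a - b)‖ := this
      _ = _ := by rw [Real.norm_eq_abs, abs_mul]
  have hi2 : Integrable (fun y => |t| * |((X - X' : Lp ℝ 2 ν) : Y → ℝ) y|) ν :=
    ((gs_integrable (X - X')).abs).const_mul _
  calc _ ≤ ∫ y, |t| * |((X - X' : Lp ℝ 2 ν) : Y → ℝ) y| ∂ν :=
        norm_integral_le_of_norm_le hi2 hb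
    _ = |t| * ∫ y, |((X - X' : Lp ℝ 2 ν) : Y → ℝ) y| ∂ν := integral_const_mul _ _
    _ ≤ _ := mul_le_mul_of_nonneg_left (gs_int_abs_le _) (abs_nonneg _)

lemma gs_cf_cont (t : ℝ) : Continuous (gs_cf (ν := ν) t) := by
  have hL : LipschitzWith (Real.toNNReal |t|) (gs_cf (ν := ν) t) := by
    apply LipschitzWith.of_dist_le_mul
    intro X X'
    rw [dist_eq_norm, dist_eq_norm, Real.coe_toNNReal _ (abs_nonneg t)]
    exact gs_cf_lip t X X'
  exact hL.continuous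

/-- the target characteristic function -/
noncomputable def gs_tg (t : ℝ) (X : Lp ℝ 2 ν) : ℂ :=
  Complex.exp (((-(‖X‖ ^ 2 * t ^ 2 / 2) : ℝ)) : ℂ)

lemma gs_tg_cont (t : ℝ) : Continuous (gs_tg (ν := ν) t) := by
  unfold gs_tg
  fun_prop

lemma gs_charFun_gauss (X : Lp ℝ 2 ν) (t : ℝ) :
    charFun (gaussianReal 0 (‖X‖₊ ^ 2)) t = gs_tg t X := by
  rw [charFun_gaussianReal]
  unfold gs_tg
  congr 1
  push_cast
  simp

/-- Characteristic function of an element of a Gaussian subspace. -/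
lemma gs_cf_of_mem {G : Submodule ℝ (Lp ℝ 2 ν)} (hG : IsGaussSub G) {X : Lp ℝ 2 ν} (hX : X ∈ G)
    (t : ℝ) : gs_cf t X = gs_tg t X := by
  rw [← gs_charFun_map, hG X hX, gs_charFun_gauss]

/-- From the characteristic function to the law. -/
lemma gs_law_of_cf (X : Lp ℝ 2 ν) (h : ∀ t, gs_cf t X = gs_tg t X) :
    Measure.map (X : Y → ℝ) ν = gaussianReal 0 (‖X‖₊ ^ 2) := by
  have : IsProbabilityMeasure (Measure.map (X : Y → ℝ) ν) :=
    Measure.isProbabilityMeasure_map (gs_meas X).aemeasurable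
  apply Measure.ext_of_charFun
  funext t
  rw [gs_charFun_map, h, gs_charFun_gauss]

lemma gs_norm_sq (X : Lp ℝ 2 ν) : ‖X‖ ^ 2 = ∫ y, (X : Y → ℝ) y ^ 2 ∂ν := by
  rw [← real_inner_self_eq_norm_sq, L2.inner_def]
  refine integral_congr_ae (Filter.Eventually.of_forall fun y => ?_)
  simp [pow_two]

/-- A centred real element of `L²` with Gaussian law has the expected variance. -/
lemma gs_law_of_gaussian (X : Lp ℝ 2 ν) (hg : IsGaussian (Measure.map (X : Y → ℝ) ν))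
    (h0 : ∫ y, (X : Y → ℝ) y ∂ν = 0) :
    Measure.map (X : Y → ℝ) ν = gaussianReal 0 (‖X‖₊ ^ 2) := by
  have hm := (gs_meas X).aemeasurable (μ := ν)
  have e1 := IsGaussian.eq_gaussianReal _ hg
  have e2 : (Measure.map (X : Y → ℝ) ν)[id] = 0 := by
    rw [integral_map hm (by fun_prop)]
    simpa using h0
  have e3 : Var[id; Measure.map (X : Y → ℝ) ν] = ‖X‖ ^ 2 := by
    rw [variance_id_map hm, variance_eq_sub (Lp.memLp X), h0, gs_norm_sq]
    simp
  rw [e2, e3] at e1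
  rw [e1]
  congr 1
  apply NNReal.eq
  rw [Real.coe_toNNReal _ (by positivity)]
  push_cast
  rfl

lemma gs_coe_sum {ι : Type*} (s : Finset ι) (c : ι → ℝ) (g : ι → Lp ℝ 2 ν) :
    ((∑ i ∈ s, c i • g i : Lp ℝ 2 ν) : Y → ℝ) =ᵐ[ν] fun y => ∑ i ∈ s, c i * (g i : Y → ℝ) y := by
  classical
  induction s using Finset.induction_on with
  | empty =>
    simp only [Finset.sum_empty]
    exact Lp.coeFn_zero ℝ 2 ν
  | insert a s ha ih =>
    rw [Finset.sum_insert ha]
    filter_upwards [Lp.coeFn_add (c a • g a) (∑ i ∈ s, c i • g i), ih, Lp.coeFn_smul (c a) (g a)]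
      with y h1 h2 h3
    rw [h1, Finset.sum_insert ha]
    simp only [Pi.add_apply, h2, h3, Pi.smul_apply, smul_eq_mul]

/-- Elements of the algebraic span of independent standard Gaussians. -/
lemma gs_span {ι : Type*} (g : ι → Lp ℝ 2 ν)
    (h1 : ∀ i, Measure.map (g i : Y → ℝ) ν = gaussianReal 0 1)
    (h2 : iIndepFun (fun i => (g i : Y → ℝ)) ν) {X : Lp ℝ 2 ν}
    (hX : X ∈ Submodule.span ℝ (Set.range g)) :
    Measure.map (X : Y → ℝ) ν = gaussianReal 0 (‖X‖₊ ^ 2) := by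
  classical
  obtain ⟨c, rfl⟩ := (Finsupp.mem_span_range_iff_exists_finsupp).mp hX
  set s := c.support with hs
  have hsum : (c.sum fun i a => a • g i) = ∑ i ∈ s, c i • g i := rfl
  rw [hsum]
  set X : Lp ℝ 2 ν := ∑ i ∈ s, c i • g i with hXdef
  have hae : (X : Y → ℝ) =ᵐ[ν] fun y => ∑ i ∈ s, c i * (g i : Y → ℝ) y := gs_coe_sum s c g
  -- the law is Gaussian
  have hg1 : ∀ i : s, HasGaussianLaw (g i : Y → ℝ) ν := fun i =>
    ⟨by rw [h1]; infer_instance⟩
  have hind : iIndepFun (fun i : s => (g i : Y → ℝ)) ν :=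
    h2.precomp Subtype.val_injective
  have hjoint := iIndepFun.hasGaussianLaw hg1 hind
  let L : (s → ℝ) →L[ℝ] ℝ := ∑ i : s, (c i) • ContinuousLinearMap.proj (R := ℝ) (φ := fun _ : s => ℝ) i
  have hL := hjoint.map L
  have hcomp : (L ∘ fun y (i : s) => (g i : Y → ℝ) y) = fun y => ∑ i ∈ s, c i * (g i : Y → ℝ) y := by
    funext y
    simp only [Function.comp, L, _root_.sum_apply, _root_.smul_apply,
      ContinuousLinearMap.proj_apply, smul_eq_mul]
    exact Finset.sum_coe_sort s (fun i => c i * (g i : Y → ℝ) y)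
  rw [hcomp] at hL
  have hG : HasGaussianLaw (X : Y → ℝ) ν := hL.congr hae.symm
  have hmean : ∀ i, ∫ y, (g i : Y → ℝ) y ∂ν = 0 := by
    intro i
    have := integral_id_gaussianReal (μ := 0) (v := 1)
    rw [← h1 i, integral_map (gs_meas (g i)).aemeasurable (by fun_prop)] at this
    exact this
  have h0 : ∫ y, (X : Y → ℝ) y ∂ν = 0 := by
    rw [integral_congr_ae hae, integral_finsetSum]
    · simp [integral_const_mul, hmean]
    · intro i _
      exact (gs_integrable (g i)).const_mul _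
  exact gs_law_of_gaussian X hG.isGaussian_map h0

theorem isGaussSub_closure {ι : Type*} (g : ι → Lp ℝ 2 ν)
    (h1 : ∀ i, Measure.map (g i : Y → ℝ) ν = gaussianReal 0 1)
    (h2 : iIndepFun (fun i => (g i : Y → ℝ)) ν) :
    IsGaussSub (Submodule.span ℝ (Set.range g)).topologicalClosure := by
  intro X hX
  apply gs_law_of_cf
  intro t
  have hcl : IsClosed {Z : Lp ℝ 2 ν | gs_cf t Z = gs_tg t Z} :=
    isClosed_eq (gs_cf_cont t) (gs_tg_cont t)
  have hsub : ((Submodule.span ℝ (Set.range g) : Submodule ℝ (Lp ℝ 2 ν)) : Set (Lp ℝ 2 ν)) ⊆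
      {Z : Lp ℝ 2 ν | gs_cf t Z = gs_tg t Z} := by
    intro Z hZ
    have := gs_span g h1 h2 hZ
    change gs_cf t Z = gs_tg t Z
    rw [← gs_charFun_map, this, gs_charFun_gauss]
  have hX' : X ∈ closure ((Submodule.span ℝ (Set.range g) : Submodule ℝ (Lp ℝ 2 ν)) : Set (Lp ℝ 2 ν)) := by
    rwa [← Submodule.topologicalClosure_coe]
  exact closure_minimal hsub hcl hX'

/-- A continuous linear form on a finite product is a linear combination of coordinates. -/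
lemma gs_L_apply {F : Type*} [Fintype F] [DecidableEq F] (L : StrongDual ℝ (F → ℝ)) (v : F → ℝ) :
    L v = ∑ i, L (Pi.single i 1) * v i := by
  have : v = ∑ i, v i • (Pi.single i 1 : F → ℝ) := by
    funext j
    simp [Finset.sum_apply, Pi.single_apply]
  conv_lhs => rw [this]
  rw [map_sum]
  refine Finset.sum_congr rfl fun i _ => ?_
  rw [map_smul, smul_eq_mul, mul_comm]

lemma gs_norm_comb {F : Type*} [Fintype F] (t : F → ℝ) (X : F → Lp ℝ 2 ν) :
    ‖∑ i, t i • X i‖ ^ 2 = ∑ i, ∑ j, t i * t j * ⟪X i, X j⟫_ℝ := by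
  rw [← real_inner_self_eq_norm_sq, sum_inner]
  refine Finset.sum_congr rfl fun i _ => ?_
  rw [inner_sum]
  refine Finset.sum_congr rfl fun j _ => ?_
  rw [inner_smul_left, inner_smul_right]
  simp [mul_assoc]

lemma gs_inner_comb {F : Type*} [Fintype F] (t : F → ℝ) (X : F → Lp ℝ 2 ν) (ζ : Lp ℝ 2 ν) :
    ⟪∑ i, t i • X i, ζ⟫_ℝ = ∑ i, t i * ⟪X i, ζ⟫_ℝ := by
  rw [sum_inner]
  refine Finset.sum_congr rfl fun i _ => ?_
  rw [inner_smul_left]
  simp

/-- The characteristic function of the tuple at a form `L` is that of a linear combination. -/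
lemma gs_dual_comb {F : Type*} [Fintype F] [DecidableEq F] (X : F → Lp ℝ 2 ν)
    (L : StrongDual ℝ (F → ℝ)) :
    ((∑ i, L (Pi.single i 1) • X i : Lp ℝ 2 ν) : Y → ℝ) =ᵐ[ν]
      fun y => L (fun i => (X i : Y → ℝ) y) := by
  filter_upwards [gs_coe_sum Finset.univ (fun i => L (Pi.single i 1)) X] with y hy
  rw [hy, gs_L_apply L]

theorem law_eq_of_gram {G : Submodule ℝ (Lp ℝ 2 ν)} (hG : IsGaussSub G)
    {F : Type*} [Fintype F] {X X' : F → Lp ℝ 2 ν} (hX : ∀ i, X i ∈ G) (hX' : ∀ i, X' i ∈ G)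
    (h : ∀ i j, ⟪X i, X j⟫_ℝ = ⟪X' i, X' j⟫_ℝ) :
    Measure.map (fun y i => (X i : Y → ℝ) y) ν = Measure.map (fun y i => (X' i : Y → ℝ) y) ν := by
  classical
  have hm : ∀ Z : F → Lp ℝ 2 ν, Measurable (fun y i => (Z i : Y → ℝ) y) := fun Z =>
    measurable_pi_lambda _ fun i => gs_meas (Z i)
  have : IsProbabilityMeasure (Measure.map (fun y i => (X i : Y → ℝ) y) ν) :=
    Measure.isProbabilityMeasure_map (hm X).aemeasurable
  have : IsProbabilityMeasure (Measure.map (fun y i => (X' i : Y → ℝ) y) ν) :=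
    Measure.isProbabilityMeasure_map (hm X').aemeasurable
  apply Measure.ext_of_charFunDual
  funext L
  have key : ∀ Z : F → Lp ℝ 2 ν, (∀ i, Z i ∈ G) →
      charFunDual (Measure.map (fun y i => (Z i : Y → ℝ) y) ν) L =
        gs_tg 1 (∑ i, L (Pi.single i 1) • Z i) := by
    intro Z hZ
    rw [charFunDual_apply, integral_map (hm Z).aemeasurable (by fun_prop),
      ← gs_cf_of_mem hG (Submodule.sum_mem _ fun i _ => G.smul_mem _ (hZ i)) 1]
    unfold gs_cf
    refine integral_congr_ae ?_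
    filter_upwards [gs_dual_comb Z L] with y hy
    rw [hy, one_mul]
  rw [key X hX, key X' hX']
  unfold gs_tg
  rw [gs_norm_comb, gs_norm_comb]
  simp only [h]


lemma gs_exp_integrable {G : Submodule ℝ (Lp ℝ 2 ν)} (hG : IsGaussSub G) {U : Lp ℝ 2 ν}
    (hU : U ∈ G) : Integrable (fun y => Real.exp ((U : Y → ℝ) y)) ν := by
  have h := integrable_exp_mul_gaussianReal (μ := 0) (v := ‖U‖₊ ^ 2) 1
  rw [← hG U hU, integrable_map_measure (by fun_prop) (gs_meas U).aemeasurable] at h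
  simpa [Function.comp_def] using h

lemma gs_exp_integral {G : Submodule ℝ (Lp ℝ 2 ν)} (hG : IsGaussSub G) {U : Lp ℝ 2 ν}
    (hU : U ∈ G) : ∫ y, Real.exp ((U : Y → ℝ) y) ∂ν = Real.exp (‖U‖ ^ 2 / 2) := by
  have h := mgf_gaussianReal (hG U hU) 1
  unfold mgf at h
  simp only [one_mul] at h
  rw [h]
  congr 1
  push_cast
  simp

/-- the tilting density -/
noncomputable def gs_dens (ζ : Lp ℝ 2 ν) (y : Y) : ℝ :=
  Real.exp ((ζ : Y → ℝ) y - ‖ζ‖ ^ 2 / 2)

omit [IsProbabilityMeasure ν] in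
lemma gs_dens_meas (ζ : Lp ℝ 2 ν) : Measurable (gs_dens ζ) := by
  have := gs_meas ζ
  unfold gs_dens
  fun_prop

/-- the tilted measure -/
noncomputable def gs_tilted (ζ : Lp ℝ 2 ν) : Measure Y :=
  ν.withDensity (fun y => ENNReal.ofReal (gs_dens ζ y))

omit [IsProbabilityMeasure ν] in
lemma gs_int_tilted {E : Type*} [NormedAddCommGroup E] [NormedSpace ℝ E] (ζ : Lp ℝ 2 ν) (g : Y → E) :
    ∫ y, g y ∂(gs_tilted ζ) = ∫ y, gs_dens ζ y • g y ∂ν := by
  unfold gs_tilted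
  rw [integral_withDensity_eq_integral_toReal_smul (gs_dens_meas ζ).ennreal_ofReal
    (Filter.Eventually.of_forall fun y => ENNReal.ofReal_lt_top)]
  refine integral_congr_ae (Filter.Eventually.of_forall fun y => ?_)
  simp only
  rw [ENNReal.toReal_ofReal (by unfold gs_dens; exact (Real.exp_pos _).le)]

lemma gs_tilted_prob {G : Submodule ℝ (Lp ℝ 2 ν)} (hG : IsGaussSub G) {ζ : Lp ℝ 2 ν} (hζ : ζ ∈ G) :
    IsProbabilityMeasure (gs_tilted ζ) := by
  constructor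
  unfold gs_tilted
  rw [withDensity_apply _ MeasurableSet.univ, Measure.restrict_univ]
  have he : ∀ y, gs_dens ζ y = Real.exp ((ζ : Y → ℝ) y) * Real.exp (-(‖ζ‖ ^ 2 / 2)) := by
    intro y
    unfold gs_dens
    rw [← Real.exp_add]
    congr 1
  have hi : Integrable (gs_dens ζ) ν := by
    have := (gs_exp_integrable hG hζ).mul_const (Real.exp (-(‖ζ‖ ^ 2 / 2)))
    exact this.congr (Filter.Eventually.of_forall fun y => (he y).symm)
  rw [← ofReal_integral_eq_lintegral_ofReal hi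
    (Filter.Eventually.of_forall fun y => (Real.exp_pos _).le)]
  have : ∫ y, gs_dens ζ y ∂ν = 1 := by
    simp_rw [he]
    rw [integral_mul_const, gs_exp_integral hG hζ, ← Real.exp_add]
    simp
  rw [this, ENNReal.ofReal_one]

lemma gs_mgf_tilted {G : Submodule ℝ (Lp ℝ 2 ν)} (hG : IsGaussSub G) {ζ W : Lp ℝ 2 ν}
    (hζ : ζ ∈ G) (hW : W ∈ G) :
    mgf (W : Y → ℝ) (gs_tilted ζ) = mgf id (gaussianReal ⟪W, ζ⟫_ℝ (‖W‖₊ ^ 2)) := by
  rw [mgf_id_gaussianReal]
  funext τ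
  unfold mgf
  rw [gs_int_tilted]
  set U : Lp ℝ 2 ν := τ • W + ζ with hUdef
  have hU : U ∈ G := G.add_mem (G.smul_mem _ hW) hζ
  have hae : ∀ᵐ y ∂ν, gs_dens ζ y • Real.exp (τ * (W : Y → ℝ) y) =
      Real.exp ((U : Y → ℝ) y) * Real.exp (-(‖ζ‖ ^ 2 / 2)) := by
    filter_upwards [Lp.coeFn_add (τ • W) ζ, Lp.coeFn_smul τ W] with y h1 h2
    have hUy : (U : Y → ℝ) y = τ * (W : Y → ℝ) y + (ζ : Y → ℝ) y := by
      rw [hUdef, h1, Pi.add_apply, h2]
      rfl
    rw [hUy, smul_eq_mul]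
    unfold gs_dens
    rw [← Real.exp_add, ← Real.exp_add]
    congr 1
    ring
  rw [integral_congr_ae hae, integral_mul_const, gs_exp_integral hG hU, ← Real.exp_add]
  congr 1
  have hn : ‖U‖ ^ 2 = τ ^ 2 * ‖W‖ ^ 2 + 2 * (τ * ⟪W, ζ⟫_ℝ) + ‖ζ‖ ^ 2 := by
    rw [hUdef, norm_add_sq_real, norm_smul, inner_smul_left, mul_pow, Real.norm_eq_abs, sq_abs]
    simp
  rw [hn]
  push_cast
  ring

lemma gs_complexMGF_tilted {G : Submodule ℝ (Lp ℝ 2 ν)} (hG : IsGaussSub G) {ζ W : Lp ℝ 2 ν}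
    (hζ : ζ ∈ G) (hW : W ∈ G) :
    ∫ y, Complex.exp (Complex.I * (((W : Y → ℝ) y : ℝ) : ℂ)) ∂(gs_tilted ζ) =
      Complex.exp (Complex.I * ((⟪W, ζ⟫_ℝ : ℝ) : ℂ) - ((‖W‖ ^ 2 / 2 : ℝ) : ℂ)) := by
  have h := eqOn_complexMGF_of_mgf (X := id) (μ := gaussianReal ⟪W, ζ⟫_ℝ (‖W‖₊ ^ 2))
    (Y := (W : Y → ℝ)) (μ' := gs_tilted ζ) (gs_mgf_tilted hG hζ hW).symm
  have hI : Complex.I ∈ {z : ℂ | z.re ∈ interior
      (integrableExpSet id (gaussianReal ⟪W, ζ⟫_ℝ (‖W‖₊ ^ 2)))} := by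
    simp [integrableExpSet_id_gaussianReal]
  have h2 := h hI
  rw [complexMGF_id_gaussianReal] at h2
  unfold complexMGF at h2
  rw [← h2]
  congr 1
  rw [Complex.I_sq]
  push_cast
  ring

theorem tilt {G : Submodule ℝ (Lp ℝ 2 ν)} (hG : IsGaussSub G)
    {F : Type*} [Fintype F] {X : F → Lp ℝ 2 ν} (hX : ∀ i, X i ∈ G) {ζ : Lp ℝ 2 ν} (hζ : ζ ∈ G)
    {Ψ : (F → ℝ) → ℝ} (hΨ : Measurable Ψ) {C : ℝ} (hC : ∀ x, |Ψ x| ≤ C) :
    ∫ y, Ψ (fun i => (X i : Y → ℝ) y + ⟪X i, ζ⟫_ℝ) ∂ν =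
      ∫ y, Ψ (fun i => (X i : Y → ℝ) y) * Real.exp ((ζ : Y → ℝ) y - ‖ζ‖ ^ 2 / 2) ∂ν := by
  classical
  have _ := hC
  have hν' := gs_tilted_prob hG hζ
  let M : Y → (F → ℝ) := fun y i => (X i : Y → ℝ) y
  let c : F → ℝ := fun i => ⟪X i, ζ⟫_ℝ
  have hMm : Measurable M := measurable_pi_lambda _ fun i => gs_meas (X i)
  have hMc : Measurable (fun y => M y + c) := hMm.add_const c
  have hA : IsProbabilityMeasure (Measure.map (fun y => M y + c) ν) :=
    Measure.isProbabilityMeasure_map hMc.aemeasurable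
  have hB : IsProbabilityMeasure (Measure.map M (gs_tilted ζ)) :=
    Measure.isProbabilityMeasure_map hMm.aemeasurable
  have hAB : Measure.map (fun y => M y + c) ν = Measure.map M (gs_tilted ζ) := by
    apply Measure.ext_of_charFunDual
    funext L
    set W : Lp ℝ 2 ν := ∑ i, L (Pi.single i 1) • X i with hWdef
    have hW : W ∈ G := Submodule.sum_mem _ fun i _ => G.smul_mem _ (hX i)
    have hWae := gs_dual_comb X L
    rw [← hWdef] at hWae
    have hLc : L c = ⟪W, ζ⟫_ℝ := by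
      rw [hWdef, gs_inner_comb, gs_L_apply L]
    rw [charFunDual_apply, charFunDual_apply, integral_map hMc.aemeasurable (by fun_prop),
      integral_map hMm.aemeasurable (by fun_prop)]
    have e1 : ∫ y, Complex.exp (((L (M y + c) : ℝ) : ℂ) * Complex.I) ∂ν =
        Complex.exp (((L c : ℝ) : ℂ) * Complex.I) * gs_cf 1 W := by
      unfold gs_cf
      rw [← integral_const_mul]
      refine integral_congr_ae ?_
      filter_upwards [hWae] with y hy
      rw [← Complex.exp_add, map_add, hy, one_mul]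
      congr 1
      push_cast
      ring
    have e2 : ∫ y, Complex.exp (((L (M y) : ℝ) : ℂ) * Complex.I) ∂(gs_tilted ζ) =
        ∫ y, Complex.exp (Complex.I * (((W : Y → ℝ) y : ℝ) : ℂ)) ∂(gs_tilted ζ) := by
      refine integral_congr_ae ?_
      have hac : gs_tilted ζ ≪ ν := withDensity_absolutelyContinuous _ _
      filter_upwards [hac.ae_le hWae] with y hy
      rw [hy, mul_comm]
    rw [e1, e2, gs_complexMGF_tilted hG hζ hW, gs_cf_of_mem hG hW, ← hLc]
    unfold gs_tg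
    rw [← Complex.exp_add]
    congr 1
    push_cast
    ring
  have e3 : ∫ y, Ψ (M y + c) ∂ν = ∫ v, Ψ v ∂(Measure.map (fun y => M y + c) ν) :=
    (integral_map hMc.aemeasurable hΨ.aestronglyMeasurable).symm
  have e4 : ∫ v, Ψ v ∂(Measure.map M (gs_tilted ζ)) = ∫ y, Ψ (M y) ∂(gs_tilted ζ) :=
    integral_map hMm.aemeasurable hΨ.aestronglyMeasurable
  have e5 : ∫ y, Ψ (fun i => (X i : Y → ℝ) y + ⟪X i, ζ⟫_ℝ) ∂ν = ∫ y, Ψ (M y + c) ∂ν := rfl
  rw [e5, e3, hAB, e4, gs_int_tilted]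
  refine integral_congr_ae (Filter.Eventually.of_forall fun y => ?_)
  simp only [smul_eq_mul, gs_dens, M]
  ring

end Vale.Agent.Lib.P161
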