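import Vale.Agent.Lib.P161.Coord

/-!
Covariances of fields obtained from the algebra of the adjacency operator: the adjacency operator
is symmetric on invariant kernels, because the tree is distance transitive.
-/

namespace Vale.Agent.Lib.P161

open MeasureTheory ProbabilityTheory
open scoped ENNReal NNReal InnerProductSpace

variable {d : ℕ}

lemma flipL_len (i : Fin d) : ∀ (l : List (Fin d)) (h : l ≠ []),
    (i = l.getLast h → (flipL i l).length + 1 = l.length) ∧
      (i ≠ l.getLast h → (flipL i l).length = l.length + 1)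
  | [], h => absurd rfl h
  | [j], _ => by
    by_cases hj : j = i
    · subst hj
      simp [flipL]
    · have : i ≠ j := fun h => hj h.symm
      simp [flipL, hj, this]
  | j :: k :: w, _ => by
    have ih := flipL_len i (k :: w) (by simp)
    have e : (flipL i (j :: k :: w)).length = (flipL i (k :: w)).length + 1 := by
      simp [flipL]
    have e2 : (j :: k :: w).getLast (by simp) = (k :: w).getLast (by simp) := by simp
    rw [e, e2]
    refine ⟨fun h => ?_, fun h => ?_⟩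
    · have := ih.1 h
      simp only [List.length_cons] at this ⊢
      omega
    · have := ih.2 h
      simp only [List.length_cons] at this ⊢
      omega

lemma flip_lengths {z : Word d} (hz : z ≠ root) :
    ∃ i₀ : Fin d, ∀ i, (i = i₀ → len (flipAut i z) + 1 = len z) ∧
      (i ≠ i₀ → len (flipAut i z) = len z + 1) := by
  have h0 : z.1 ≠ [] := fun h0 => hz (Subtype.ext h0)
  exact ⟨z.1.getLast h0, fun i => flipL_len i z.1 h0⟩

lemma nb_lengths {z : Word d} (hz : z ≠ root) :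
    ∃ j₀ : Fin d, ∀ j, (j = j₀ → len (nb z j) + 1 = len z) ∧ (j ≠ j₀ → len (nb z j) = len z + 1) := by
  obtain ⟨j₀, hj₀⟩ := exists_nb (adj_parent hz)
  refine ⟨j₀, fun j => ⟨fun h => ?_, fun h => ?_⟩⟩
  · rw [h, hj₀]
    exact len_parent hz
  · rcases adj_len (adj_nb z j) with ⟨_, h2⟩ | ⟨h1, _⟩
    · exact absurd (nb_injective z (h2.trans hj₀.symm)) h
    · exact h1

/-- Sums over the two kinds of neighbour agree for functions of the length. -/
lemma sum_flip_eq_sum_nb {f₀ : Word d → ℝ} (hf : ∀ a b, len a = len b → f₀ a = f₀ b) (z : Word d) :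
    ∑ i : Fin d, f₀ (flipAut i z) = ∑ i : Fin d, f₀ (nb z i) := by
  by_cases hz : z = root
  · subst hz
    refine Finset.sum_congr rfl fun i _ => hf _ _ ?_
    rw [flipAut_root, len_letter]
    obtain ⟨j, hj⟩ := adj_root_iff.mp (adj_nb (root : Word d) i)
    rw [hj, len_letter]
  · obtain ⟨i₀, hi⟩ := flip_lengths hz
    obtain ⟨j₀, hj⟩ := nb_lengths hz
    rw [← Equiv.sum_comp (Equiv.swap i₀ j₀) (fun i => f₀ (nb z i))]
    refine Finset.sum_congr rfl fun i _ => hf _ _ ?_
    by_cases h : i = i₀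
    · subst h
      have h1 := (hi i).1 rfl
      have h2 := (hj j₀).1 rfl
      rw [Equiv.swap_apply_left]
      omega
    · have h3 : Equiv.swap i₀ j₀ i ≠ j₀ := by
        intro h4
        apply h
        have : Equiv.swap i₀ j₀ (Equiv.swap i₀ j₀ i) = Equiv.swap i₀ j₀ j₀ := by rw [h4]
        simpa using this
      rw [(hi i).2 h, (hj _).2 h3]

section Hilbert

variable (θ : ℝ) [Corr θ]

lemma inner_fld_aut {x y : HH d θ} (hx : x ∈ KK θ) (hy : y ∈ KK θ) (g : Aut d) (v w : Word d) :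
    ⟪fld θ x (g v), fld θ y (g w)⟫_ℝ = ⟪fld θ x v, fld θ y w⟫_ℝ := by
  rw [← UU_fld θ hx, ← UU_fld θ hy]
  exact (UU θ g).inner_map_map _ _

lemma inner_len_eq {x y : HH d θ} (hx : x ∈ KK θ) (hy : y ∈ KK θ) (a b : Word d) (h : len a = len b) :
    ⟪x, fld θ y a⟫_ℝ = ⟪x, fld θ y b⟫_ℝ := by
  obtain ⟨k, hk, hkb⟩ := exists_stab h
  have h1 := inner_fld_aut θ hx hy k root a
  rw [hk, fld_root θ hx, hkb] at h1
  exact h1.symm

/-- The adjacency operator is symmetric on invariant kernels. -/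
theorem inner_fld_LL {x y : HH d θ} (hx : x ∈ KK θ) (hy : y ∈ KK θ) (v w : Word d) :
    ⟪fld θ (LL θ x) v, fld θ y w⟫_ℝ = ⟪fld θ x v, fld θ (LL θ y) w⟫_ℝ := by
  have hLx := LL_mem θ hx
  have hLy := LL_mem θ hy
  set g := (gm v).symm with hg
  set z := g w with hz
  have hgv : g v = root := by
    rw [hg]
    have := (gm v).symm_apply_apply root
    rwa [gm_root] at this
  have h1 := inner_fld_aut θ hLx hy g v w
  have h2 := inner_fld_aut θ hx hLy g v w
  rw [← h1, ← h2, hgv, ← hz, fld_root θ hLx, fld_root θ hx, LL_apply, sum_inner, fld_LL θ hy, inner_sum]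
  have e : ∀ i : Fin d, ⟪UU θ (flipAut i) x, fld θ y z⟫_ℝ = ⟪x, fld θ y (flipAut i z)⟫_ℝ := by
    intro i
    rw [inner_UU_flip, UU_fld θ hy]
  simp_rw [e]
  exact sum_flip_eq_sum_nb (f₀ := fun a => ⟪x, fld θ y a⟫_ℝ) (inner_len_eq θ hx hy) z

end Hilbert

section KSpace

variable {θ : ℝ} [Corr θ]

lemma fld_add (ξ η : HH d θ) (v : Word d) : fld θ (ξ + η) v = fld θ ξ v + fld θ η v := map_add _ _ _

lemma fld_smul (r : ℝ) (ξ : HH d θ) (v : Word d) : fld θ (r • ξ) v = r • fld θ ξ v := map_smul _ _ _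

/-- Elements of the algebra are symmetric on invariant kernels. -/
theorem inner_fld_T {T : KS d θ →L[ℝ] KS d θ} (hT : T ∈ alg (LK θ)) (x y : KS d θ) (v w : Word d) :
    ⟪fld θ (T x).v v, fld θ y.v w⟫_ℝ = ⟪fld θ x.v v, fld θ (T y).v w⟫_ℝ := by
  have key : T ∈ alg (LK θ) ∧ ∀ (x y : KS d θ) (v w : Word d),
      ⟪fld θ (T x).v v, fld θ y.v w⟫_ℝ = ⟪fld θ x.v v, fld θ (T y).v w⟫_ℝ := by
    refine alg_induction (LK θ) (P := fun T => T ∈ alg (LK θ) ∧ ∀ (x y : KS d θ) (v w : Word d),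
      ⟪fld θ (T x).v v, fld θ y.v w⟫_ℝ = ⟪fld θ x.v v, fld θ (T y).v w⟫_ℝ) ?_ ?_ ?_ ?_ ?_ hT
    · have h1 : IsClosed ((alg (LK θ) : Subalgebra ℝ (KS d θ →L[ℝ] KS d θ)) : Set (KS d θ →L[ℝ] KS d θ)) :=
        Subalgebra.isClosed_topologicalClosure _
      have h2 : {T : KS d θ →L[ℝ] KS d θ | T ∈ alg (LK θ) ∧ ∀ (x y : KS d θ) (v w : Word d),
          ⟪fld θ (T x).v v, fld θ y.v w⟫_ℝ = ⟪fld θ x.v v, fld θ (T y).v w⟫_ℝ} =
          ((alg (LK θ) : Subalgebra ℝ (KS d θ →L[ℝ] KS d θ)) : Set (KS d θ →L[ℝ] KS d θ)) ∩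
          ⋂ (x : KS d θ), ⋂ (y : KS d θ), ⋂ (v : Word d), ⋂ (w : Word d),
            {T : KS d θ →L[ℝ] KS d θ | ⟪fld θ (T x).v v, fld θ y.v w⟫_ℝ =
              ⟪fld θ x.v v, fld θ (T y).v w⟫_ℝ} := by
        ext T
        simp only [Set.mem_inter_iff, Set.mem_iInter]
        rfl
      rw [h2]
      refine h1.inter (isClosed_iInter fun x => isClosed_iInter fun y => isClosed_iInter fun v =>
        isClosed_iInter fun w => ?_)
      have c1 : ∀ (a : KS d θ) (u : Word d), Continuous (fun T : KS d θ →L[ℝ] KS d θ => fld θ (T a).v u) :=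
        fun a u => (UU θ (gm u)).continuous.comp (KS.vL.continuous.comp
          (ContinuousLinearMap.apply ℝ _ a).continuous)
      exact isClosed_eq ((c1 x v).inner continuous_const) (continuous_const.inner (c1 y w))
    · exact ⟨self_mem_alg _, fun x y v w => inner_fld_LL θ x.2 y.2 v w⟩
    · intro r
      refine ⟨Subalgebra.algebraMap_mem _ r, fun x y v w => ?_⟩
      have e : ∀ a : KS d θ, ((algebraMap ℝ (KS d θ →L[ℝ] KS d θ) r) a).v = r • a.v := fun a => by
        simp [Algebra.algebraMap_eq_smul_one]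
      rw [e, e, fld_smul, fld_smul, inner_smul_left, inner_smul_right]
      simp
    · rintro a b ⟨ha, ha'⟩ ⟨hb, hb'⟩
      refine ⟨Subalgebra.add_mem _ ha hb, fun x y v w => ?_⟩
      have e : ∀ c : KS d θ, ((a + b) c).v = (a c).v + (b c).v := fun c => rfl
      rw [e, e, fld_add, fld_add, inner_add_left, inner_add_right, ha', hb']
    · rintro a b ⟨ha, ha'⟩ ⟨hb, hb'⟩
      refine ⟨Subalgebra.mul_mem _ ha hb, fun x y v w => ?_⟩
      have e1 : ((a * b) x) = a (b x) := rfl
      have e2 : ((a * b) y) = b (a y) := by rw [alg_comm _ ha hb]; rfl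
      rw [e1, e2, ha', hb']
  exact key.2 x y v w

end KSpace

end Vale.Agent.Lib.P161
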