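import Vale.Agent.Lib.P161.Fields
import Vale.Agent.Lib.P161.Gauss

/-!
The Hubbard-Stratonovich identity: given the Gaussian field added to the local field of an Ising
sample, the spins on a finite set are conditionally independent with the explicit tanh law.
-/

namespace Vale.Agent.Lib.P161

open MeasureTheory ProbabilityTheory
open scoped NNReal ENNReal InnerProductSpace

variable {d : ℕ}

/-- The local field `c σ_v + β Σ_{u ~ v} σ_u`. -/
noncomputable def locF (c β : ℝ) (σ : Word d → Bool) (v : Word d) : ℝ :=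
  c * sp (σ v) + β * ∑ i : Fin d, sp (σ (nb v i))

lemma hs_wt_exp (β : ℝ) (a b : Bool) :
    wt (Real.tanh β) a b = Real.exp (β * (sp a * sp b)) / (2 * Real.cosh β) := by
  have hc := (Real.cosh_pos β).ne'
  have h1 : 1 + Real.tanh β = Real.exp β / Real.cosh β := by
    rw [Real.tanh_eq_sinh_div_cosh, eq_div_iff hc, add_mul, div_mul_cancel₀ _ hc, one_mul,
      Real.cosh_eq, Real.sinh_eq]; ring
  have h2 : 1 - Real.tanh β = Real.exp (-β) / Real.cosh β := by
    rw [Real.tanh_eq_sinh_div_cosh, eq_div_iff hc, sub_mul, div_mul_cancel₀ _ hc, one_mul,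
      Real.cosh_eq, Real.sinh_eq]; ring
  cases a <;> cases b <;> simp only [wt, sp_true, sp_false] <;> norm_num
  · rw [h1]; field_simp
  · rw [show 1 + -Real.tanh β = 1 - Real.tanh β by ring, h2]; field_simp
  · rw [show 1 + -Real.tanh β = 1 - Real.tanh β by ring, h2]; field_simp
  · rw [h1]; field_simp

/-- The spin sum along the tree edges of the ball. -/
noncomputable def hs_bond (D : Finset (Word d)) (τ : Word d → Bool) : ℝ :=
  ∑ v ∈ D.erase root, sp (τ v) * sp (τ (parent v))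

lemma hs_wProd (β : ℝ) (D : Finset (Word d)) (τ : Word d → Bool) :
    wProd (Real.tanh β) D root τ =
      Real.exp (β * hs_bond D τ) / (2 * Real.cosh β) ^ (D.erase root).card := by
  unfold wProd hs_bond
  simp_rw [hs_wt_exp]
  rw [Finset.prod_div_distrib, Finset.prod_const, Finset.mul_sum, Real.exp_sum]

/-- Weights of the cylinders of a ball. -/
lemma hs_weight (β : ℝ) [Corr (Real.tanh β)] (n : ℕ) (τ : Word d → Bool) :
    (isingLaw d (Real.tanh β)).real (cyl (ball n) τ) =
      1 / 2 * (Real.exp (β * hs_bond (ball n) τ) /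
        (2 * Real.cosh β) ^ ((ball n : Finset (Word d)).erase root).card) := by
  have h := isingLaw_cyl_box (Real.tanh β) (ball_rooted n).mem
    (ball_rooted n).closed τ
  rw [measureReal_def, h, hs_wProd, ENNReal.toReal_ofReal]
  have := Real.cosh_pos β
  positivity

section Adj

/-- Sum over ordered adjacent pairs of a ball in terms of its parent edges. -/
lemma hs_adj_sum (n : ℕ) (f : Word d → Word d → ℝ) :
    (open Classical in ∑ v ∈ (ball n : Finset (Word d)), ∑ u ∈ (ball n : Finset (Word d)),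
      if (treeGraph d).Adj v u then f v u else 0) =
    ∑ v ∈ (ball n : Finset (Word d)).erase root, (f v (parent v) + f (parent v) v) := by
  classical
  set D : Finset (Word d) := ball n with hD
  have hpar : ∀ v ∈ D, v ≠ root → parent v ∈ D := (ball_rooted n).closed
  have hroot : root ∈ D := (ball_rooted n).mem
  have hsplit : ∀ v u : Word d, (if (treeGraph d).Adj v u then f v u else 0) =
      (if v ≠ root ∧ u = parent v then f v u else 0) +
        (if u ≠ root ∧ v = parent u then f v u else 0) := by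
    intro v u
    by_cases h1 : v ≠ root ∧ u = parent v
    · have hadj : (treeGraph d).Adj v u := by
        rw [h1.2]; exact adj_parent h1.1
      have h2 : ¬ (u ≠ root ∧ v = parent u) := by
        rintro ⟨h3, h4⟩
        have h5 := len_parent h1.1
        have h6 := len_parent h3
        rw [← h1.2] at h5
        rw [← h4] at h6
        omega
      rw [if_pos hadj, if_pos h1, if_neg h2, add_zero]
    · by_cases h2 : u ≠ root ∧ v = parent u
      · have hadj : (treeGraph d).Adj v u := by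
          rw [h2.2]; exact (adj_parent h2.1).symm
        rw [if_pos hadj, if_neg h1, if_pos h2, zero_add]
      · have hadj : ¬ (treeGraph d).Adj v u := by
          intro h
          rcases adj_len h with ⟨h3, h4⟩ | ⟨h3, h4⟩
          · apply h1
            refine ⟨?_, h4⟩
            rintro rfl
            simp at h3
          · apply h2
            refine ⟨?_, h4⟩
            rintro rfl
            simp at h3
        rw [if_neg hadj, if_neg h1, if_neg h2, add_zero]
  simp_rw [hsplit, Finset.sum_add_distrib]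
  have e1 : ∑ v ∈ D, ∑ u ∈ D, (if v ≠ root ∧ u = parent v then f v u else 0) =
      ∑ v ∈ D.erase root, f v (parent v) := by
    rw [← Finset.add_sum_erase D _ hroot]
    have : ∑ u ∈ D, (if (root : Word d) ≠ root ∧ u = parent root then f root u else 0) = 0 := by
      simp
    rw [this, zero_add]
    refine Finset.sum_congr rfl fun v hv => ?_
    have hv1 := Finset.mem_erase.mp hv
    rw [Finset.sum_eq_single (parent v)]
    · simp [hv1.1]
    · intro u _ hu
      simp [hu]
    · intro h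
      exact absurd (hpar v hv1.2 hv1.1) h
  have e2 : ∑ v ∈ D, ∑ u ∈ D, (if u ≠ root ∧ v = parent u then f v u else 0) =
      ∑ v ∈ D.erase root, f (parent v) v := by
    rw [Finset.sum_comm, ← Finset.add_sum_erase D _ hroot]
    have : ∑ u ∈ D, (if (root : Word d) ≠ root ∧ u = parent root then f u root else 0) = 0 := by
      simp
    rw [this, zero_add]
    refine Finset.sum_congr rfl fun v hv => ?_
    have hv1 := Finset.mem_erase.mp hv
    rw [Finset.sum_eq_single (parent v)]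
    · simp [hv1.1]
    · intro u _ hu
      simp [hu]
    · intro h
      exact absurd (hpar v hv1.2 hv1.1) h
  rw [e1, e2]

end Adj

section Gaussian

variable {Y : Type*} [MeasurableSpace Y] {ν : Measure Y} [IsProbabilityMeasure ν]

/-- The Gaussian vector attached to a spin configuration on `D`. -/
noncomputable def hs_zeta (D : Finset (Word d)) (Ξ : Word d → Lp ℝ 2 ν) (τ : Word d → Bool) :
    Lp ℝ 2 ν := ∑ v ∈ D, sp (τ v) • Ξ v

lemma hs_zeta_mem {G : Submodule ℝ (Lp ℝ 2 ν)} {Ξ : Word d → Lp ℝ 2 ν} (hΞ : ∀ v, Ξ v ∈ G)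
    (D : Finset (Word d)) (τ : Word d → Bool) : hs_zeta D Ξ τ ∈ G :=
  Submodule.sum_mem _ fun v _ => G.smul_mem _ (hΞ v)

lemma hs_inner {Ξ : Word d → Lp ℝ 2 ν} {c β : ℝ}
    (hgram : ∀ v w, ⟪Ξ v, Ξ w⟫_ℝ = (if v = w then c else 0) +
      (open Classical in if (treeGraph d).Adj v w then β else 0))
    {D : Finset (Word d)} {w : Word d} (hw : w ∈ D) (hnb : ∀ i, nb w i ∈ D) (τ : Word d → Bool) :
    ⟪Ξ w, hs_zeta D Ξ τ⟫_ℝ = locF c β τ w := by
  classical
  unfold hs_zeta locF
  rw [inner_sum]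
  simp_rw [inner_smul_right, hgram, mul_add, Finset.sum_add_distrib]
  congr 1
  · rw [Finset.sum_eq_single w]
    · simp [mul_comm]
    · intro u _ hu
      simp [hu.symm]
    · intro h
      exact absurd hw h
  · have himg : D.filter (fun u => (treeGraph d).Adj w u) = Finset.univ.image (nb w) := by
      ext u
      simp only [Finset.mem_filter, Finset.mem_image, Finset.mem_univ, true_and]
      constructor
      · rintro ⟨_, h⟩
        exact exists_nb h
      · rintro ⟨i, rfl⟩
        exact ⟨hnb i, adj_nb w i⟩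
    have e : ∑ u ∈ D, sp (τ u) * (if (treeGraph d).Adj w u then β else 0) =
        ∑ u ∈ D.filter (fun u => (treeGraph d).Adj w u), sp (τ u) * β := by
      rw [Finset.sum_filter]
      refine Finset.sum_congr rfl fun u _ => ?_
      split_ifs <;> simp
    rw [e, himg, Finset.sum_image (fun a _ b _ h => nb_injective w h), Finset.mul_sum]
    exact Finset.sum_congr rfl fun i _ => mul_comm _ _

lemma hs_norm {Ξ : Word d → Lp ℝ 2 ν} {c β : ℝ}
    (hgram : ∀ v w, ⟪Ξ v, Ξ w⟫_ℝ = (if v = w then c else 0) +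
      (open Classical in if (treeGraph d).Adj v w then β else 0))
    (n : ℕ) (τ : Word d → Bool) :
    ‖hs_zeta (ball n) Ξ τ‖ ^ 2 =
      c * ((ball n : Finset (Word d)).card : ℝ) + 2 * (β * hs_bond (ball n) τ) := by
  classical
  set D : Finset (Word d) := ball n with hD
  unfold hs_zeta
  rw [← real_inner_self_eq_norm_sq, sum_inner]
  simp_rw [inner_sum, inner_smul_left, inner_smul_right, hgram]
  have e : ∀ v u : Word d, (starRingEnd ℝ) (sp (τ v)) * (sp (τ u) * ((if v = u then c else 0) +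
      (if (treeGraph d).Adj v u then β else 0))) =
      (if v = u then sp (τ v) * sp (τ u) * c else 0) +
        (if (treeGraph d).Adj v u then sp (τ v) * (sp (τ u) * β) else 0) := by
    intro v u
    simp only [conj_trivial]
    by_cases h1 : v = u <;> by_cases h2 : (treeGraph d).Adj v u <;> simp [h1, h2] <;> ring
  simp_rw [e, Finset.sum_add_distrib]
  have h1 : ∑ v ∈ D, ∑ u ∈ D, (if v = u then sp (τ v) * sp (τ u) * c else 0) =
      c * (D.card : ℝ) := by
    have : ∀ v ∈ D, ∑ u ∈ D, (if v = u then sp (τ v) * sp (τ u) * c else 0) = c := by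
      intro v hv
      rw [Finset.sum_eq_single v]
      · simp [sp_mul_self]
      · intro u _ hu
        simp [hu.symm]
      · intro h
        exact absurd hv h
    rw [Finset.sum_congr rfl this, Finset.sum_const, nsmul_eq_mul, mul_comm]
  have h2 := hs_adj_sum (d := d) n (fun v u => sp (τ v) * (sp (τ u) * β))
  rw [h1]
  congr 1
  rw [show (∑ v ∈ D, ∑ u ∈ D, if (treeGraph d).Adj v u then sp (τ v) * (sp (τ u) * β) else 0) = _
    from h2]
  unfold hs_bond
  rw [Finset.mul_sum, Finset.mul_sum]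
  refine Finset.sum_congr rfl fun v _ => ?_
  ring


/-- Extension of a configuration on `D` by `false`. -/
noncomputable def hs_ext (D : Finset (Word d)) (τ : ↥D → Bool) : Word d → Bool :=
  fun v => if h : v ∈ D then τ ⟨v, h⟩ else false

omit [MeasurableSpace Y] [IsProbabilityMeasure ν] in
lemma hs_ext_coe (D : Finset (Word d)) (τ : ↥D → Bool) (v : ↥D) : hs_ext D τ v.1 = τ v := by
  simp [hs_ext]

omit [IsProbabilityMeasure ν] in
lemma hs_integral_cyl (μ : Measure (Word d → Bool)) [IsProbabilityMeasure μ] (D : Finset (Word d))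
    (g : (Word d → Bool) → ℝ) (hg : ∀ σ σ', (∀ v ∈ D, σ v = σ' v) → g σ = g σ') :
    ∫ σ, g σ ∂μ = ∑ τ : ↥D → Bool, μ.real (cyl D (hs_ext D τ)) * g (hs_ext D τ) := by
  classical
  have hp : ∀ σ, g σ = ∑ τ : ↥D → Bool,
      (cyl D (hs_ext D τ)).indicator (fun _ => g (hs_ext D τ)) σ := by
    intro σ
    rw [Finset.sum_eq_single (fun v : ↥D => σ v.1)]
    · rw [Set.indicator_of_mem]
      · exact hg _ _ (fun v hv => by simp [hs_ext, hv])
      · intro v hv
        simp [hs_ext, hv]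
    · intro τ _ hτ
      rw [Set.indicator_of_notMem]
      intro hmem
      apply hτ
      funext v
      have := hmem v.1 v.2
      rw [hs_ext_coe] at this
      exact this.symm
    · intro h
      exact absurd (Finset.mem_univ _) h
  rw [integral_congr_ae (Filter.Eventually.of_forall hp), integral_finsetSum]
  · refine Finset.sum_congr rfl fun τ _ => ?_
    rw [integral_indicator_const _ (measurableSet_cyl _ _), smul_eq_mul]
  · intro τ _
    exact (integrable_const _).indicator (measurableSet_cyl _ _)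

omit [MeasurableSpace Y] [IsProbabilityMeasure ν] in
/-- The algebraic summation identity. -/
lemma hs_sum_id {D F : Finset (Word d)} (hF : F ⊆ D) (η : Word d → Bool) (x : Word d → ℝ) :
    (∑ τ : ↥D → Bool, (open Classical in if ∀ v ∈ F, hs_ext D τ v = η v then (1 : ℝ) else 0) *
        Real.exp (∑ v ∈ D, sp (hs_ext D τ v) * x v)) =
      (∏ v ∈ F, (1 + sp (η v) * Real.tanh (x v)) / 2) *
        ∑ τ : ↥D → Bool, Real.exp (∑ v ∈ D, sp (hs_ext D τ v) * x v) := by
  classical
  let u : ↥D → Bool → ℝ := fun v b => Real.exp (sp b * x v.1)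
  let φ : ↥D → Bool → ℝ := fun v b => if (v.1 ∈ F → b = η v.1) then u v b else 0
  have hexp : ∀ τ : ↥D → Bool, Real.exp (∑ v ∈ D, sp (hs_ext D τ v) * x v) = ∏ v : ↥D, u v (τ v) := by
    intro τ
    rw [← Finset.sum_coe_sort D, Real.exp_sum]
    refine Finset.prod_congr rfl fun v _ => ?_
    simp only [u]
    rw [hs_ext_coe]
  have hL : ∀ τ : ↥D → Bool, (if ∀ v ∈ F, hs_ext D τ v = η v then (1 : ℝ) else 0) *
      Real.exp (∑ v ∈ D, sp (hs_ext D τ v) * x v) = ∏ v : ↥D, φ v (τ v) := by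
    intro τ
    rw [hexp]
    simp only [φ]
    rw [Finset.prod_ite_zero]
    have hiff : (∀ v ∈ F, hs_ext D τ v = η v) ↔
        ∀ v ∈ (Finset.univ : Finset ↥D), (v.1 ∈ F → τ v = η v.1) := by
      constructor
      · intro h v _ hv
        rw [← hs_ext_coe D τ v]
        exact h _ hv
      · intro h v hv
        have h1 := h ⟨v, hF hv⟩ (Finset.mem_univ _) hv
        have h2 := hs_ext_coe D τ ⟨v, hF hv⟩
        exact h2.trans h1
    by_cases hc : ∀ v ∈ F, hs_ext D τ v = η v
    · rw [if_pos hc, if_pos (hiff.mp hc), one_mul]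
    · rw [if_neg hc, if_neg (fun h => hc (hiff.mpr h)), zero_mul]
  have hS : ∀ f : ↥D → Bool → ℝ, ∑ τ : ↥D → Bool, ∏ v : ↥D, f v (τ v) =
      ∏ v : ↥D, (f v false + f v true) := by
    intro f
    have := Finset.prod_univ_sum (fun _ : ↥D => (Finset.univ : Finset Bool)) f
    rw [Fintype.piFinset_univ] at this
    rw [← this]
    refine Finset.prod_congr rfl fun v _ => ?_
    simp [add_comm]
  simp_rw [hL, hexp]
  rw [hS, hS]
  have hP : ∏ v ∈ F, (1 + sp (η v) * Real.tanh (x v)) / 2 =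
      ∏ v : ↥D, (if v.1 ∈ F then (1 + sp (η v.1) * Real.tanh (x v.1)) / 2 else 1) := by
    rw [Finset.prod_coe_sort D (fun v => if v ∈ F then
      (1 + sp (η v) * Real.tanh (x v)) / 2 else 1)]
    rw [← Finset.prod_subset hF]
    · exact Finset.prod_congr rfl fun v hv => by simp [hv]
    · intro v _ hv
      simp [hv]
  rw [hP, ← Finset.prod_mul_distrib]
  refine Finset.prod_congr rfl fun v _ => ?_
  by_cases hv : v.1 ∈ F
  · have hc := (Real.cosh_pos (x v.1)).ne'
    have hsum : u v false + u v true = 2 * Real.cosh (x v.1) := by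
      simp only [u, sp_false, sp_true, one_mul, neg_mul]
      rw [Real.cosh_eq]; ring
    have hφ1 : φ v false = if false = η v.1 then Real.exp (x v.1) else 0 := by
      simp [φ, u, hv]
    have hφ2 : φ v true = if true = η v.1 then Real.exp (-x v.1) else 0 := by
      simp [φ, u, hv]
    rw [if_pos hv, hsum, hφ1, hφ2, Real.tanh_eq_sinh_div_cosh]
    cases hη : η v.1
    · have e : (1 + sp false * (Real.sinh (x v.1) / Real.cosh (x v.1))) / 2 *
          (2 * Real.cosh (x v.1)) = Real.cosh (x v.1) + Real.sinh (x v.1) := by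
        rw [sp_false]; field_simp
      rw [e, Real.cosh_add_sinh]
      simp
    · have e : (1 + sp true * (Real.sinh (x v.1) / Real.cosh (x v.1))) / 2 *
          (2 * Real.cosh (x v.1)) = Real.cosh (x v.1) - Real.sinh (x v.1) := by
        rw [sp_true]; field_simp; ring
      rw [e, Real.cosh_sub_sinh]
      simp
  · simp [φ, hv]


variable {G : Submodule ℝ (Lp ℝ 2 ν)} {Ξ : Word d → Lp ℝ 2 ν} {c β : ℝ}

lemma hs_coe_zeta (n : ℕ) (τ : Word d → Bool) :
    ((hs_zeta (ball n) Ξ τ : Lp ℝ 2 ν) : Y → ℝ) =ᵐ[ν]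
      fun y => ∑ v ∈ (ball n : Finset (Word d)), sp (τ v) * (Ξ v : Y → ℝ) y :=
  gs_coe_sum (ball n) (fun v => sp (τ v)) Ξ

/-- The normalising constant. -/
noncomputable def hs_A (c β : ℝ) (n : ℕ) : ℝ :=
  1 / 2 * (Real.exp (-(c * ((ball n : Finset (Word d)).card : ℝ)) / 2) /
    (2 * Real.cosh β) ^ ((ball n : Finset (Word d)).erase root).card)

/-- The tilting step. -/
lemma hs_tilt_eq (hG : IsGaussSub G) (hΞ : ∀ v, Ξ v ∈ G) [Corr (Real.tanh β)]
    (hgram : ∀ v w, ⟪Ξ v, Ξ w⟫_ℝ = (if v = w then c else 0) +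
      (open Classical in if (treeGraph d).Adj v w then β else 0))
    {F : Finset (Word d)} {n : ℕ} (hF : F ⊆ ball n) (hnb : ∀ v ∈ F, ∀ i, nb v i ∈ ball n)
    {Ψ : (↥F → ℝ) → ℝ} (hΨ : Measurable Ψ) {C : ℝ} (hC : ∀ x, |Ψ x| ≤ C) (τ : Word d → Bool) :
    (isingLaw d (Real.tanh β)).real (cyl (ball n) τ) *
        ∫ y, Ψ (fun v : ↥F => locF c β τ v.1 + (Ξ v.1 : Y → ℝ) y) ∂ν =
      hs_A (d := d) c β n * ∫ y, Ψ (fun v : ↥F => (Ξ v.1 : Y → ℝ) y) *
        Real.exp ((hs_zeta (ball n) Ξ τ : Y → ℝ) y) ∂ν := by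
  set ζ : Lp ℝ 2 ν := hs_zeta (ball n) Ξ τ with hζdef
  have hζ : ζ ∈ G := hs_zeta_mem hΞ _ _
  have ht := tilt hG (X := fun v : ↥F => Ξ v.1) (fun v => hΞ _) hζ hΨ hC
  have e1 : ∀ y, (fun v : ↥F => locF c β τ v.1 + (Ξ v.1 : Y → ℝ) y) =
      fun v : ↥F => (Ξ v.1 : Y → ℝ) y + ⟪Ξ v.1, ζ⟫_ℝ := by
    intro y
    funext v
    rw [hζdef, hs_inner hgram (hF v.2) (hnb v.1 v.2) τ, add_comm]
  simp_rw [e1]
  rw [ht]
  have e2 : ∀ y, Ψ (fun v : ↥F => (Ξ v.1 : Y → ℝ) y) * Real.exp ((ζ : Y → ℝ) y - ‖ζ‖ ^ 2 / 2) =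
      (Ψ (fun v : ↥F => (Ξ v.1 : Y → ℝ) y) * Real.exp ((ζ : Y → ℝ) y)) *
        Real.exp (-(‖ζ‖ ^ 2 / 2)) := by
    intro y
    rw [mul_assoc, ← Real.exp_add]
    congr 2
  simp_rw [e2]
  rw [integral_mul_const, hs_weight, hζdef, hs_norm hgram, hs_A]
  have hexp : Real.exp (β * hs_bond (ball n) τ) *
      Real.exp (-((c * ((ball n : Finset (Word d)).card : ℝ) +
        2 * (β * hs_bond (ball n) τ)) / 2)) =
      Real.exp (-(c * ((ball n : Finset (Word d)).card : ℝ)) / 2) := by
    rw [← Real.exp_add]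
    congr 1
    ring
  calc _ = 1 / 2 * ((Real.exp (β * hs_bond (ball n) τ) *
      Real.exp (-((c * ((ball n : Finset (Word d)).card : ℝ) +
        2 * (β * hs_bond (ball n) τ)) / 2))) /
        (2 * Real.cosh β) ^ ((ball n : Finset (Word d)).erase root).card) *
      ∫ y, Ψ (fun v : ↥F => (Ξ v.1 : Y → ℝ) y) *
        Real.exp ((hs_zeta (ball n) Ξ τ : Y → ℝ) y) ∂ν := by ring
    _ = _ := by rw [hexp]

omit [IsProbabilityMeasure ν] in
lemma hs_meas_vec (F : Finset (Word d)) :
    Measurable (fun y => fun v : ↥F => (Ξ v.1 : Y → ℝ) y) :=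
  measurable_pi_lambda _ fun v => gs_meas (Ξ v.1)

lemma hs_integrable (hG : IsGaussSub G) (hΞ : ∀ v, Ξ v ∈ G)
    {F : Finset (Word d)} {Ψ : (↥F → ℝ) → ℝ} (hΨ : Measurable Ψ) {C : ℝ} (hC : ∀ x, |Ψ x| ≤ C)
    (D : Finset (Word d)) (τ : Word d → Bool) :
    Integrable (fun y => Ψ (fun v : ↥F => (Ξ v.1 : Y → ℝ) y) *
      Real.exp ((hs_zeta D Ξ τ : Y → ℝ) y)) ν :=
  (gs_exp_integrable hG (hs_zeta_mem hΞ D τ)).bdd_mul (c := C)
    (hΨ.comp (hs_meas_vec F)).aestronglyMeasurable
    (Filter.Eventually.of_forall fun y => by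
      rw [Real.norm_eq_abs]
      exact hC _)

theorem hs_identity {Y : Type*} [MeasurableSpace Y] {ν : Measure Y} [IsProbabilityMeasure ν]
    {G : Submodule ℝ (Lp ℝ 2 ν)} (hG : IsGaussSub G) (Ξ : Word d → Lp ℝ 2 ν) (hΞ : ∀ v, Ξ v ∈ G)
    {c β : ℝ} (hβ : 0 ≤ β) [Corr (Real.tanh β)]
    (hgram : ∀ v w, ⟪Ξ v, Ξ w⟫_ℝ = (if v = w then c else 0) +
      (open Classical in if (treeGraph d).Adj v w then β else 0))
    (F : Finset (Word d)) (η : Word d → Bool) {Ψ : (↥F → ℝ) → ℝ} (hΨ : Measurable Ψ) {C : ℝ}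
    (hC : ∀ x, |Ψ x| ≤ C) :
    ∫ σ, ∫ y, (open Classical in if ∀ v ∈ F, σ v = η v then 1 else 0) *
        Ψ (fun v : ↥F => locF c β σ v.1 + (Ξ v.1 : Y → ℝ) y) ∂ν ∂(isingLaw d (Real.tanh β)) =
    ∫ σ, ∫ y, (∏ v ∈ F, (1 + sp (η v) * Real.tanh (locF c β σ v + (Ξ v : Y → ℝ) y)) / 2) *
        Ψ (fun v : ↥F => locF c β σ v.1 + (Ξ v.1 : Y → ℝ) y) ∂ν ∂(isingLaw d (Real.tanh β)) := by
  classical
  have _ := hβ
  -- a ball containing `F` with all neighbours
  obtain ⟨n, hn⟩ := exists_ball_superset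
    (F ∪ (F ×ˢ (Finset.univ : Finset (Fin d))).image (fun p => nb p.1 p.2))
  have hF : F ⊆ ball n := fun v hv => hn (Finset.mem_union_left _ hv)
  have hnb : ∀ v ∈ F, ∀ i, nb v i ∈ ball n := fun v hv i =>
    hn (Finset.mem_union_right _ (Finset.mem_image.mpr
      ⟨(v, i), Finset.mem_product.mpr ⟨hv, Finset.mem_univ _⟩, rfl⟩))
  set D : Finset (Word d) := ball n with hD
  -- locF depends only on the ball
  have hloc : ∀ σ σ' : Word d → Bool, (∀ v ∈ D, σ v = σ' v) → ∀ v : ↥F,
      locF c β σ v.1 = locF c β σ' v.1 := by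
    intro σ σ' h v
    unfold locF
    rw [h v.1 (hF v.2)]
    congr 2
    exact Finset.sum_congr rfl fun i _ => by rw [h _ (hnb v.1 v.2 i)]
  -- the modified test function
  let Ψ' : (↥F → ℝ) → ℝ := fun x =>
    (∏ v : ↥F, (1 + sp (η v.1) * Real.tanh (x v)) / 2) * Ψ x
  have hfac : ∀ (v : ↥F) (x : ↥F → ℝ), |(1 + sp (η v.1) * Real.tanh (x v)) / 2| ≤ 1 ∧
      0 ≤ (1 + sp (η v.1) * Real.tanh (x v)) / 2 := by
    intro v x
    have h1 := Real.tanh_lt_one (x v)
    have h2 := Real.neg_one_lt_tanh (x v)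
    cases η v.1 <;> simp only [sp_true, sp_false] <;> constructor <;>
      first
        | (rw [abs_le]; constructor <;> linarith)
        | linarith
  have hΨ'm : Measurable Ψ' := by
    refine Measurable.mul (Finset.measurable_prod _ fun v _ => ?_) hΨ
    have htanh : Measurable Real.tanh := by
      have : Real.tanh = fun x => Real.sinh x / Real.cosh x := by
        funext x; exact Real.tanh_eq_sinh_div_cosh x
      rw [this]
      exact Real.measurable_sinh.div Real.measurable_cosh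
    exact (((htanh.comp (measurable_pi_apply v)).const_mul _).const_add _).div_const _
  have hΨ'b : ∀ x, |Ψ' x| ≤ C := by
    intro x
    simp only [Ψ']
    rw [abs_mul, Finset.abs_prod]
    have h1 : ∏ v : ↥F, |(1 + sp (η v.1) * Real.tanh (x v)) / 2| ≤ 1 :=
      Finset.prod_le_one (fun _ _ => abs_nonneg _) fun v _ => (hfac v x).1
    calc _ ≤ 1 * |Ψ x| := mul_le_mul_of_nonneg_right h1 (abs_nonneg _)
      _ ≤ C := by rw [one_mul]; exact hC x
  -- rewriting of both sides as finite sums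
  have hL : ∀ σ : Word d → Bool, (∫ y, (if ∀ v ∈ F, σ v = η v then 1 else 0) *
        Ψ (fun v : ↥F => locF c β σ v.1 + (Ξ v.1 : Y → ℝ) y) ∂ν) =
      (if ∀ v ∈ F, σ v = η v then 1 else 0) *
        ∫ y, Ψ (fun v : ↥F => locF c β σ v.1 + (Ξ v.1 : Y → ℝ) y) ∂ν :=
    fun σ => integral_const_mul _ _
  have hR : ∀ σ : Word d → Bool,
      (∫ y, (∏ v ∈ F, (1 + sp (η v) * Real.tanh (locF c β σ v + (Ξ v : Y → ℝ) y)) / 2) *
        Ψ (fun v : ↥F => locF c β σ v.1 + (Ξ v.1 : Y → ℝ) y) ∂ν) =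
      ∫ y, Ψ' (fun v : ↥F => locF c β σ v.1 + (Ξ v.1 : Y → ℝ) y) ∂ν := by
    intro σ
    refine integral_congr_ae (Filter.Eventually.of_forall fun y => ?_)
    simp only [Ψ']
    congr 1
    exact (Finset.prod_coe_sort F
      (fun v => (1 + sp (η v) * Real.tanh (locF c β σ v + (Ξ v : Y → ℝ) y)) / 2)).symm
  simp_rw [hL, hR]
  rw [hs_integral_cyl (isingLaw d (Real.tanh β)) D _ ?_, hs_integral_cyl (isingLaw d (Real.tanh β)) D _ ?_]
  · -- the two finite sums
    have hterm1 : ∀ τ : ↥D → Bool,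
        (isingLaw d (Real.tanh β)).real (cyl D (hs_ext D τ)) *
          ((if ∀ v ∈ F, hs_ext D τ v = η v then 1 else 0) *
            ∫ y, Ψ (fun v : ↥F => locF c β (hs_ext D τ) v.1 + (Ξ v.1 : Y → ℝ) y) ∂ν) =
        hs_A (d := d) c β n * ∫ y, (if ∀ v ∈ F, hs_ext D τ v = η v then (1 : ℝ) else 0) *
          (Ψ (fun v : ↥F => (Ξ v.1 : Y → ℝ) y) *
            Real.exp ((hs_zeta D Ξ (hs_ext D τ) : Y → ℝ) y)) ∂ν := by
      intro τ
      rw [mul_left_comm, hs_tilt_eq hG hΞ hgram hF hnb hΨ hC, integral_const_mul]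
      ring
    have hterm2 : ∀ τ : ↥D → Bool,
        (isingLaw d (Real.tanh β)).real (cyl D (hs_ext D τ)) *
            ∫ y, Ψ' (fun v : ↥F => locF c β (hs_ext D τ) v.1 + (Ξ v.1 : Y → ℝ) y) ∂ν =
        hs_A (d := d) c β n * ∫ y, Ψ' (fun v : ↥F => (Ξ v.1 : Y → ℝ) y) *
            Real.exp ((hs_zeta D Ξ (hs_ext D τ) : Y → ℝ) y) ∂ν :=
      fun τ => hs_tilt_eq hG hΞ hgram hF hnb hΨ'm hΨ'b _
    simp_rw [hterm1, hterm2]
    rw [← Finset.mul_sum, ← Finset.mul_sum]
    congr 1
    rw [← integral_finsetSum, ← integral_finsetSum]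
    · refine integral_congr_ae ?_
      have hall : ∀ᵐ y ∂ν, ∀ τ : ↥D → Bool, (hs_zeta D Ξ (hs_ext D τ) : Y → ℝ) y =
          ∑ v ∈ D, sp (hs_ext D τ v) * (Ξ v : Y → ℝ) y :=
        ae_all_iff.mpr fun τ => hs_coe_zeta n (hs_ext D τ)
      filter_upwards [hall] with y hy
      simp_rw [hy]
      have key := hs_sum_id (D := D) (F := F) hF η (fun v => (Ξ v : Y → ℝ) y)
      simp only [Ψ']
      rw [← Finset.mul_sum]
      have e1 : ∀ τ : ↥D → Bool, (if ∀ v ∈ F, hs_ext D τ v = η v then (1 : ℝ) else 0) *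
          (Ψ (fun v : ↥F => (Ξ v.1 : Y → ℝ) y) *
            Real.exp (∑ v ∈ D, sp (hs_ext D τ v) * (Ξ v : Y → ℝ) y)) =
          Ψ (fun v : ↥F => (Ξ v.1 : Y → ℝ) y) * ((if ∀ v ∈ F, hs_ext D τ v = η v then (1 : ℝ) else 0) *
            Real.exp (∑ v ∈ D, sp (hs_ext D τ v) * (Ξ v : Y → ℝ) y)) := fun τ => by ring
      simp_rw [e1]
      rw [← Finset.mul_sum, key, Finset.prod_coe_sort F
        (fun v => (1 + sp (η v) * Real.tanh ((Ξ v : Y → ℝ) y)) / 2)]
      ring
    · intro τ _
      exact hs_integrable hG hΞ hΨ'm hΨ'b D _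
    · intro τ _
      exact (hs_integrable hG hΞ hΨ hC D _).const_mul _
  · -- dependence on the ball, right side
    intro σ σ' h
    have : (fun v : ↥F => locF c β σ v.1) = fun v : ↥F => locF c β σ' v.1 :=
      funext (hloc σ σ' h)
    simp_rw [hloc σ σ' h]
  · -- dependence on the ball, left side
    intro σ σ' h
    have hiff : (∀ v ∈ F, σ v = η v) ↔ (∀ v ∈ F, σ' v = η v) :=
      forall₂_congr fun v hv => by rw [h v (hF hv)]
    simp_rw [hloc σ σ' h, hiff]

end Gaussian

end Vale.Agent.Lib.P161
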