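import Vale.Agent.Lib.P161.Factor

/-!
The factor of the noise, for `4 β √(d - 1) < 1`, and its transfer to i.i.d. uniform labels.
-/

namespace Vale.Agent.Lib.P161

open MeasureTheory ProbabilityTheory
open scoped ENNReal NNReal InnerProductSpace

variable {d : ℕ}

lemma tanh_le_self {β : ℝ} (hβ : 0 ≤ β) : Real.tanh β ≤ β := by
  have := ker_tanh_lip 0 β hβ
  simpa using this

lemma corr_tanh {β : ℝ} (hβ : 0 ≤ β) : Corr (Real.tanh β) := by
  refine ⟨?_, (Real.tanh_lt_one β).le⟩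
  rw [Real.tanh_eq_sinh_div_cosh]
  exact div_nonneg (Real.sinh_nonneg_iff.mpr hβ) (Real.cosh_pos β).le

/-- A factor of the noise with the law of the Ising model. -/
theorem exists_factor_noise {β : ℝ} (hβ : 0 ≤ β) [Corr (Real.tanh β)] (hd : 2 ≤ d)
    (h : 4 * β * √((d : ℝ) - 1) < 1) :
    ∃ Φ : Noise d → Word d → Bool, Measurable Φ ∧
      (∀ g : Aut d, ∀ᵐ z ∂(nu d), Φ (actN g z) = actS g (Φ z)) ∧
      ∀ (D : Finset (Word d)) (η : Word d → Bool),
        (nu d) {z | ∀ v ∈ D, Φ z v = η v} = isingLaw d (Real.tanh β) (cyl D η) := by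
  have hd1 : (1 : ℝ) ≤ (d : ℝ) - 1 := by
    have : (2 : ℝ) ≤ d := by exact_mod_cast hd
    linarith
  set m := √((d : ℝ) - 1) with hmdef
  have hm1 : 1 ≤ m := by
    rw [hmdef]
    exact Real.one_le_sqrt.mpr hd1
  have hm0 : 0 < m := by linarith
  have hm : m ^ 2 = (d : ℝ) - 1 := Real.sq_sqrt (by linarith)
  have hβm : 0 ≤ β * m := mul_nonneg hβ hm0.le
  have hθ : Real.tanh β ≤ m⁻¹ := by
    have e1 := tanh_le_self hβ
    have e2 : β ≤ m⁻¹ := by
      rw [← one_div, le_div_iff₀ hm0]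
      nlinarith
    linarith
  have hρ : (0 : ℝ) ≤ 2 * m := by linarith
  have hβρ : β * (2 * m) < 1 / 2 := by nlinarith
  have hβρ0 : 0 ≤ β * (2 * m) := by nlinarith
  set s₀ : ℝ := (1 / 2 - β * (2 * m)) / 2 with hs₀
  have hs₀0 : 0 < s₀ := by rw [hs₀]; linarith
  have hs₀1 : s₀ < 1 / 2 - β * (2 * m) := by rw [hs₀]; linarith
  obtain ⟨R, Sq, T₁, E, hR, hSq, hT, hE, hQR, hSq2, hT1, hE2, hTbd⟩ :=
    exists_ops (LK (Real.tanh β)) (LK_symm (d := d)) hρ (LK_bd hd hm0 hm hθ) hβ hβρ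
      (by linarith) hs₀0 hs₀1
  set s : ℝ≥0 := ⟨s₀, hs₀0.le⟩ with hs
  have hsc : (s : ℝ) = s₀ := rfl
  have hqpos : 0 < 1 / 2 + β * (2 * m) := by linarith
  have hq1 : 1 / 2 + β * (2 * m) < 1 := by linarith
  set a : ℝ := 1 - s₀ / (1 / 2 + β * (2 * m)) with ha
  obtain ⟨O, hOT⟩ : ∃ O : Ops d (Real.tanh β) β (1 / 2) s, ∀ x, ‖O.T x‖ ≤ a * ‖x‖ :=
    ⟨⟨R, Sq, T₁, E, hR, hSq, hT, hE, hQR, hSq2, by rw [hsc]; exact hT1, by rw [hsc]; exact hE2⟩, hTbd⟩
  have hs0 : 0 < s := by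
    rw [← NNReal.coe_pos, hsc]
    exact hs₀0
  have hs1 : s < 1 := by
    rw [← NNReal.coe_lt_coe, hsc]
    simp only [NNReal.coe_one]
    linarith
  obtain ⟨F, hF1, hF2, hF3, hF4⟩ := exists_F s hs0 hs1
  let K : SiteF s := ⟨F, hF1, hF2, hF3, hF4⟩
  have ha0 : 0 ≤ a := by
    rw [ha, sub_nonneg, div_le_one hqpos]
    linarith
  have h1s : (0 : ℝ) < 1 - s := by
    rw [hsc]
    linarith
  have haκ : (1 - s : ℝ)⁻¹ * a < 1 := by
    rw [← div_eq_inv_mul, div_lt_one h1s, hsc, ha]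
    have e1 : s₀ < s₀ / (1 / 2 + β * (2 * m)) := by
      rw [lt_div_iff₀ hqpos]
      nlinarith
    linarith
  obtain ⟨ξ, hN, hlaw⟩ := exists_fixed O K hβ hs0 hs1 ha0 hOT haκ
  obtain ⟨f, hf, hrep⟩ := exists_rep (Real.tanh β) hN
  exact ⟨PhiN f, measurable_PhiN hf, equivariant_PhiN hf ξ.2 hrep,
    law_PhiN O hf hβ hrep hlaw⟩

/-- The law of i.i.d. uniform labels on the vertices. -/
noncomputable def LW (d : ℕ) : Measure (Word d → unitInterval) :=
  Measure.infinitePi (fun _ : Word d => (volume : Measure unitInterval))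

instance : IsProbabilityMeasure (LW d) := by unfold LW; infer_instance

/-- The noise is a factor of the uniform labels, without any loss. -/
lemma exists_labels : ∃ τ : (Word d → unitInterval) → Noise d, MeasurePreserving τ (LW d) (nu d) ∧
    ∀ (g : Aut d) (U : Word d → unitInterval), τ (fun v => U (g.symm v)) = actN g (τ U) := by
  obtain ⟨ι, hι, hι'⟩ := exists_param (Measure.infinitePi (fun _ : ℕ => mZ))
  refine ⟨fun U i => ι (U i.1) i.2, ⟨?_, ?_⟩, fun g U => rfl⟩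
  · exact measurable_pi_lambda _ fun i =>
      (measurable_pi_apply i.2).comp (hι.comp (measurable_pi_apply i.1))
  · have e : (fun (U : Word d → unitInterval) (i : Idx d) => ι (U i.1) i.2) =
        (MeasurableEquiv.curry (Word d) ℕ Zv).symm ∘ (fun U v => ι (U v)) := rfl
    have hm : Measurable (fun (U : Word d → unitInterval) (v : Word d) => ι (U v)) :=
      measurable_pi_lambda _ fun v => hι.comp (measurable_pi_apply v)
    rw [e, ← Measure.map_map (MeasurableEquiv.measurable _) hm]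
    unfold LW nu
    rw [Measure.infinitePi_map_pi (μ := fun _ : Word d => (volume : Measure unitInterval))
      (f := fun _ => ι) (fun _ => hι)]
    simp only [hι']
    exact Measure.infinitePi_map_curry_symm (fun _ _ => mZ)

/-- The main theorem. -/
theorem main_factor {β : ℝ} (hβ : 0 ≤ β) (hd : 2 ≤ d) (h : 4 * β * √((d : ℝ) - 1) < 1) :
    ∃ Φ : (Word d → unitInterval) → Word d → Bool, Measurable Φ ∧
      (∀ g : Aut d, ∀ᵐ U ∂(LW d), Φ (fun v => U (g.symm v)) = fun v => Φ U (g.symm v)) ∧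
      ∀ D : Finset (Word d), ((treeGraph d).induce (D : Set (Word d))).Connected →
        ∀ η : Word d → Bool, (LW d) {U | ∀ v ∈ D, Φ U v = η v} =
          ENNReal.ofReal (1 / 2 * ∏ e ∈ edgesIn D, eWt (Real.tanh β) η e) := by
  haveI := corr_tanh hβ
  obtain ⟨Φ, hΦ, heq, hlaw⟩ := exists_factor_noise (d := d) hβ hd h
  obtain ⟨τ, hτ, hτg⟩ := exists_labels (d := d)
  refine ⟨Φ ∘ τ, hΦ.comp hτ.measurable, fun g => ?_, fun D hD η => ?_⟩
  · filter_upwards [hτ.quasiMeasurePreserving.ae (heq g)] with U hU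
    show Φ (τ (fun v => U (g.symm v))) = _
    rw [hτg, hU]
    rfl
  · have hms : MeasurableSet {z : Noise d | ∀ v ∈ D, Φ z v = η v} := by
      have : {z : Noise d | ∀ v ∈ D, Φ z v = η v} =
          ⋂ v ∈ D, (fun z => Φ z v) ⁻¹' {η v} := by
        ext z
        simp
      rw [this]
      exact Finset.measurableSet_biInter _ fun v _ =>
        ((measurable_pi_apply v).comp hΦ) (measurableSet_singleton _)
    have e := hτ.measure_preimage hms.nullMeasurableSet
    rw [hlaw, isingLaw_cyl _ (connClosed_of_connected hD)] at e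
    exact e

end Vale.Agent.Lib.P161
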