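import Vale.Agent.Lib.P161.Kernel
import Vale.Agent.Lib.P161.Ising

/-!
The product over a finite set of the site kernels, expanded as a mixture of Gaussian measures.
-/

namespace Vale.Agent.Lib.P161

open MeasureTheory ProbabilityTheory
open scoped NNReal ENNReal

lemma mix_w_nonneg (b : Bool) (x : ℝ) : 0 ≤ (1 + sp b * Real.tanh x) / 2 := by
  have h1 := Real.tanh_lt_one x
  have h2 := Real.neg_one_lt_tanh x
  rcases Bool.eq_false_or_eq_true b with h | h <;> rw [h] <;> simp <;> linarith

/-- The site kernel as a sum over signs. -/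
lemma mix_siteKer (s : ℝ≥0) (x : ℝ) :
    siteKer s x = ∑ b : Bool, ENNReal.ofReal ((1 + sp b * Real.tanh x) / 2) •
      gaussianReal (x + s * sp b) s := by
  rw [Fintype.sum_bool]
  simp only [sp_true, sp_false, siteKer]
  have e1 : x + (s : ℝ) * -1 = x - s := by ring
  have e2 : (1 + (-1) * Real.tanh x) / 2 = (1 - Real.tanh x) / 2 := by ring
  have e3 : (1 + 1 * Real.tanh x) / 2 = (1 + Real.tanh x) / 2 := by ring
  rw [e1, e2, e3, mul_one, add_comm]

variable {ι : Type*} [Fintype ι] [DecidableEq ι]

/-- Multilinearity of the product measure. -/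
lemma mix_pi {X : Type*} [MeasurableSpace X] (M : ι → Measure X) [∀ v, SigmaFinite (M v)]
    (N : ι → Bool → Measure X) (w : ι → Bool → ℝ≥0∞)
    (hM : ∀ v, M v = ∑ b : Bool, w v b • N v b) [∀ v b, SigmaFinite (N v b)] :
    Measure.pi M = ∑ η : ι → Bool, (∏ v, w v (η v)) • Measure.pi (fun v => N v (η v)) := by
  refine Measure.pi_eq fun S hS => ?_
  rw [Measure.finsetSum_apply]
  have h1 : ∀ v, M v (S v) = ∑ b : Bool, w v b * N v b (S v) := by
    intro v
    rw [hM v, Measure.finsetSum_apply]
    rfl
  simp_rw [h1]
  rw [Finset.prod_univ_sum, Fintype.piFinset_univ]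
  refine Finset.sum_congr rfl fun η _ => ?_
  rw [Measure.smul_apply, Measure.pi_pi, smul_eq_mul, Finset.prod_mul_distrib]

/-- A Gaussian variable from a standard one. -/
lemma mix_gauss (a : ℝ) (s : ℝ≥0) :
    (gaussianReal 0 1).map (fun t : ℝ => a + √s * t) = gaussianReal a s := by
  have h1 : (fun t : ℝ => a + √s * t) = (fun t => a + t) ∘ (fun t => √s * t) := rfl
  have m1 : Measurable (fun t : ℝ => a + t) := measurable_const.add measurable_id
  have m2 : Measurable (fun t : ℝ => √(s : ℝ) * t) := measurable_const.mul measurable_id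
  rw [h1, ← Measure.map_map m1 m2, gaussianReal_map_const_mul, gaussianReal_map_const_add]
  congr 1
  · simp
  · rw [mul_one]
    ext
    exact Real.sq_sqrt s.2

/-- The site kernel after a measurable parametrisation. -/
theorem integral_mixture (s : ℝ≥0) (h0 : 0 < s) {F : ℝ → unitInterval → ℝ}
    (hF : Measurable (Function.uncurry F))
    (hF' : ∀ x, Measure.map (F x) (volume : Measure unitInterval) = siteKer s x)
    {φ : (ι → ℝ) → ℝ} (hφ : Measurable φ) {C : ℝ} (hC : ∀ x, |φ x| ≤ C) (x : ι → ℝ) :
    ∫ u, φ (fun v => F (x v) (u v)) ∂(Measure.pi fun _ : ι => (volume : Measure unitInterval)) =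
      ∑ η : ι → Bool, (∏ v, (1 + sp (η v) * Real.tanh (x v)) / 2) *
        ∫ t, φ (fun v => x v + s * sp (η v) + √s * t v) ∂(Measure.pi fun _ : ι => gaussianReal 0 1) := by
  have hs0 : (0 : ℝ) ≤ s := s.2
  have hFm : ∀ y, Measurable (F y) := fun y => hF.comp (measurable_const.prodMk measurable_id)
  -- first the map
  have h1 : Measure.map (fun (u : ι → unitInterval) v => F (x v) (u v))
      (Measure.pi fun _ : ι => (volume : Measure unitInterval)) =
      Measure.pi (fun v => siteKer s (x v)) := by
    have := Measure.pi_map_pi (μ := fun _ : ι => (volume : Measure unitInterval))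
      (f := fun v => F (x v)) (fun v => (hFm (x v)).aemeasurable)
    rw [this]
    congr 1
    funext v
    exact hF' (x v)
  have h2 : ∫ u, φ (fun v => F (x v) (u v)) ∂(Measure.pi fun _ : ι => (volume : Measure unitInterval)) =
      ∫ y, φ y ∂(Measure.pi (fun v => siteKer s (x v))) := by
    rw [← h1, integral_map _ hφ.aestronglyMeasurable]
    exact (measurable_pi_lambda _ fun v =>
      (hFm (x v)).comp (measurable_pi_apply v)).aemeasurable
  rw [h2]
  have h3 := mix_pi (fun v => siteKer s (x v)) (fun v b => gaussianReal (x v + s * sp b) s)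
    (fun v b => ENNReal.ofReal ((1 + sp b * Real.tanh (x v)) / 2)) (fun v => mix_siteKer s (x v))
  rw [h3]
  have hint : ∀ η : ι → Bool, Integrable φ (Measure.pi fun v => gaussianReal (x v + s * sp (η v)) s) := by
    intro η
    exact Integrable.of_bound hφ.aestronglyMeasurable C (Filter.Eventually.of_forall hC)
  rw [integral_finsetSum_measure]
  · refine Finset.sum_congr rfl fun η _ => ?_
    rw [integral_smul_measure, ENNReal.toReal_prod, smul_eq_mul]
    congr 1
    · refine Finset.prod_congr rfl fun v _ => ?_
      exact ENNReal.toReal_ofReal (mix_w_nonneg _ _)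
    · -- the Gaussian product as the image of the standard one
      have h4 : Measure.map (fun (t : ι → ℝ) v => x v + s * sp (η v) + √s * t v)
          (Measure.pi fun _ : ι => gaussianReal 0 1) =
          Measure.pi fun v => gaussianReal (x v + s * sp (η v)) s := by
        have := Measure.pi_map_pi (μ := fun _ : ι => gaussianReal 0 1)
          (f := fun v (t : ℝ) => x v + s * sp (η v) + √s * t)
          (hμ := fun v => by
            rw [mix_gauss]
            infer_instance)
          (fun v => (measurable_const.add (measurable_const.mul measurable_id)).aemeasurable)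
        rw [this]
        congr 1
        funext v
        exact mix_gauss _ s
      rw [← h4, integral_map _ hφ.aestronglyMeasurable]
      exact (measurable_pi_lambda _ fun v =>
        (measurable_const.add (measurable_const.mul (measurable_pi_apply v)))).aemeasurable
  · intro η _
    exact (hint η).smul_measure (ENNReal.prod_ne_top fun v _ => ENNReal.ofReal_ne_top)

end Vale.Agent.Lib.P161
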