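import Vale.Agent.Lib.P161.Gram

/-!
The operators of the chain and the covariances of the Gaussian fields they produce.
-/

namespace Vale.Agent.Lib.P161

open MeasureTheory ProbabilityTheory
open scoped ENNReal NNReal InnerProductSpace

variable {d : ℕ}

section Cov

variable {θ : ℝ} [Corr θ]

/-- The covariance kernel of two fields. -/
noncomputable def covK (A B : KS d θ) (v w : Word d) : ℝ := ⟪fld θ A.v v, fld θ B.v w⟫_ℝ

lemma covK_add_left (A A' B : KS d θ) (v w : Word d) :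
    covK (A + A') B v w = covK A B v w + covK A' B v w := by
  unfold covK
  rw [KS.add_v, fld_add, inner_add_left]

lemma covK_add_right (A B B' : KS d θ) (v w : Word d) :
    covK A (B + B') v w = covK A B v w + covK A B' v w := by
  unfold covK
  rw [KS.add_v, fld_add, inner_add_right]

lemma covK_smul_left (r : ℝ) (A B : KS d θ) (v w : Word d) :
    covK (r • A) B v w = r * covK A B v w := by
  unfold covK
  rw [KS.smul_v, fld_smul, inner_smul_left]
  simp

lemma covK_smul_right (r : ℝ) (A B : KS d θ) (v w : Word d) :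
    covK A (r • B) v w = r * covK A B v w := by
  unfold covK
  rw [KS.smul_v, fld_smul, inner_smul_right]

lemma covK_T {T T' : KS d θ →L[ℝ] KS d θ} (hT' : T' ∈ alg (LK θ)) (A B : KS d θ) (v w : Word d) :
    covK (T A) (T' B) v w = covK ((T' * T) A) B v w :=
  (inner_fld_T hT' (T A) B v w).symm

lemma covK_g (k : ℕ) (v w : Word d) :
    covK (gK θ k : KS d θ) (gK θ k) v w = if v = w then 1 else 0 := by
  unfold covK
  rw [fld_g, fld_g, inner_gL]
  simp

open Classical in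
lemma covK_Lg (k : ℕ) (v w : Word d) :
    covK (LK θ (gK θ k : KS d θ)) (gK θ k) v w = if (treeGraph d).Adj v w then 1 else 0 := by
  unfold covK
  rw [LK_v, fld_LL θ (KS.mem (gK θ k : KS d θ)), fld_g, sum_inner]
  have e : ∀ i : Fin d, ⟪fld θ (gK θ k : KS d θ).v (nb v i), gL θ w k⟫_ℝ = if nb v i = w then 1 else 0 := by
    intro i
    have h : fld θ (gK θ k : KS d θ).v (nb v i) = gL θ (nb v i) k := fld_g θ k _
    rw [h, inner_gL]
    simp
  simp_rw [e]
  split_ifs with h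
  · obtain ⟨i₀, hi₀⟩ := exists_nb h
    rw [Finset.sum_eq_single i₀]
    · rw [if_pos hi₀]
    · intro b _ hb
      rw [if_neg]
      intro h2
      exact hb (nb_injective v (h2.trans hi₀.symm))
    · intro h2
      exact absurd (Finset.mem_univ _) h2
  · refine Finset.sum_eq_zero fun i _ => ?_
    rw [if_neg]
    intro h2
    exact h (h2 ▸ adj_nb v i)

open Classical in
/-- The kernel `a 1 + β A`, `A` the adjacency matrix. -/
noncomputable def qK (a β : ℝ) (v w : Word d) : ℝ :=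
  (if v = w then a else 0) + (if (treeGraph d).Adj v w then β else 0)

variable (θ) in
/-- `Q = a + β L`. -/
noncomputable def QQ (a β : ℝ) : KS d θ →L[ℝ] KS d θ :=
  a • (1 : KS d θ →L[ℝ] KS d θ) + β • LK θ

lemma covK_Qa (a β : ℝ) (k : ℕ) (v w : Word d) :
    covK (QQ θ a β (gK θ k)) (gK θ k) v w = qK a β v w := by
  classical
  have e : (QQ θ a β (gK θ k) : KS d θ) = a • gK θ k + β • LK θ (gK θ k) := rfl
  rw [e, covK_add_left, covK_smul_left, covK_smul_left, covK_g, covK_Lg]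
  unfold qK
  congr 1 <;> split_ifs <;> simp

lemma fld_SS' (ξ : KS d θ) (v : Word d) : fld θ (SK θ ξ).v v = SS θ (fld θ ξ.v v) := fld_SS θ ξ.v v

lemma covK_SK (A B : KS d θ) (v w : Word d) : covK (SK θ A) (SK θ B) v w = covK A B v w := by
  unfold covK
  rw [fld_SS', fld_SS']
  exact (SS θ).inner_map_map _ _

lemma covK_shift {P : KS d θ →L[ℝ] KS d θ} (hP : P ∈ alg (LK θ)) (k : ℕ) (v w : Word d) :
    covK (P (gK θ k)) (gK θ k) v w = covK (P (gK θ 0)) (gK θ 0) v w := by
  induction k with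
  | zero => rfl
  | succ k ih =>
    rw [← ih, ← SK_g, SK_comm hP, covK_SK]

lemma T_g_WW {T : KS d θ →L[ℝ] KS d θ} (hT : T ∈ alg (LK θ)) (k : ℕ) :
    (T (gK θ k)).v ∈ WW θ k :=
  alg_preserves θ (WW_closed θ k) (fun _ _ h => LL_WW θ h) hT _ (gL_mem_WW θ root k)

lemma covK_orth {A B : KS d θ} {k k' : ℕ} (hk : k ≠ k') (hA : A.v ∈ WW θ k) (hB : B.v ∈ WW θ k')
    (v w : Word d) : covK A B v w = 0 :=
  WW_orth θ hk (UU_WW θ _ hA) (UU_WW θ _ hB)

end Cov

/-- The operators of the chain, with the needed properties. -/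
structure Ops (d : ℕ) (θ : ℝ) [Corr θ] (β c s : ℝ) where
  R : KS d θ →L[ℝ] KS d θ
  Sq : KS d θ →L[ℝ] KS d θ
  T : KS d θ →L[ℝ] KS d θ
  E : KS d θ →L[ℝ] KS d θ
  hR : R ∈ alg (LK θ)
  hSq : Sq ∈ alg (LK θ)
  hT : T ∈ alg (LK θ)
  hE : E ∈ alg (LK θ)
  hQR : (c • (1 : KS d θ →L[ℝ] KS d θ) + β • LK θ) * R = 1
  hSq2 : Sq * Sq = c • (1 : KS d θ →L[ℝ] KS d θ) + β • LK θ
  hT1 : T = 1 - s • R
  hE2 : E * E = s • T

section Chain

variable {θ : ℝ} [Corr θ] {β c s : ℝ} (O : Ops d θ β c s)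

lemma QQ_mem (a β : ℝ) : QQ (d := d) θ a β ∈ alg (LK θ) :=
  Subalgebra.add_mem _ (Subalgebra.smul_mem _ (Subalgebra.one_mem _) _)
    (Subalgebra.smul_mem _ (self_mem_alg _) _)

lemma QQ_sub (a β b : ℝ) : QQ (d := d) θ a β - b • (1 : KS d θ →L[ℝ] KS d θ) = QQ θ (a - b) β := by
  unfold QQ
  rw [sub_smul]
  abel

lemma T_mul_Q : O.T * QQ θ c β = QQ θ (c - s) β := by
  have h1 : O.R * QQ θ c β = 1 := by
    rw [alg_comm _ O.hR (QQ_mem c β)]
    exact O.hQR
  rw [O.hT1, sub_mul, one_mul, smul_mul_assoc, h1, QQ_sub]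

lemma ops_identity : (O.T * O.Sq) * (O.T * O.Sq) + O.E * O.E = QQ θ (c - s) β := by
  have h1 : (O.T * O.Sq) * (O.T * O.Sq) = O.T * (O.T * (O.Sq * O.Sq)) := by
    have := alg_comm _ O.hSq O.hT
    calc (O.T * O.Sq) * (O.T * O.Sq) = O.T * ((O.Sq * O.T) * O.Sq) := by simp only [mul_assoc]
      _ = O.T * ((O.T * O.Sq) * O.Sq) := by rw [this]
      _ = _ := by simp only [mul_assoc]
  have h2 : O.Sq * O.Sq = QQ θ c β := O.hSq2
  rw [h1, h2, T_mul_Q, O.hE2]
  have h3 : O.T * QQ θ (c - s) β + s • O.T = O.T * QQ θ c β := by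
    rw [← QQ_sub, mul_sub, mul_smul_comm, mul_one]
    abel
  rw [h3, T_mul_Q]

/-- The starting field `Q σ + √Q g`. -/
noncomputable def GK : KS d θ := O.Sq (gK θ 0)

/-- The Gaussian part of the field after the downward step. -/
noncomputable def XiK : KS d θ := (O.T * O.Sq) (gK θ 1) + O.E (gK θ 0)

/-- The Gaussian field after the downward step and with fresh noise. -/
noncomputable def XK : KS d θ := SK θ (XiK O) + √s • gK θ 0

include O in
lemma TSq_mem : O.T * O.Sq ∈ alg (LK θ) := Subalgebra.mul_mem _ O.hT O.hSq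

lemma cov_GK (v w : Word d) : covK (GK O) (GK O) v w = qK c β v w := by
  unfold GK
  rw [covK_T O.hSq, O.hSq2]
  exact covK_Qa _ _ _ _ _

lemma cov_XiK (v w : Word d) : covK (XiK O) (XiK O) v w = qK (c - s) β v w := by
  unfold XiK
  have hA := T_g_WW (TSq_mem O) 1
  have hB := T_g_WW O.hE 0
  rw [covK_add_left, covK_add_right, covK_add_right, covK_orth (by norm_num) hA hB,
    covK_orth (by norm_num) hB hA, covK_T (TSq_mem O), covK_T O.hE, add_zero, zero_add,
    covK_shift (Subalgebra.mul_mem _ (TSq_mem O) (TSq_mem O)) 1]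
  have h1 : covK (((O.T * O.Sq) * (O.T * O.Sq)) (gK θ 0)) (gK θ 0) v w +
      covK ((O.E * O.E) (gK θ 0)) (gK θ 0) v w =
      covK ((((O.T * O.Sq) * (O.T * O.Sq)) + O.E * O.E) (gK θ 0)) (gK θ 0) v w := by
    rw [← covK_add_left]
    rfl
  rw [h1, ops_identity, covK_Qa]

lemma SK_XiK : SK θ (XiK O) = (O.T * O.Sq) (gK θ 2) + O.E (gK θ 1) := by
  unfold XiK
  rw [map_add, ← SK_comm (TSq_mem O), ← SK_comm O.hE, SK_g, SK_g]

lemma cov_SXi_g (v w : Word d) : covK (SK θ (XiK O)) (gK θ 0) v w = 0 := by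
  rw [SK_XiK, covK_add_left, covK_orth (by norm_num) (T_g_WW (TSq_mem O) 2) (gL_mem_WW θ root 0),
    covK_orth (by norm_num) (T_g_WW O.hE 1) (gL_mem_WW θ root 0), add_zero]

lemma cov_g_SXi (v w : Word d) : covK (gK θ 0) (SK θ (XiK O)) v w = 0 := by
  rw [SK_XiK, covK_add_right, covK_orth (by norm_num) (gL_mem_WW θ root 0) (T_g_WW (TSq_mem O) 2),
    covK_orth (by norm_num) (gL_mem_WW θ root 0) (T_g_WW O.hE 1), add_zero]

lemma cov_XK (hs : 0 ≤ s) (v w : Word d) : covK (XK O) (XK O) v w = qK c β v w := by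
  classical
  unfold XK
  simp only [covK_add_left, covK_add_right, covK_smul_left, covK_smul_right, covK_SK, cov_XiK,
    cov_SXi_g, cov_g_SXi, covK_g, mul_zero, add_zero, zero_add]
  have h : √s * (√s * (if v = w then (1 : ℝ) else 0)) = if v = w then s else 0 := by
    rw [← mul_assoc, Real.mul_self_sqrt hs]
    split_ifs <;> simp
  rw [h]
  unfold qK
  split_ifs <;> ring

end Chain

end Vale.Agent.Lib.P161
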