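import Mathlib

/-!
Coordinate updates for product measures and the Gaussian shift on a product of standard Gaussians.
-/

namespace Vale.Agent.Lib.P161

open MeasureTheory ProbabilityTheory
open scoped NNReal ENNReal

section Update

variable {ι X : Type*} [MeasurableSpace X] [DecidableEq ι]

lemma slb_update_mp (m : Measure X) [IsProbabilityMeasure m] (e₀ : ι) :
    MeasurePreserving (fun p : (ι → X) × X => Function.update p.1 e₀ p.2)
      ((Measure.infinitePi fun _ : ι => m).prod m) (Measure.infinitePi fun _ : ι => m) := by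
  have hmeas : Measurable (fun p : (ι → X) × X => Function.update p.1 e₀ p.2) :=
    measurable_update' (a := e₀)
  refine ⟨hmeas, ?_⟩
  apply Measure.eq_infinitePi
  intro s t ht
  rw [Measure.map_apply hmeas (MeasurableSet.pi s.countable_toSet (fun i _ => ht i))]
  by_cases he : e₀ ∈ s
  · have : (fun p : (ι → X) × X => Function.update p.1 e₀ p.2) ⁻¹' (Set.pi s t) =
        Set.pi (s.erase e₀) t ×ˢ t e₀ := by
      ext ⟨g, x⟩
      simp only [Set.mem_preimage, Set.mem_pi, Set.mem_prod]
      constructor
      · intro h
        refine ⟨fun i hi => ?_, ?_⟩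
        · have hi' := Finset.mem_coe.mp hi
          have h1 := h i (Finset.mem_coe.mpr (Finset.mem_of_mem_erase hi'))
          rwa [Function.update_of_ne (Finset.ne_of_mem_erase hi')] at h1
        · simpa using h e₀ he
      · rintro ⟨h1, h2⟩ i hi
        by_cases hie : i = e₀
        · subst hie
          simpa using h2
        · rw [Function.update_of_ne hie]
          exact h1 i (Finset.mem_coe.mpr (Finset.mem_erase.mpr ⟨hie, hi⟩))
    rw [this, Measure.prod_prod, Measure.infinitePi_pi _ (fun i _ => ht i),
      Finset.prod_erase_mul s _ he]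
  · have : (fun p : (ι → X) × X => Function.update p.1 e₀ p.2) ⁻¹' (Set.pi s t) =
        Set.pi s t ×ˢ Set.univ := by
      ext ⟨g, x⟩
      simp only [Set.mem_preimage, Set.mem_pi, Set.mem_prod, Set.mem_univ, and_true]
      refine forall₂_congr fun i hi => ?_
      have hie : i ≠ e₀ := fun h => he (h ▸ hi)
      rw [Function.update_of_ne hie]
    rw [this, Measure.prod_prod, Measure.infinitePi_pi _ (fun i _ => ht i), measure_univ, mul_one]

end Update

section Gauss

lemma slb_gauss_tilt (c : ℝ) :
    gaussianReal c 1 =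
      (gaussianReal 0 1).withDensity (fun t => ENNReal.ofReal (Real.exp (c * t - c ^ 2 / 2))) := by
  have hne : (1 : ℝ≥0) ≠ 0 := one_ne_zero
  rw [gaussianReal_of_var_ne_zero c hne, gaussianReal_of_var_ne_zero 0 hne,
    ← withDensity_mul _ (measurable_gaussianPDF 0 1) (by fun_prop)]
  congr 1
  funext t
  simp only [Pi.mul_apply, gaussianPDF, gaussianPDFReal_def]
  rw [← ENNReal.ofReal_mul (by positivity)]
  congr 1
  rw [mul_assoc (_)⁻¹, ← Real.exp_add]
  congr 2
  push_cast
  ring

variable {ι : Type*} [DecidableEq ι]

/-- The standard Gaussian product measure. -/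
noncomputable abbrev slb_Gam (ι : Type*) : Measure (ι → ℝ) :=
  Measure.infinitePi fun _ : ι => gaussianReal 0 (1 : ℝ≥0)

lemma slb_shift_one (e : ι) (c : ℝ) {F : (ι → ℝ) → ℝ≥0∞} (hF : Measurable F) :
    ∫⁻ g, F (Function.update g e (g e + c)) ∂(slb_Gam ι) =
      ∫⁻ g, F g * ENNReal.ofReal (Real.exp (c * g e - c ^ 2 / 2)) ∂(slb_Gam ι) := by
  have U := slb_update_mp (gaussianReal 0 (1 : ℝ≥0)) e
  have hpe : Measurable (fun g : ι → ℝ => g e) := measurable_pi_apply e
  have hm1 : Measurable (fun g : ι → ℝ => F (Function.update g e (g e + c))) := by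
    refine hF.comp ?_
    exact (measurable_update' (a := e)).comp ((measurable_id).prodMk (hpe.add_const c))
  have hm2 : Measurable (fun g : ι → ℝ => F g * ENNReal.ofReal (Real.exp (c * g e - c ^ 2 / 2))) := by
    refine hF.mul ?_
    fun_prop
  rw [← U.lintegral_comp hm1, ← U.lintegral_comp hm2]
  simp only [Function.update_self, Function.update_idem]
  have hA : Measurable (fun a : (ι → ℝ) × ℝ => F (Function.update a.1 e (a.2 + c))) :=
    hF.comp ((measurable_update' (a := e)).comp (measurable_fst.prodMk (measurable_snd.add_const c)))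
  have hB : Measurable (fun a : (ι → ℝ) × ℝ => F (Function.update a.1 e a.2) *
      ENNReal.ofReal (Real.exp (c * a.2 - c ^ 2 / 2))) := by
    refine (hF.comp (measurable_update' (a := e))).mul ?_
    fun_prop
  rw [lintegral_prod _ hA.aemeasurable, lintegral_prod _ hB.aemeasurable]
  refine lintegral_congr fun g => ?_
  have hu : Measurable (fun x : ℝ => F (Function.update g e x)) :=
    hF.comp (measurable_update g)
  have h0 : gaussianReal c 1 = (gaussianReal 0 (1 : ℝ≥0)).map (· + c) := by
    rw [gaussianReal_map_add_const]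
    simp
  have h1 : ∫⁻ t, F (Function.update g e (t + c)) ∂(gaussianReal 0 (1 : ℝ≥0)) =
      ∫⁻ x, F (Function.update g e x) ∂(gaussianReal c 1) := by
    rw [h0, lintegral_map hu (measurable_add_const c)]
  rw [h1, slb_gauss_tilt c, lintegral_withDensity_eq_lintegral_mul _ (by fun_prop) hu]
  refine lintegral_congr fun x => ?_
  simp only [Pi.mul_apply]
  rw [mul_comm]

/-- Shift the coordinates in `S`. -/
def slb_shiftS (S : Finset ι) (c : ι → ℝ) (g : ι → ℝ) : ι → ℝ :=
  fun e => if e ∈ S then g e + c e else g e

/-- The exponent of the density of the shift. -/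
noncomputable def slb_dens (S : Finset ι) (c : ι → ℝ) (g : ι → ℝ) : ℝ :=
  Real.exp (∑ e ∈ S, (c e * g e - c e ^ 2 / 2))

lemma slb_measurable_shiftS (S : Finset ι) (c : ι → ℝ) : Measurable (slb_shiftS S c) := by
  refine measurable_pi_iff.mpr fun e => ?_
  unfold slb_shiftS
  by_cases he : e ∈ S
  · simp only [he, if_true]
    exact (measurable_pi_apply e).add_const _
  · simp only [he, if_false]
    exact measurable_pi_apply e

omit [DecidableEq ι] in
lemma slb_measurable_dens (S : Finset ι) (c : ι → ℝ) : Measurable (slb_dens S c) := by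
  unfold slb_dens
  refine Real.measurable_exp.comp ?_
  refine Finset.measurable_sum _ fun e _ => ?_
  have hpe : Measurable (fun g : ι → ℝ => g e) := measurable_pi_apply e
  fun_prop

lemma slb_shift_lintegral (S : Finset ι) (c : ι → ℝ) :
    ∀ {F : (ι → ℝ) → ℝ≥0∞}, Measurable F →
      ∫⁻ g, F (slb_shiftS S c g) ∂(slb_Gam ι) = ∫⁻ g, F g * ENNReal.ofReal (slb_dens S c g) ∂(slb_Gam ι) := by
  induction S using Finset.induction_on with
  | empty =>
    intro F _
    have h1 : ∀ g : ι → ℝ, slb_shiftS (∅ : Finset ι) c g = g := by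
      intro g
      funext e
      simp [slb_shiftS]
    simp [h1, slb_dens]
  | insert a S ha ih =>
    intro F hF
    have hpe : Measurable (fun g : ι → ℝ => g a) := measurable_pi_apply a
    -- peel off the coordinate `a`
    have e1 : ∀ g, slb_shiftS (insert a S) c g =
        Function.update (slb_shiftS S c g) a (slb_shiftS S c g a + c a) := by
      intro g
      funext e
      by_cases hea : e = a
      · subst hea
        simp [slb_shiftS, ha]
      · rw [Function.update_of_ne hea]
        simp [slb_shiftS, hea]
    have hF' : Measurable (fun h : ι → ℝ => F (Function.update h a (h a + c a))) := by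
      refine hF.comp ?_
      exact (measurable_update' (a := a)).comp ((measurable_id).prodMk (hpe.add_const _))
    calc ∫⁻ g, F (slb_shiftS (insert a S) c g) ∂(slb_Gam ι)
        = ∫⁻ g, F (Function.update (slb_shiftS S c g) a (slb_shiftS S c g a + c a)) ∂(slb_Gam ι) := by
          simp only [e1]
      _ = ∫⁻ g, F (Function.update g a (g a + c a)) * ENNReal.ofReal (slb_dens S c g) ∂(slb_Gam ι) :=
          ih hF'
      _ = ∫⁻ g, (fun h => F h * ENNReal.ofReal (slb_dens S c h))
            (Function.update g a (g a + c a)) ∂(slb_Gam ι) := by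
          refine lintegral_congr fun g => ?_
          have : slb_dens S c (Function.update g a (g a + c a)) = slb_dens S c g := by
            unfold slb_dens
            congr 1
            refine Finset.sum_congr rfl fun e he => ?_
            have hea : e ≠ a := fun h => ha (h ▸ he)
            rw [Function.update_of_ne hea]
          simp only [this]
      _ = ∫⁻ g, (F g * ENNReal.ofReal (slb_dens S c g)) *
            ENNReal.ofReal (Real.exp (c a * g a - c a ^ 2 / 2)) ∂(slb_Gam ι) :=
          slb_shift_one a (c a) (hF.mul (slb_measurable_dens S c).ennreal_ofReal)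
      _ = ∫⁻ g, F g * ENNReal.ofReal (slb_dens (insert a S) c g) ∂(slb_Gam ι) := by
          refine lintegral_congr fun g => ?_
          have hd : 0 ≤ slb_dens S c g := (Real.exp_pos _).le
          rw [mul_assoc, ← ENNReal.ofReal_mul hd]
          congr 2
          unfold slb_dens
          rw [Finset.sum_insert ha, Real.exp_add, mul_comm]

lemma slb_map_shift (S : Finset ι) (c : ι → ℝ) :
    Measure.map (slb_shiftS S c) (slb_Gam ι) =
      (slb_Gam ι).withDensity (fun g => ENNReal.ofReal (slb_dens S c g)) := by
  have hm : Measurable (fun g => ENNReal.ofReal (slb_dens S c g)) :=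
    (slb_measurable_dens S c).ennreal_ofReal
  refine Measure.ext fun A hA => ?_
  rw [Measure.map_apply (slb_measurable_shiftS S c) hA, withDensity_apply _ hA,
    ← lintegral_indicator_one ((slb_measurable_shiftS S c) hA), ← lintegral_indicator hA]
  have := slb_shift_lintegral S c (F := A.indicator 1) (measurable_one.indicator hA)
  have h2 : ∀ g, (slb_shiftS S c ⁻¹' A).indicator (1 : (ι → ℝ) → ℝ≥0∞) g =
      A.indicator (1 : (ι → ℝ) → ℝ≥0∞) (slb_shiftS S c g) := by
    intro g
    rfl
  simp only [h2]
  rw [this]
  refine lintegral_congr fun g => ?_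
  by_cases hg : g ∈ A <;> simp [hg]

instance slb_prob_map_shift (S : Finset ι) (c : ι → ℝ) :
    IsProbabilityMeasure (Measure.map (slb_shiftS S c) (slb_Gam ι)) :=
  Measure.isProbabilityMeasure_map (slb_measurable_shiftS S c).aemeasurable

lemma slb_integrable_dens (S : Finset ι) (c : ι → ℝ) : Integrable (slb_dens S c) (slb_Gam ι) := by
  refine ⟨(slb_measurable_dens S c).aestronglyMeasurable, ?_⟩
  have h0 : 0 ≤ᵐ[slb_Gam ι] slb_dens S c := Filter.Eventually.of_forall fun g => (Real.exp_pos _).le
  rw [hasFiniteIntegral_iff_ofReal h0]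
  have h1 : ∫⁻ g, ENNReal.ofReal (slb_dens S c g) ∂(slb_Gam ι) = 1 := by
    have := slb_shift_lintegral S c (F := fun _ => 1) measurable_const
    simp only [one_mul] at this
    rw [← this]
    simp
  rw [h1]
  exact ENNReal.one_lt_top

lemma slb_integral_dens (S : Finset ι) (c : ι → ℝ) : ∫ g, slb_dens S c g ∂(slb_Gam ι) = 1 := by
  have h0 : 0 ≤ᵐ[slb_Gam ι] slb_dens S c := Filter.Eventually.of_forall fun g => (Real.exp_pos _).le
  have h1 : ∫⁻ g, ENNReal.ofReal (slb_dens S c g) ∂(slb_Gam ι) = 1 := by
    have := slb_shift_lintegral S c (F := fun _ => 1) measurable_const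
    simp only [one_mul] at this
    rw [← this]
    simp
  rw [integral_eq_lintegral_of_nonneg_ae h0 (slb_measurable_dens S c).aestronglyMeasurable, h1]
  simp

lemma slb_integral_shift (S : Finset ι) (c : ι → ℝ) {Ψ : (ι → ℝ) → ℝ} (hΨ : Measurable Ψ) :
    ∫ g, Ψ (slb_shiftS S c g) ∂(slb_Gam ι) = ∫ g, slb_dens S c g * Ψ g ∂(slb_Gam ι) := by
  have hm : Measurable (fun g => ENNReal.ofReal (slb_dens S c g)) :=
    (slb_measurable_dens S c).ennreal_ofReal
  rw [← integral_map (slb_measurable_shiftS S c).aemeasurable hΨ.aestronglyMeasurable,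
    slb_map_shift, integral_withDensity_eq_integral_toReal_smul hm
      (Filter.Eventually.of_forall fun _ => ENNReal.ofReal_lt_top)]
  refine integral_congr_ae (Filter.Eventually.of_forall fun g => ?_)
  simp only [smul_eq_mul]
  have hd : 0 ≤ slb_dens S c g := (Real.exp_pos _).le
  rw [ENNReal.toReal_ofReal hd]

end Gauss

end Vale.Agent.Lib.P161
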