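import Vale.Agent.Lib.P161.SLDefs

/-!
The effective field of the tilted Ising measure on a finite connected set: positivity, the formula for
its hyperbolic tangent, measurability, equivariance, and the weighted Lipschitz bound obtained by
removing leaves one at a time.
-/

namespace Vale.Agent.Lib.P161

open MeasureTheory ProbabilityTheory
open scoped NNReal ENNReal

variable {d : ℕ}

lemma slf_measurable_sp : Measurable sp := Measurable.of_discrete

lemma slf_measurable_tiltE (D : Finset (Word d)) (y : Word d → ℝ) :
    Measurable (tiltE D y) := by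
  unfold tiltE
  refine Real.measurable_exp.comp ?_
  refine Finset.measurable_sum _ (fun x _ => ?_)
  exact (slf_measurable_sp.comp (measurable_pi_apply x)).mul_const _

lemma slf_tiltE_pos (D : Finset (Word d)) (y : Word d → ℝ) (σ : Word d → Bool) :
    0 < tiltE D y σ := Real.exp_pos _

lemma slf_tiltE_le (D : Finset (Word d)) (y : Word d → ℝ) (σ : Word d → Bool) :
    tiltE D y σ ≤ Real.exp (∑ x ∈ D, |y x|) := by
  unfold tiltE
  apply Real.exp_le_exp.mpr
  apply Finset.sum_le_sum
  intro x _
  calc sp (σ x) * y x ≤ |sp (σ x) * y x| := le_abs_self _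
    _ = |y x| := by rw [abs_mul, abs_sp, one_mul]

lemma slf_meas_ite (D : Finset (Word d)) (y : Word d → ℝ) (v : Word d) (b : Bool) :
    Measurable (fun σ : Word d → Bool => if σ v = b then tiltE D y σ else 0) := by
  refine Measurable.ite ?_ (slf_measurable_tiltE D y) measurable_const
  have hm : Measurable (fun σ : Word d → Bool => σ v) := measurable_pi_apply v
  exact hm (measurableSet_singleton b)

section WithCorr

variable (θ : ℝ) [Corr θ]

lemma slf_integrable_ite (D : Finset (Word d)) (y : Word d → ℝ) (v : Word d) (b : Bool) :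
    Integrable (fun σ : Word d → Bool => if σ v = b then tiltE D y σ else 0) (isingLaw d θ) := by
  refine Integrable.of_bound (slf_meas_ite D y v b).aestronglyMeasurable
    (Real.exp (∑ x ∈ D, |y x|)) (ae_of_all _ fun σ => ?_)
  have h := slf_tiltE_le D y σ
  have h2 := slf_tiltE_pos D y σ
  split_ifs
  · rw [Real.norm_of_nonneg h2.le]; exact h
  · simpa using (Real.exp_pos _).le

lemma slf_rooted_single (r : Word d) : Rooted ({r} : Finset (Word d)) r := by
  refine ⟨Finset.mem_singleton_self r, ?_, ?_⟩
  · intro v hv
    rw [Finset.mem_singleton.mp hv]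
  · intro v hv hne
    exact absurd (Finset.mem_singleton.mp hv) hne

lemma slf_mass_rooted {D : Finset (Word d)} {top : Word d} (hD : Rooted D top) (η : Word d → Bool) :
    (isingLaw d θ (cyl D η)).toReal = 1 / 2 * wProd θ D top η := by
  rw [isingLaw_cyl_rooted θ _ rfl hD, ENNReal.toReal_ofReal]
  exact mul_nonneg (by norm_num) (wProd_nonneg θ _ _ _)

theorem zb_pos (_hθ : θ < 1) (D : Finset (Word d)) (y : Word d → ℝ) (v : Word d) (b : Bool) :
    0 < zb θ D y v b := by
  unfold zb
  have h0 : 0 ≤ᵐ[isingLaw d θ] (fun σ : Word d → Bool => if σ v = b then tiltE D y σ else 0) := by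
    refine ae_of_all _ fun σ => ?_
    show 0 ≤ if σ v = b then tiltE D y σ else 0
    split_ifs
    · exact (slf_tiltE_pos D y σ).le
    · exact le_rfl
  rw [integral_pos_iff_support_of_nonneg_ae h0 (slf_integrable_ite θ D y v b)]
  have hsub : cyl ({v} : Finset (Word d)) (fun _ => b) ⊆
      Function.support (fun σ : Word d → Bool => if σ v = b then tiltE D y σ else 0) := by
    intro σ hσ
    have h1 : σ v = b := hσ v (Finset.mem_singleton_self v)
    simp only [Function.mem_support, h1, if_true]
    exact (slf_tiltE_pos D y σ).ne'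
  refine lt_of_lt_of_le ?_ (measure_mono hsub)
  rw [isingLaw_cyl_rooted θ _ rfl (slf_rooted_single v)]
  simp [wProd]

lemma tanh_hf (hθ : θ < 1) (D : Finset (Word d)) (y : Word d → ℝ) (v : Word d) :
    Real.tanh (hf θ D y v) =
      (zb θ D y v false - zb θ D y v true) / (zb θ D y v false + zb θ D y v true) := by
  have ha := zb_pos θ hθ D y v false
  have hb := zb_pos θ hθ D y v true
  set a := zb θ D y v false
  set b := zb θ D y v true
  have hx : hf θ D y v = (1 / 2) * Real.log (a / b) := rfl
  rw [hx, Real.tanh_eq_sinh_div_cosh, Real.sinh_eq, Real.cosh_eq]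
  have hab : 0 < a / b := div_pos ha hb
  set r := Real.exp ((1 / 2) * Real.log (a / b)) with hr
  have hr0 : 0 < r := Real.exp_pos _
  have h1 : Real.exp (-((1 / 2) * Real.log (a / b))) = r⁻¹ := by rw [Real.exp_neg]
  rw [h1]
  have hr2 : r * r = a / b := by
    rw [hr, ← Real.exp_add]
    have : (1 / 2) * Real.log (a / b) + (1 / 2) * Real.log (a / b) = Real.log (a / b) := by ring
    rw [this, Real.exp_log hab]
  have hr3 : r * r * b = a := by rw [hr2]; field_simp
  rw [← hr3]
  field_simp

omit [Corr θ] in
lemma hf_congr (D : Finset (Word d)) {y y' : Word d → ℝ} (h : ∀ x ∈ D, y x = y' x) (v : Word d) :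
    hf θ D y v = hf θ D y' v := by
  have h1 : tiltE D y = tiltE D y' := by
    funext σ
    unfold tiltE
    congr 1
    exact Finset.sum_congr rfl fun x hx => by rw [h x hx]
  unfold hf zb
  rw [h1]

lemma slf_measurable_zb (D : Finset (Word d)) (v : Word d) (b : Bool) :
    Measurable (fun y : Word d → ℝ => zb θ D y v b) := by
  unfold zb
  have hF : Measurable (Function.uncurry (fun (y : Word d → ℝ) (σ : Word d → Bool) =>
      if σ v = b then tiltE D y σ else 0)) := by
    have hset : MeasurableSet {p : (Word d → ℝ) × (Word d → Bool) | p.2 v = b} := by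
      have hm : Measurable (fun p : (Word d → ℝ) × (Word d → Bool) => p.2 v) :=
        (measurable_pi_apply v).comp measurable_snd
      exact hm (measurableSet_singleton b)
    refine Measurable.ite hset ?_ measurable_const
    unfold tiltE
    refine Real.measurable_exp.comp ?_
    refine Finset.measurable_sum _ (fun x _ => ?_)
    exact (slf_measurable_sp.comp ((measurable_pi_apply x).comp measurable_snd)).mul
      ((measurable_pi_apply x).comp measurable_fst)
  exact hF.stronglyMeasurable.integral_prod_right.measurable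

lemma measurable_hf (D : Finset (Word d)) (v : Word d) :
    Measurable (fun y : Word d → ℝ => hf θ D y v) := by
  unfold hf
  exact ((slf_measurable_zb θ D v false).div (slf_measurable_zb θ D v true)).log.const_mul _

lemma slf_zb_map (g : Aut d) (D : Finset (Word d)) (y : Word d → ℝ) (v : Word d) (b : Bool) :
    zb θ (D.map g.toEquiv.toEmbedding) (actS g y) (g v) b = zb θ D y v b := by
  unfold zb
  conv_lhs => rw [← isingLaw_map_actS θ g]
  rw [integral_map (measurable_actS g).aemeasurable (slf_meas_ite _ _ _ _).aestronglyMeasurable]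
  refine integral_congr_ae (ae_of_all _ fun σ => ?_)
  have h1 : actS g σ (g v) = σ v := by simp [actS]
  have h2 : tiltE (D.map g.toEquiv.toEmbedding) (actS g y) (actS g σ) = tiltE D y σ := by
    unfold tiltE
    rw [Finset.sum_map]
    simp [actS]
  simp only [h1, h2]

lemma hf_map (g : Aut d) (D : Finset (Word d)) (y : Word d → ℝ) (v : Word d) :
    hf θ (D.map g.toEquiv.toEmbedding) (actS g y) (g v) = hf θ D y v := by
  unfold hf
  rw [slf_zb_map, slf_zb_map]

/-! ### Finite sum formula -/

/-- The configuration with `true` exactly on `S`. -/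
def slf_cfg (S : Finset (Word d)) : Word d → Bool := fun v => decide (v ∈ S)

omit [Corr θ] in
lemma slf_integral_fin (ν : Measure (Word d → Bool)) [IsProbabilityMeasure ν]
    (D : Finset (Word d)) (F : (Word d → Bool) → ℝ)
    (hF : ∀ σ σ' : Word d → Bool, (∀ x ∈ D, σ x = σ' x) → F σ = F σ') :
    ∫ σ, F σ ∂ν = ∑ S ∈ D.powerset, F (slf_cfg S) * (ν (cyl D (slf_cfg S))).toReal := by
  have h1 : ∀ σ : Word d → Bool, F σ = ∑ S ∈ D.powerset,
      F (slf_cfg S) * (cyl D (slf_cfg S)).indicator (fun _ => (1 : ℝ)) σ := by
    intro σ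
    set S₀ := D.filter (fun x => σ x = true) with hS₀
    have hS₀D : S₀ ∈ D.powerset := Finset.mem_powerset.mpr (Finset.filter_subset _ _)
    have hS₀c : σ ∈ cyl D (slf_cfg S₀) := by
      intro x hx
      cases hσ : σ x <;> simp [slf_cfg, hS₀, hx, hσ]
    rw [Finset.sum_eq_single S₀]
    · rw [Set.indicator_of_mem hS₀c, mul_one]
      exact hF _ _ (fun x hx => hS₀c x hx)
    · intro S hS hne
      have hnot : σ ∉ cyl D (slf_cfg S) := by
        intro hσ
        apply hne
        have hSD := Finset.mem_powerset.mp hS
        ext x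
        constructor
        · intro hx
          have hxD := hSD hx
          have := hσ x hxD
          simp only [slf_cfg, hx, decide_true] at this
          exact Finset.mem_filter.mpr ⟨hxD, this⟩
        · intro hx
          have hxf := Finset.mem_filter.mp hx
          have := hσ x hxf.1
          rw [hxf.2] at this
          simpa [slf_cfg] using this.symm
      rw [Set.indicator_of_notMem hnot, mul_zero]
    · intro h
      exact absurd hS₀D h
  calc ∫ σ, F σ ∂ν = ∫ σ, ∑ S ∈ D.powerset,
        F (slf_cfg S) * (cyl D (slf_cfg S)).indicator (fun _ => (1 : ℝ)) σ ∂ν :=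
        integral_congr_ae (ae_of_all _ h1)
    _ = ∑ S ∈ D.powerset, ∫ σ,
        F (slf_cfg S) * (cyl D (slf_cfg S)).indicator (fun _ => (1 : ℝ)) σ ∂ν := by
        refine integral_finsetSum _ fun S _ => ?_
        refine Integrable.const_mul ?_ _
        exact (integrable_const (1 : ℝ)).indicator (measurableSet_cyl D _)
    _ = ∑ S ∈ D.powerset, F (slf_cfg S) * (ν (cyl D (slf_cfg S))).toReal := by
        refine Finset.sum_congr rfl fun S _ => ?_
        rw [integral_const_mul, integral_indicator_const _ (measurableSet_cyl D _)]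
        simp [Measure.real]

lemma slf_zb_sum {D : Finset (Word d)} {top : Word d} (hD : Rooted D top) (y : Word d → ℝ)
    {v : Word d} (hv : v ∈ D) (b : Bool) :
    zb θ D y v b = ∑ S ∈ D.powerset, (if slf_cfg S v = b then tiltE D y (slf_cfg S) else 0) *
      (1 / 2 * wProd θ D top (slf_cfg S)) := by
  unfold zb
  rw [slf_integral_fin (isingLaw d θ) D]
  · refine Finset.sum_congr rfl fun S _ => ?_
    rw [slf_mass_rooted θ hD]
  · intro σ σ' h
    have h1 : tiltE D y σ = tiltE D y σ' := by
      unfold tiltE
      congr 1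
      exact Finset.sum_congr rfl fun x hx => by rw [h x hx]
    rw [h v hv, h1]

omit [Corr θ] in
lemma slf_wProd_congr {D : Finset (Word d)} {top : Word d} (hD : Rooted D top)
    {η η' : Word d → Bool} (h : ∀ x ∈ D, η x = η' x) : wProd θ D top η = wProd θ D top η' := by
  unfold wProd
  refine Finset.prod_congr rfl fun x hx => ?_
  have hx1 := Finset.mem_erase.mp hx
  rw [h x hx1.2, h _ (hD.closed x hx1.2 hx1.1)]

omit [Corr θ] in
lemma slf_wProd_insert {D : Finset (Word d)} {r l : Word d} (hD : Rooted D r) (hl : l ∉ D)
    (η : Word d → Bool) :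
    wProd θ (insert l D) r η = wt θ (η l) (η (parent l)) * wProd θ D r η := by
  unfold wProd
  have hne : l ≠ r := fun h => hl (h ▸ hD.mem)
  rw [Finset.erase_insert_of_ne hne, Finset.prod_insert]
  exact fun h => hl (Finset.mem_erase.mp h).2

omit [Corr θ] in
lemma slf_tiltE_insert {D : Finset (Word d)} {l : Word d} (hl : l ∉ D) (y : Word d → ℝ)
    (σ : Word d → Bool) : tiltE (insert l D) y σ = Real.exp (sp (σ l) * y l) * tiltE D y σ := by
  unfold tiltE
  rw [Finset.sum_insert hl, Real.exp_add]

omit [Corr θ] in
lemma slf_tiltE_update {D : Finset (Word d)} {p : Word d} (hp : p ∈ D) (y : Word d → ℝ) (w : ℝ)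
    (σ : Word d → Bool) :
    tiltE D (Function.update y p (y p + w)) σ = Real.exp (sp (σ p) * w) * tiltE D y σ := by
  unfold tiltE
  rw [← Real.exp_add]
  congr 1
  rw [← Finset.add_sum_erase D _ hp, ← Finset.add_sum_erase D (fun x => sp (σ x) * y x) hp]
  have h1 : ∑ x ∈ D.erase p, sp (σ x) * Function.update y p (y p + w) x =
      ∑ x ∈ D.erase p, sp (σ x) * y x := by
    refine Finset.sum_congr rfl fun x hx => ?_
    rw [Function.update_of_ne (Finset.mem_erase.mp hx).1]
  rw [h1, Function.update_self]
  ring

/-- First factor of the leaf sum. -/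
noncomputable def slf_A (θ u : ℝ) : ℝ := Real.cosh u + θ * Real.sinh u

/-- Second factor of the leaf sum. -/
noncomputable def slf_B (θ u : ℝ) : ℝ := Real.cosh u - θ * Real.sinh u

/-- The field passed to the parent of a removed leaf. -/
noncomputable def slf_gg (θ u : ℝ) : ℝ := (Real.log (slf_A θ u) - Real.log (slf_B θ u)) / 2

/-- The constant factor of a removed leaf. -/
noncomputable def slf_C (θ u : ℝ) : ℝ := Real.exp ((Real.log (slf_A θ u) + Real.log (slf_B θ u)) / 2)

omit [Corr θ] in
lemma slf_A_pos (h0 : 0 ≤ θ) (h1 : θ ≤ 1) (u : ℝ) : 0 < slf_A θ u := by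
  unfold slf_A
  rw [Real.cosh_eq, Real.sinh_eq]
  have h2 := Real.exp_pos u
  have h3 := Real.exp_pos (-u)
  have : (Real.exp u + Real.exp (-u)) / 2 + θ * ((Real.exp u - Real.exp (-u)) / 2) =
      ((1 + θ) * Real.exp u + (1 - θ) * Real.exp (-u)) / 2 := by ring
  rw [this]
  have h4 : 0 ≤ 1 - θ := by linarith
  positivity

omit [Corr θ] in
lemma slf_B_pos (h0 : 0 ≤ θ) (h1 : θ ≤ 1) (u : ℝ) : 0 < slf_B θ u := by
  unfold slf_B
  rw [Real.cosh_eq, Real.sinh_eq]
  have h2 := Real.exp_pos u
  have h3 := Real.exp_pos (-u)
  have : (Real.exp u + Real.exp (-u)) / 2 - θ * ((Real.exp u - Real.exp (-u)) / 2) =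
      ((1 - θ) * Real.exp u + (1 + θ) * Real.exp (-u)) / 2 := by ring
  rw [this]
  have h4 : 0 ≤ 1 - θ := by linarith
  positivity

omit [Corr θ] in
lemma slf_keyid (h0 : 0 ≤ θ) (h1 : θ ≤ 1) (u : ℝ) (s : Bool) :
    Real.exp (sp false * u) * wt θ false s + Real.exp (sp true * u) * wt θ true s =
      slf_C θ u * Real.exp (sp s * slf_gg θ u) := by
  have hA := slf_A_pos θ h0 h1 u
  have hB := slf_B_pos θ h0 h1 u
  have hCA : slf_C θ u * Real.exp (slf_gg θ u) = slf_A θ u := by
    unfold slf_C slf_gg
    rw [← Real.exp_add]
    have : (Real.log (slf_A θ u) + Real.log (slf_B θ u)) / 2 +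
        (Real.log (slf_A θ u) - Real.log (slf_B θ u)) / 2 = Real.log (slf_A θ u) := by ring
    rw [this, Real.exp_log hA]
  have hCB : slf_C θ u * Real.exp (-slf_gg θ u) = slf_B θ u := by
    unfold slf_C slf_gg
    rw [← Real.exp_add]
    have : (Real.log (slf_A θ u) + Real.log (slf_B θ u)) / 2 +
        -((Real.log (slf_A θ u) - Real.log (slf_B θ u)) / 2) = Real.log (slf_B θ u) := by ring
    rw [this, Real.exp_log hB]
  cases s
  · simp only [sp_false, sp_true, one_mul, wt, mul_one, neg_mul]
    rw [hCA]
    unfold slf_A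
    rw [Real.cosh_eq, Real.sinh_eq]
    ring
  · simp only [sp_false, sp_true, one_mul, wt, mul_one, neg_mul]
    rw [hCB]
    unfold slf_B
    rw [Real.cosh_eq, Real.sinh_eq]
    ring

omit [Corr θ] in
lemma slf_cfg_insert_ne {S : Finset (Word d)} {l x : Word d} (h : x ≠ l) :
    slf_cfg (insert l S) x = slf_cfg S x := by
  simp [slf_cfg, h]

/-- Leaf removal at the level of the partition functions. -/
lemma slf_zb_leaf {D : Finset (Word d)} {r l : Word d} (hD : Rooted D r) (hl : l ∉ D)
    (hp : parent l ∈ D) (y : Word d → ℝ) {v : Word d} (hv : v ∈ D) (b : Bool) :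
    zb θ (insert l D) y v b = slf_C θ (y l) *
      zb θ D (Function.update y (parent l) (y (parent l) + slf_gg θ (y l))) v b := by
  have hne : l ≠ root := by
    rintro rfl
    exact hl hp
  have hrl : r ≠ l := fun h => hl (h ▸ hD.mem)
  have hD2 : Rooted (insert l D) r := by
    refine ⟨Finset.mem_insert_of_mem hD.mem, ?_, ?_⟩
    · intro x hx
      rcases Finset.mem_insert.mp hx with rfl | hx
      · have h1 := hD.min _ hp
        have h2 := len_parent hne
        omega
      · exact hD.min x hx
    · intro x hx hxr
      rcases Finset.mem_insert.mp hx with rfl | hx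
      · exact Finset.mem_insert_of_mem hp
      · exact Finset.mem_insert_of_mem (hD.closed x hx hxr)
  rw [slf_zb_sum θ hD2 y (Finset.mem_insert_of_mem hv) b, slf_zb_sum θ hD _ hv b,
    Finset.sum_powerset_insert hl, ← Finset.sum_add_distrib, Finset.mul_sum]
  refine Finset.sum_congr rfl fun S hS => ?_
  have hSD := Finset.mem_powerset.mp hS
  have hlS : l ∉ S := fun h => hl (hSD h)
  have hvl : v ≠ l := fun h => hl (h ▸ hv)
  have hpl : parent l ≠ l := fun h => hl (h ▸ hp)
  have hagree : ∀ x ∈ D, slf_cfg (insert l S) x = slf_cfg S x := fun x hx =>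
    slf_cfg_insert_ne (fun h => hl (h ▸ hx))
  have h1 : slf_cfg S l = false := by simp [slf_cfg, hlS]
  have h2 : slf_cfg (insert l S) l = true := by simp [slf_cfg]
  have htilt : tiltE D y (slf_cfg (insert l S)) = tiltE D y (slf_cfg S) := by
    unfold tiltE
    congr 1
    exact Finset.sum_congr rfl fun x hx => by rw [hagree x hx]
  rw [slf_wProd_insert θ hD hl, slf_wProd_insert θ hD hl, slf_tiltE_insert hl, slf_tiltE_insert hl,
    slf_wProd_congr θ hD hagree, htilt, h1, h2, slf_cfg_insert_ne hpl, slf_cfg_insert_ne hvl,
    slf_tiltE_update hp]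
  have hkey := slf_keyid θ Corr.nonneg Corr.le_one (y l) (slf_cfg S (parent l))
  by_cases hb : slf_cfg S v = b
  · simp only [hb, if_true]
    rw [← mul_assoc (slf_C θ (y l)), ← mul_assoc (slf_C θ (y l)), ← hkey]
    ring
  · simp only [hb, if_false]
    ring

/-- Leaf removal for the effective field. -/
lemma slf_hf_leaf (_hθ : θ < 1) {D : Finset (Word d)} {r l : Word d} (hD : Rooted D r) (hl : l ∉ D)
    (hp : parent l ∈ D) (y : Word d → ℝ) {v : Word d} (hv : v ∈ D) :
    hf θ (insert l D) y v =
      hf θ D (Function.update y (parent l) (y (parent l) + slf_gg θ (y l))) v := by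
  unfold hf
  have hC : slf_C θ (y l) ≠ 0 := (Real.exp_pos _).ne'
  rw [slf_zb_leaf θ hD hl hp y hv, slf_zb_leaf θ hD hl hp y hv, mul_div_mul_left _ _ hC]

lemma slf_hf_single (r : Word d) (y : Word d → ℝ) : hf θ {r} y r = y r := by
  have hz : ∀ b, zb θ {r} y r b = Real.exp (sp b * y r) * (1 / 2) := by
    intro b
    have hs : ({r} : Finset (Word d)) = insert r ∅ := rfl
    rw [slf_zb_sum θ (slf_rooted_single r) y (Finset.mem_singleton_self r) b, hs,
      Finset.sum_powerset_insert (Finset.notMem_empty r)]
    have h1 : slf_cfg (∅ : Finset (Word d)) r = false := by simp [slf_cfg]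
    have h2 : slf_cfg (insert r (∅ : Finset (Word d))) r = true := by simp [slf_cfg]
    have hw : ∀ η : Word d → Bool, wProd θ (insert r (∅ : Finset (Word d))) r η = 1 := by
      intro η
      simp [wProd]
    have ht : ∀ η : Word d → Bool, tiltE (insert r (∅ : Finset (Word d))) y η =
        Real.exp (sp (η r) * y r) := by
      intro η
      simp [tiltE]
    simp only [Finset.powerset_empty, Finset.sum_singleton, h1, h2, hw, ht]
    cases b <;> simp
  unfold hf
  rw [hz, hz, mul_div_mul_right _ _ (by norm_num : (1 / 2 : ℝ) ≠ 0), ← Real.exp_sub, Real.log_exp]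
  simp only [sp_false, sp_true]
  ring

omit [Corr θ] in
lemma slf_gg_lip (h0 : 0 ≤ θ) (h1 : θ ≤ 1) (a b : ℝ) :
    |slf_gg θ a - slf_gg θ b| ≤ θ * |a - b| := by
  have hA := slf_A_pos θ h0 h1
  have hB := slf_B_pos θ h0 h1
  have hAB : ∀ u, 1 ≤ slf_A θ u * slf_B θ u := by
    intro u
    have hc := Real.cosh_sq u
    have : slf_A θ u * slf_B θ u = 1 + (1 - θ ^ 2) * Real.sinh u ^ 2 := by
      unfold slf_A slf_B
      have : (Real.cosh u + θ * Real.sinh u) * (Real.cosh u - θ * Real.sinh u) =
          Real.cosh u ^ 2 - θ ^ 2 * Real.sinh u ^ 2 := by ring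
      rw [this, hc]
      ring
    rw [this]
    have h2 : 0 ≤ 1 - θ ^ 2 := by nlinarith
    have h3 : 0 ≤ (1 - θ ^ 2) * Real.sinh u ^ 2 := mul_nonneg h2 (sq_nonneg _)
    linarith
  have hder : ∀ u, HasDerivAt (slf_gg θ) (θ / (slf_A θ u * slf_B θ u)) u := by
    intro u
    have hAd : HasDerivAt (slf_A θ) (Real.sinh u + θ * Real.cosh u) u :=
      (Real.hasDerivAt_cosh u).add ((Real.hasDerivAt_sinh u).const_mul θ)
    have hBd : HasDerivAt (slf_B θ) (Real.sinh u - θ * Real.cosh u) u :=
      (Real.hasDerivAt_cosh u).sub ((Real.hasDerivAt_sinh u).const_mul θ)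
    have h2 := ((hAd.log (hA u).ne').sub (hBd.log (hB u).ne')).div_const 2
    have hfun : (fun y => (Real.log (slf_A θ y) - Real.log (slf_B θ y)) / 2) = slf_gg θ := rfl
    have hval : ((Real.sinh u + θ * Real.cosh u) / slf_A θ u -
        (Real.sinh u - θ * Real.cosh u) / slf_B θ u) / 2 = θ / (slf_A θ u * slf_B θ u) := by
      have hA' := (hA u).ne'
      have hB' := (hB u).ne'
      have hnum : (Real.sinh u + θ * Real.cosh u) * slf_B θ u -
          (Real.sinh u - θ * Real.cosh u) * slf_A θ u = 2 * θ := by
        unfold slf_A slf_B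
        have hc := Real.cosh_sq u
        have : (Real.sinh u + θ * Real.cosh u) * (Real.cosh u - θ * Real.sinh u) -
            (Real.sinh u - θ * Real.cosh u) * (Real.cosh u + θ * Real.sinh u) =
            2 * θ * (Real.cosh u ^ 2 - Real.sinh u ^ 2) := by ring
        rw [this, hc]
        ring
      field_simp
      linarith
    rw [hval] at h2
    exact h2
  have hbound : ∀ u ∈ (Set.univ : Set ℝ), ‖θ / (slf_A θ u * slf_B θ u)‖ ≤ θ := by
    intro u _
    have h2 := hAB u
    have h3 : 0 < slf_A θ u * slf_B θ u := by linarith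
    rw [Real.norm_of_nonneg (div_nonneg h0 h3.le)]
    exact div_le_self h0 h2
  have := Convex.norm_image_sub_le_of_norm_hasDerivWithin_le
    (fun u _ => (hder u).hasDerivWithinAt) hbound convex_univ (Set.mem_univ b) (Set.mem_univ a)
  simpa [Real.norm_eq_abs] using this

/-- The rooted bound, by induction on the set. -/
theorem slf_rooted_bound (hθ : θ < 1) : ∀ (n : ℕ) (D : Finset (Word d)), D.card = n →
    Rooted D root → ∀ (y y' ε b : Word d → ℝ), (∀ x ∈ D, |y x - y' x| ≤ ε x) →
    (∀ x ∈ D, ε x + θ * ∑ c ∈ D.filter (fun c => c ≠ root ∧ parent c = x), b c ≤ b x) →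
    |hf θ D y root - hf θ D y' root| ≤ b root := by
  have h0 : 0 ≤ θ := Corr.nonneg
  have h1 : θ ≤ 1 := Corr.le_one
  intro n
  induction n with
  | zero =>
    intro D hc hD
    have := hD.mem
    rw [Finset.card_eq_zero.mp hc] at this
    exact absurd this (Finset.notMem_empty _)
  | succ n ih =>
    intro D hc hD y y' ε b hy hb
    by_cases hDs : D = {root}
    · subst hDs
      rw [slf_hf_single, slf_hf_single]
      have h2 := hy root (Finset.mem_singleton_self _)
      have h3 := hb root (Finset.mem_singleton_self _)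
      have h4 : ({root} : Finset (Word d)).filter (fun c => c ≠ root ∧ parent c = root) = ∅ := by
        refine Finset.filter_eq_empty_iff.mpr ?_
        intro c hc h'
        exact h'.1 (Finset.mem_singleton.mp hc)
      rw [h4, Finset.sum_empty, mul_zero, add_zero] at h3
      exact h2.trans h3
    · -- a vertex of maximal length
      obtain ⟨l, hl, hmax⟩ := Finset.exists_max_image D len ⟨root, hD.mem⟩
      have hne : l ≠ root := by
        rintro rfl
        apply hDs
        ext x
        simp only [Finset.mem_singleton]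
        constructor
        · intro hx
          have := hmax x hx
          simp only [len_root, Nat.le_zero_eq] at this
          exact len_eq_zero this
        · rintro rfl
          exact hD.mem
      have hlen := len_parent hne
      have hpD : parent l ∈ D := hD.closed l hl hne
      have hpl : parent l ≠ l := by
        intro h
        rw [h] at hlen
        omega
      set D' := D.erase l with hD'
      have hins : insert l D' = D := Finset.insert_erase hl
      have hlD' : l ∉ D' := Finset.notMem_erase l D
      have hpD' : parent l ∈ D' := Finset.mem_erase.mpr ⟨hpl, hpD⟩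
      have hR' : Rooted D' root := by
        refine ⟨Finset.mem_erase.mpr ⟨hne.symm, hD.mem⟩, fun _ _ => by simp, ?_⟩
        intro x hx hxr
        have hx1 := Finset.mem_erase.mp hx
        refine Finset.mem_erase.mpr ⟨?_, hD.closed x hx1.2 hxr⟩
        intro hxl
        have h2 := len_parent hxr
        rw [hxl] at h2
        have h3 := hmax x hx1.2
        omega
      have hcard : D'.card = n := by
        rw [hD', Finset.card_erase_of_mem hl, hc]
        rfl
      have hleaf : ∀ z : Word d → ℝ, hf θ D z root =
          hf θ D' (Function.update z (parent l) (z (parent l) + slf_gg θ (z l))) root := by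
        intro z
        conv_lhs => rw [← hins]
        exact slf_hf_leaf θ hθ hR' hlD' hpD' z hR'.mem
      rw [hleaf y, hleaf y']
      -- the filters
      have hfilter : ∀ x, D.filter (fun c => c ≠ root ∧ parent c = x) =
          if parent l = x then insert l (D'.filter (fun c => c ≠ root ∧ parent c = x))
          else D'.filter (fun c => c ≠ root ∧ parent c = x) := by
        intro x
        conv_lhs => rw [← hins]
        rw [Finset.filter_insert]
        by_cases hx : parent l = x
        · simp [hx, hne]
        · simp [hx]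
      have hnil : D.filter (fun c => c ≠ root ∧ parent c = l) = ∅ := by
        ext c
        simp only [Finset.mem_filter, Finset.notMem_empty, iff_false, not_and]
        intro hc' hcr hpc
        have h2 := len_parent hcr
        rw [hpc] at h2
        have h3 := hmax c hc'
        omega
      have hεl : ε l ≤ b l := by
        have := hb l hl
        rw [hnil, Finset.sum_empty, mul_zero, add_zero] at this
        exact this
      refine ih D' hcard hR' _ _ (Function.update ε (parent l) (ε (parent l) + θ * ε l)) b ?_ ?_
      · intro x hx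
        have hxD := (Finset.mem_erase.mp hx).2
        by_cases hxp : x = parent l
        · subst hxp
          simp only [Function.update_self]
          have h2 := hy _ hxD
          have h3 := slf_gg_lip θ h0 h1 (y l) (y' l)
          have h4 : θ * |y l - y' l| ≤ θ * ε l := mul_le_mul_of_nonneg_left (hy l hl) h0
          have h5 : y (parent l) + slf_gg θ (y l) - (y' (parent l) + slf_gg θ (y' l)) =
              (y (parent l) - y' (parent l)) + (slf_gg θ (y l) - slf_gg θ (y' l)) := by ring
          rw [h5]
          exact (abs_add_le _ _).trans (by linarith)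
        · simp only [Function.update_of_ne hxp]
          exact hy x hxD
      · intro x hx
        have hxD := (Finset.mem_erase.mp hx).2
        have h2 := hb x hxD
        rw [hfilter x] at h2
        by_cases hxp : x = parent l
        · subst hxp
          simp only [if_true, Function.update_self] at h2 ⊢
          have hnot : l ∉ D'.filter (fun c => c ≠ root ∧ parent c = parent l) :=
            fun h => hlD' (Finset.mem_filter.mp h).1
          rw [Finset.sum_insert hnot] at h2
          have h3 : θ * ε l ≤ θ * b l := mul_le_mul_of_nonneg_left hεl h0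
          nlinarith
        · have hxp' : ¬ parent l = x := fun h => hxp h.symm
          simp only [if_neg hxp'] at h2
          simp only [Function.update_of_ne hxp]
          exact h2

omit [Corr θ] in
/-- A vertex has at most `d` children, and at most `d - 1` if it is not the root. -/
lemma slf_card_children (X : Finset (Word d)) (x : Word d)
    (hX : ∀ c ∈ X, c ≠ root ∧ parent c = x) : X.card ≤ d ∧ (x ≠ root → X.card ≤ d - 1) := by
  classical
  have hinj : Function.Injective (fun c : Word d => c.1) := Subtype.val_injective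
  have hcard : X.card = (X.image (fun c : Word d => c.1)).card :=
    (Finset.card_image_of_injective _ hinj).symm
  have hform : ∀ c ∈ X, ∃ a : Fin d, c.1 = a :: x.1 := by
    intro c hc
    obtain ⟨h1, h2⟩ := hX c hc
    have h0 : c.1 ≠ [] := fun h0 => h1 (Subtype.ext h0)
    obtain ⟨a, l, hl⟩ := List.exists_cons_of_ne_nil h0
    refine ⟨a, ?_⟩
    have h3 : (parent c).1 = l := by simp [parent, hl]
    rw [h2] at h3
    rw [hl, h3]
  constructor
  · rw [hcard]
    have hsub : X.image (fun c : Word d => c.1) ⊆
        (Finset.univ : Finset (Fin d)).image (fun a => a :: x.1) := by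
      intro l hl
      obtain ⟨c, hc, rfl⟩ := Finset.mem_image.mp hl
      obtain ⟨a, ha⟩ := hform c hc
      exact Finset.mem_image.mpr ⟨a, Finset.mem_univ _, ha.symm⟩
    calc _ ≤ _ := Finset.card_le_card hsub
      _ ≤ (Finset.univ : Finset (Fin d)).card := Finset.card_image_le
      _ = d := by simp
  · intro hx
    have h0 : x.1 ≠ [] := fun h0 => hx (Subtype.ext h0)
    obtain ⟨e, l, hl⟩ := List.exists_cons_of_ne_nil h0
    rw [hcard]
    have hsub : X.image (fun c : Word d => c.1) ⊆
        ((Finset.univ : Finset (Fin d)).erase e).image (fun a => a :: x.1) := by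
      intro m hm
      obtain ⟨c, hc, rfl⟩ := Finset.mem_image.mp hm
      obtain ⟨a, ha⟩ := hform c hc
      refine Finset.mem_image.mpr ⟨a, Finset.mem_erase.mpr ⟨?_, Finset.mem_univ _⟩, ha.symm⟩
      rintro rfl
      have hch := c.2
      rw [ha, hl] at hch
      exact (List.isChain_cons_cons.mp hch).1 rfl
    calc _ ≤ _ := Finset.card_le_card hsub
      _ ≤ ((Finset.univ : Finset (Fin d)).erase e).card := Finset.card_image_le
      _ = d - 1 := by simp

/-- The constant in the weighted Lipschitz bound. -/
noncomputable def kap (d : ℕ) (θ α : ℝ) : ℝ :=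
  let a := (1 - ((d : ℝ) - 1) * θ * α)⁻¹
  let b := a * (1 - θ / α)⁻¹
  1 + θ * b / α + d * θ * α * a

theorem hf_weighted (hθ : θ < 1) (hd : 2 ≤ d) {α : ℝ} (hα : θ < α) (hα' : ((d : ℝ) - 1) * θ * α < 1)
    {D : Finset (Word d)} (hD : ConnClosed D) {v : Word d} (hv : v ∈ D) {y y' : Word d → ℝ} {t : ℝ}
    (h : ∀ x ∈ D, |y x - y' x| ≤ t * α ^ len x) :
    |hf θ D y v - hf θ D y' v| ≤ kap d θ α * t * α ^ len v := by
  have h0 : 0 ≤ θ := Corr.nonneg
  have hαpos : 0 < α := lt_of_le_of_lt h0 hα
  have ht : 0 ≤ t := by
    have h2 := (abs_nonneg _).trans (h v hv)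
    exact nonneg_of_mul_nonneg_left h2 (pow_pos hαpos _)
  set g : Aut d := (gm v).symm with hg
  have hgv : g v = root := by
    have := (gm v).symm_apply_apply root
    rwa [gm_root] at this
  have hgsymm : g.symm root = v := by
    rw [← hgv]
    simp
  set D₁ := D.map g.toEquiv.toEmbedding with hD₁
  have hrootD : root ∈ D₁ := Finset.mem_map.mpr ⟨v, hv, hgv⟩
  have hR : Rooted D₁ root := by
    obtain ⟨top, htop⟩ := rooted_of_connClosed (connClosed_image hD g)
    have h2 := htop.min root hrootD
    simp only [len_root, Nat.le_zero_eq] at h2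
    have h3 := len_eq_zero h2
    rw [h3] at htop
    exact htop
  set ht₁ : Word d → ℕ := fun x => len (g.symm x) with hht
  set a : ℝ := (1 - ((d : ℝ) - 1) * θ * α)⁻¹ with ha
  set b' : ℝ := a * (1 - θ / α)⁻¹ with hb'
  have hapos : 0 < a := inv_pos.mpr (by linarith)
  have hθα : θ / α < 1 := (div_lt_one hαpos).mpr hα
  have hb'pos : 0 < b' := mul_pos hapos (inv_pos.mpr (by linarith))
  have haeq : a = 1 + ((d : ℝ) - 1) * θ * α * a := by
    have hne : (1 - ((d : ℝ) - 1) * θ * α) ≠ 0 := by linarith
    rw [ha]
    field_simp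
    ring
  have hb'eq : b' = a + θ * b' / α := by
    have hne : (1 - θ / α) ≠ 0 := by linarith
    have hq : b' * (1 - θ / α) = a := by
      rw [hb', mul_assoc, inv_mul_cancel₀ hne, mul_one]
    have h2 : θ * b' / α = b' * (θ / α) := by ring
    rw [h2]
    linarith
  set κ : ℝ := kap d θ α with hκ
  have hκeq : κ = 1 + θ * b' / α + d * θ * α * a := rfl
  let ε : Word d → ℝ := fun x => t * α ^ ht₁ x
  let bb : Word d → ℝ := fun x => if x = root then κ * t * α ^ ht₁ x
    else if ht₁ (parent x) < ht₁ x then t * a * α ^ ht₁ x else t * b' * α ^ ht₁ x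
  have hmain := slf_rooted_bound θ hθ D₁.card D₁ rfl hR (actS g y) (actS g y') ε bb ?_ ?_
  · have h2 : bb root = κ * t * α ^ len v := by
      show (if (root : Word d) = root then κ * t * α ^ ht₁ root else _) = _
      rw [if_pos rfl]
      simp only [hht, hgsymm]
    rw [h2] at hmain
    have h3 := hf_map θ g D y v
    have h4 := hf_map θ g D y' v
    rw [hgv] at h3 h4
    rw [← h3, ← h4]
    exact hmain
  · intro x hx
    obtain ⟨w, hw, rfl⟩ := Finset.mem_map.mp hx
    have h2 := h w hw
    simpa [actS, ε, hht] using h2
  · intro x hx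
    set X := D₁.filter (fun c => c ≠ root ∧ parent c = x) with hX
    have hXp : ∀ c ∈ X, c ≠ root ∧ parent c = x := fun c hc => (Finset.mem_filter.mp hc).2
    obtain ⟨hc1, hc2⟩ := slf_card_children X x hXp
    have htype : ∀ c ∈ X, (ht₁ c = ht₁ x + 1) ∨ (ht₁ x = ht₁ c + 1 ∧ g.symm c = parent (g.symm x)) := by
      intro c hc
      obtain ⟨h1, h2⟩ := hXp c hc
      have hadj : (treeGraph d).Adj c x := h2 ▸ adj_parent h1
      have hadj2 : (treeGraph d).Adj (g.symm c) (g.symm x) := g.symm.map_adj_iff.mpr hadj
      rcases adj_len hadj2 with ⟨h3, h4⟩ | ⟨h3, h4⟩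
      · left; exact h3
      · right; exact ⟨h3, h4⟩
    set A₀ : ℝ := α ^ ht₁ x with hA₀
    have hA₀pos : 0 < A₀ := pow_pos hαpos _
    set M : ℝ := t * a * A₀ * α with hM
    set N : ℝ := t * b' * A₀ / α with hN
    have hM0 : 0 ≤ M := by positivity
    have hN0 : 0 ≤ N := by positivity
    set XB := X.filter (fun c => ht₁ x = ht₁ c + 1) with hXB
    set XA := X.filter (fun c => ¬ ht₁ x = ht₁ c + 1) with hXA
    have hXBcard : XB.card ≤ 1 := by
      refine Finset.card_le_one.mpr fun c1 h1 c2 h2 => ?_
      obtain ⟨hc1X, hc1t⟩ := Finset.mem_filter.mp h1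
      obtain ⟨hc2X, hc2t⟩ := Finset.mem_filter.mp h2
      have e1 : g.symm c1 = parent (g.symm x) := by
        rcases htype c1 hc1X with h3 | h3
        · omega
        · exact h3.2
      have e2 : g.symm c2 = parent (g.symm x) := by
        rcases htype c2 hc2X with h3 | h3
        · omega
        · exact h3.2
      exact g.symm.injective (e1.trans e2.symm)
    have hbA : ∀ c ∈ XA, bb c = M := by
      intro c hc
      obtain ⟨hcX, hct⟩ := Finset.mem_filter.mp hc
      obtain ⟨h1, h2⟩ := hXp c hcX
      have h3 : ht₁ c = ht₁ x + 1 := by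
        rcases htype c hcX with h3 | h3
        · exact h3
        · exact absurd h3.1 hct
      show (if c = root then κ * t * α ^ ht₁ c
        else if ht₁ (parent c) < ht₁ c then t * a * α ^ ht₁ c else t * b' * α ^ ht₁ c) = M
      rw [if_neg h1, h2, if_pos (by omega), h3, pow_succ, hM, hA₀]
      ring
    have hbB : ∀ c ∈ XB, bb c = N := by
      intro c hc
      obtain ⟨hcX, hct⟩ := Finset.mem_filter.mp hc
      obtain ⟨h1, h2⟩ := hXp c hcX
      show (if c = root then κ * t * α ^ ht₁ c
        else if ht₁ (parent c) < ht₁ c then t * a * α ^ ht₁ c else t * b' * α ^ ht₁ c) = N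
      rw [if_neg h1, h2, if_neg (by omega), hN, hA₀, hct, pow_succ]
      field_simp
    have hsum : ∑ c ∈ X, bb c = XA.card * M + XB.card * N := by
      rw [add_comm, ← Finset.sum_filter_add_sum_filter_not X (fun c => ht₁ x = ht₁ c + 1),
        Finset.sum_congr rfl hbA, Finset.sum_congr rfl hbB, Finset.sum_const, Finset.sum_const,
        nsmul_eq_mul, nsmul_eq_mul, add_comm]
    have hXAle : (XA.card : ℝ) ≤ X.card := by
      exact_mod_cast Finset.card_le_card (Finset.filter_subset _ _)
    have hεx : ε x = t * A₀ := rfl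
    rw [hεx, hsum]
    by_cases hxr : x = root
    · -- the root
      have hbx : bb x = κ * t * A₀ := by
        show (if x = root then κ * t * α ^ ht₁ x
          else if ht₁ (parent x) < ht₁ x then t * a * α ^ ht₁ x else t * b' * α ^ ht₁ x) = _
        rw [if_pos hxr]
      rw [hbx]
      have h1 : (XA.card : ℝ) ≤ d := hXAle.trans (by exact_mod_cast hc1)
      have h2 : (XB.card : ℝ) ≤ 1 := by exact_mod_cast hXBcard
      have h3 : (XA.card : ℝ) * M + XB.card * N ≤ d * M + 1 * N := by
        have := mul_le_mul_of_nonneg_right h1 hM0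
        have := mul_le_mul_of_nonneg_right h2 hN0
        linarith
      have h4 := mul_le_mul_of_nonneg_left h3 h0
      have h5 : t * A₀ + θ * (d * M + 1 * N) = κ * t * A₀ := by
        rw [hκeq, hM, hN]
        ring
      linarith
    · have hXcast : (XA.card : ℝ) ≤ (d : ℝ) - 1 := by
        have h1 : ((X.card : ℕ) : ℝ) ≤ ((d - 1 : ℕ) : ℝ) := by exact_mod_cast hc2 hxr
        have h2 : ((d - 1 : ℕ) : ℝ) = (d : ℝ) - 1 := by
          rw [Nat.cast_sub (by omega)]
          simp
        linarith
      by_cases hpx : ht₁ (parent x) < ht₁ x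
      · have hbx : bb x = t * a * A₀ := by
          show (if x = root then κ * t * α ^ ht₁ x
            else if ht₁ (parent x) < ht₁ x then t * a * α ^ ht₁ x else t * b' * α ^ ht₁ x) = _
          rw [if_neg hxr, if_pos hpx]
        rw [hbx]
        have hXBe : XB.card = 0 := by
          rw [Finset.card_eq_zero, Finset.filter_eq_empty_iff]
          intro c hc hct
          have hcX := hXp c hc
          have e1 : g.symm c = parent (g.symm x) := by
            rcases htype c hc with h3 | h3
            · omega
            · exact h3.2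
          have hadj : (treeGraph d).Adj x (parent x) := adj_parent hxr
          have hadj2 : (treeGraph d).Adj (g.symm x) (g.symm (parent x)) :=
            g.symm.map_adj_iff.mpr hadj
          have e2 : g.symm (parent x) = parent (g.symm x) := by
            rcases adj_len hadj2 with ⟨_, h4⟩ | ⟨h3, _⟩
            · exact h4
            · have h5 : ht₁ (parent x) = ht₁ x + 1 := h3
              omega
          have e3 : c = parent x := g.symm.injective (e1.trans e2.symm)
          have l1 := len_parent hcX.1
          have l2 := len_parent hxr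
          rw [hcX.2] at l1
          rw [← e3] at l2
          omega
        rw [hXBe]
        have h3 := mul_le_mul_of_nonneg_right hXcast hM0
        have h4 := mul_le_mul_of_nonneg_left h3 h0
        have h5 : t * A₀ + θ * (((d : ℝ) - 1) * M) = t * a * A₀ := by
          have h6 : t * a * A₀ = t * A₀ * a := by ring
          rw [h6]
          conv_rhs => rw [haeq]
          rw [hM]
          ring
        simp only [Nat.cast_zero, zero_mul, add_zero]
        linarith
      · have hbx : bb x = t * b' * A₀ := by
          show (if x = root then κ * t * α ^ ht₁ x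
            else if ht₁ (parent x) < ht₁ x then t * a * α ^ ht₁ x else t * b' * α ^ ht₁ x) = _
          rw [if_neg hxr, if_neg hpx]
        rw [hbx]
        have h2 : (XB.card : ℝ) ≤ 1 := by exact_mod_cast hXBcard
        have h3 : (XA.card : ℝ) * M + XB.card * N ≤ ((d : ℝ) - 1) * M + 1 * N := by
          have := mul_le_mul_of_nonneg_right hXcast hM0
          have := mul_le_mul_of_nonneg_right h2 hN0
          linarith
        have h4 := mul_le_mul_of_nonneg_left h3 h0
        have h5 : t * A₀ + θ * (((d : ℝ) - 1) * M + 1 * N) = t * b' * A₀ := by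
          have h6 : t * b' * A₀ = t * A₀ * b' := by ring
          have h7 : t * A₀ * b' = t * A₀ * (1 + ((d : ℝ) - 1) * θ * α * a + θ * b' / α) := by
            congr 1
            rw [← haeq]
            exact hb'eq
          rw [h6, h7, hM, hN]
          ring
        linarith

end WithCorr

end Vale.Agent.Lib.P161
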