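import Vale.Agent.Lib.P161.SLKernel
import Vale.Agent.Lib.P161.SLField
import Vale.Agent.Lib.P161.SLBShift

/-!
The fold behind the innovation noise and the Bayes identity of the planted observation model.
-/

namespace Vale.Agent.Lib.P161

open MeasureTheory ProbabilityTheory
open scoped NNReal ENNReal

variable {d : ℕ}

section Fold

/-- The full fold behind `innov`. -/
noncomputable def slb_fold (θ : ℝ) (s : ℝ≥0) (D : Finset (Word d)) (a : Ix d → ℝ) (υ : UN d)
    (ev : List (Ix d)) : (Word d → ℝ) × UN d :=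
  ev.foldl (fun p e => (Function.update p.1 e.1 (p.1 e.1 + a e),
    Function.update p.2 e (CC s (hf θ D p.1 e.1) (a e)))) ((0 : Word d → ℝ), υ)

lemma slb_fold_nil (θ : ℝ) (s : ℝ≥0) (D : Finset (Word d)) (a : Ix d → ℝ) (υ : UN d) :
    slb_fold θ s D a υ [] = ((0 : Word d → ℝ), υ) := rfl

lemma slb_fold_snoc (θ : ℝ) (s : ℝ≥0) (D : Finset (Word d)) (a : Ix d → ℝ) (υ : UN d)
    (ev : List (Ix d)) (e : Ix d) :
    slb_fold θ s D a υ (ev ++ [e]) =
      (Function.update (slb_fold θ s D a υ ev).1 e.1 ((slb_fold θ s D a υ ev).1 e.1 + a e),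
        Function.update (slb_fold θ s D a υ ev).2 e
          (CC s (hf θ D (slb_fold θ s D a υ ev).1 e.1) (a e))) := by
  simp [slb_fold, List.foldl_append]

lemma stL_nil (a : Ix d → ℝ) : stL a [] = 0 := rfl

lemma stL_snoc (a : Ix d → ℝ) (ev : List (Ix d)) (e : Ix d) :
    stL a (ev ++ [e]) = Function.update (stL a ev) e.1 (stL a ev e.1 + a e) := by
  simp [stL, List.foldl_append]

lemma slb_fold_fst (θ : ℝ) (s : ℝ≥0) (D : Finset (Word d)) (a : Ix d → ℝ) (υ : UN d)
    (ev : List (Ix d)) : (slb_fold θ s D a υ ev).1 = stL a ev := by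
  induction ev using List.reverseRecOn with
  | nil => rfl
  | append_singleton ev e ih =>
    rw [slb_fold_snoc, stL_snoc]
    simp only [ih]

lemma innov_eq_fold (θ : ℝ) (s : ℝ≥0) (D : Finset (Word d)) (a : Ix d → ℝ) (υ : UN d)
    (ev : List (Ix d)) : innov θ s D a υ ev = (slb_fold θ s D a υ ev).2 := rfl

lemma innov_snoc (θ : ℝ) (s : ℝ≥0) (D : Finset (Word d)) (a : Ix d → ℝ) (υ : UN d)
    (ev : List (Ix d)) (e : Ix d) :
    innov θ s D a υ (ev ++ [e]) =
      Function.update (innov θ s D a υ ev) e (CC s (hf θ D (stL a ev) e.1) (a e)) := by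
  rw [innov_eq_fold, innov_eq_fold, slb_fold_snoc]
  simp only [slb_fold_fst]

lemma innov_of_not_mem (θ : ℝ) (s : ℝ≥0) (D : Finset (Word d)) (a : Ix d → ℝ) (υ : UN d)
    {ev : List (Ix d)} {x : Ix d} (hx : x ∉ ev) : innov θ s D a υ ev x = υ x := by
  induction ev using List.reverseRecOn with
  | nil => rfl
  | append_singleton ev e ih =>
    have h1 : x ∉ ev := fun h => hx (List.mem_append_left _ h)
    have h2 : x ≠ e := fun h => hx (by simp [h])
    rw [innov_snoc, Function.update_of_ne h2, ih h1]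

lemma innov_apply (θ : ℝ) (s : ℝ≥0) {ev₀ ev₁ : List (Ix d)} {e : Ix d} (hnd : (ev₀ ++ e :: ev₁).Nodup)
    (D : Finset (Word d)) (a : Ix d → ℝ) (υ : UN d) :
    innov θ s D a υ (ev₀ ++ e :: ev₁) e = CC s (hf θ D (stL a ev₀) e.1) (a e) := by
  induction ev₁ using List.reverseRecOn with
  | nil =>
    rw [innov_snoc, Function.update_self]
  | append_singleton ev₁ e' ih =>
    have hnd' : (ev₀ ++ e :: ev₁).Nodup := by
      have : ev₀ ++ e :: (ev₁ ++ [e']) = (ev₀ ++ e :: ev₁) ++ [e'] := by simp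
      rw [this] at hnd
      exact hnd.sublist (List.sublist_append_left _ _)
    have hne : e ≠ e' := by
      have : ev₀ ++ e :: (ev₁ ++ [e']) = (ev₀ ++ e :: ev₁) ++ [e'] := by simp
      rw [this] at hnd
      have h3 := (List.nodup_append.mp hnd).2.2
      exact h3 e (by simp) e' (by simp)
    have : ev₀ ++ e :: (ev₁ ++ [e']) = (ev₀ ++ e :: ev₁) ++ [e'] := by simp
    rw [this, innov_snoc, Function.update_of_ne hne, ih hnd']

lemma run_snoc (θ : ℝ) (s : ℝ≥0) (D : Finset (Word d)) (u : UN d) (ev : List (Ix d)) (e : Ix d) :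
    runSL θ s D u (ev ++ [e]) = stepSL θ s D u (runSL θ s D u ev) e := by
  simp [runSL, List.foldl_append]

lemma run_innov (θ : ℝ) {s : ℝ≥0} (hs : s ≠ 0) {ev : List (Ix d)} (hnd : ev.Nodup) (D : Finset (Word d))
    (a : Ix d → ℝ) (υ : UN d) : runSL θ s D (innov θ s D a υ ev) ev = stL a ev := by
  -- initial segments of the list
  have key : ∀ ev₀ ev₁ : List (Ix d), ev = ev₀ ++ ev₁ →
      runSL θ s D (innov θ s D a υ ev) ev₀ = stL a ev₀ := by
    intro ev₀
    induction ev₀ using List.reverseRecOn with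
    | nil => intro _ _; rfl
    | append_singleton ev₀ e ih =>
      intro ev₁ h
      have h1 : ev = ev₀ ++ e :: ev₁ := by rw [h]; simp
      rw [run_snoc, ih (e :: ev₁) h1, stL_snoc]
      unfold stepSL
      have h2 : innov θ s D a υ ev e = CC s (hf θ D (stL a ev₀) e.1) (a e) := by
        rw [h1]
        exact innov_apply θ s (h1 ▸ hnd) D a υ
      rw [h2, OO_CC hs]
  exact key ev [] (by simp)

end Fold

section Tilt

lemma slb_measurable_sp : Measurable sp := Measurable.of_discrete

lemma slb_sp_sq (b : Bool) : sp b ^ 2 = 1 := by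
  cases b <;> simp [sp]

lemma slb_abs_sp (b : Bool) : |sp b| = 1 := by
  cases b <;> simp [sp]

lemma slb_stL_congr {a a' : Ix d → ℝ} {ev : List (Ix d)} (h : ∀ e ∈ ev, a e = a' e) :
    stL a ev = stL a' ev := by
  induction ev using List.reverseRecOn with
  | nil => rfl
  | append_singleton ev e ih =>
    rw [stL_snoc, stL_snoc, ih (fun x hx => h x (List.mem_append_left _ hx)),
      h e (by simp)]

lemma slb_measurable_stL (ev : List (Ix d)) : Measurable (fun a : Ix d → ℝ => stL a ev) := by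
  induction ev using List.reverseRecOn with
  | nil => exact measurable_const
  | append_singleton ev e ih =>
    simp only [stL_snoc]
    refine (measurable_update' (a := e.1)).comp (ih.prodMk ?_)
    exact ((measurable_pi_apply e.1).comp ih).add (measurable_pi_apply e)

lemma slb_measurable_obA (s : ℝ≥0) : Measurable (obA (d := d) s) := by
  refine measurable_pi_iff.mpr fun e => ?_
  unfold obA
  have h1 : Measurable (fun ω : OmP d => ω.1 e.1) := (measurable_pi_apply e.1).comp measurable_fst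
  have h2 : Measurable (fun ω : OmP d => ω.2 e) := (measurable_pi_apply e).comp measurable_snd
  exact ((slb_measurable_sp.comp h1).const_mul _).add (h2.const_mul _)

lemma slb_sum_update (D : Finset (Word d)) (τ y : Word d → ℝ) {v : Word d} (hv : v ∈ D) (x : ℝ) :
    ∑ w ∈ D, τ w * Function.update y v (y v + x) w = ∑ w ∈ D, τ w * y w + τ v * x := by
  classical
  rw [← Finset.add_sum_erase D _ hv, ← Finset.add_sum_erase D (fun w => τ w * y w) hv]
  rw [Function.update_self]
  have : ∑ w ∈ D.erase v, τ w * Function.update y v (y v + x) w = ∑ w ∈ D.erase v, τ w * y w := by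
    refine Finset.sum_congr rfl fun w hw => ?_
    rw [Function.update_of_ne (Finset.ne_of_mem_erase hw)]
  rw [this]
  ring

lemma slb_sum_stL (D : Finset (Word d)) (τ : Word d → ℝ) (a : Ix d → ℝ) {ev : List (Ix d)}
    (hnd : ev.Nodup) (hD : ∀ e ∈ ev, e.1 ∈ D) :
    ∑ w ∈ D, τ w * stL a ev w = ∑ e ∈ ev.toFinset, τ e.1 * a e := by
  rw [List.sum_toFinset _ hnd]
  induction ev using List.reverseRecOn with
  | nil => simp [stL_nil]
  | append_singleton ev e ih =>
    rw [stL_snoc, slb_sum_update D _ _ (hD e (by simp)),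
      ih (hnd.sublist (List.sublist_append_left _ _))
        (fun x hx => hD x (List.mem_append_left _ hx))]
    simp

/-- The observations without the planted signal. -/
noncomputable def slb_sg (s : ℝ≥0) (g : Ix d → ℝ) : Ix d → ℝ := fun e => √s * g e

lemma slb_measurable_sg (s : ℝ≥0) : Measurable (slb_sg (d := d) s) := by
  refine measurable_pi_iff.mpr fun e => ?_
  exact (measurable_pi_apply e).const_mul _

/-- The shift of the Gaussian array carrying the signal of `σ`. -/
noncomputable def slb_cs (s : ℝ≥0) (σ : Word d → Bool) : Ix d → ℝ := fun e => √s * sp (σ e.1)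

lemma slb_dens_eq (s : ℝ≥0) {ev : List (Ix d)} (hnd : ev.Nodup) {D : Finset (Word d)}
    (hD : ∀ e ∈ ev, e.1 ∈ D) (σ : Word d → Bool) (g : Ix d → ℝ) :
    slb_dens ev.toFinset (slb_cs s σ) g =
      Real.exp (-((ev.toFinset.card : ℝ) * (s / 2))) * tiltE D (stL (slb_sg s g) ev) σ := by
  unfold slb_dens tiltE
  rw [← Real.exp_add, slb_sum_stL D _ _ hnd hD]
  congr 1
  rw [Finset.sum_sub_distrib]
  have h1 : ∑ e ∈ ev.toFinset, (slb_cs s σ e) ^ 2 / 2 = (ev.toFinset.card : ℝ) * (s / 2) := by
    rw [Finset.sum_congr rfl (g := fun _ => ((s : ℝ) / 2))]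
    · simp
    · intro e _
      unfold slb_cs
      rw [mul_pow, Real.sq_sqrt s.coe_nonneg, slb_sp_sq, mul_one]
  rw [h1]
  have h2 : ∑ e ∈ ev.toFinset, slb_cs s σ e * g e = ∑ e ∈ ev.toFinset, sp (σ e.1) * slb_sg s g e := by
    refine Finset.sum_congr rfl fun e _ => ?_
    unfold slb_cs slb_sg
    ring
  rw [h2]
  ring

/-- The Gaussian shift for a fixed configuration. -/
lemma slb_shift_obA (s : ℝ≥0) {ev : List (Ix d)} {ψ : (Ix d → ℝ) → ℝ}
    (hψ : Measurable ψ) (hdep : ∀ a a', (∀ e ∈ ev, a e = a' e) → ψ a = ψ a') (σ : Word d → Bool) :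
    ∫ g, ψ (obA s (σ, g)) ∂(gam d) =
      ∫ g, slb_dens ev.toFinset (slb_cs s σ) g * ψ (slb_sg s g) ∂(gam d) := by
  have h := slb_integral_shift (ι := Ix d) ev.toFinset (slb_cs s σ) (Ψ := fun g => ψ (slb_sg s g))
    (hψ.comp (slb_measurable_sg s))
  unfold gam
  rw [← h]
  refine integral_congr_ae (Filter.Eventually.of_forall fun g => ?_)
  refine hdep _ _ fun e he => ?_
  have : e ∈ ev.toFinset := List.mem_toFinset.mpr he
  simp only [slb_sg, slb_shiftS, this, if_true, slb_cs, obA]
  have h3 : √(s : ℝ) * √(s : ℝ) = s := Real.mul_self_sqrt s.coe_nonneg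
  linear_combination (-sp (σ e.1)) * h3

end Tilt

section Planted

variable (θ : ℝ) [Corr θ]

lemma slb_measurable_tanh : Measurable Real.tanh := by
  have h : Real.tanh = fun x => Real.sinh x / Real.cosh x := by
    funext x
    exact Real.tanh_eq_sinh_div_cosh x
  rw [h]
  exact Real.measurable_sinh.div Real.measurable_cosh

lemma slb_abs_tanh_le (x : ℝ) : |Real.tanh x| ≤ 1 := by
  have h := Real.tanh_bijOn.mapsTo (Set.mem_univ x)
  exact abs_le.mpr ⟨h.1.le, h.2.le⟩

lemma slb_measurable_tiltE_joint (D : Finset (Word d)) :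
    Measurable (fun p : (Word d → Bool) × (Word d → ℝ) => tiltE D p.2 p.1) := by
  unfold tiltE
  refine Real.measurable_exp.comp ?_
  refine Finset.measurable_sum _ fun x _ => ?_
  have h1 : Measurable (fun p : (Word d → Bool) × (Word d → ℝ) => p.1 x) :=
    (measurable_pi_apply x).comp measurable_fst
  have h2 : Measurable (fun p : (Word d → Bool) × (Word d → ℝ) => p.2 x) :=
    (measurable_pi_apply x).comp measurable_snd
  exact (slb_measurable_sp.comp h1).mul h2

lemma slb_measurable_tiltE (D : Finset (Word d)) (y : Word d → ℝ) :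
    Measurable (fun σ : Word d → Bool => tiltE D y σ) :=
  (slb_measurable_tiltE_joint D).comp (measurable_id.prodMk measurable_const)

lemma slb_tiltE_pos (D : Finset (Word d)) (y : Word d → ℝ) (σ : Word d → Bool) : 0 < tiltE D y σ :=
  Real.exp_pos _

lemma slb_tiltE_le (D : Finset (Word d)) (y : Word d → ℝ) (σ : Word d → Bool) :
    tiltE D y σ ≤ Real.exp (∑ x ∈ D, |y x|) := by
  unfold tiltE
  refine Real.exp_le_exp.mpr (Finset.sum_le_sum fun x _ => ?_)
  calc sp (σ x) * y x ≤ |sp (σ x) * y x| := le_abs_self _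
    _ = |y x| := by rw [abs_mul, slb_abs_sp, one_mul]

lemma slb_integrable_tilt (D : Finset (Word d)) (y : Word d → ℝ) {χ : (Word d → Bool) → ℝ}
    (hχ : Measurable χ) {Cχ : ℝ} (hCχ : ∀ σ, |χ σ| ≤ Cχ) :
    Integrable (fun σ => χ σ * tiltE D y σ) (isingLaw d θ) := by
  refine Integrable.of_bound (C := Cχ * Real.exp (∑ x ∈ D, |y x|))
    (hχ.mul (slb_measurable_tiltE D y)).aestronglyMeasurable
    (Filter.Eventually.of_forall fun σ => ?_)
  rw [Real.norm_eq_abs, abs_mul, abs_of_pos (slb_tiltE_pos D y σ)]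
  exact mul_le_mul (hCχ σ) (slb_tiltE_le D y σ) (slb_tiltE_pos D y σ).le
    ((abs_nonneg _).trans (hCχ σ))

lemma slb_integrable_if (D : Finset (Word d)) (y : Word d → ℝ) (v : Word d) (b : Bool) :
    Integrable (fun σ => if σ v = b then tiltE D y σ else 0) (isingLaw d θ) := by
  have h := slb_integrable_tilt θ D y (χ := fun σ => if σ v = b then 1 else 0) (Cχ := 1)
    (Measurable.ite (measurableSet_eq_fun (measurable_pi_apply v) measurable_const)
      measurable_const measurable_const)
    (fun σ => by split_ifs <;> simp)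
  refine h.congr (Filter.Eventually.of_forall fun σ => ?_)
  by_cases hb : σ v = b <;> simp [hb]

lemma slb_zb_diff (D : Finset (Word d)) (y : Word d → ℝ) (v : Word d) :
    ∫ σ, sp (σ v) * tiltE D y σ ∂(isingLaw d θ) = zb θ D y v false - zb θ D y v true := by
  unfold zb
  rw [← integral_sub (slb_integrable_if θ D y v false) (slb_integrable_if θ D y v true)]
  refine integral_congr_ae (Filter.Eventually.of_forall fun σ => ?_)
  cases h : σ v <;> simp [sp, h]

lemma slb_zb_sum (D : Finset (Word d)) (y : Word d → ℝ) (v : Word d) :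
    ∫ σ, tiltE D y σ ∂(isingLaw d θ) = zb θ D y v false + zb θ D y v true := by
  unfold zb
  rw [← integral_add (slb_integrable_if θ D y v false) (slb_integrable_if θ D y v true)]
  refine integral_congr_ae (Filter.Eventually.of_forall fun σ => ?_)
  cases h : σ v <;> simp [h]

lemma slb_measurable_dens_joint (s : ℝ≥0) (S : Finset (Ix d)) :
    Measurable (fun p : (Word d → Bool) × (Ix d → ℝ) => slb_dens S (slb_cs s p.1) p.2) := by
  unfold slb_dens slb_cs
  refine Real.measurable_exp.comp ?_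
  refine Finset.measurable_sum _ fun e _ => ?_
  have h1 : Measurable (fun p : (Word d → Bool) × (Ix d → ℝ) => p.1 e.1) :=
    (measurable_pi_apply e.1).comp measurable_fst
  have h2 : Measurable (fun p : (Word d → Bool) × (Ix d → ℝ) => p.2 e) :=
    (measurable_pi_apply e).comp measurable_snd
  have h3 := slb_measurable_sp.comp h1
  refine Measurable.sub (((h3.const_mul _).mul h2)) ?_
  exact ((h3.const_mul _).pow_const 2).div_const 2

/-- Integrating out the Gaussian array against the tilt. -/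
lemma slb_planted_tilt (s : ℝ≥0) {ev : List (Ix d)} (hnd : ev.Nodup)
    {D : Finset (Word d)} (hD : ∀ e ∈ ev, e.1 ∈ D) {ψ : (Ix d → ℝ) → ℝ}
    (hψ : Measurable ψ) {C : ℝ} (hC : ∀ a, |ψ a| ≤ C) (hdep : ∀ a a', (∀ e ∈ ev, a e = a' e) → ψ a = ψ a')
    {χ : (Word d → Bool) → ℝ} (hχ : Measurable χ) {Cχ : ℝ} (hCχ : ∀ σ, |χ σ| ≤ Cχ) :
    ∫ ω, χ ω.1 * ψ (obA s ω) ∂(PL d θ) =
      Real.exp (-((ev.toFinset.card : ℝ) * (s / 2))) *
        ∫ g, ψ (slb_sg s g) * ∫ σ, χ σ * tiltE D (stL (slb_sg s g) ev) σ ∂(isingLaw d θ) ∂(gam d) := by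
  have hC0 : 0 ≤ C := (abs_nonneg _).trans (hC 0)
  have hCχ0 : 0 ≤ Cχ := (abs_nonneg _).trans (hCχ (fun _ => false))
  have hψA : Measurable (fun ω : OmP d => ψ (obA s ω)) := hψ.comp (slb_measurable_obA s)
  have hχ1 : Measurable (fun ω : OmP d => χ ω.1) := hχ.comp measurable_fst
  have hint : Integrable (fun ω : OmP d => χ ω.1 * ψ (obA s ω)) ((isingLaw d θ).prod (gam d)) := by
    refine Integrable.of_bound (C := Cχ * C) (hχ1.mul hψA).aestronglyMeasurable
      (Filter.Eventually.of_forall fun ω => ?_)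
    rw [Real.norm_eq_abs, abs_mul]
    exact mul_le_mul (hCχ _) (hC _) (abs_nonneg _) hCχ0
  -- the integrand after the shift
  set F : (Word d → Bool) → (Ix d → ℝ) → ℝ :=
    fun σ g => χ σ * (slb_dens ev.toFinset (slb_cs s σ) g * ψ (slb_sg s g)) with hF
  have hFm : Measurable (Function.uncurry F) := by
    have h1 := slb_measurable_dens_joint (d := d) s ev.toFinset
    have h2 : Measurable (fun p : (Word d → Bool) × (Ix d → ℝ) => ψ (slb_sg s p.2)) :=
      hψ.comp ((slb_measurable_sg s).comp measurable_snd)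
    exact (hχ.comp measurable_fst).mul (h1.mul h2)
  have hFb : ∀ σ g, ‖F σ g‖ ≤ Cχ * C * slb_dens ev.toFinset (slb_cs s σ) g := by
    intro σ g
    have hd : 0 ≤ slb_dens ev.toFinset (slb_cs s σ) g := (Real.exp_pos _).le
    rw [hF]
    simp only [Real.norm_eq_abs]
    rw [abs_mul, abs_mul, abs_of_nonneg hd]
    calc |χ σ| * (slb_dens ev.toFinset (slb_cs s σ) g * |ψ (slb_sg s g)|)
        ≤ Cχ * (slb_dens ev.toFinset (slb_cs s σ) g * C) := by
          refine mul_le_mul (hCχ _) ?_ (by positivity) hCχ0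
          exact mul_le_mul_of_nonneg_left (hC _) hd
      _ = _ := by ring
  have hFi : ∀ σ, Integrable (F σ) (gam d) := by
    intro σ
    have hm : Measurable (F σ) := hFm.comp (measurable_const.prodMk measurable_id)
    refine Integrable.mono' (((slb_integrable_dens (ι := Ix d) ev.toFinset (slb_cs s σ))).const_mul (Cχ * C))
      hm.aestronglyMeasurable (Filter.Eventually.of_forall fun g => hFb σ g)
  have hFnorm : ∀ σ, ∫ g, ‖F σ g‖ ∂(gam d) ≤ Cχ * C := by
    intro σ
    have h1 : ∫ g, ‖F σ g‖ ∂(gam d) ≤ ∫ g, Cχ * C * slb_dens ev.toFinset (slb_cs s σ) g ∂(gam d) := by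
      refine integral_mono (hFi σ).norm ?_ (fun g => hFb σ g)
      exact (slb_integrable_dens (ι := Ix d) ev.toFinset (slb_cs s σ)).const_mul (Cχ * C)
    rw [integral_const_mul] at h1
    have h2 : ∫ g, slb_dens ev.toFinset (slb_cs s σ) g ∂(gam d) = 1 :=
      slb_integral_dens (ι := Ix d) ev.toFinset (slb_cs s σ)
    rwa [h2, mul_one] at h1
  have hFint : Integrable (Function.uncurry F) ((isingLaw d θ).prod (gam d)) := by
    refine (integrable_prod_iff hFm.aestronglyMeasurable).mpr ⟨Filter.Eventually.of_forall hFi, ?_⟩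
    refine Integrable.of_bound (C := Cχ * C)
      (hFm.aestronglyMeasurable.norm.integral_prod_right') (Filter.Eventually.of_forall fun σ => ?_)
    rw [Real.norm_eq_abs, abs_of_nonneg (integral_nonneg fun g => norm_nonneg _)]
    exact hFnorm σ
  unfold PL
  rw [integral_prod _ hint]
  have step1 : ∀ σ : Word d → Bool, ∫ g, χ (σ, g).1 * ψ (obA s (σ, g)) ∂(gam d) = ∫ g, F σ g ∂(gam d) := by
    intro σ
    simp only [hF]
    rw [integral_const_mul, integral_const_mul]
    rw [slb_shift_obA s hψ hdep σ]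
  simp only [step1]
  rw [integral_integral_swap hFint, ← integral_const_mul]
  refine integral_congr_ae (Filter.Eventually.of_forall fun g => ?_)
  simp only
  rw [← integral_const_mul, ← integral_const_mul]
  refine integral_congr_ae (Filter.Eventually.of_forall fun σ => ?_)
  simp only [hF]
  rw [slb_dens_eq s hnd hD σ g]
  ring

theorem bayes_planted (hθ : θ < 1) {s : ℝ≥0} (hs : s ≠ 0) {ev : List (Ix d)} (hnd : ev.Nodup)
    {D : Finset (Word d)} (hD : ∀ e ∈ ev, e.1 ∈ D) {v : Word d} (hv : v ∈ D) {ψ : (Ix d → ℝ) → ℝ}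
    (hψ : Measurable ψ) {C : ℝ} (hC : ∀ a, |ψ a| ≤ C) (hdep : ∀ a a', (∀ e ∈ ev, a e = a' e) → ψ a = ψ a') :
    ∫ ω, sp (ω.1 v) * ψ (obA s ω) ∂(PL d θ) =
      ∫ ω, Real.tanh (hf θ D (stL (obA s ω) ev) v) * ψ (obA s ω) ∂(PL d θ) := by
  have hC0 : 0 ≤ C := (abs_nonneg _).trans (hC 0)
  have h1 := slb_planted_tilt θ s hnd hD hψ hC hdep (χ := fun σ => sp (σ v)) (Cχ := 1)
    (slb_measurable_sp.comp (measurable_pi_apply v)) (fun σ => (slb_abs_sp _).le)
  have hm : Measurable (fun a : Ix d → ℝ => hf θ D (stL a ev) v) :=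
    (measurable_hf θ D v).comp (slb_measurable_stL ev)
  have h2 := slb_planted_tilt θ s hnd hD
    (ψ := fun a => Real.tanh (hf θ D (stL a ev) v) * ψ a) (C := C)
    ((slb_measurable_tanh.comp hm).mul hψ)
    (fun a => by
      rw [abs_mul]
      calc |Real.tanh (hf θ D (stL a ev) v)| * |ψ a| ≤ 1 * C :=
            mul_le_mul (slb_abs_tanh_le _) (hC a) (abs_nonneg _) zero_le_one
        _ = C := one_mul C)
    (fun a a' h => by
      rw [slb_stL_congr h, hdep a a' h])
    (χ := fun _ => 1) (Cχ := 1) measurable_const (fun _ => by simp)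
  simp only [one_mul] at h2
  rw [h1, h2]
  congr 1
  refine integral_congr_ae (Filter.Eventually.of_forall fun g => ?_)
  simp only
  rw [slb_zb_diff, slb_zb_sum, tanh_hf θ hθ]
  have h3 := zb_pos θ hθ D (stL (slb_sg s g) ev) v false
  have h4 := zb_pos θ hθ D (stL (slb_sg s g) ev) v true
  have h5 : zb θ D (stL (slb_sg s g) ev) v false + zb θ D (stL (slb_sg s g) ev) v true ≠ 0 := by
    positivity
  field_simp

end Planted

end Vale.Agent.Lib.P161
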