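import Vale.Agent.Lib.P161.SLBPlanted

/-!
The measure-preserving property of the innovation noise.
-/

namespace Vale.Agent.Lib.P161

open MeasureTheory ProbabilityTheory
open scoped NNReal ENNReal

variable {d : ℕ}

section Innov

lemma slb_integral_prod_pi {ι X : Type*} [MeasurableSpace X] [DecidableEq ι] (m : Measure X)
    [IsProbabilityMeasure m] (S : Finset ι) (f : ι → X → ℝ) (hfm : ∀ i, Measurable (f i)) :
    ∫ x, ∏ i ∈ S, f i (x i) ∂(Measure.infinitePi fun _ : ι => m) = ∏ i ∈ S, ∫ u, f i u ∂m := by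
  induction S using Finset.induction_on with
  | empty => simp
  | insert a S ha ih =>
    have U := slb_update_mp m a
    have hm : Measurable (fun x : ι → X => ∏ i ∈ insert a S, f i (x i)) :=
      Finset.measurable_prod _ fun i _ => (hfm i).comp (measurable_pi_apply i)
    rw [Finset.prod_insert ha, ← ih]
    have h1 : ∫ x, ∏ i ∈ insert a S, f i (x i) ∂(Measure.infinitePi fun _ : ι => m) =
        ∫ p : (ι → X) × X, ∏ i ∈ insert a S, f i (Function.update p.1 a p.2 i)
          ∂((Measure.infinitePi fun _ : ι => m).prod m) := by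
      conv_lhs => rw [← U.map_eq]
      rw [integral_map U.measurable.aemeasurable]
      rw [U.map_eq]
      exact hm.aestronglyMeasurable
    rw [h1]
    have h2 : ∀ p : (ι → X) × X, ∏ i ∈ insert a S, f i (Function.update p.1 a p.2 i) =
        (∏ i ∈ S, f i (p.1 i)) * f a p.2 := by
      intro p
      rw [Finset.prod_insert ha, Function.update_self, mul_comm]
      congr 1
      refine Finset.prod_congr rfl fun i hi => ?_
      have hia : i ≠ a := fun h => ha (h ▸ hi)
      rw [Function.update_of_ne hia]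
    simp only [h2]
    rw [integral_prod_mul (μ := Measure.infinitePi fun _ : ι => m) (ν := m)
      (fun g : ι → X => ∏ i ∈ S, f i (g i)) (f a), mul_comm]

variable (θ : ℝ) [Corr θ]

/-- The law of the observation at a new event given the past. -/
noncomputable def slb_G (s : ℝ≥0) (f : unitInterval → ℝ) (c h : ℝ) : ℝ :=
  ∫ t, f (CC s h (c + √s * t)) ∂(gaussianReal 0 1)

lemma slb_measurable_G (s : ℝ≥0) {f : unitInterval → ℝ} (hfm : Measurable f) (c : ℝ) :
    Measurable (slb_G s f c) := by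
  have hm : Measurable (Function.uncurry (fun (h t : ℝ) => f (CC s h (c + √s * t)))) := by
    have h1 : Measurable (fun p : ℝ × ℝ => (p.1, c + √s * p.2)) :=
      measurable_fst.prodMk ((measurable_snd.const_mul _).const_add _)
    exact hfm.comp ((measurable_CC s).comp h1)
  exact (hm.stronglyMeasurable.integral_prod_right (ν := gaussianReal 0 1)).measurable

lemma slb_abs_G_le (s : ℝ≥0) {f : unitInterval → ℝ} {Cf : ℝ} (hCf : ∀ x, |f x| ≤ Cf) (c h : ℝ) :
    |slb_G s f c h| ≤ Cf := by
  unfold slb_G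
  rw [← Real.norm_eq_abs]
  have := norm_integral_le_of_norm_le_const (μ := gaussianReal 0 (1 : ℝ≥0))
    (f := fun t => f (CC s h (c + √s * t))) (C := Cf)
    (Filter.Eventually.of_forall fun t => by simpa using hCf _)
  simpa using this

lemma slb_obA_update_ne (s : ℝ≥0) (σ : Word d → Bool) (g : Ix d → ℝ) {e e' : Ix d} (t : ℝ)
    (h : e' ≠ e) : obA s (σ, Function.update g e t) e' = obA s (σ, g) e' := by
  simp only [obA]
  rw [Function.update_of_ne h]

lemma slb_obA_update_self (s : ℝ≥0) (σ : Word d → Bool) (g : Ix d → ℝ) (e : Ix d) (t : ℝ) :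
    obA s (σ, Function.update g e t) e = s * sp (σ e.1) + √s * t := by
  simp only [obA]
  rw [Function.update_self]

/-- Integrating out the noise of a new event. -/
lemma slb_integrate_out (s : ℝ≥0) {ev₀ : List (Ix d)} {e : Ix d} (he : e ∉ ev₀)
    {ψ : (Ix d → ℝ) → ℝ} (hψ : Measurable ψ) {C : ℝ} (hC : ∀ a, |ψ a| ≤ C)
    (hdep : ∀ a a', (∀ e ∈ ev₀, a e = a' e) → ψ a = ψ a')
    {ρ : (Ix d → ℝ) → ℝ → ℝ} (hρ : Measurable (Function.uncurry ρ)) {Cρ : ℝ} (hCρ : ∀ a x, |ρ a x| ≤ Cρ)
    (hρdep : ∀ a a' x, (∀ e ∈ ev₀, a e = a' e) → ρ a x = ρ a' x) :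
    ∫ ω, ψ (obA s ω) * ρ (obA s ω) (obA s ω e) ∂(PL d θ) =
      ∫ ω, ψ (obA s ω) * ∫ t, ρ (obA s ω) (s * sp (ω.1 e.1) + √s * t) ∂(gaussianReal 0 1) ∂(PL d θ) := by
  have hC0 : 0 ≤ C := (abs_nonneg _).trans (hC 0)
  have hCρ0 : 0 ≤ Cρ := (abs_nonneg _).trans (hCρ 0 0)
  have hA := slb_measurable_obA (d := d) s
  have hAe : Measurable (fun ω : OmP d => obA s ω e) := (measurable_pi_apply e).comp hA
  have hm1 : Measurable (fun ω : OmP d => ψ (obA s ω) * ρ (obA s ω) (obA s ω e)) :=
    (hψ.comp hA).mul (hρ.comp (hA.prodMk hAe))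
  have hm2 : Measurable (fun ω : OmP d =>
      ψ (obA s ω) * ∫ t, ρ (obA s ω) (s * sp (ω.1 e.1) + √s * t) ∂(gaussianReal 0 1)) := by
    refine (hψ.comp hA).mul ?_
    have h3 : Measurable (Function.uncurry (fun (ω : OmP d) (t : ℝ) =>
        ρ (obA s ω) (s * sp (ω.1 e.1) + √s * t))) := by
      have h4 : Measurable (fun p : OmP d × ℝ => (obA s p.1,
          s * sp (p.1.1 e.1) + √s * p.2)) := by
        refine (hA.comp measurable_fst).prodMk ?_
        have h5 : Measurable (fun p : OmP d × ℝ => p.1.1 e.1) :=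
          (measurable_pi_apply e.1).comp (measurable_fst.comp measurable_fst)
        exact ((slb_measurable_sp.comp h5).const_mul _).add (measurable_snd.const_mul _)
      exact hρ.comp h4
    exact (h3.stronglyMeasurable.integral_prod_right (ν := gaussianReal 0 1)).measurable
  have hbd : ∀ ω : OmP d, ‖∫ t, ρ (obA s ω) (s * sp (ω.1 e.1) + √s * t) ∂(gaussianReal 0 1)‖ ≤ Cρ := by
    intro ω
    have := norm_integral_le_of_norm_le_const (μ := gaussianReal 0 (1 : ℝ≥0))
      (f := fun t => ρ (obA s ω) (s * sp (ω.1 e.1) + √s * t)) (C := Cρ)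
      (Filter.Eventually.of_forall fun t => by simpa using hCρ _ _)
    simpa using this
  have hint1 : Integrable (fun ω : OmP d => ψ (obA s ω) * ρ (obA s ω) (obA s ω e))
      ((isingLaw d θ).prod (gam d)) := by
    refine Integrable.of_bound (C := C * Cρ) hm1.aestronglyMeasurable
      (Filter.Eventually.of_forall fun ω => ?_)
    rw [Real.norm_eq_abs, abs_mul]
    exact mul_le_mul (hC _) (hCρ _ _) (abs_nonneg _) hC0
  have hint2 : Integrable (fun ω : OmP d =>
      ψ (obA s ω) * ∫ t, ρ (obA s ω) (s * sp (ω.1 e.1) + √s * t) ∂(gaussianReal 0 1))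
      ((isingLaw d θ).prod (gam d)) := by
    refine Integrable.of_bound (C := C * Cρ) hm2.aestronglyMeasurable
      (Filter.Eventually.of_forall fun ω => ?_)
    rw [Real.norm_eq_abs, abs_mul]
    exact mul_le_mul (hC _) (hbd ω) (abs_nonneg _) hC0
  unfold PL
  rw [integral_prod _ hint1, integral_prod _ hint2]
  refine integral_congr_ae (Filter.Eventually.of_forall fun σ => ?_)
  -- the configuration is fixed from here on
  have U := slb_update_mp (ι := Ix d) (gaussianReal 0 (1 : ℝ≥0)) e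
  have hA' : Measurable (fun g : Ix d → ℝ => ((σ, g) : OmP d)) := measurable_const.prodMk measurable_id
  have hΦ : Measurable (fun g : Ix d → ℝ =>
      ψ (obA s (σ, g)) * ρ (obA s (σ, g)) (obA s (σ, g) e)) := hm1.comp hA'
  have h1 : ∫ g, ψ (obA s (σ, g)) * ρ (obA s (σ, g)) (obA s (σ, g) e) ∂(gam d) =
      ∫ p : (Ix d → ℝ) × ℝ, (fun g : Ix d → ℝ =>
        ψ (obA s (σ, g)) * ρ (obA s (σ, g)) (obA s (σ, g) e)) (Function.update p.1 e p.2)
        ∂((gam d).prod (gaussianReal 0 1)) := by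
    unfold gam
    conv_lhs => rw [← U.map_eq]
    rw [integral_map U.measurable.aemeasurable]
    rw [U.map_eq]
    exact hΦ.aestronglyMeasurable
  simp only
  rw [h1, integral_prod]
  · refine integral_congr_ae (Filter.Eventually.of_forall fun g => ?_)
    simp only
    rw [← integral_const_mul]
    refine integral_congr_ae (Filter.Eventually.of_forall fun t => ?_)
    simp only
    have hag : ∀ e' ∈ ev₀, obA s (σ, Function.update g e t) e' = obA s (σ, g) e' := by
      intro e' he'
      exact slb_obA_update_ne s σ g t (fun h => he (h ▸ he'))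
    rw [hdep _ _ hag, hρdep _ _ _ hag, slb_obA_update_self]
  · refine Integrable.of_bound (C := C * Cρ) (hΦ.comp U.measurable).aestronglyMeasurable
      (Filter.Eventually.of_forall fun p => ?_)
    rw [Real.norm_eq_abs, abs_mul]
    exact mul_le_mul (hC _) (hCρ _ _) (abs_nonneg _) hC0

/-- The Bayes identity applied to a mixture. -/
lemma slb_bayes_mix (hθ : θ < 1) {s : ℝ≥0} (hs : s ≠ 0) {ev₀ : List (Ix d)} (hnd : ev₀.Nodup)
    {D : Finset (Word d)} (hD : ∀ e ∈ ev₀, e.1 ∈ D) {v : Word d} (hv : v ∈ D)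
    {ψ : (Ix d → ℝ) → ℝ} (hψ : Measurable ψ) {C : ℝ} (hC : ∀ a, |ψ a| ≤ C)
    (hdep : ∀ a a', (∀ e ∈ ev₀, a e = a' e) → ψ a = ψ a')
    {G₁ G₂ : ℝ → ℝ} (hG₁ : Measurable G₁) (hG₂ : Measurable G₂) {Cf : ℝ} (hCG₁ : ∀ x, |G₁ x| ≤ Cf)
    (hCG₂ : ∀ x, |G₂ x| ≤ Cf) :
    ∫ ω, ψ (obA s ω) * ((G₁ (hf θ D (stL (obA s ω) ev₀) v) + G₂ (hf θ D (stL (obA s ω) ev₀) v)) / 2 +
        sp (ω.1 v) * ((G₁ (hf θ D (stL (obA s ω) ev₀) v) - G₂ (hf θ D (stL (obA s ω) ev₀) v)) / 2))
        ∂(PL d θ) =
      ∫ ω, ψ (obA s ω) * ((1 + Real.tanh (hf θ D (stL (obA s ω) ev₀) v)) / 2 *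
          G₁ (hf θ D (stL (obA s ω) ev₀) v) +
        (1 - Real.tanh (hf θ D (stL (obA s ω) ev₀) v)) / 2 * G₂ (hf θ D (stL (obA s ω) ev₀) v))
        ∂(PL d θ) := by
  have hC0 : 0 ≤ C := (abs_nonneg _).trans (hC 0)
  have hCf0 : 0 ≤ Cf := (abs_nonneg _).trans (hCG₁ 0)
  have hhm : Measurable (fun a : Ix d → ℝ => hf θ D (stL a ev₀) v) :=
    (measurable_hf θ D v).comp (slb_measurable_stL ev₀)
  have hA := slb_measurable_obA (d := d) s
  have hψ₂ : Measurable (fun a : Ix d → ℝ => ψ a *
      ((G₁ (hf θ D (stL a ev₀) v) - G₂ (hf θ D (stL a ev₀) v)) / 2)) :=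
    hψ.mul (((hG₁.comp hhm).sub (hG₂.comp hhm)).div_const 2)
  have hψ₃ : Measurable (fun a : Ix d → ℝ => ψ a *
      ((G₁ (hf θ D (stL a ev₀) v) + G₂ (hf θ D (stL a ev₀) v)) / 2)) :=
    hψ.mul (((hG₁.comp hhm).add (hG₂.comp hhm)).div_const 2)
  have hab : ∀ h, |(G₁ h - G₂ h) / 2| ≤ Cf := by
    intro h
    rw [abs_div, abs_of_pos (by norm_num : (0 : ℝ) < 2), div_le_iff₀ (by norm_num)]
    calc |G₁ h - G₂ h| ≤ |G₁ h| + |G₂ h| := abs_sub _ _
      _ ≤ Cf + Cf := add_le_add (hCG₁ _) (hCG₂ _)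
      _ = Cf * 2 := by ring
  have hab' : ∀ h, |(G₁ h + G₂ h) / 2| ≤ Cf := by
    intro h
    rw [abs_div, abs_of_pos (by norm_num : (0 : ℝ) < 2), div_le_iff₀ (by norm_num)]
    calc |G₁ h + G₂ h| ≤ |G₁ h| + |G₂ h| := abs_add_le _ _
      _ ≤ Cf + Cf := add_le_add (hCG₁ _) (hCG₂ _)
      _ = Cf * 2 := by ring
  have hb₂ : ∀ a, |ψ a * ((G₁ (hf θ D (stL a ev₀) v) - G₂ (hf θ D (stL a ev₀) v)) / 2)| ≤ C * Cf := by
    intro a
    rw [abs_mul]
    exact mul_le_mul (hC a) (hab _) (abs_nonneg _) hC0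
  have hb₃ : ∀ a, |ψ a * ((G₁ (hf θ D (stL a ev₀) v) + G₂ (hf θ D (stL a ev₀) v)) / 2)| ≤ C * Cf := by
    intro a
    rw [abs_mul]
    exact mul_le_mul (hC a) (hab' _) (abs_nonneg _) hC0
  have hb := bayes_planted θ hθ hs hnd hD hv hψ₂ hb₂
    (fun a a' h => by rw [hdep a a' h, slb_stL_congr h])
  -- integrability of the pieces
  have hI1 : Integrable (fun ω : OmP d => ψ (obA s ω) *
      ((G₁ (hf θ D (stL (obA s ω) ev₀) v) + G₂ (hf θ D (stL (obA s ω) ev₀) v)) / 2)) (PL d θ) :=
    Integrable.of_bound (C := C * Cf) (hψ₃.comp hA).aestronglyMeasurable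
      (Filter.Eventually.of_forall fun ω => hb₃ _)
  have hs1 : Measurable (fun ω : OmP d => sp (ω.1 v)) :=
    slb_measurable_sp.comp ((measurable_pi_apply v).comp measurable_fst)
  have hI2 : Integrable (fun ω : OmP d => sp (ω.1 v) * (ψ (obA s ω) *
      ((G₁ (hf θ D (stL (obA s ω) ev₀) v) - G₂ (hf θ D (stL (obA s ω) ev₀) v)) / 2))) (PL d θ) := by
    refine Integrable.of_bound (C := 1 * (C * Cf)) (hs1.mul (hψ₂.comp hA)).aestronglyMeasurable
      (Filter.Eventually.of_forall fun ω => ?_)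
    rw [Real.norm_eq_abs, abs_mul, slb_abs_sp]
    exact mul_le_mul le_rfl (hb₂ _) (abs_nonneg _) zero_le_one
  have hI3 : Integrable (fun ω : OmP d => Real.tanh (hf θ D (stL (obA s ω) ev₀) v) * (ψ (obA s ω) *
      ((G₁ (hf θ D (stL (obA s ω) ev₀) v) - G₂ (hf θ D (stL (obA s ω) ev₀) v)) / 2))) (PL d θ) := by
    refine Integrable.of_bound (C := 1 * (C * Cf))
      ((slb_measurable_tanh.comp (hhm.comp hA)).mul (hψ₂.comp hA)).aestronglyMeasurable
      (Filter.Eventually.of_forall fun ω => ?_)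
    rw [Real.norm_eq_abs, abs_mul]
    exact mul_le_mul (slb_abs_tanh_le _) (hb₂ _) (abs_nonneg _) zero_le_one
  calc _ = ∫ ω, (ψ (obA s ω) *
        ((G₁ (hf θ D (stL (obA s ω) ev₀) v) + G₂ (hf θ D (stL (obA s ω) ev₀) v)) / 2) +
        sp (ω.1 v) * (ψ (obA s ω) *
        ((G₁ (hf θ D (stL (obA s ω) ev₀) v) - G₂ (hf θ D (stL (obA s ω) ev₀) v)) / 2))) ∂(PL d θ) := by
        refine integral_congr_ae (Filter.Eventually.of_forall fun ω => ?_)
        simp only []
        ring
    _ = ∫ ω, (ψ (obA s ω) *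
        ((G₁ (hf θ D (stL (obA s ω) ev₀) v) + G₂ (hf θ D (stL (obA s ω) ev₀) v)) / 2) +
        Real.tanh (hf θ D (stL (obA s ω) ev₀) v) * (ψ (obA s ω) *
        ((G₁ (hf θ D (stL (obA s ω) ev₀) v) - G₂ (hf θ D (stL (obA s ω) ev₀) v)) / 2))) ∂(PL d θ) := by
        rw [integral_add hI1 hI2, integral_add hI1 hI3, hb]
    _ = _ := by
        refine integral_congr_ae (Filter.Eventually.of_forall fun ω => ?_)
        simp only []
        ring

/-- The conditional law of the innovation at a new event: it is independent of the past and uniform. -/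
lemma slb_key (hθ : θ < 1) {s : ℝ≥0} (hs : s ≠ 0) {ev₀ : List (Ix d)} (hnd : ev₀.Nodup)
    {D : Finset (Word d)} (hD : ∀ e ∈ ev₀, e.1 ∈ D) {e : Ix d} (he : e ∉ ev₀) (heD : e.1 ∈ D)
    {ψ : (Ix d → ℝ) → ℝ} (hψ : Measurable ψ) {C : ℝ} (hC : ∀ a, |ψ a| ≤ C)
    (hdep : ∀ a a', (∀ e ∈ ev₀, a e = a' e) → ψ a = ψ a')
    {f : unitInterval → ℝ} (hfm : Measurable f) {Cf : ℝ} (hCf : ∀ x, |f x| ≤ Cf) :
    ∫ ω, ψ (obA s ω) * f (CC s (hf θ D (stL (obA s ω) ev₀) e.1) (obA s ω e)) ∂(PL d θ) =
      (∫ u, f u) * ∫ ω, ψ (obA s ω) ∂(PL d θ) := by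
  have hhm : Measurable (fun a : Ix d → ℝ => hf θ D (stL a ev₀) e.1) :=
    (measurable_hf θ D e.1).comp (slb_measurable_stL ev₀)
  -- the function of the observation
  have hρ : Measurable (Function.uncurry
      (fun (a : Ix d → ℝ) (x : ℝ) => f (CC s (hf θ D (stL a ev₀) e.1) x))) := by
    have h3 := (measurable_CC s).comp ((hhm.comp measurable_fst).prodMk measurable_snd)
    have h4 := hfm.comp h3
    exact h4
  have step1 := slb_integrate_out θ s he hψ hC hdep
    (ρ := fun a x => f (CC s (hf θ D (stL a ev₀) e.1) x)) hρ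
    (Cρ := Cf) (fun a x => hCf _) (fun a a' x h => by rw [slb_stL_congr h])
  have hG : ∀ (b : Bool) (h : ℝ), ∫ t, f (CC s h (s * sp b + √s * t)) ∂(gaussianReal 0 1) =
      (slb_G s f s h + slb_G s f (-(s : ℝ)) h) / 2 +
        sp b * ((slb_G s f s h - slb_G s f (-(s : ℝ)) h) / 2) := by
    intro b h
    cases b
    · simp only [sp, Bool.false_eq_true, if_false, mul_one]
      simp only [slb_G]
      ring
    · simp only [sp, if_true, mul_neg, mul_one]
      simp only [slb_G]
      ring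
  rw [step1]
  simp only [hG]
  rw [slb_bayes_mix θ hθ hs hnd hD heD hψ hC hdep (slb_measurable_G s hfm _) (slb_measurable_G s hfm _)
    (slb_abs_G_le s hCf _) (slb_abs_G_le s hCf _), ← integral_const_mul]
  refine integral_congr_ae (Filter.Eventually.of_forall fun ω => ?_)
  have h7 := integral_CC hs (hf θ D (stL (obA s ω) ev₀) e.1) hfm hCf
  simp only [slb_G]
  rw [h7]
  ring

lemma slb_measurable_innov (s : ℝ≥0) (D : Finset (Word d)) (ev : List (Ix d)) :
    Measurable (fun q : (Ix d → ℝ) × UN d => innov θ s D q.1 q.2 ev) := by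
  induction ev using List.reverseRecOn with
  | nil => exact measurable_snd
  | append_singleton ev e ih =>
    simp only [innov_snoc]
    refine (measurable_update' (a := e)).comp (ih.prodMk ?_)
    have h1 : Measurable (fun q : (Ix d → ℝ) × UN d => hf θ D (stL q.1 ev) e.1) :=
      ((measurable_hf θ D e.1).comp (slb_measurable_stL ev)).comp measurable_fst
    have h2 : Measurable (fun q : (Ix d → ℝ) × UN d => q.1 e) :=
      (measurable_pi_apply e).comp measurable_fst
    have h3 := (measurable_CC s).comp (h1.prodMk h2)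
    exact h3

omit [Corr θ] in
lemma slb_innov_congr (s : ℝ≥0) (D : Finset (Word d)) {ev : List (Ix d)} {a a' : Ix d → ℝ}
    (h : ∀ e ∈ ev, a e = a' e) (υ : UN d) : innov θ s D a υ ev = innov θ s D a' υ ev := by
  induction ev using List.reverseRecOn with
  | nil => rfl
  | append_singleton ev e ih =>
    have h1 : ∀ x ∈ ev, a x = a' x := fun x hx => h x (List.mem_append_left _ hx)
    rw [innov_snoc, innov_snoc, ih h1, slb_stL_congr h1, h e (by simp)]

/-- The product formula for the innovations. -/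
theorem slb_prod_formula (hθ : θ < 1) {s : ℝ≥0} (hs : s ≠ 0) {ev : List (Ix d)} (hnd : ev.Nodup)
    {D : Finset (Word d)} (hD : ∀ e ∈ ev, e.1 ∈ D) (S : Finset (Ix d)) (f : Ix d → unitInterval → ℝ)
    (hfm : ∀ i, Measurable (f i)) (hb : ∀ i x, |f i x| ≤ 1) :
    ∫ p, ∏ i ∈ S, f i (innov θ s D (obA s p.1) p.2 ev i) ∂((PL d θ).prod (unu d)) =
      ∏ i ∈ S, ∫ u, f i u := by
  have hA := slb_measurable_obA (d := d) s
  have hAp : Measurable (fun p : OmP d × UN d => obA s p.1) := hA.comp measurable_fst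
  -- a uniform bound
  have hprod : ∀ (S : Finset (Ix d)) (u : Ix d → unitInterval), |∏ i ∈ S, f i (u i)| ≤ 1 := by
    intro S u
    rw [Finset.abs_prod]
    exact Finset.prod_le_one (fun _ _ => abs_nonneg _) (fun i _ => hb i _)
  have hm : ∀ (ev : List (Ix d)) (S : Finset (Ix d)), Measurable (fun q : (Ix d → ℝ) × UN d =>
      ∏ i ∈ S, f i (innov θ s D q.1 q.2 ev i)) := by
    intro ev S
    refine Finset.measurable_prod _ fun i _ => (hfm i).comp ?_
    exact (measurable_pi_apply i).comp (slb_measurable_innov θ s D ev)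
  have hintg : ∀ (ev : List (Ix d)) (S : Finset (Ix d)), Integrable (fun p : OmP d × UN d =>
      ∏ i ∈ S, f i (innov θ s D (obA s p.1) p.2 ev i)) ((PL d θ).prod (unu d)) := by
    intro ev S
    refine Integrable.of_bound (C := 1)
      ((hm ev S).comp (hAp.prodMk measurable_snd)).aestronglyMeasurable
      (Filter.Eventually.of_forall fun p => ?_)
    exact hprod S _
  induction ev using List.reverseRecOn generalizing S with
  | nil =>
    -- no event: only the noise
    have h1 : ∀ p : OmP d × UN d, ∏ i ∈ S, f i (innov θ s D (obA s p.1) p.2 [] i) =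
        (fun _ : OmP d => (1 : ℝ)) p.1 * (fun υ : UN d => ∏ i ∈ S, f i (υ i)) p.2 := by
      intro p
      simp [innov]
    simp only [h1]
    rw [integral_prod_mul (μ := PL d θ) (ν := unu d) (fun _ : OmP d => (1 : ℝ))
      (fun υ : UN d => ∏ i ∈ S, f i (υ i))]
    unfold unu
    rw [slb_integral_prod_pi _ S f hfm]
    simp
  | append_singleton ev e ih =>
    have hnd₀ : ev.Nodup := hnd.sublist (List.sublist_append_left _ _)
    have he : e ∉ ev := by
      have h3 := (List.nodup_append.mp hnd).2.2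
      intro hmem
      exact h3 e hmem e (by simp) rfl
    have hD₀ : ∀ x ∈ ev, x.1 ∈ D := fun x hx => hD x (List.mem_append_left _ hx)
    have heD : e.1 ∈ D := hD e (by simp)
    have ih' := ih hnd₀ hD₀
    by_cases heS : e ∈ S
    · -- the new event is observed
      have hfac : ∀ q : (Ix d → ℝ) × UN d, ∏ i ∈ S, f i (innov θ s D q.1 q.2 (ev ++ [e]) i) =
          (∏ i ∈ S.erase e, f i (innov θ s D q.1 q.2 ev i)) *
            f e (CC s (hf θ D (stL q.1 ev) e.1) (q.1 e)) := by
        intro q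
        rw [← Finset.prod_erase_mul S _ heS]
        congr 1
        · refine Finset.prod_congr rfl fun i hi => ?_
          rw [innov_snoc, Function.update_of_ne (Finset.ne_of_mem_erase hi)]
        · rw [innov_snoc, Function.update_self]
      rw [integral_prod_symm _ (hintg _ S)]
      have hstep : ∀ υ : UN d, ∫ ω, ∏ i ∈ S, f i (innov θ s D (obA s ω) υ (ev ++ [e]) i) ∂(PL d θ) =
          (∫ u, f e u) * ∫ ω, ∏ i ∈ S.erase e, f i (innov θ s D (obA s ω) υ ev i) ∂(PL d θ) := by
        intro υ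
        have hk := slb_key θ hθ hs hnd₀ hD₀ he heD
          (ψ := fun a => ∏ i ∈ S.erase e, f i (innov θ s D a υ ev i)) (C := 1)
          ((hm ev (S.erase e)).comp (measurable_id.prodMk measurable_const))
          (fun a => hprod _ _)
          (fun a a' h => by rw [slb_innov_congr θ s D h υ])
          (hfm e) (hb e)
        rw [← hk]
        refine integral_congr_ae (Filter.Eventually.of_forall fun ω => ?_)
        exact hfac (obA s ω, υ)
      simp only [hstep]
      rw [integral_const_mul, ← integral_prod_symm _ (hintg _ (S.erase e)), ih' (S.erase e),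
        ← Finset.mul_prod_erase S _ heS]
    · -- the new event is not observed
      have h1 : ∀ p : OmP d × UN d, ∏ i ∈ S, f i (innov θ s D (obA s p.1) p.2 (ev ++ [e]) i) =
          ∏ i ∈ S, f i (innov θ s D (obA s p.1) p.2 ev i) := by
        intro p
        refine Finset.prod_congr rfl fun i hi => ?_
        have hie : i ≠ e := fun h => heS (h ▸ hi)
        rw [innov_snoc, Function.update_of_ne hie]
      simp only [h1]
      exact ih' S

theorem mp_innov (hθ : θ < 1) {s : ℝ≥0} (hs : s ≠ 0) {ev : List (Ix d)} (hnd : ev.Nodup)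
    {D : Finset (Word d)} (hD : ∀ e ∈ ev, e.1 ∈ D) :
    MeasurePreserving (fun p : OmP d × UN d => innov θ s D (obA s p.1) p.2 ev)
      ((PL d θ).prod (unu d)) (unu d) := by
  have hAp : Measurable (fun p : OmP d × UN d => obA s p.1) :=
    (slb_measurable_obA (d := d) s).comp measurable_fst
  have hmeas : Measurable (fun p : OmP d × UN d => innov θ s D (obA s p.1) p.2 ev) :=
    (slb_measurable_innov θ s D ev).comp (hAp.prodMk measurable_snd)
  refine ⟨hmeas, ?_⟩
  change _ = Measure.infinitePi (fun _ : Ix d => (volume : Measure unitInterval))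
  apply Measure.eq_infinitePi
  intro S t ht
  have hpi : MeasurableSet (Set.pi (S : Set (Ix d)) t) :=
    MeasurableSet.pi S.countable_toSet (fun i _ => ht i)
  have hset := hmeas hpi
  rw [Measure.map_apply hmeas hpi]
  have hform := slb_prod_formula θ hθ hs hnd hD S (fun i => (t i).indicator (1 : unitInterval → ℝ))
    (fun i => measurable_one.indicator (ht i))
    (fun i x => by
      by_cases hx : x ∈ t i <;> simp [hx])
  have h1 : ∀ p : OmP d × UN d, ∏ i ∈ S, (t i).indicator (1 : unitInterval → ℝ)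
        (innov θ s D (obA s p.1) p.2 ev i) =
      ((fun p : OmP d × UN d => innov θ s D (obA s p.1) p.2 ev) ⁻¹' Set.pi (S : Set (Ix d)) t).indicator
        (1 : OmP d × UN d → ℝ) p := by
    intro p
    by_cases hp : p ∈ (fun p : OmP d × UN d => innov θ s D (obA s p.1) p.2 ev) ⁻¹'
        Set.pi (S : Set (Ix d)) t
    · rw [Set.indicator_of_mem hp]
      simp only [Pi.one_apply]
      refine Finset.prod_eq_one fun i hi => ?_
      have := hp i (Finset.mem_coe.mpr hi)
      rw [Set.indicator_of_mem this]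
      rfl
    · rw [Set.indicator_of_notMem hp]
      have : ∃ i ∈ S, innov θ s D (obA s p.1) p.2 ev i ∉ t i := by
        by_contra hcon
        push Not at hcon
        exact hp (fun i hi => hcon i (Finset.mem_coe.mp hi))
      obtain ⟨i, hi, hit⟩ := this
      refine Finset.prod_eq_zero hi ?_
      rw [Set.indicator_of_notMem hit]
  simp only [h1] at hform
  rw [integral_indicator_one hset] at hform
  have h2 : ∀ i, ∫ u, (t i).indicator (1 : unitInterval → ℝ) u = (volume : Measure unitInterval).real (t i) :=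
    fun i => integral_indicator_one (ht i)
  simp only [h2] at hform
  rw [← ofReal_measureReal (μ := (PL d θ).prod (unu d)), hform,
    ENNReal.ofReal_prod_of_nonneg (fun _ _ => measureReal_nonneg)]
  refine Finset.prod_congr rfl fun i _ => ?_
  exact ofReal_measureReal

end Innov

end Vale.Agent.Lib.P161
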