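import Vale.Agent.Lib.P161.Ising

/-!
The order of the vertices given by real priorities, with ties broken by a fixed enumeration.
-/

namespace Vale.Agent.Lib.P161

open MeasureTheory

variable {d : ℕ}

/-- A fixed enumeration of the vertices. -/
noncomputable def wenc (v : Word d) : ℕ := @Encodable.encode _ (Encodable.ofCountable _) v

lemma wenc_inj : Function.Injective (wenc : Word d → ℕ) :=
  @Encodable.encode_injective _ (Encodable.ofCountable _)

/-- The order given by the priorities. -/
def rT (τ : Word d → unitInterval) (a b : Word d) : Prop :=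
  τ a < τ b ∨ (τ a = τ b ∧ wenc a ≤ wenc b)

instance (τ : Word d → unitInterval) : IsTrans (Word d) (rT τ) := ⟨by
  rintro a b c (h1 | ⟨h1, h1'⟩) (h2 | ⟨h2, h2'⟩)
  · exact Or.inl (h1.trans h2)
  · exact Or.inl (by rwa [← h2])
  · exact Or.inl (by rwa [h1])
  · exact Or.inr ⟨h1.trans h2, h1'.trans h2'⟩⟩

instance (τ : Word d → unitInterval) : Std.Antisymm (rT τ) := ⟨by
  rintro a b (h1 | ⟨h1, h1'⟩) (h2 | ⟨h2, h2'⟩)
  · exact absurd (h1.trans h2) (lt_irrefl _)
  · rw [h2] at h1
    exact absurd h1 (lt_irrefl _)
  · rw [h1] at h2
    exact absurd h2 (lt_irrefl _)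
  · exact wenc_inj (le_antisymm h1' h2')⟩

instance (τ : Word d → unitInterval) : Std.Total (rT τ) := ⟨by
  intro a b
  rcases lt_trichotomy (τ a) (τ b) with h | h | h
  · exact Or.inl (Or.inl h)
  · rcases le_total (wenc a) (wenc b) with h2 | h2
    · exact Or.inl (Or.inr ⟨h, h2⟩)
    · exact Or.inr (Or.inr ⟨h.symm, h2⟩)
  · exact Or.inr (Or.inl h)⟩

open Classical in
/-- The list of the vertices of `D` in the order of the priorities. -/
noncomputable def lsort (D : Finset (Word d)) (τ : Word d → unitInterval) : List (Word d) := D.sort (rT τ)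

lemma lsort_nodup (D : Finset (Word d)) (τ : Word d → unitInterval) : (lsort D τ).Nodup := by
  classical
  exact Finset.sort_nodup D (rT τ)

lemma mem_lsort {D : Finset (Word d)} {τ : Word d → unitInterval} {v : Word d} : v ∈ lsort D τ ↔ v ∈ D := by
  classical
  exact Finset.mem_sort (rT τ)

lemma pairwise_lsort (D : Finset (Word d)) (τ : Word d → unitInterval) : (lsort D τ).Pairwise (rT τ) := by
  classical
  exact Finset.pairwise_sort D (rT τ)

/-- The order on a subset is the restriction. -/
lemma lsort_filter {D D' : Finset (Word d)} (h : D ⊆ D') (τ : Word d → unitInterval) :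
    (lsort D' τ).filter (fun x => x ∈ D) = lsort D τ := by
  refine List.Perm.eq_of_pairwise' (r := rT τ) ((pairwise_lsort D' τ).filter _) (pairwise_lsort D τ) ?_
  rw [List.perm_ext_iff_of_nodup ((lsort_nodup D' τ).filter _) (lsort_nodup D τ)]
  intro x
  simp only [List.mem_filter, mem_lsort, decide_eq_true_eq]
  exact ⟨fun h' => h'.2, fun h' => ⟨h h', h'⟩⟩

/-- Covariance of the order, for priorities without ties. -/
lemma lsort_map (g : Aut d) {D : Finset (Word d)} {τ : Word d → unitInterval} (hτ : Set.InjOn τ D) :
    (lsort D τ).map g = lsort (D.map g.toEquiv.toEmbedding) (fun v => τ (g.symm v)) := by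
  classical
  refine Finset.map_sort g.toEquiv.toEmbedding D (rT τ) (rT (fun v => τ (g.symm v))) ?_
  intro a ha b hb
  have e1 : ∀ x, (fun v => τ (g.symm v)) (g.toEquiv.toEmbedding x) = τ x := fun x => by
    show τ (g.symm (g x)) = τ x
    rw [g.symm_apply_apply]
  unfold rT
  simp only [e1]
  constructor
  · rintro (h | ⟨h, _⟩)
    · exact Or.inl h
    · have := hτ ha hb h
      subst this
      exact Or.inr ⟨h, le_rfl⟩
  · rintro (h | ⟨h, _⟩)
    · exact Or.inl h
    · have := hτ ha hb h
      subst this
      exact Or.inr ⟨h, le_rfl⟩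

lemma measurableSet_rT (a b : Word d) : MeasurableSet {τ : Word d → unitInterval | rT τ a b} := by
  unfold rT
  refine MeasurableSet.union ?_ (MeasurableSet.inter ?_ ?_)
  · exact measurableSet_lt (measurable_subtype_coe.comp (measurable_pi_apply a))
      (measurable_subtype_coe.comp (measurable_pi_apply b))
  · exact measurableSet_eq_fun (measurable_pi_apply a) (measurable_pi_apply b)
  · exact MeasurableSet.const _

lemma measurableSet_pairwise (l : List (Word d)) : MeasurableSet {τ : Word d → unitInterval | l.Pairwise (rT τ)} := by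
  induction l with
  | nil => simp
  | cons a l ih =>
    have : {τ : Word d → unitInterval | (a :: l).Pairwise (rT τ)} =
        (⋂ b ∈ {b | b ∈ l}, {τ | rT τ a b}) ∩ {τ | l.Pairwise (rT τ)} := by
      ext τ
      simp [List.pairwise_cons]
    rw [this]
    refine MeasurableSet.inter ?_ ih
    exact MeasurableSet.biInter (Set.to_countable _) fun b _ => measurableSet_rT a b

lemma measurableSet_lsort (D : Finset (Word d)) (l : List (Word d)) :
    MeasurableSet {τ : Word d → unitInterval | lsort D τ = l} := by
  classical
  by_cases hp : ∀ x, x ∈ l ↔ x ∈ D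
  · by_cases hnd : l.Nodup
    · have : {τ : Word d → unitInterval | lsort D τ = l} = {τ | l.Pairwise (rT τ)} := by
        ext τ
        simp only [Set.mem_ofPred_eq]
        constructor
        · rintro rfl
          exact pairwise_lsort D τ
        · intro h
          refine List.Perm.eq_of_pairwise' (r := rT τ) (pairwise_lsort D τ) h ?_
          rw [List.perm_ext_iff_of_nodup (lsort_nodup D τ) hnd]
          intro x
          rw [mem_lsort, hp]
      rw [this]
      exact measurableSet_pairwise l
    · have : {τ : Word d → unitInterval | lsort D τ = l} = ∅ := by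
        ext τ
        simp only [Set.mem_ofPred_eq, Set.mem_empty_iff_false, iff_false]
        rintro rfl
        exact hnd (lsort_nodup D τ)
      rw [this]
      exact MeasurableSet.empty
  · have : {τ : Word d → unitInterval | lsort D τ = l} = ∅ := by
      ext τ
      simp only [Set.mem_ofPred_eq, Set.mem_empty_iff_false, iff_false]
      rintro rfl
      exact hp fun x => mem_lsort
    rw [this]
    exact MeasurableSet.empty

/-- A function of the order and of another variable is measurable. -/
lemma measurable_lsort_joint {Y Z : Type*} [MeasurableSpace Y] [MeasurableSpace Z] (D : Finset (Word d))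
    {H : List (Word d) → Y → Z} (hH : ∀ l, Measurable (H l)) :
    Measurable (fun p : (Word d → unitInterval) × Y => H (lsort D p.1) p.2) := by
  intro A hA
  have : (fun p : (Word d → unitInterval) × Y => H (lsort D p.1) p.2) ⁻¹' A =
      ⋃ l : List (Word d), {τ | lsort D τ = l} ×ˢ (H l ⁻¹' A) := by
    ext p
    simp only [Set.mem_preimage, Set.mem_iUnion, Set.mem_prod, Set.mem_ofPred_eq]
    constructor
    · intro h
      exact ⟨_, rfl, h⟩
    · rintro ⟨l, rfl, h⟩
      exact h
  rw [this]
  exact MeasurableSet.iUnion fun l => (measurableSet_lsort D l).prod (hH l hA)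

lemma measurable_lsort_fun {Z : Type*} [MeasurableSpace Z] (D : Finset (Word d)) (H : List (Word d) → Z) :
    Measurable (fun τ : Word d → unitInterval => H (lsort D τ)) := by
  intro A _
  have : (fun τ : Word d → unitInterval => H (lsort D τ)) ⁻¹' A =
      ⋃ l ∈ {l : List (Word d) | H l ∈ A}, {τ | lsort D τ = l} := by
    ext τ
    simp
  rw [this]
  exact MeasurableSet.biUnion (Set.to_countable _) fun l _ => measurableSet_lsort D l

end Vale.Agent.Lib.P161
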