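import Vale.Agent.Lib.P161.SLDefs

/-!
The probability space of a run with random order: priorities on the vertices and noise on the events,
with the action of the automorphisms.
-/

namespace Vale.Agent.Lib.P161

open MeasureTheory ProbabilityTheory

variable {d : ℕ}

/-- The law of the priorities. -/
noncomputable def LT (d : ℕ) : Measure (Word d → unitInterval) :=
  Measure.infinitePi (fun _ : Word d => (volume : Measure unitInterval))

instance : IsProbabilityMeasure (LT d) := by unfold LT; infer_instance

/-- The space of priorities and noise. -/
abbrev Xi (d : ℕ) : Type := (Word d → unitInterval) × UN d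

/-- The law on the space of priorities and noise. -/
noncomputable def LX (d : ℕ) : Measure (Xi d) := (LT d).prod (unu d)

instance : IsProbabilityMeasure (LX d) := by unfold LX; infer_instance

/-- The action of the automorphisms on priorities. -/
def actT (g : Aut d) (τ : Word d → unitInterval) : Word d → unitInterval := fun v => τ (g.symm v)

/-- The action of the automorphisms on noise. -/
def actU (g : Aut d) (u : UN d) : UN d := fun i => u (g.symm i.1, i.2)

/-- The action of the automorphisms on priorities and noise. -/
def actX (g : Aut d) (p : Xi d) : Xi d := (actT g p.1, actU g p.2)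

lemma measurable_actT (g : Aut d) : Measurable (actT g) :=
  measurable_pi_lambda _ fun _ => measurable_pi_apply _

lemma measurable_actU (g : Aut d) : Measurable (actU g) :=
  measurable_pi_lambda _ fun _ => measurable_pi_apply _

lemma measurable_actX (g : Aut d) : Measurable (actX g) :=
  ((measurable_actT g).comp measurable_fst).prodMk ((measurable_actU g).comp measurable_snd)

lemma mp_actT (g : Aut d) : MeasurePreserving (actT g) (LT d) (LT d) := by
  refine ⟨measurable_actT g, ?_⟩
  exact Measure.map_infinitePi_infinitePi_of_inj (P := fun _ : Word d => (volume : Measure unitInterval))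
    g.symm.injective

lemma mp_actU (g : Aut d) : MeasurePreserving (actU g) (unu d) (unu d) := by
  refine ⟨measurable_actU g, ?_⟩
  have hinj : Function.Injective (fun i : Ix d => ((g.symm i.1, i.2) : Ix d)) := by
    rintro ⟨a, b⟩ ⟨c, e⟩ h
    simp only [Prod.mk.injEq] at h
    have : a = c := g.symm.injective h.1
    rw [this, h.2]
  exact Measure.map_infinitePi_infinitePi_of_inj (P := fun _ : Ix d => (volume : Measure unitInterval)) hinj

lemma mp_actX (g : Aut d) : MeasurePreserving (actX g) (LX d) (LX d) :=
  (mp_actT g).prod (mp_actU g)

end Vale.Agent.Lib.P161
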