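import Vale.Agent.Lib.P161.TreeExtra

/-!
Counting the vertices of the tree at a given distance from the root, and the convergence of the
weighted sum over all vertices.
-/

namespace Vale.Agent.Lib.P161

variable {d : ℕ}

/-- The sphere of radius `i` around the root. -/
noncomputable def sph (i : ℕ) : Finset (Word d) := (ball i).filter (fun v => len v = i)

lemma mem_sph {i : ℕ} {v : Word d} : v ∈ sph i ↔ len v = i := by
  simp only [sph, Finset.mem_filter, mem_ball]
  constructor
  · exact fun h => h.2
  · exact fun h => ⟨h.le, h⟩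

lemma card_sph_zero : (sph 0 : Finset (Word d)).card ≤ 1 := by
  rw [Finset.card_le_one]
  intro a ha b hb
  rw [len_eq_zero (mem_sph.mp ha), len_eq_zero (mem_sph.mp hb)]

open Classical in
/-- The children of a vertex. -/
lemma card_fiber (p : Word d) (i : ℕ) (hp : len p = i) :
    ((sph (i + 1) : Finset (Word d)).filter (fun v => parent v = p)).card ≤
      (Finset.univ.filter (fun c : Fin d => ∀ x ∈ p.1.head?, c ≠ x)).card := by
  set F := (sph (i + 1) : Finset (Word d)).filter (fun v => parent v = p) with hF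
  have h1 : F.card = (F.image Subtype.val).card :=
    (Finset.card_image_of_injective _ Subtype.val_injective).symm
  rw [h1]
  refine le_trans (Finset.card_le_card ?_)
    (Finset.card_image_le (s := Finset.univ.filter (fun c : Fin d => ∀ x ∈ p.1.head?, c ≠ x))
      (f := fun c => c :: p.1))
  intro l hl
  obtain ⟨v, hv, rfl⟩ := Finset.mem_image.mp hl
  obtain ⟨hv1, hv2⟩ := Finset.mem_filter.mp hv
  have hlen : len v = i + 1 := mem_sph.mp hv1
  have hne : v.1 ≠ [] := by
    intro h
    unfold len at hlen
    rw [h] at hlen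
    simp at hlen
  obtain ⟨c, t, ht⟩ := List.exists_cons_of_ne_nil hne
  have ht2 : t = p.1 := by
    have := congrArg Subtype.val hv2
    simpa [parent, ht] using this
  refine Finset.mem_image.mpr ⟨c, Finset.mem_filter.mpr ⟨Finset.mem_univ _, ?_⟩, ?_⟩
  · intro x hx
    have hch := v.2
    rw [ht, ht2] at hch
    cases hq : p.1 with
    | nil =>
      rw [hq] at hx
      simp at hx
    | cons y r =>
      rw [hq] at hx hch
      have hx' : y = x := by simpa using hx
      subst hx'
      exact (List.isChain_cons_cons.mp hch).1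
  · rw [ht, ht2]

lemma card_sph_one : (sph 1 : Finset (Word d)).card ≤ d := by
  classical
  have h := Finset.card_le_mul_card_image_of_maps_to (s := (sph 1 : Finset (Word d)))
    (t := (sph 0 : Finset (Word d))) (f := parent) (n := d) ?_ ?_
  · refine h.trans ?_
    have := card_sph_zero (d := d)
    nlinarith
  · intro v hv
    rw [mem_sph] at hv ⊢
    have hne : v ≠ root := by
      rintro rfl
      simp at hv
    have := len_parent hne
    omega
  · intro p hp
    refine (card_fiber p 0 (mem_sph.mp hp)).trans ?_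
    exact (Finset.card_filter_le _ _).trans (by simp)

lemma card_sph_succ (i : ℕ) : (sph (i + 2) : Finset (Word d)).card ≤ (d - 1) * (sph (i + 1) : Finset (Word d)).card := by
  classical
  refine Finset.card_le_mul_card_image_of_maps_to (s := (sph (i + 2) : Finset (Word d)))
    (t := (sph (i + 1) : Finset (Word d))) (f := parent) (n := d - 1) ?_ ?_
  · intro v hv
    rw [mem_sph] at hv ⊢
    have hne : v ≠ root := by
      rintro rfl
      simp at hv
    have := len_parent hne
    omega
  · intro p hp
    refine (card_fiber p (i + 1) (mem_sph.mp hp)).trans ?_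
    have hlen := mem_sph.mp hp
    have hne : p.1 ≠ [] := by
      intro h
      unfold len at hlen
      rw [h] at hlen
      simp at hlen
    obtain ⟨a, t, ht⟩ := List.exists_cons_of_ne_nil hne
    have : (Finset.univ.filter (fun c : Fin d => ∀ x ∈ p.1.head?, c ≠ x)) = Finset.univ.erase a := by
      ext c
      simp [ht]
    rw [this, Finset.card_erase_of_mem (Finset.mem_univ a)]
    simp

lemma card_sph_le (i : ℕ) : (sph (i + 1) : Finset (Word d)).card ≤ d * (d - 1) ^ i := by
  induction i with
  | zero => simpa using card_sph_one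
  | succ i ih =>
    refine (card_sph_succ i).trans ?_
    calc (d - 1) * (sph (i + 1) : Finset (Word d)).card ≤ (d - 1) * (d * (d - 1) ^ i) :=
          Nat.mul_le_mul_left _ ih
      _ = d * (d - 1) ^ (i + 1) := by ring

lemma ball_succ (n : ℕ) : (ball (n + 1) : Finset (Word d)) = ball n ∪ sph (n + 1) := by
  ext v
  simp only [mem_ball, Finset.mem_union, mem_sph]
  omega

lemma sum_ball_le {q : ℝ} (hq : 0 ≤ q) {ρ : ℝ} (hρ : ρ = ((d : ℝ) - 1) * q) (hd : 1 ≤ d) (hρ1 : ρ < 1) (n : ℕ) :
    ∑ v ∈ (ball n : Finset (Word d)), q ^ len v ≤ 1 + d * q * ∑ i ∈ Finset.range n, ρ ^ i := by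
  have hd1 : (0 : ℝ) ≤ (d : ℝ) - 1 := by
    have : (1 : ℝ) ≤ d := by exact_mod_cast hd
    linarith
  have hρ0 : 0 ≤ ρ := by
    rw [hρ]
    positivity
  induction n with
  | zero =>
    have : (ball 0 : Finset (Word d)) = sph 0 := by
      ext v
      simp [mem_sph]
    rw [this]
    have h2 : ∑ v ∈ (sph 0 : Finset (Word d)), q ^ len v = ∑ v ∈ (sph 0 : Finset (Word d)), (1 : ℝ) := by
      refine Finset.sum_congr rfl fun v hv => ?_
      rw [mem_sph.mp hv, pow_zero]
    rw [h2]
    simp only [Finset.sum_const, nsmul_eq_mul, mul_one, Finset.range_zero, Finset.sum_empty, mul_zero, add_zero]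
    exact_mod_cast card_sph_zero (d := d)
  | succ n ih =>
    rw [ball_succ]
    have hdisj : Disjoint (ball n : Finset (Word d)) (sph (n + 1)) := by
      rw [Finset.disjoint_left]
      intro v h1 h2
      have h3 := mem_ball.mp h1
      have h4 := mem_sph.mp h2
      omega
    rw [Finset.sum_union hdisj, Finset.sum_range_succ, mul_add, ← add_assoc]
    refine add_le_add ih ?_
    have h2 : ∑ v ∈ (sph (n + 1) : Finset (Word d)), q ^ len v =
        ∑ v ∈ (sph (n + 1) : Finset (Word d)), q ^ (n + 1) := by
      refine Finset.sum_congr rfl fun v hv => ?_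
      rw [mem_sph.mp hv]
    rw [h2]
    simp only [Finset.sum_const, nsmul_eq_mul]
    have h3 : ((sph (n + 1) : Finset (Word d)).card : ℝ) ≤ d * ((d : ℝ) - 1) ^ n := by
      have := card_sph_le (d := d) n
      have h4 : ((d * (d - 1) ^ n : ℕ) : ℝ) = d * ((d : ℝ) - 1) ^ n := by
        push_cast [Nat.cast_sub hd]
        simp
      rw [← h4]
      exact_mod_cast this
    calc ((sph (n + 1) : Finset (Word d)).card : ℝ) * q ^ (n + 1)
        ≤ (d * ((d : ℝ) - 1) ^ n) * q ^ (n + 1) := mul_le_mul_of_nonneg_right h3 (by positivity)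
      _ = d * q * ρ ^ n := by
        rw [hρ, mul_pow]
        ring

/-- The weighted sum over all vertices converges. -/
theorem summable_weight {q : ℝ} (hq : 0 ≤ q) (hd : 1 ≤ d) (hρ1 : ((d : ℝ) - 1) * q < 1) :
    Summable (fun v : Word d => q ^ len v) := by
  have hd1 : (0 : ℝ) ≤ (d : ℝ) - 1 := by
    have : (1 : ℝ) ≤ d := by exact_mod_cast hd
    linarith
  set ρ := ((d : ℝ) - 1) * q with hρ
  have hρ0 : 0 ≤ ρ := by
    rw [hρ]
    positivity
  refine summable_of_sum_le (c := 1 + d * q * (1 - ρ)⁻¹) (fun v => by positivity) fun u => ?_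
  obtain ⟨n, hn⟩ := exists_ball_superset u
  have h1 : ∑ v ∈ u, q ^ len v ≤ ∑ v ∈ (ball n : Finset (Word d)), q ^ len v :=
    Finset.sum_le_sum_of_subset_of_nonneg hn fun v _ _ => by positivity
  refine h1.trans ((sum_ball_le hq hρ hd hρ1 n).trans ?_)
  have h2 : ∑ i ∈ Finset.range n, ρ ^ i ≤ (1 - ρ)⁻¹ := by
    rw [← tsum_geometric_of_lt_one hρ0 hρ1]
    exact (summable_geometric_of_lt_one hρ0 hρ1).sum_le_tsum _ fun i _ => by positivity
  have h3 : (0 : ℝ) ≤ d * q := by positivity
  nlinarith

/-- The tail of the weighted sum is small, uniformly over finite sets. -/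
theorem weight_tail {q : ℝ} (hq : 0 ≤ q) (hd : 1 ≤ d) (hρ1 : ((d : ℝ) - 1) * q < 1) {δ : ℝ} (hδ : 0 < δ) :
    ∃ r : ℕ, ∀ D : Finset (Word d), ∑ v ∈ D \ ball r, q ^ len v ≤ δ := by
  classical
  obtain ⟨S, hS⟩ := summable_iff_vanishing_norm.mp (summable_weight hq hd hρ1) δ hδ
  obtain ⟨r, hr⟩ := exists_ball_superset S
  refine ⟨r, fun D => ?_⟩
  have hdis : Disjoint (D \ ball r) S := by
    rw [Finset.disjoint_left]
    intro v hv hvS
    exact (Finset.mem_sdiff.mp hv).2 (hr hvS)
  have := hS _ hdis
  exact (le_abs_self _).trans (by simpa using this.le)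

end Vale.Agent.Lib.P161
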