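import Vale.Agent.Lib.P161.SLCmp3
import Vale.Agent.Lib.P161.SLOrder
import Vale.Agent.Lib.P161.SLSum
import Vale.Agent.Lib.P161.SLSpace

/-!
The output of a run with random order of the vertices, as the domain grows: a Cauchy property in
`L²`.
-/

namespace Vale.Agent.Lib.P161

open MeasureTheory ProbabilityTheory
open scoped NNReal ENNReal

variable {d : ℕ}

/-- The output of a run on `D` in the order of the priorities. -/
noncomputable def FF (θ : ℝ) (s : ℝ≥0) (D : Finset (Word d)) (N : ℕ) (o : Word d) (p : Xi d) : ℝ :=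
  GS θ s D (lsort D p.1) N o p.2

lemma abs_FF_le (θ : ℝ) (s : ℝ≥0) (D : Finset (Word d)) (N : ℕ) (o : Word d) (p : Xi d) :
    |FF θ s D N o p| ≤ 1 := abs_GS_le _ _ _ _ _ _ _

section Cauchy

variable {θ : ℝ} [Corr θ] {s : ℝ≥0}

lemma measurable_FF (θ : ℝ) [Corr θ] (s : ℝ≥0) (D : Finset (Word d)) (N : ℕ) (o : Word d) :
    Measurable (FF θ s D N o) :=
  measurable_lsort_joint D (H := fun l u => GS θ s D l N o u) fun l => measurable_GS θ s D l N o

/-- The average of `Ahat` over the order. -/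
noncomputable def Abar (θ : ℝ) (s : ℝ≥0) (D : Finset (Word d)) (v : Word d) (k : ℕ) : ℝ :=
  ∫ τ, Ahat θ s D (lsort D τ) v k ∂(LT d)

lemma measurable_Ahat_lsort (θ : ℝ) (s : ℝ≥0) (D : Finset (Word d)) (v : Word d) (k : ℕ) :
    Measurable (fun τ : Word d → unitInterval => Ahat θ s D (lsort D τ) v k) :=
  measurable_lsort_fun D (fun l => Ahat θ s D l v k)

lemma integrable_Ahat_lsort (θ : ℝ) [Corr θ] (s : ℝ≥0) (D : Finset (Word d)) (v : Word d) (k : ℕ) :
    Integrable (fun τ : Word d → unitInterval => Ahat θ s D (lsort D τ) v k) (LT d) :=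
  integrable_bdd (measurable_Ahat_lsort θ s D v k) fun _ => abs_Ahat_le θ s D _ v k

lemma Abar_le_one (θ : ℝ) [Corr θ] (s : ℝ≥0) (D : Finset (Word d)) (v : Word d) (k : ℕ) :
    Abar θ s D v k ≤ 1 := by
  unfold Abar
  have := integral_mono (integrable_Ahat_lsort θ s D v k) (integrable_const (1 : ℝ))
    (fun τ => (abs_le.mp (abs_Ahat_le θ s D (lsort D τ) v k)).2)
  simpa using this

lemma Ahat_mono (hθ : θ < 1) (hs : s ≠ 0) {D D' : Finset (Word d)} (h : D ⊆ D') {v : Word d} (hv : v ∈ D)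
    (k : ℕ) (τ : Word d → unitInterval) :
    Ahat θ s D (lsort D τ) v k ≤ Ahat θ s D' (lsort D' τ) v k := by
  have h1 := pyth (θ := θ) (s := s) hθ hs h (lsort_nodup D' τ) (fun x hx => mem_lsort.mp hx) hv
    (mem_lsort.mpr (h hv)) k
  rw [lsort_filter h τ] at h1
  have h2 : 0 ≤ ∫ ω, (Pmean θ s D' (lsort D' τ) v k (obA s ω) -
      Pmean θ s D (lsort D τ) v k (obA s ω)) ^ 2 ∂(PL d θ) := integral_nonneg fun _ => sq_nonneg _
  linarith

lemma Abar_mono (hθ : θ < 1) (hs : s ≠ 0) {D D' : Finset (Word d)} (h : D ⊆ D') {v : Word d} (hv : v ∈ D)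
    (k : ℕ) : Abar θ s D v k ≤ Abar θ s D' v k :=
  integral_mono (integrable_Ahat_lsort θ s D v k) (integrable_Ahat_lsort θ s D' v k)
    fun τ => Ahat_mono hθ hs h hv k τ

lemma ball_mono {a b : ℕ} (h : a ≤ b) : (ball a : Finset (Word d)) ⊆ ball b := by
  intro v hv
  rw [mem_ball] at hv ⊢
  omega

/-- The means stabilise as the domain grows. -/
lemma Abar_stable (hθ : θ < 1) (hs : s ≠ 0) (v : Word d) (k : ℕ) {δ : ℝ} (hδ : 0 < δ) :
    ∃ R : ℕ, ∀ D D' : Finset (Word d), ball R ⊆ D → D ⊆ D' →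
      Abar θ s D' v k - Abar θ s D v k ≤ δ := by
  set S : Set ℝ := Set.range (fun n : ℕ => Abar θ s (ball (len v + n)) v k) with hS
  have hne : S.Nonempty := Set.range_nonempty _
  have hb : BddAbove S := ⟨1, by
    rintro _ ⟨n, rfl⟩
    exact Abar_le_one θ s _ v k⟩
  obtain ⟨x, ⟨n, rfl⟩, hx⟩ := exists_lt_of_lt_csSup hne (show sSup S - δ < sSup S by linarith)
  refine ⟨len v + n, fun D D' h1 h2 => ?_⟩
  have hv : v ∈ (ball (len v + n) : Finset (Word d)) := mem_ball.mpr (by omega)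
  have h3 := Abar_mono hθ hs h1 hv k
  obtain ⟨m, hm⟩ := exists_ball_superset D'
  have hv2 : v ∈ D' := h2 (h1 hv)
  have hm' : D' ⊆ ball (len v + m) := hm.trans (ball_mono (by omega))
  have h4 := Abar_mono hθ hs hm' hv2 k
  have h5 : Abar θ s (ball (len v + m)) v k ≤ sSup S := le_csSup hb ⟨m, rfl⟩
  linarith

lemma exists_small {A ε : ℝ} (hA : 0 ≤ A) (hε : 0 < ε) : ∃ δ : ℝ, 0 < δ ∧ A * δ ≤ ε := by
  refine ⟨ε / (A + 1), by positivity, ?_⟩
  rw [← mul_div_assoc, div_le_iff₀ (by positivity)]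
  nlinarith

/-- The Cauchy property of the output at the root, as the domain grows. -/
theorem cauchy_FF (hθ : θ < 1) (hd : 2 ≤ d) {α : ℝ} (hα : θ < α) (hα' : ((d : ℝ) - 1) * θ * α < 1)
    (hα0 : 0 ≤ α) (hα1 : α ≤ 1) (hq : ((d : ℝ) - 1) * α ^ 2 < 1) (hs : s ≠ 0) (hs1 : s < 1)
    (hk0 : 0 ≤ kap d θ α) (hcκ : s / (1 - s) * kap d θ α < 1) {N : ℕ} (hN : 1 ≤ N) {ε : ℝ} (hε : 0 < ε) :
    ∃ R₀ : ℕ, ∀ D D' : Finset (Word d), ConnClosed D → ball R₀ ⊆ D → D ⊆ D' →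
      ∫ p, (FF θ s D' N root p - FF θ s D N root p) ^ 2 ∂(LX d) ≤ ε := by
  classical
  set C := gma d θ α s ^ N / (N * s) with hC
  have hε3 : 0 < ε / 3 := by positivity
  have hY := Ups_nonneg s
  have hc2 : 0 ≤ C ^ 2 := sq_nonneg C
  have hN0 : (0 : ℝ) ≤ N := Nat.cast_nonneg N
  obtain ⟨δ₁, hδ₁, hA₁⟩ := exists_small (A := 6 * (C ^ 2 * (4 * Ups s) * N)) (by positivity) hε3
  obtain ⟨r, hr⟩ := weight_tail (d := d) (q := α ^ 2) (sq_nonneg α) (by omega) hq hδ₁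
  set W := (Win d r N).card with hW
  have hW0 : (0 : ℝ) ≤ W := Nat.cast_nonneg W
  obtain ⟨δ₂, hδ₂, hA₂⟩ := exists_small (A := 3 * (C ^ 2 * W) * W * 8) (by positivity) hε3
  obtain ⟨R, hR, hT⟩ := Tb_small s hδ₂
  obtain ⟨K, hK, hmod⟩ := OO_modulus hs R hR
  obtain ⟨δ₃, hδ₃, hA₃⟩ := exists_small (A := 3 * (C ^ 2 * W) * W * (K ^ 2 / 4)) (by positivity) hε3
  choose Rf hRf using fun e : Ix d => Abar_stable (θ := θ) (s := s) hθ hs e.1 e.2 hδ₃
  refine ⟨max r ((Win d r N).sup Rf), fun D D' hD h1 h2 => ?_⟩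
  have hball : ball r ⊆ D := (ball_mono (le_max_left _ _)).trans h1
  have hmain : ∀ τ : Word d → unitInterval,
      ∫ u, (GS θ s D' (lsort D' τ) N root u - GS θ s D (lsort D τ) N root u) ^ 2 ∂(unu d) ≤
        6 * (C ^ 2 * (4 * Ups s) * N * ∑ v ∈ D \ ball r, (α ^ 2) ^ len v) +
        3 * (C ^ 2 * W * ∑ e ∈ Win d r N,
          (K ^ 2 / 4 * (Ahat θ s D' (lsort D' τ) e.1 e.2 - Ahat θ s D (lsort D τ) e.1 e.2) +
            8 * ∫ u, Tb s R u)) := by
    intro τ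
    have := compare_fixed hθ hd hα hα' hα0 hα1 hs hs1 hk0 hcκ hD h2 (lsort_nodup D' τ)
      (fun x => mem_lsort) hN hball hK hmod
    rw [lsort_filter h2 τ] at this
    exact this
  have mFF : Measurable (fun p : Xi d => (FF θ s D' N root p - FF θ s D N root p) ^ 2) :=
    ((measurable_FF θ s D' N root).sub (measurable_FF θ s D N root)).pow_const 2
  have iFF : Integrable (fun p : Xi d => (FF θ s D' N root p - FF θ s D N root p) ^ 2) (LX d) := by
    refine integrable_bdd (C := 4) mFF fun p => ?_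
    rw [abs_of_nonneg (sq_nonneg _)]
    have e1 := abs_le.mp (abs_FF_le θ s D' N root p)
    have e2 := abs_le.mp (abs_FF_le θ s D N root p)
    nlinarith
  have e0 : ∫ p, (FF θ s D' N root p - FF θ s D N root p) ^ 2 ∂(LX d) =
      ∫ τ, ∫ u, (GS θ s D' (lsort D' τ) N root u - GS θ s D (lsort D τ) N root u) ^ 2 ∂(unu d) ∂(LT d) :=
    integral_prod _ iFF
  have hterm : ∀ e : Ix d, Integrable (fun τ : Word d → unitInterval =>
      K ^ 2 / 4 * (Ahat θ s D' (lsort D' τ) e.1 e.2 - Ahat θ s D (lsort D τ) e.1 e.2) +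
        8 * ∫ u, Tb s R u) (LT d) := fun e =>
    (((integrable_Ahat_lsort θ s D' e.1 e.2).sub (integrable_Ahat_lsort θ s D e.1 e.2)).const_mul _).add
      (integrable_const _)
  have hI : Integrable (fun τ : Word d → unitInterval =>
      6 * (C ^ 2 * (4 * Ups s) * N * ∑ v ∈ D \ ball r, (α ^ 2) ^ len v) +
        3 * (C ^ 2 * W * ∑ e ∈ Win d r N,
          (K ^ 2 / 4 * (Ahat θ s D' (lsort D' τ) e.1 e.2 - Ahat θ s D (lsort D τ) e.1 e.2) +
            8 * ∫ u, Tb s R u))) (LT d) :=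
    (integrable_const _).add (((integrable_finsetSum _ fun e _ => hterm e).const_mul _).const_mul _)
  rw [e0]
  refine (integral_mono_of_nonneg (Filter.Eventually.of_forall fun τ => integral_nonneg fun u => sq_nonneg _) hI
    (Filter.Eventually.of_forall hmain)).trans ?_
  have hI2 : Integrable (fun τ : Word d → unitInterval =>
      3 * (C ^ 2 * W * ∑ e ∈ Win d r N,
          (K ^ 2 / 4 * (Ahat θ s D' (lsort D' τ) e.1 e.2 - Ahat θ s D (lsort D τ) e.1 e.2) +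
            8 * ∫ u, Tb s R u))) (LT d) :=
    ((integrable_finsetSum _ fun e _ => hterm e).const_mul _).const_mul _
  rw [integral_add (integrable_const _) hI2, integral_const, integral_const_mul, integral_const_mul,
    integral_finsetSum _ fun e _ => hterm e]
  simp only [probReal_univ, one_smul]
  have hsum : ∀ e ∈ Win d r N, ∫ τ, (K ^ 2 / 4 * (Ahat θ s D' (lsort D' τ) e.1 e.2 - Ahat θ s D (lsort D τ) e.1 e.2) +
        8 * ∫ u, Tb s R u) ∂(LT d) ≤ K ^ 2 / 4 * δ₃ + 8 * δ₂ := by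
    intro e he
    have i1 := ((integrable_Ahat_lsort θ s D' e.1 e.2).sub (integrable_Ahat_lsort θ s D e.1 e.2)).const_mul (K ^ 2 / 4)
    have e2 : ∫ τ, (K ^ 2 / 4 * (Ahat θ s D' (lsort D' τ) e.1 e.2 - Ahat θ s D (lsort D τ) e.1 e.2) +
        8 * ∫ u, Tb s R u) ∂(LT d) = K ^ 2 / 4 * (Abar θ s D' e.1 e.2 - Abar θ s D e.1 e.2) + 8 * ∫ u, Tb s R u := by
      have i2 : Integrable (fun τ : Word d → unitInterval =>
          K ^ 2 / 4 * (Ahat θ s D' (lsort D' τ) e.1 e.2 - Ahat θ s D (lsort D τ) e.1 e.2)) (LT d) := i1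
      rw [integral_add i2 (integrable_const _), integral_const_mul,
        integral_sub (integrable_Ahat_lsort θ s D' e.1 e.2) (integrable_Ahat_lsort θ s D e.1 e.2), integral_const]
      simp [Abar]
    rw [e2]
    have h3 : (ball (Rf e) : Finset (Word d)) ⊆ D :=
      (ball_mono ((Finset.le_sup he).trans (le_max_right _ _))).trans h1
    have h4 := hRf e D D' h3 h2
    have h5 : K ^ 2 / 4 * (Abar θ s D' e.1 e.2 - Abar θ s D e.1 e.2) ≤ K ^ 2 / 4 * δ₃ :=
      mul_le_mul_of_nonneg_left h4 (by positivity)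
    linarith
  have hsum2 := Finset.sum_le_sum hsum
  rw [Finset.sum_const, nsmul_eq_mul] at hsum2
  have h6 : 3 * (C ^ 2 * W * ∑ e ∈ Win d r N, ∫ τ, (K ^ 2 / 4 * (Ahat θ s D' (lsort D' τ) e.1 e.2 - Ahat θ s D (lsort D τ) e.1 e.2) +
        8 * ∫ u, Tb s R u) ∂(LT d)) ≤ 3 * (C ^ 2 * W) * (W * (K ^ 2 / 4 * δ₃ + 8 * δ₂)) := by
    rw [← mul_assoc]
    exact mul_le_mul_of_nonneg_left hsum2 (by positivity)
  have h7 : 6 * (C ^ 2 * (4 * Ups s) * N * ∑ v ∈ D \ ball r, (α ^ 2) ^ len v) ≤ 6 * (C ^ 2 * (4 * Ups s) * N) * δ₁ := by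
    have h9 : 6 * (C ^ 2 * (4 * Ups s) * N * ∑ v ∈ D \ ball r, (α ^ 2) ^ len v) =
        6 * (C ^ 2 * (4 * Ups s) * N) * ∑ v ∈ D \ ball r, (α ^ 2) ^ len v := by ring
    rw [h9]
    exact mul_le_mul_of_nonneg_left (hr D) (by positivity)
  have h8 : 3 * (C ^ 2 * W) * (W * (K ^ 2 / 4 * δ₃ + 8 * δ₂)) =
      3 * (C ^ 2 * W) * W * (K ^ 2 / 4) * δ₃ + 3 * (C ^ 2 * W) * W * 8 * δ₂ := by ring
  linarith

end Cauchy

end Vale.Agent.Lib.P161
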