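import Vale.Agent.Lib.P161.SLRun
import Vale.Agent.Lib.P161.SLBayes
import Vale.Agent.Lib.P161.EfronStein
import Vale.Agent.Lib.P161.Core

/-!
The state of a run as a function of the observations, prefixes of the event lists, and the
orthogonality behind the comparison of two domains.
-/

namespace Vale.Agent.Lib.P161

open MeasureTheory ProbabilityTheory
open scoped NNReal ENNReal

variable {d : ℕ}

lemma stL_fold (a : Ix d → ℝ) (ev : List (Ix d)) (y : Word d → ℝ) (x : Word d) :
    ev.foldl (fun y e => Function.update y e.1 (y e.1 + a e)) y x =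
      y x + ((ev.filter (fun e => e.1 = x)).map a).sum := by
  induction ev generalizing y with
  | nil => simp
  | cons e ev ih =>
    simp only [List.foldl_cons]
    rw [ih]
    by_cases h : e.1 = x
    · subst h
      simp only [Function.update_self, List.filter_cons, decide_true, if_true, List.map_cons,
        List.sum_cons]
      ring
    · rw [Function.update_of_ne (Ne.symm h)]
      simp [h]

lemma stL_apply (a : Ix d → ℝ) (ev : List (Ix d)) (x : Word d) :
    stL a ev x = ((ev.filter (fun e => e.1 = x)).map a).sum := by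
  unfold stL
  rw [stL_fold]
  simp

lemma stL_filter (a : Ix d → ℝ) (ev : List (Ix d)) (D : Finset (Word d)) {x : Word d} (hx : x ∈ D) :
    stL a (ev.filter (fun e => e.1 ∈ D)) x = stL a ev x := by
  rw [stL_apply, stL_apply, List.filter_filter]
  congr 2
  apply List.filter_congr
  intro e _
  by_cases h : e.1 = x
  · subst h
    simp [hx]
  · simp [h]

lemma stL_congr {a a' : Ix d → ℝ} {ev : List (Ix d)} (h : ∀ e ∈ ev, a e = a' e) :
    stL a ev = stL a' ev := by
  funext x
  rw [stL_apply, stL_apply]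
  congr 1
  apply List.map_congr_left
  intro e he
  exact h e (List.mem_of_mem_filter he)

lemma measurable_stL (ev : List (Ix d)) : Measurable (fun a : Ix d → ℝ => stL a ev) := by
  refine measurable_pi_lambda _ fun x => ?_
  simp_rw [stL_apply]
  generalize ev.filter (fun e => e.1 = x) = L
  induction L with
  | nil => simp
  | cons e L ih =>
    simp only [List.map_cons, List.sum_cons]
    exact (measurable_pi_apply e).add ih

/-- The events before `(v, k)`. -/
def pre (l : List (Word d)) (v : Word d) (k : ℕ) : List (Ix d) :=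
  evL l k ++ evS (l.takeWhile (fun x => x ≠ v)) k

lemma evL_add (l : List (Word d)) (k m : ℕ) : ∃ ev₁, evL l (k + m) = evL l k ++ ev₁ := by
  induction m with
  | zero => exact ⟨[], by simp⟩
  | succ m ih =>
    obtain ⟨ev₁, h⟩ := ih
    refine ⟨ev₁ ++ evS l (k + m), ?_⟩
    rw [← add_assoc, evL_succ, h, List.append_assoc]

lemma evS_split {l : List (Word d)} {v : Word d} (hv : v ∈ l) (k : ℕ) :
    ∃ ev₁, evS l k = evS (l.takeWhile (fun x => x ≠ v)) k ++ (v, k) :: ev₁ := by
  induction l with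
  | nil => simp at hv
  | cons a l ih =>
    by_cases h : a = v
    · subst h
      exact ⟨evS l k, by simp [evS]⟩
    · have hv' : v ∈ l := by
        rcases List.mem_cons.mp hv with h' | h'
        · exact absurd h'.symm h
        · exact h'
      obtain ⟨ev₁, h1⟩ := ih hv'
      refine ⟨ev₁, ?_⟩
      have e1 : evS (a :: l) k = (a, k) :: evS l k := rfl
      rw [e1, h1, List.takeWhile_cons_of_pos (by simpa using h)]
      rfl

lemma evL_split {l : List (Word d)} {v : Word d} (hv : v ∈ l) {k N : ℕ} (hk : k < N) :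
    ∃ ev₁, evL l N = pre l v k ++ (v, k) :: ev₁ := by
  obtain ⟨m, rfl⟩ : ∃ m, N = k + 1 + m := ⟨N - (k + 1), by omega⟩
  obtain ⟨ev₁, h1⟩ := evL_add l (k + 1) m
  obtain ⟨ev₂, h2⟩ := evS_split hv k
  refine ⟨ev₂ ++ ev₁, ?_⟩
  rw [h1, evL_succ, h2, pre]
  simp

lemma takeWhile_filter (l : List (Word d)) (D : Finset (Word d)) {v : Word d} (hv : v ∈ D) :
    (l.takeWhile (fun x => x ≠ v)).filter (fun x => x ∈ D) =
      (l.filter (fun x => x ∈ D)).takeWhile (fun x => x ≠ v) := by
  induction l with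
  | nil => simp
  | cons a l ih =>
    by_cases h : a = v
    · subst h
      simp [hv]
    · rw [List.takeWhile_cons_of_pos (by simpa using h)]
      by_cases h2 : a ∈ D
      · simp only [List.filter_cons, h2, decide_true, if_true]
        rw [List.takeWhile_cons_of_pos (by simpa using h), ih]
      · simp only [List.filter_cons, h2, decide_false]
        exact ih

lemma evS_filter (l : List (Word d)) (D : Finset (Word d)) (k : ℕ) :
    (evS l k).filter (fun e => e.1 ∈ D) = evS (l.filter (fun x => x ∈ D)) k := by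
  simp only [evS, List.filter_map]
  rfl

lemma pre_filter (l : List (Word d)) (D : Finset (Word d)) {v : Word d} (hv : v ∈ D) (k : ℕ) :
    (pre l v k).filter (fun e => e.1 ∈ D) = pre (l.filter (fun x => x ∈ D)) v k := by
  unfold pre
  rw [List.filter_append, evS_filter, takeWhile_filter l D hv]
  congr 1
  exact evL_filter l (fun x => x ∈ D) k

lemma mem_pre_fst {l : List (Word d)} {v : Word d} {k : ℕ} {e : Ix d} (he : e ∈ pre l v k) : e.1 ∈ l := by
  unfold pre at he
  rcases List.mem_append.mp he with h | h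
  · exact (mem_evL.mp h).1
  · obtain ⟨x, hx, rfl⟩ := List.mem_map.mp h
    exact (List.takeWhile_sublist _).subset hx

lemma pre_nodup {l : List (Word d)} (hl : l.Nodup) {v : Word d} (hv : v ∈ l) (k : ℕ) :
    (pre l v k).Nodup := by
  obtain ⟨ev₁, h⟩ := evL_split hv (Nat.lt_succ_self k)
  have h1 := evL_nodup hl (k + 1)
  rw [h] at h1
  exact (List.nodup_append.mp h1).1

section Pyth

variable {θ : ℝ} [Corr θ] {s : ℝ≥0}

/-- The mean of the spin at `v` against the posterior mean given the events before `(v, k)`. -/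
noncomputable def Ahat (θ : ℝ) (s : ℝ≥0) (D : Finset (Word d)) (l : List (Word d)) (v : Word d) (k : ℕ) : ℝ :=
  ∫ ω, sp (ω.1 v) * Real.tanh (hf θ D (stL (obA s ω) (pre l v k)) v) ∂(PL d θ)

/-- The posterior mean given the events before `(v, k)`. -/
noncomputable def Pmean (θ : ℝ) (s : ℝ≥0) (D : Finset (Word d)) (l : List (Word d)) (v : Word d) (k : ℕ)
    (a : Ix d → ℝ) : ℝ :=
  Real.tanh (hf θ D (stL a (pre l v k)) v)

lemma measurable_Pmean (θ : ℝ) [Corr θ] (s : ℝ≥0) (D : Finset (Word d)) (l : List (Word d)) (v : Word d) (k : ℕ) :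
    Measurable (Pmean θ s D l v k) := by
  unfold Pmean
  exact measurable_tanh'.comp ((measurable_hf θ D v).comp (measurable_stL _))

lemma abs_Pmean_le (θ : ℝ) (s : ℝ≥0) (D : Finset (Word d)) (l : List (Word d)) (v : Word d) (k : ℕ)
    (a : Ix d → ℝ) : |Pmean θ s D l v k a| ≤ 1 := by
  unfold Pmean
  rw [abs_le]
  exact ⟨(Real.neg_one_lt_tanh _).le, (Real.tanh_lt_one _).le⟩

lemma measurable_obA (s : ℝ≥0) : Measurable (obA s : OmP d → Ix d → ℝ) := by
  refine measurable_pi_lambda _ fun e => ?_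
  unfold obA
  have h1 : Measurable (fun ω : OmP d => sp (ω.1 e.1)) :=
    (measurable_of_countable (f := sp)).comp ((measurable_pi_apply e.1).comp measurable_fst)
  have h2 : Measurable (fun ω : OmP d => ω.2 e) := (measurable_pi_apply e).comp measurable_snd
  exact (h1.const_mul _).add (h2.const_mul _)

lemma abs_sp_mul_le (b : Bool) {x : ℝ} (hx : |x| ≤ 1) : |sp b * x| ≤ 1 := by
  rw [abs_mul, abs_sp, one_mul]
  exact hx

lemma measurable_sp_at (v : Word d) : Measurable (fun ω : OmP d => sp (ω.1 v)) :=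
  (measurable_of_countable (f := sp)).comp ((measurable_pi_apply v).comp measurable_fst)

lemma abs_Ahat_le (θ : ℝ) [Corr θ] (s : ℝ≥0) (D : Finset (Word d)) (l : List (Word d)) (v : Word d) (k : ℕ) :
    |Ahat θ s D l v k| ≤ 1 := by
  unfold Ahat
  refine (abs_integral_le_integral_abs).trans ?_
  have h : ∀ ω : OmP d, |sp (ω.1 v) * Real.tanh (hf θ D (stL (obA s ω) (pre l v k)) v)| ≤ 1 :=
    fun ω => abs_sp_mul_le _ (abs_Pmean_le θ s D l v k _)
  have := integral_mono_of_nonneg (μ := PL d θ)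
    (Filter.Eventually.of_forall fun ω => abs_nonneg (sp (ω.1 v) * Real.tanh (hf θ D (stL (obA s ω) (pre l v k)) v)))
    (integrable_const (1 : ℝ)) (Filter.Eventually.of_forall h)
  simpa using this

/-- Orthogonality: the squared distance of the posterior means on nested domains. -/
theorem pyth (hθ : θ < 1) (hs : s ≠ 0) {D D' : Finset (Word d)} (hDD : D ⊆ D')
    {l' : List (Word d)} (hl' : l'.Nodup) (hlD' : ∀ x ∈ l', x ∈ D') {v : Word d} (hv : v ∈ D)
    (hvl : v ∈ l') (k : ℕ) :
    ∫ ω, (Pmean θ s D' l' v k (obA s ω) -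
        Pmean θ s D (l'.filter (fun x => x ∈ D)) v k (obA s ω)) ^ 2 ∂(PL d θ) =
      Ahat θ s D' l' v k - Ahat θ s D (l'.filter (fun x => x ∈ D)) v k := by
  set l := l'.filter (fun x => x ∈ D) with hl
  have hlnd : l.Nodup := hl'.filter _
  have hvl2 : v ∈ l := List.mem_filter.mpr ⟨hvl, by simpa using hv⟩
  have hsub : ∀ e ∈ pre l v k, e ∈ pre l' v k := by
    intro e he
    rw [hl, ← pre_filter l' D hv k] at he
    exact List.mem_of_mem_filter he
  have hlD : ∀ x ∈ l, x ∈ D := fun x hx => by simpa using (List.mem_filter.mp hx).2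
  have hd1 : ∀ a a' : Ix d → ℝ, (∀ e ∈ pre l' v k, a e = a' e) → Pmean θ s D' l' v k a = Pmean θ s D' l' v k a' := by
    intro a a' h
    unfold Pmean
    rw [stL_congr h]
  have hd2 : ∀ a a' : Ix d → ℝ, (∀ e ∈ pre l v k, a e = a' e) → Pmean θ s D l v k a = Pmean θ s D l v k a' := by
    intro a a' h
    unfold Pmean
    rw [stL_congr h]
  have hD1 : ∀ e ∈ pre l' v k, e.1 ∈ D' := fun e he => hlD' _ (mem_pre_fst he)
  have hD2 : ∀ e ∈ pre l v k, e.1 ∈ D := fun e he => hlD _ (mem_pre_fst he)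
  have b1 := bayes_planted θ hθ hs (pre_nodup hl' hvl k) hD1 (hDD hv) (measurable_Pmean θ s D' l' v k)
    (abs_Pmean_le θ s D' l' v k) hd1
  have b2 := bayes_planted θ hθ hs (pre_nodup hl' hvl k) hD1 (hDD hv) (measurable_Pmean θ s D l v k)
    (abs_Pmean_le θ s D l v k) (fun a a' h => hd2 a a' fun e he => h e (hsub e he))
  have b3 := bayes_planted θ hθ hs (pre_nodup hlnd hvl2 k) hD2 hv (measurable_Pmean θ s D l v k)
    (abs_Pmean_le θ s D l v k) hd2
  set P' : OmP d → ℝ := fun ω => Pmean θ s D' l' v k (obA s ω) with hP'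
  set P'' : OmP d → ℝ := fun ω => Pmean θ s D l v k (obA s ω) with hP''
  have m1 : Measurable P' := (measurable_Pmean θ s D' l' v k).comp (measurable_obA s)
  have m2 : Measurable P'' := (measurable_Pmean θ s D l v k).comp (measurable_obA s)
  have a1 : ∀ ω, |P' ω| ≤ 1 := fun ω => abs_Pmean_le _ _ _ _ _ _ _
  have a2 : ∀ ω, |P'' ω| ≤ 1 := fun ω => abs_Pmean_le _ _ _ _ _ _ _
  have i11 : Integrable (fun ω => P' ω * P' ω) (PL d θ) :=
    integrable_bdd (m1.mul m1) (C := 1) fun ω => by
      rw [abs_mul]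
      exact mul_le_one₀ (a1 ω) (abs_nonneg _) (a1 ω)
  have i12 : Integrable (fun ω => P' ω * P'' ω) (PL d θ) :=
    integrable_bdd (m1.mul m2) (C := 1) fun ω => by
      rw [abs_mul]
      exact mul_le_one₀ (a1 ω) (abs_nonneg _) (a2 ω)
  have i22 : Integrable (fun ω => P'' ω * P'' ω) (PL d θ) :=
    integrable_bdd (m2.mul m2) (C := 1) fun ω => by
      rw [abs_mul]
      exact mul_le_one₀ (a2 ω) (abs_nonneg _) (a2 ω)
  have e1 : Ahat θ s D' l' v k = ∫ ω, P' ω * P' ω ∂(PL d θ) := b1
  have e2 : Ahat θ s D l v k = ∫ ω, P'' ω * P'' ω ∂(PL d θ) := b3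
  have e3 : ∫ ω, P' ω * P'' ω ∂(PL d θ) = ∫ ω, P'' ω * P'' ω ∂(PL d θ) := by
    have e4 : ∫ ω, sp (ω.1 v) * Pmean θ s D l v k (obA s ω) ∂(PL d θ) = ∫ ω, P' ω * P'' ω ∂(PL d θ) := b2
    have e5 : ∫ ω, sp (ω.1 v) * Pmean θ s D l v k (obA s ω) ∂(PL d θ) = ∫ ω, P'' ω * P'' ω ∂(PL d θ) := b3
    rw [← e4, e5]
  have e6 : ∀ ω, (P' ω - P'' ω) ^ 2 = P' ω * P' ω - 2 * (P' ω * P'' ω) + P'' ω * P'' ω := fun ω => by ring
  show ∫ ω, (P' ω - P'' ω) ^ 2 ∂(PL d θ) = _
  rw [funext e6]
  have i3 : Integrable (fun ω => 2 * (P' ω * P'' ω)) (PL d θ) := i12.const_mul 2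
  have i4 : Integrable (fun ω => P' ω * P' ω - 2 * (P' ω * P'' ω)) (PL d θ) := i11.sub i3
  have h7 : ∫ x, P' x * P' x - 2 * (P' x * P'' x) + P'' x * P'' x ∂(PL d θ) =
      ∫ x, P' x * P' x - 2 * (P' x * P'' x) ∂(PL d θ) + ∫ x, P'' x * P'' x ∂(PL d θ) :=
    integral_add i4 i22
  have h8 : ∫ x, P' x * P' x - 2 * (P' x * P'' x) ∂(PL d θ) =
      ∫ x, P' x * P' x ∂(PL d θ) - ∫ x, 2 * (P' x * P'' x) ∂(PL d θ) := integral_sub i11 i3
  rw [h7, h8, integral_const_mul, e1, e2, e3]
  ring

end Pyth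

end Vale.Agent.Lib.P161
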