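import Vale.Agent.Lib.P161.SLCmp1

/-!
Envelope estimates for the observations, and the Efron-Stein bound for the events far from the root.
-/

namespace Vale.Agent.Lib.P161

open MeasureTheory ProbabilityTheory
open scoped NNReal ENNReal

variable {d : ℕ}

lemma OOb_nonneg (s : ℝ≥0) (u : unitInterval) : 0 ≤ OOb s u := by
  unfold OOb
  positivity

/-- The second moment of the envelope. -/
noncomputable def Ups (s : ℝ≥0) : ℝ := ∫ u, OOb s u ^ 2

lemma Ups_nonneg (s : ℝ≥0) : 0 ≤ Ups s := integral_nonneg fun _ => sq_nonneg _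

lemma mp_eval (e : Ix d) : MeasurePreserving (fun x : UN d => x e) (unu d) volume :=
  measurePreserving_eval_infinitePi _ e

lemma measurable_OObsq (s : ℝ≥0) : Measurable (fun u => OOb s u ^ 2) := (measurable_OOb s).pow_const 2

lemma integrable_eval_sq (s : ℝ≥0) (e : Ix d) :
    Integrable (fun x : UN d => OOb s (x e) ^ 2) (unu d) :=
  ((mp_eval e).integrable_comp (measurable_OObsq s).aestronglyMeasurable).mpr (integrable_OOb_sq s)

lemma integral_eval_sq (s : ℝ≥0) (e : Ix d) :
    ∫ x : UN d, OOb s (x e) ^ 2 ∂(unu d) = Ups s :=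
  mp_integral (mp_eval e) (measurable_OObsq s).aestronglyMeasurable

lemma measurableSet_inn : MeasurableSet {u : unitInterval | ker_inn u} := by
  unfold ker_inn
  exact (measurableSet_lt measurable_const measurable_subtype_coe).inter
    (measurableSet_lt measurable_subtype_coe measurable_const)

/-- The part of the squared envelope outside the good set. -/
noncomputable def Tb (s : ℝ≥0) (R : ℝ) (u : unitInterval) : ℝ :=
  open Classical in if ker_inn u ∧ OOb s u ≤ R then 0 else OOb s u ^ 2

lemma Tb_nonneg (s : ℝ≥0) (R : ℝ) (u : unitInterval) : 0 ≤ Tb s R u := by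
  unfold Tb
  split_ifs
  · exact le_rfl
  · exact sq_nonneg _

lemma Tb_le (s : ℝ≥0) (R : ℝ) (u : unitInterval) : Tb s R u ≤ OOb s u ^ 2 := by
  unfold Tb
  split_ifs
  · exact sq_nonneg _
  · exact le_rfl

lemma measurable_Tb (s : ℝ≥0) (R : ℝ) : Measurable (Tb s R) := by
  classical
  unfold Tb
  refine Measurable.ite ?_ measurable_const (measurable_OObsq s)
  exact measurableSet_inn.inter (measurableSet_le (measurable_OOb s) measurable_const)

lemma integrable_Tb (s : ℝ≥0) (R : ℝ) : Integrable (Tb s R) (volume : Measure unitInterval) :=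
  (integrable_OOb_sq s).mono' (measurable_Tb s R).aestronglyMeasurable
    (Filter.Eventually.of_forall fun u => by
      rw [Real.norm_eq_abs, abs_of_nonneg (Tb_nonneg s R u)]
      exact Tb_le s R u)

lemma Tb_small (s : ℝ≥0) {ε : ℝ} (hε : 0 < ε) : ∃ R : ℝ, 0 ≤ R ∧ ∫ u, Tb s R u ≤ ε := by
  have hlim : Filter.Tendsto (fun n : ℕ => ∫ u, Tb s (n : ℝ) u) Filter.atTop (nhds (∫ _ : unitInterval, (0 : ℝ))) := by
    refine tendsto_integral_of_dominated_convergence (fun u => OOb s u ^ 2)
      (fun n => (measurable_Tb s n).aestronglyMeasurable) (integrable_OOb_sq s) ?_ ?_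
    · intro n
      exact Filter.Eventually.of_forall fun u => by
        rw [Real.norm_eq_abs, abs_of_nonneg (Tb_nonneg s _ u)]
        exact Tb_le s _ u
    · filter_upwards [ker_ae_inn] with u hu
      refine tendsto_const_nhds.congr' ?_
      obtain ⟨n₀, hn₀⟩ := exists_nat_ge (OOb s u)
      filter_upwards [Filter.eventually_ge_atTop n₀] with n hn
      unfold Tb
      rw [if_pos ⟨hu, hn₀.trans (by exact_mod_cast hn)⟩]
  simp only [integral_zero] at hlim
  obtain ⟨n, hn⟩ := (hlim.eventually (gt_mem_nhds hε)).exists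
  exact ⟨n, Nat.cast_nonneg n, hn.le⟩

/-- The modulus of the observation as a function of the noise. -/
noncomputable def SR (s : ℝ≥0) (K R : ℝ) (a b : unitInterval) : ℝ :=
  open Classical in if ker_inn a ∧ ker_inn b ∧ OOb s a ≤ R ∧ OOb s b ≤ R then K * |(a : ℝ) - (b : ℝ)|
    else OOb s a + OOb s b

lemma SR_nonneg (s : ℝ≥0) {K : ℝ} (hK : 0 ≤ K) (R : ℝ) (a b : unitInterval) : 0 ≤ SR s K R a b := by
  unfold SR
  split_ifs
  · positivity
  · exact add_nonneg (OOb_nonneg s a) (OOb_nonneg s b)

lemma OO_le_SR {s : ℝ≥0} (hs : s ≠ 0) {K R : ℝ}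
    (hmod : ∀ (h : ℝ) (a b : unitInterval), ker_inn a → ker_inn b → OOb s a ≤ R → OOb s b ≤ R →
      |OO s h a - OO s h b| ≤ K * |(a : ℝ) - (b : ℝ)|) (h : ℝ) (a b : unitInterval) :
    |OO s h a - OO s h b| ≤ SR s K R a b := by
  unfold SR
  split_ifs with hc
  · exact hmod h a b hc.1 hc.2.1 hc.2.2.1 hc.2.2.2
  · exact (abs_sub _ _).trans (add_le_add (OO_le_OOb s hs h a) (OO_le_OOb s hs h b))

lemma SR_sq (s : ℝ≥0) {K R : ℝ} (a b : unitInterval) (ha : ker_inn a) (hb : ker_inn b) :
    SR s K R a b ^ 2 ≤ K ^ 2 * ((a : ℝ) - (b : ℝ)) ^ 2 + 4 * Tb s R a + 4 * Tb s R b := by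
  have h1 := Tb_nonneg s R a
  have h2 := Tb_nonneg s R b
  unfold SR
  split_ifs with hc
  · rw [mul_pow, sq_abs]
    linarith
  · have hx := OOb_nonneg s a
    have hy := OOb_nonneg s b
    by_cases h3 : OOb s a ≤ R
    · have h4 : ¬ OOb s b ≤ R := fun h4 => hc ⟨ha, hb, h3, h4⟩
      have h5 : Tb s R b = OOb s b ^ 2 := by
        unfold Tb
        rw [if_neg (fun h => h4 h.2)]
      have h6 : OOb s a ≤ OOb s b := by
        push Not at h4
        linarith
      rw [h5]
      have h7 : 0 ≤ K ^ 2 * ((a : ℝ) - (b : ℝ)) ^ 2 := by positivity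
      nlinarith
    · have h5 : Tb s R a = OOb s a ^ 2 := by
        unfold Tb
        rw [if_neg (fun h => h3 h.2)]
      have h7 : 0 ≤ K ^ 2 * ((a : ℝ) - (b : ℝ)) ^ 2 := by positivity
      by_cases h4 : OOb s b ≤ R
      · have h6 : OOb s b ≤ OOb s a := by
          push Not at h3
          linarith
        rw [h5]
        nlinarith
      · have h8 : Tb s R b = OOb s b ^ 2 := by
          unfold Tb
          rw [if_neg (fun h => h4 h.2)]
        rw [h5, h8]
        nlinarith [sq_nonneg (OOb s a - OOb s b)]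

section Tail

variable {θ : ℝ} [Corr θ] {s : ℝ≥0}

/-- The window of events near the root. -/
noncomputable def Win (d : ℕ) (r N : ℕ) : Finset (Ix d) := (ball r : Finset (Word d)) ×ˢ Finset.range N

lemma mem_Win {r N : ℕ} {e : Ix d} : e ∈ Win d r N ↔ len e.1 ≤ r ∧ e.2 < N := by
  simp [Win]

/-- The events of the list outside the window. -/
noncomputable def Wout (l : List (Word d)) (r N : ℕ) : Finset (Ix d) := (evL l N).toFinset \ Win d r N

lemma mem_Wout {l : List (Word d)} {r N : ℕ} {e : Ix d} :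
    e ∈ Wout l r N ↔ e ∈ evL l N ∧ e ∉ Win d r N := by
  simp [Wout]

/-- The bound of Efron-Stein for the output at the root: the noise outside the window matters little. -/
theorem es_tail (hθ : θ < 1) (hd : 2 ≤ d) {α : ℝ} (hα : θ < α) (hα' : ((d : ℝ) - 1) * θ * α < 1)
    (hα0 : 0 ≤ α) (hs : s ≠ 0) (hs1 : s < 1) (hk0 : 0 ≤ kap d θ α)
    (hcκ : s / (1 - s) * kap d θ α < 1) {D : Finset (Word d)} (hD : ConnClosed D)
    {l : List (Word d)} (hl : l.Nodup) (hlD : ∀ v ∈ l, v ∈ D) (r : ℕ) {N : ℕ} (hN : 1 ≤ N)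
    (ho : root ∈ D) :
    ∫ x, (GS θ s D l N root x - es_avg volume (Wout l r N) (GS θ s D l N root) x) ^ 2 ∂(unu d) ≤
      (gma d θ α s ^ N / (N * s)) ^ 2 * (4 * Ups s) * N * ∑ v ∈ D \ ball r, (α ^ 2) ^ len v := by
  classical
  set C := gma d θ α s ^ N / (N * s) with hC
  have h1 : ∫ x, (GS θ s D l N root x - es_avg volume (Wout l r N) (GS θ s D l N root) x) ^ 2 ∂(unu d) ≤
      ∑ e ∈ Wout l r N, ∫ x, ∫ t, (GS θ s D l N root x - GS θ s D l N root (es_repl {e} x t)) ^ 2
        ∂(unu d) ∂(unu d) :=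
    efron_stein (volume : Measure unitInterval) (Wout l r N) (measurable_GS θ s D l N root)
      (C := 1) (abs_GS_le θ s D l N root)
  refine h1.trans ?_
  have key : ∀ e : Ix d, ∫ x, ∫ t, (GS θ s D l N root x - GS θ s D l N root (es_repl {e} x t)) ^ 2
      ∂(unu d) ∂(unu d) ≤
      C ^ 2 * (4 * Ups s) * (α ^ 2) ^ len e.1 := by
    intro e
    have hpt : ∀ x t : UN d, (GS θ s D l N root x - GS θ s D l N root (es_repl {e} x t)) ^ 2 ≤
        C ^ 2 * (α ^ 2) ^ len e.1 * (2 * OOb s (x e) ^ 2 + 2 * OOb s (t e) ^ 2) := by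
      intro x t
      have h2 := GS_single hθ hd hα hα' hα0 hs hs1 hk0 hcκ hD hl hlD (u := x) (u' := es_repl {e} x t)
        (e₀ := e) (S := OOb s (x e) + OOb s (t e)) (add_nonneg (OOb_nonneg _ _) (OOb_nonneg _ _))
        (fun e' he' => by
          simp [es_repl, he'])
        (fun h => by
          have : es_repl {e} x t e = t e := by simp [es_repl]
          rw [this]
          exact (abs_sub _ _).trans (add_le_add (OO_le_OOb s hs h _) (OO_le_OOb s hs h _)))
        hN (o := root) ho
      rw [rho_root] at h2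
      have h3 := sq_le_sq' (by linarith [abs_le.mp h2, (abs_nonneg (GS θ s D l N root x - GS θ s D l N root (es_repl {e} x t)))]) (le_abs_self _ |>.trans h2)
      refine h3.trans ?_
      have e1 : (C * (OOb s (x e) + OOb s (t e)) * α ^ len e.1) ^ 2 =
          C ^ 2 * (α ^ 2) ^ len e.1 * (OOb s (x e) + OOb s (t e)) ^ 2 := by
        rw [← pow_mul, mul_comm 2, pow_mul]
        ring
      rw [hC] at *
      rw [e1]
      refine mul_le_mul_of_nonneg_left ?_ (by positivity)
      nlinarith [sq_nonneg (OOb s (x e) - OOb s (t e))]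
    have hinner : ∀ x : UN d, ∫ t, (GS θ s D l N root x - GS θ s D l N root (es_repl {e} x t)) ^ 2
        ∂(unu d) ≤
        C ^ 2 * (α ^ 2) ^ len e.1 * (2 * OOb s (x e) ^ 2 + 2 * Ups s) := by
      intro x
      have i1 : Integrable (fun t : UN d => C ^ 2 * (α ^ 2) ^ len e.1 * (2 * OOb s (x e) ^ 2 + 2 * OOb s (t e) ^ 2))
          (unu d) :=
        ((integrable_const _).add ((integrable_eval_sq s e).const_mul 2)).const_mul _
      refine (integral_mono_of_nonneg (Filter.Eventually.of_forall fun t => sq_nonneg _) i1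
        (Filter.Eventually.of_forall fun t => hpt x t)).trans (le_of_eq ?_)
      rw [integral_const_mul]
      congr 1
      rw [integral_add (integrable_const _) ((integrable_eval_sq s e).const_mul 2), integral_const,
        integral_const_mul, integral_eval_sq]
      simp
    have i2 : Integrable (fun x : UN d => C ^ 2 * (α ^ 2) ^ len e.1 * (2 * OOb s (x e) ^ 2 + 2 * Ups s))
        (unu d) :=
      (((integrable_eval_sq s e).const_mul 2).add (integrable_const _)).const_mul _
    refine (integral_mono_of_nonneg (Filter.Eventually.of_forall fun x => integral_nonneg fun t => sq_nonneg _) i2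
      (Filter.Eventually.of_forall hinner)).trans (le_of_eq ?_)
    rw [integral_const_mul]
    have i3 : Integrable (fun x : UN d => 2 * OOb s (x e) ^ 2)
        (unu d) := (integrable_eval_sq s e).const_mul 2
    rw [integral_add i3 (integrable_const _), integral_const_mul, integral_eval_sq]
    simp
    ring
  refine (Finset.sum_le_sum fun e _ => key e).trans ?_
  rw [← Finset.mul_sum, mul_assoc (C ^ 2 * (4 * Ups s))]
  refine mul_le_mul_of_nonneg_left ?_ (mul_nonneg (sq_nonneg _) (mul_nonneg (by norm_num) (Ups_nonneg s)))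
  have hsub : Wout l r N ⊆ (D \ ball r) ×ˢ Finset.range N := by
    intro e he
    obtain ⟨h1, h2⟩ := mem_Wout.mp he
    obtain ⟨h3, h4⟩ := mem_evL.mp h1
    simp only [Finset.mem_product, Finset.mem_sdiff, Finset.mem_range]
    refine ⟨⟨hlD _ h3, ?_⟩, h4⟩
    intro h5
    exact h2 (mem_Win.mpr ⟨mem_ball.mp h5, h4⟩)
  have hnn : ∀ i : Ix d, 0 ≤ (α ^ 2) ^ len i.1 := fun i => by positivity
  refine (Finset.sum_le_sum_of_subset_of_nonneg hsub fun i _ _ => hnn i).trans (le_of_eq ?_)
  rw [Finset.sum_product]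
  simp only [Finset.sum_const, Finset.card_range, nsmul_eq_mul]
  rw [Finset.mul_sum]

end Tail

end Vale.Agent.Lib.P161
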