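import Vale.Agent.Lib.P161.SLCmp2

/-!
The comparison of the runs on two nested domains, for a fixed order of the vertices.
-/

namespace Vale.Agent.Lib.P161

open MeasureTheory ProbabilityTheory
open scoped NNReal ENNReal

variable {d : ℕ}

section Avg

lemma measurable_es_avg (W : Finset (Ix d)) {G : UN d → ℝ} (hG : Measurable G) :
    Measurable (es_avg volume W G) := by
  have h1 : Measurable (fun p : UN d × UN d => G (es_repl W p.1 p.2)) :=
    hG.comp (es_mp (volume : Measure unitInterval) W).measurable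
  have h2 : StronglyMeasurable (fun x : UN d => ∫ t, G (es_repl W x t)
      ∂(Measure.infinitePi fun _ : Ix d => (volume : Measure unitInterval))) :=
    StronglyMeasurable.integral_prod_right (f := fun x t => G (es_repl W x t)) h1.stronglyMeasurable
  exact h2.measurable

lemma abs_es_avg_le (W : Finset (Ix d)) {G : UN d → ℝ} (hb : ∀ x, |G x| ≤ 1) (x : UN d) :
    |es_avg volume W G x| ≤ 1 := by
  unfold es_avg
  have := norm_integral_le_of_norm_le_const (μ := Measure.infinitePi fun _ : Ix d => (volume : Measure unitInterval))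
    (f := fun t => G (es_repl W x t)) (C := 1) (Filter.Eventually.of_forall fun t => hb _)
  simpa using this

lemma es_avg_sub_le (W : Finset (Ix d)) {G : UN d → ℝ} (hG : Measurable G) (hb : ∀ x, |G x| ≤ 1) {x y : UN d} {B : ℝ}
    (h : ∀ t, |G (es_repl W x t) - G (es_repl W y t)| ≤ B) :
    |es_avg volume W G x - es_avg volume W G y| ≤ B := by
  unfold es_avg
  have hm : ∀ z : UN d, Measurable (fun t : UN d => G (es_repl W z t)) := fun z => by
    have h1 : Measurable (fun p : UN d × UN d => G (es_repl W p.1 p.2)) :=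
      hG.comp (es_mp (volume : Measure unitInterval) W).measurable
    exact h1.comp (measurable_const.prodMk measurable_id)
  have hi : ∀ z : UN d, Integrable (fun t : UN d => G (es_repl W z t))
      (Measure.infinitePi fun _ : Ix d => (volume : Measure unitInterval)) := fun z =>
    integrable_bdd (hm z) (C := 1) fun t => hb _
  rw [← integral_sub (hi x) (hi y)]
  have := norm_integral_le_of_norm_le_const (μ := Measure.infinitePi fun _ : Ix d => (volume : Measure unitInterval))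
    (f := fun t => G (es_repl W x t) - G (es_repl W y t)) (C := B) (Filter.Eventually.of_forall h)
  simpa using this

end Avg

section Compare

variable {θ : ℝ} [Corr θ] {s : ℝ≥0}

/-- Almost surely all noise variables are in the open interval. -/
lemma ae_inn : ∀ᵐ x ∂(unu d), ∀ e : Ix d, ker_inn (x e) := by
  rw [ae_all_iff]
  intro e
  exact (mp_eval e).quasiMeasurePreserving.ae ker_ae_inn

/-- The innovation at an event of the window. -/
lemma innov_evL (θ : ℝ) (s : ℝ≥0) {l : List (Word d)} (hl : l.Nodup) {v : Word d} (hv : v ∈ l) {k N : ℕ} (hk : k < N)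
    (D : Finset (Word d)) (a : Ix d → ℝ) (υ : UN d) :
    innov θ s D a υ (evL l N) (v, k) = CC s (hf θ D (stL a (pre l v k)) v) (a (v, k)) := by
  obtain ⟨ev₁, h⟩ := evL_split hv hk
  have hnd := evL_nodup hl N
  rw [h] at hnd ⊢
  exact innov_apply θ s hnd D a υ

/-- The middle term: the averages of the output over the far noise depend on the near noise only. -/
lemma avg_mid {D : Finset (Word d)} (hθ : θ < 1) (hd : 2 ≤ d) {α : ℝ} (hα : θ < α)
    (hα' : ((d : ℝ) - 1) * θ * α < 1)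
    (hα0 : 0 ≤ α) (hα1 : α ≤ 1) (hs : s ≠ 0) (hs1 : s < 1) (hk0 : 0 ≤ kap d θ α)
    (hcκ : s / (1 - s) * kap d θ α < 1) (hD : ConnClosed D)
    {l : List (Word d)} (hl : l.Nodup) (hlD : ∀ v ∈ l, v ∈ D) {r N : ℕ} (hN : 1 ≤ N)
    (ho : root ∈ D) {K R : ℝ} (hK : 0 ≤ K)
    (hmod : ∀ (h : ℝ) (a b : unitInterval), ker_inn a → ker_inn b → OOb s a ≤ R → OOb s b ≤ R →
      |OO s h a - OO s h b| ≤ K * |(a : ℝ) - (b : ℝ)|)
    {x y : UN d} (hx : ∀ e, ker_inn (x e)) (hy : ∀ e, ker_inn (y e)) :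
    (es_avg volume (Wout l r N) (GS θ s D l N root) x - es_avg volume (Wout l r N) (GS θ s D l N root) y) ^ 2 ≤
      (gma d θ α s ^ N / (N * s)) ^ 2 * (Win d r N).card * ∑ e ∈ Win d r N,
        (K ^ 2 * ((x e : ℝ) - (y e : ℝ)) ^ 2 + 4 * Tb s R (x e) + 4 * Tb s R (y e)) := by
  classical
  set C := gma d θ α s ^ N / (N * s) with hC
  have hs' : (0 : ℝ) < s := by
    have := pos_iff_ne_zero.mpr hs
    exact_mod_cast this
  have hNpos : (0 : ℝ) < N := by exact_mod_cast hN
  have hs1' : (s : ℝ) < 1 := by exact_mod_cast hs1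
  have h1s : (0 : ℝ) < 1 - s := by linarith
  have hpos : 0 < 1 - s / (1 - s) * kap d θ α := by linarith
  have hΓ0 : 0 ≤ gma d θ α s := by
    unfold gma
    exact (inv_pos.mpr hpos).le
  have hC0 : 0 ≤ C := by positivity
  set S : Ix d → ℝ := fun e => SR s K R (x e) (y e) with hS
  have hS0 : ∀ e, 0 ≤ S e := fun e => SR_nonneg s hK R _ _
  have h1 : ∀ t : UN d, |GS θ s D l N root (es_repl (Wout l r N) x t) -
      GS θ s D l N root (es_repl (Wout l r N) y t)| ≤ C * ∑ e ∈ Win d r N, S e := by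
    intro t
    refine GS_multi hθ hd hα hα' hα0 hα1 hs hs1 hk0 hcκ hD hl hlD hN ho (Win d r N) hS0 _ _ ?_ ?_
    · intro e he heW
      have : e ∈ Wout l r N := mem_Wout.mpr ⟨he, heW⟩
      simp [es_repl, this]
    · intro e he h
      have : e ∉ Wout l r N := fun h' => (mem_Wout.mp h').2 he
      simp only [es_repl, this, if_false]
      exact OO_le_SR hs hmod h _ _
  have h2 := es_avg_sub_le (Wout l r N) (measurable_GS θ s D l N root) (abs_GS_le θ s D l N root) h1
  have h3 : 0 ≤ C * ∑ e ∈ Win d r N, S e := mul_nonneg hC0 (Finset.sum_nonneg fun e _ => hS0 e)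
  have h4 := sq_le_sq' (by linarith [(abs_le.mp h2).1]) ((le_abs_self _).trans h2)
  refine h4.trans ?_
  rw [mul_pow, mul_assoc]
  refine mul_le_mul_of_nonneg_left ?_ (sq_nonneg C)
  refine (sq_sum_le_card_mul_sum_sq).trans ?_
  refine mul_le_mul_of_nonneg_left ?_ (Nat.cast_nonneg _)
  exact Finset.sum_le_sum fun e _ => SR_sq s _ _ (hx e) (hy e)

/-- The comparison of the runs on `D ⊆ D'` through the innovation coupling. -/
theorem compare_fixed (hθ : θ < 1) (hd : 2 ≤ d) {α : ℝ} (hα : θ < α) (hα' : ((d : ℝ) - 1) * θ * α < 1)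
    (hα0 : 0 ≤ α) (hα1 : α ≤ 1) (hs : s ≠ 0) (hs1 : s < 1) (hk0 : 0 ≤ kap d θ α)
    (hcκ : s / (1 - s) * kap d θ α < 1) {D D' : Finset (Word d)} (hD : ConnClosed D) (hDD : D ⊆ D')
    {l' : List (Word d)} (hl' : l'.Nodup) (hlD' : ∀ x, x ∈ l' ↔ x ∈ D') {r N : ℕ} (hN : 1 ≤ N)
    (hball : ball r ⊆ D) {K R : ℝ} (hK : 0 ≤ K)
    (hmod : ∀ (h : ℝ) (a b : unitInterval), ker_inn a → ker_inn b → OOb s a ≤ R → OOb s b ≤ R →
      |OO s h a - OO s h b| ≤ K * |(a : ℝ) - (b : ℝ)|) :
    ∫ u, (GS θ s D' l' N root u - GS θ s D (l'.filter (fun x => x ∈ D)) N root u) ^ 2 ∂(unu d) ≤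
      6 * ((gma d θ α s ^ N / (N * s)) ^ 2 * (4 * Ups s) * N * ∑ v ∈ D \ ball r, (α ^ 2) ^ len v) +
      3 * ((gma d θ α s ^ N / (N * s)) ^ 2 * (Win d r N).card * ∑ e ∈ Win d r N,
        (K ^ 2 / 4 * (Ahat θ s D' l' e.1 e.2 - Ahat θ s D (l'.filter (fun x => x ∈ D)) e.1 e.2) +
          8 * ∫ u, Tb s R u)) := by
  classical
  set l := l'.filter (fun x => x ∈ D) with hl
  set C := gma d θ α s ^ N / (N * s) with hC
  have hroot : root ∈ D := hball (mem_ball.mpr (Nat.zero_le _))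
  have hlnd : l.Nodup := hl'.filter _
  have hlD : ∀ v ∈ l, v ∈ D := fun x hx => by simpa using (List.mem_filter.mp hx).2
  have hmem : ∀ v ∈ D, v ∈ l := fun x hx =>
    List.mem_filter.mpr ⟨(hlD' x).mpr (hDD hx), by simpa using hx⟩
  set PΩ : Measure (OmP d × UN d) := (PL d θ).prod (unu d) with hPΩ
  set U' : OmP d × UN d → UN d := fun p => innov θ s D' (obA s p.1) p.2 (evL l' N) with hU'
  set U'' : OmP d × UN d → UN d := fun p => innov θ s D (obA s p.1) p.2 (evL l N) with hU''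
  have mp1 : MeasurePreserving U' PΩ (unu d) :=
    mp_innov θ hθ hs (evL_nodup hl' N) (fun e he => (hlD' _).mp (mem_evL.mp he).1)
  have mp2 : MeasurePreserving U'' PΩ (unu d) :=
    mp_innov θ hθ hs (evL_nodup hlnd N) (fun e he => hlD _ (mem_evL.mp he).1)
  set G' := GS θ s D' l' N root with hG'
  set G'' := GS θ s D l N root with hG''
  have mG' : Measurable G' := measurable_GS θ s D' l' N root
  have mG'' : Measurable G'' := measurable_GS θ s D l N root
  have aG' : ∀ x, |G' x| ≤ 1 := abs_GS_le θ s D' l' N root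
  have aG'' : ∀ x, |G'' x| ≤ 1 := abs_GS_le θ s D l N root
  have hGeq : ∀ p, G' (U' p) = G'' (U'' p) := by
    intro p
    simp only [hG', hG'', GS, hU', hU'']
    rw [run_innov θ hs (evL_nodup hl' N), run_innov θ hs (evL_nodup hlnd N)]
    congr 2
    rw [hl, ← evL_filter l' (fun x => x ∈ D) N]
    exact (stL_filter _ _ D hroot).symm
  set W := Wout l r N with hW
  set Gb := es_avg volume W G'' with hGb
  have mGb : Measurable Gb := measurable_es_avg W mG''
  have aGb : ∀ x, |Gb x| ≤ 1 := abs_es_avg_le W aG''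
  -- the left side in the planted space
  have e0 : ∫ u, (G' u - G'' u) ^ 2 ∂(unu d) = ∫ p, (G'' (U'' p) - G'' (U' p)) ^ 2 ∂PΩ := by
    rw [← mp_integral mp1 (h := fun x => (G' x - G'' x) ^ 2) ((mG'.sub mG'').pow_const 2).aestronglyMeasurable]
    refine integral_congr_ae (Filter.Eventually.of_forall fun p => ?_)
    show (G' (U' p) - G'' (U' p)) ^ 2 = _
    rw [hGeq]
  -- integrability
  have sq_int : ∀ {f g : UN d → ℝ}, Measurable f → Measurable g → (∀ x, |f x| ≤ 1) → (∀ x, |g x| ≤ 1) →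
      ∀ {V₁ V₂ : OmP d × UN d → UN d}, Measurable V₁ → Measurable V₂ →
        Integrable (fun p => (f (V₁ p) - g (V₂ p)) ^ 2) PΩ := by
    intro f g hf hg af ag V₁ V₂ hV₁ hV₂
    refine integrable_bdd (C := 4) (((hf.comp hV₁).sub (hg.comp hV₂)).pow_const 2) fun p => ?_
    rw [abs_of_nonneg (sq_nonneg _)]
    have h1 := abs_le.mp (af (V₁ p))
    have h2 := abs_le.mp (ag (V₂ p))
    nlinarith
  have i1 := sq_int mG'' mGb aG'' aGb mp2.measurable mp2.measurable
  have i2 := sq_int mGb mGb aGb aGb mp2.measurable mp1.measurable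
  have i3 := sq_int mGb mG'' aGb aG'' mp1.measurable mp1.measurable
  have hsplit : ∫ p, (G'' (U'' p) - G'' (U' p)) ^ 2 ∂PΩ ≤
      3 * ∫ p, (G'' (U'' p) - Gb (U'' p)) ^ 2 ∂PΩ + 3 * ∫ p, (Gb (U'' p) - Gb (U' p)) ^ 2 ∂PΩ +
        3 * ∫ p, (Gb (U' p) - G'' (U' p)) ^ 2 ∂PΩ := by
    have j1 := i1.const_mul 3
    have j2 := i2.const_mul 3
    have j3 := i3.const_mul 3
    have j12 : Integrable (fun p => 3 * (G'' (U'' p) - Gb (U'' p)) ^ 2 + 3 * (Gb (U'' p) - Gb (U' p)) ^ 2) PΩ := j1.add j2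
    have j123 : Integrable (fun p => 3 * (G'' (U'' p) - Gb (U'' p)) ^ 2 + 3 * (Gb (U'' p) - Gb (U' p)) ^ 2 +
      3 * (Gb (U' p) - G'' (U' p)) ^ 2) PΩ := j12.add j3
    have e5 : ∫ p, (3 * (G'' (U'' p) - Gb (U'' p)) ^ 2 + 3 * (Gb (U'' p) - Gb (U' p)) ^ 2 +
        3 * (Gb (U' p) - G'' (U' p)) ^ 2) ∂PΩ = 3 * ∫ p, (G'' (U'' p) - Gb (U'' p)) ^ 2 ∂PΩ +
        3 * ∫ p, (Gb (U'' p) - Gb (U' p)) ^ 2 ∂PΩ + 3 * ∫ p, (Gb (U' p) - G'' (U' p)) ^ 2 ∂PΩ := by
      rw [integral_add j12 j3, integral_add j1 j2, integral_const_mul, integral_const_mul, integral_const_mul]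
    rw [← e5]
    refine integral_mono_of_nonneg (Filter.Eventually.of_forall fun p => sq_nonneg _)
      j123 (Filter.Eventually.of_forall fun p => ?_)
    show (G'' (U'' p) - G'' (U' p)) ^ 2 ≤ 3 * (G'' (U'' p) - Gb (U'' p)) ^ 2 + 3 * (Gb (U'' p) - Gb (U' p)) ^ 2 +
      3 * (Gb (U' p) - G'' (U' p)) ^ 2
    nlinarith [sq_nonneg ((G'' (U'' p) - Gb (U'' p)) - (Gb (U'' p) - Gb (U' p))),
      sq_nonneg ((G'' (U'' p) - Gb (U'' p)) - (Gb (U' p) - G'' (U' p))),
      sq_nonneg ((Gb (U'' p) - Gb (U' p)) - (Gb (U' p) - G'' (U' p)))]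
  -- the two Efron-Stein terms
  have hE := es_tail hθ hd hα hα' hα0 hs hs1 hk0 hcκ hD hlnd hlD r hN hroot
  have e1 : ∫ p, (G'' (U'' p) - Gb (U'' p)) ^ 2 ∂PΩ = ∫ x, (G'' x - Gb x) ^ 2 ∂(unu d) :=
    mp_integral mp2 (f := U'') (h := fun x => (G'' x - Gb x) ^ 2)
      ((mG''.sub mGb).pow_const 2).aestronglyMeasurable
  have e3 : ∫ p, (Gb (U' p) - G'' (U' p)) ^ 2 ∂PΩ = ∫ x, (G'' x - Gb x) ^ 2 ∂(unu d) := by
    have := mp_integral mp1 (f := U') (h := fun x => (G'' x - Gb x) ^ 2)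
      ((mG''.sub mGb).pow_const 2).aestronglyMeasurable
    rw [← this]
    refine integral_congr_ae (Filter.Eventually.of_forall fun p => ?_)
    show (Gb (U' p) - G'' (U' p)) ^ 2 = (G'' (U' p) - Gb (U' p)) ^ 2
    ring
  -- the window term
  have hinn : ∀ᵐ p ∂PΩ, (∀ e, ker_inn (U' p e)) ∧ ∀ e, ker_inn (U'' p e) := by
    filter_upwards [mp1.quasiMeasurePreserving.ae ae_inn, mp2.quasiMeasurePreserving.ae ae_inn] with p h1 h2
    exact ⟨h1, h2⟩
  have mev : ∀ (e : Ix d) {V : OmP d × UN d → UN d}, Measurable V → Measurable (fun p => ((V p e : unitInterval) : ℝ)) :=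
    fun e V hV => measurable_subtype_coe.comp ((measurable_pi_apply e).comp hV)
  have hdiff : ∀ e ∈ Win d r N, ∀ p, (((U'' p e : unitInterval) : ℝ) - ((U' p e : unitInterval) : ℝ)) ^ 2 ≤
      1 / 4 * (Pmean θ s D' l' e.1 e.2 (obA s p.1) - Pmean θ s D l e.1 e.2 (obA s p.1)) ^ 2 := by
    rintro ⟨v, k⟩ he p
    obtain ⟨hv1, hk⟩ := mem_Win.mp he
    have hvD : v ∈ D := hball (mem_ball.mpr hv1)
    have h1 : U' p (v, k) = _ := innov_evL θ s hl' ((hlD' v).mpr (hDD hvD)) hk D' (obA s p.1) p.2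
    have h2 : U'' p (v, k) = _ := innov_evL θ s hlnd (hmem v hvD) hk D (obA s p.1) p.2
    have h3 := CC_diff s (hf θ D (stL (obA s p.1) (pre l v k)) v) (hf θ D' (stL (obA s p.1) (pre l' v k)) v)
      (obA s p.1 (v, k))
    rw [h1, h2]
    simp only [Pmean]
    rw [show (1 : ℝ) / 4 * (Real.tanh (hf θ D' (stL (obA s p.1) (pre l' v k)) v) -
        Real.tanh (hf θ D (stL (obA s p.1) (pre l v k)) v)) ^ 2 =
        (|Real.tanh (hf θ D (stL (obA s p.1) (pre l v k)) v) -
        Real.tanh (hf θ D' (stL (obA s p.1) (pre l' v k)) v)| / 2) ^ 2 by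
      rw [div_pow, sq_abs]
      ring]
    refine sq_le_sq' ?_ ((le_abs_self _).trans h3)
    have := neg_abs_le (((CC s (hf θ D (stL (obA s p.1) (pre l v k)) v) (obA s p.1 (v, k)) : unitInterval) : ℝ) -
      ((CC s (hf θ D' (stL (obA s p.1) (pre l' v k)) v) (obA s p.1 (v, k)) : unitInterval) : ℝ))
    linarith
  have hint_diff : ∀ e ∈ Win d r N, ∫ p, (((U'' p e : unitInterval) : ℝ) - ((U' p e : unitInterval) : ℝ)) ^ 2 ∂PΩ ≤
      1 / 4 * (Ahat θ s D' l' e.1 e.2 - Ahat θ s D l e.1 e.2) := by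
    rintro ⟨v, k⟩ he
    obtain ⟨hv1, hk⟩ := mem_Win.mp he
    have hvD : v ∈ D := hball (mem_ball.mpr hv1)
    have hp := pyth hθ hs hDD hl' (fun x hx => (hlD' x).mp hx) hvD ((hlD' v).mpr (hDD hvD)) k (θ := θ) (s := s)
    have mP : Measurable (fun ω : OmP d => (Pmean θ s D' l' v k (obA s ω) - Pmean θ s D l v k (obA s ω)) ^ 2) :=
      (((measurable_Pmean θ s D' l' v k).comp (measurable_obA s)).sub
        ((measurable_Pmean θ s D l v k).comp (measurable_obA s))).pow_const 2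
    have h5 : ∫ p, (Pmean θ s D' l' v k (obA s p.1) - Pmean θ s D l v k (obA s p.1)) ^ 2 ∂PΩ =
        ∫ ω, (Pmean θ s D' l' v k (obA s ω) - Pmean θ s D l v k (obA s ω)) ^ 2 ∂(PL d θ) :=
      mp_integral (measurePreserving_fst (μ := PL d θ) (ν := unu d))
        (h := fun ω => (Pmean θ s D' l' v k (obA s ω) - Pmean θ s D l v k (obA s ω)) ^ 2) mP.aestronglyMeasurable
    have i5 : Integrable (fun p : OmP d × UN d =>
        1 / 4 * (Pmean θ s D' l' v k (obA s p.1) - Pmean θ s D l v k (obA s p.1)) ^ 2) PΩ := by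
      refine Integrable.const_mul ?_ _
      refine integrable_bdd (C := 4) (mP.comp measurable_fst) fun p => ?_
      show |(Pmean θ s D' l' v k (obA s p.1) - Pmean θ s D l v k (obA s p.1)) ^ 2| ≤ 4
      rw [abs_of_nonneg (sq_nonneg _)]
      have h1 := abs_le.mp (abs_Pmean_le θ s D' l' v k (obA s p.1))
      have h2 := abs_le.mp (abs_Pmean_le θ s D l v k (obA s p.1))
      nlinarith
    have h6 := integral_mono_of_nonneg (μ := PΩ) (Filter.Eventually.of_forall fun p => sq_nonneg _) i5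
      (Filter.Eventually.of_forall fun p => hdiff (v, k) he p)
    refine h6.trans (le_of_eq ?_)
    rw [integral_const_mul, h5, hp]
  have hTint : ∀ (e : Ix d) {V : OmP d × UN d → UN d}, MeasurePreserving V PΩ (unu d) →
      Integrable (fun p => Tb s R (V p e)) PΩ ∧ ∫ p, Tb s R (V p e) ∂PΩ = ∫ u, Tb s R u := by
    intro e V hV
    have h1 := (mp_eval e).comp hV
    exact ⟨(h1.integrable_comp (measurable_Tb s R).aestronglyMeasurable).mpr (integrable_Tb s R),
      mp_integral h1 (h := Tb s R) (measurable_Tb s R).aestronglyMeasurable⟩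
  have hsqint : ∀ e : Ix d, Integrable (fun p => (((U'' p e : unitInterval) : ℝ) - ((U' p e : unitInterval) : ℝ)) ^ 2) PΩ := by
    intro e
    refine integrable_bdd (C := 1) (((mev e mp2.measurable).sub (mev e mp1.measurable)).pow_const 2) fun p => ?_
    rw [abs_of_nonneg (sq_nonneg _)]
    have h1 := (U'' p e).2
    have h2 := (U' p e).2
    simp only [Set.mem_Icc] at h1 h2
    nlinarith
  have hterm : ∀ e : Ix d, Integrable (fun p => K ^ 2 * (((U'' p e : unitInterval) : ℝ) - ((U' p e : unitInterval) : ℝ)) ^ 2 +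
      4 * Tb s R (U'' p e) + 4 * Tb s R (U' p e)) PΩ := fun e =>
    (((hsqint e).const_mul _).add ((hTint e mp2).1.const_mul 4)).add ((hTint e mp1).1.const_mul 4)
  have hmid : ∫ p, (Gb (U'' p) - Gb (U' p)) ^ 2 ∂PΩ ≤
      C ^ 2 * (Win d r N).card * ∑ e ∈ Win d r N,
        (K ^ 2 / 4 * (Ahat θ s D' l' e.1 e.2 - Ahat θ s D l e.1 e.2) + 8 * ∫ u, Tb s R u) := by
    have hI : Integrable (fun p => C ^ 2 * (Win d r N).card * ∑ e ∈ Win d r N,
        (K ^ 2 * (((U'' p e : unitInterval) : ℝ) - ((U' p e : unitInterval) : ℝ)) ^ 2 +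
          4 * Tb s R (U'' p e) + 4 * Tb s R (U' p e))) PΩ :=
      (integrable_finsetSum _ fun e _ => hterm e).const_mul _
    refine (integral_mono_of_nonneg (Filter.Eventually.of_forall fun p => sq_nonneg _) hI ?_).trans ?_
    · filter_upwards [hinn] with p hp
      exact avg_mid hθ hd hα hα' hα0 hα1 hs hs1 hk0 hcκ hD hlnd hlD hN hroot hK hmod hp.2 hp.1
    · rw [integral_const_mul, integral_finsetSum _ fun e _ => hterm e]
      refine mul_le_mul_of_nonneg_left (Finset.sum_le_sum fun e he => ?_) (by positivity)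
      have i6 := (hsqint e).const_mul (K ^ 2)
      have i7 := (hTint e mp2).1.const_mul 4
      have i8 := (hTint e mp1).1.const_mul 4
      have i67 : Integrable (fun p => K ^ 2 * (((U'' p e : unitInterval) : ℝ) - ((U' p e : unitInterval) : ℝ)) ^ 2 +
          4 * Tb s R (U'' p e)) PΩ := i6.add i7
      have e7 : ∫ p, K ^ 2 * (((U'' p e : unitInterval) : ℝ) - ((U' p e : unitInterval) : ℝ)) ^ 2 +
          4 * Tb s R (U'' p e) + 4 * Tb s R (U' p e) ∂PΩ =
          K ^ 2 * ∫ p, (((U'' p e : unitInterval) : ℝ) - ((U' p e : unitInterval) : ℝ)) ^ 2 ∂PΩ +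
            4 * (∫ u, Tb s R u) + 4 * ∫ u, Tb s R u := by
        rw [integral_add i67 i8, integral_add i6 i7, integral_const_mul, integral_const_mul,
          integral_const_mul, (hTint e mp2).2, (hTint e mp1).2]
      rw [e7]
      have h9 := mul_le_mul_of_nonneg_left (hint_diff e he) (sq_nonneg K)
      nlinarith
  rw [e0]
  refine hsplit.trans ?_
  rw [e1, e3]
  nlinarith

end Compare

end Vale.Agent.Lib.P161
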