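import Vale.Agent.Lib.P161.SLCauchy

/-!
Covariance of the runs under automorphisms, and the absence of ties in the priorities.
-/

namespace Vale.Agent.Lib.P161

open MeasureTheory ProbabilityTheory
open scoped NNReal ENNReal

variable {d : ℕ}

/-- The action on events. -/
def actE (g : Aut d) (e : Ix d) : Ix d := (g e.1, e.2)

lemma evS_map (g : Aut d) (l : List (Word d)) (k : ℕ) :
    evS (l.map g) k = (evS l k).map (actE g) := by
  simp [evS, actE, List.map_map, Function.comp_def]

lemma evL_map (g : Aut d) (l : List (Word d)) (N : ℕ) :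
    evL (l.map g) N = (evL l N).map (actE g) := by
  induction N with
  | zero => simp
  | succ N ih => rw [evL_succ, evL_succ, ih, evS_map, List.map_append]

section Cov

variable (θ : ℝ) [Corr θ] (s : ℝ≥0)

lemma stepSL_map (g : Aut d) (D : Finset (Word d)) (u : UN d) (y : Word d → ℝ) (e : Ix d) :
    stepSL θ s (D.map g.toEquiv.toEmbedding) (actU g u) (actS g y) (actE g e) =
      actS g (stepSL θ s D u y e) := by
  funext x
  have h1 : actS g y (g e.1) = y e.1 := by
    show y (g.symm (g e.1)) = y e.1
    rw [g.symm_apply_apply]
  have h2 : actU g u (actE g e) = u e := by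
    show u (g.symm (g e.1), e.2) = u e
    rw [g.symm_apply_apply]
  have h3 := hf_map θ g D y e.1
  simp only [stepSL, actE]
  show Function.update (actS g y) (g e.1) (actS g y (g e.1) +
    OO s (hf θ (D.map g.toEquiv.toEmbedding) (actS g y) (g e.1)) (actU g u (actE g e))) x = _
  rw [h1, h2, h3]
  by_cases hx : x = g e.1
  · subst hx
    simp [actS]
  · rw [Function.update_of_ne hx]
    have hx2 : g.symm x ≠ e.1 := by
      intro h
      apply hx
      rw [← h, g.apply_symm_apply]
    show y (g.symm x) = Function.update y e.1 _ (g.symm x)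
    rw [Function.update_of_ne hx2]

lemma fold_map (g : Aut d) (D : Finset (Word d)) (u : UN d) (ev : List (Ix d)) (y : Word d → ℝ) :
    (ev.map (actE g)).foldl (stepSL θ s (D.map g.toEquiv.toEmbedding) (actU g u)) (actS g y) =
      actS g (ev.foldl (stepSL θ s D u) y) := by
  induction ev generalizing y with
  | nil => rfl
  | cons e ev ih =>
    simp only [List.map_cons, List.foldl_cons]
    rw [stepSL_map, ih]

lemma runSL_map (g : Aut d) (D : Finset (Word d)) (u : UN d) (ev : List (Ix d)) :
    runSL θ s (D.map g.toEquiv.toEmbedding) (actU g u) (ev.map (actE g)) = actS g (runSL θ s D u ev) := by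
  unfold runSL
  have h : (0 : Word d → ℝ) = actS g 0 := rfl
  conv_lhs => rw [h]
  exact fold_map θ s g D u ev 0

lemma GS_map (g : Aut d) (D : Finset (Word d)) (l : List (Word d)) (N : ℕ) (o : Word d) (u : UN d) :
    GS θ s (D.map g.toEquiv.toEmbedding) (l.map g) N (g o) (actU g u) = GS θ s D l N o u := by
  unfold GS
  rw [evL_map, runSL_map]
  show cl (runSL θ s D u (evL l N) (g.symm (g o)) / _) = _
  rw [g.symm_apply_apply]

/-- Covariance of the output for priorities without ties. -/
theorem FF_act (g : Aut d) (D : Finset (Word d)) (N : ℕ) (o : Word d) {p : Xi d} (hp : Function.Injective p.1) :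
    FF θ s (D.map g.toEquiv.toEmbedding) N (g o) (actX g p) = FF θ s D N o p := by
  unfold FF
  have h1 : lsort (D.map g.toEquiv.toEmbedding) (actX g p).1 = (lsort D p.1).map g :=
    (lsort_map g (hp.injOn)).symm
  rw [h1]
  exact GS_map θ s g D _ N o p.2

end Cov

/-- Almost surely the priorities have no ties. -/
lemma ae_inj : ∀ᵐ τ ∂(LT d), Function.Injective τ := by
  classical
  have key : ∀ a b : Word d, a ≠ b → ∀ᵐ τ ∂(LT d), τ a ≠ τ b := by
    intro a b hab
    have hmp := es_mp (volume : Measure unitInterval) ({a} : Finset (Word d))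
    have hset : MeasurableSet {τ : Word d → unitInterval | τ a = τ b} :=
      measurableSet_eq_fun (measurable_pi_apply a) (measurable_pi_apply b)
    have h0 : (LT d) {τ | τ a = τ b} = 0 := by
      have h1 := hmp.measure_preimage hset.nullMeasurableSet
      unfold LT
      rw [← h1]
      have hs2 : MeasurableSet ((fun p : (Word d → unitInterval) × (Word d → unitInterval) =>
          es_repl {a} p.1 p.2) ⁻¹' {τ | τ a = τ b}) := hmp.measurable hset
      rw [Measure.measure_prod_null hs2]
      refine Filter.Eventually.of_forall fun x => ?_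
      have h2 : Prod.mk x ⁻¹' ((fun p : (Word d → unitInterval) × (Word d → unitInterval) =>
          es_repl {a} p.1 p.2) ⁻¹' {τ | τ a = τ b}) = (fun t : Word d → unitInterval => t a) ⁻¹' {x b} := by
        ext t
        simp [es_repl, hab, hab.symm]
      show (Measure.infinitePi fun _ : Word d => (volume : Measure unitInterval)) _ = 0
      rw [h2]
      have h3 := (measurePreserving_eval_infinitePi (fun _ : Word d => (volume : Measure unitInterval)) a).measure_preimage
        (measurableSet_singleton (x b)).nullMeasurableSet
      rw [h3]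
      simp
    exact (measure_eq_zero_iff_ae_notMem.mp h0)
  have h : ∀ᵐ τ ∂(LT d), ∀ a b : Word d, a ≠ b → τ a ≠ τ b := by
    rw [ae_all_iff]
    intro a
    rw [ae_all_iff]
    intro b
    by_cases hab : a = b
    · exact Filter.Eventually.of_forall fun τ h => absurd hab h
    · filter_upwards [key a b hab] with τ hτ _ using hτ
  filter_upwards [h] with τ hτ a b hab
  by_contra hne
  exact hτ a b hne hab

lemma ae_inj_X : ∀ᵐ p ∂(LX d), Function.Injective p.1 :=
  (measurePreserving_fst (μ := LT d) (ν := unu d)).quasiMeasurePreserving.ae ae_inj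

end Vale.Agent.Lib.P161
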