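import Vale.Agent.Lib.P161.Kernel
import Vale.Agent.Lib.P161.Ising

/-!
Definitions for the sequential observation scheme on the tree. A run reveals noisy observations of the
spins one event at a time; the next observation at a vertex is drawn through the field `hf` computed
from the current state.
-/

namespace Vale.Agent.Lib.P161

open MeasureTheory ProbabilityTheory
open scoped NNReal ENNReal

variable {d : ℕ}

/-- Events: a vertex and a time. -/
abbrev Ix (d : ℕ) : Type := Word d × ℕ

/-- Uniform noise configurations. -/
abbrev UN (d : ℕ) : Type := Ix d → unitInterval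

/-- The law of the uniform noise. -/
noncomputable def unu (d : ℕ) : Measure (UN d) := Measure.infinitePi (fun _ : Ix d => (volume : Measure unitInterval))

instance : IsProbabilityMeasure (unu d) := by unfold unu; infer_instance

/-- The exponential tilt of a configuration by the state `y` on `D`. -/
noncomputable def tiltE (D : Finset (Word d)) (y : Word d → ℝ) (σ : Word d → Bool) : ℝ :=
  Real.exp (∑ x ∈ D, sp (σ x) * y x)

/-- The partition function on `D` with field `y`, restricted to `σ v = b`. -/
noncomputable def zb (θ : ℝ) (D : Finset (Word d)) (y : Word d → ℝ) (v : Word d) (b : Bool) : ℝ :=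
  ∫ σ, (if σ v = b then tiltE D y σ else 0) ∂(isingLaw d θ)

/-- The effective field at `v`: half the log odds of `σ v = false` under the tilted measure. -/
noncomputable def hf (θ : ℝ) (D : Finset (Word d)) (y : Word d → ℝ) (v : Word d) : ℝ :=
  (1 / 2) * Real.log (zb θ D y v false / zb θ D y v true)

open Classical in
/-- The observation drawn with effective field `h` from the uniform variable `u`. -/
noncomputable def OO (s : ℝ≥0) (h : ℝ) (u : unitInterval) : ℝ :=
  if ker_inn u then ker_q (siteKer s h) u - h else 0

/-- The distribution function of the observation with effective field `h`. -/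
noncomputable def CC (s : ℝ≥0) (h z : ℝ) : unitInterval :=
  ⟨cdf (siteKer s h) (z + h), cdf_nonneg _ _, cdf_le_one _ _⟩

/-- One event of a run on `D`. -/
noncomputable def stepSL (θ : ℝ) (s : ℝ≥0) (D : Finset (Word d)) (u : UN d) (y : Word d → ℝ)
    (e : Ix d) : Word d → ℝ :=
  Function.update y e.1 (y e.1 + OO s (hf θ D y e.1) (u e))

/-- The state after the events of the list `ev`. -/
noncomputable def runSL (θ : ℝ) (s : ℝ≥0) (D : Finset (Word d)) (u : UN d) (ev : List (Ix d)) :
    Word d → ℝ :=
  ev.foldl (stepSL θ s D u) 0

/-- The state obtained by adding the observations `a` along the list `ev`. -/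
def stL (a : Ix d → ℝ) (ev : List (Ix d)) : Word d → ℝ :=
  ev.foldl (fun y e => Function.update y e.1 (y e.1 + a e)) 0

/-- The planted space: a spin configuration and a Gaussian variable for each event. -/
abbrev OmP (d : ℕ) : Type := (Word d → Bool) × (Ix d → ℝ)

/-- The law of the standard Gaussian array. -/
noncomputable def gam (d : ℕ) : Measure (Ix d → ℝ) := Measure.infinitePi (fun _ : Ix d => gaussianReal 0 1)

instance : IsProbabilityMeasure (gam d) := by unfold gam; infer_instance

/-- The planted law. -/
noncomputable def PL (d : ℕ) (θ : ℝ) : Measure (OmP d) := (isingLaw d θ).prod (gam d)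

instance (θ : ℝ) [Corr θ] : IsProbabilityMeasure (PL d θ) := by unfold PL; infer_instance

/-- The observations in the planted space. -/
noncomputable def obA (s : ℝ≥0) (ω : OmP d) (e : Ix d) : ℝ :=
  s * sp (ω.1 e.1) + √s * ω.2 e

/-- The innovation noise of the observations `a` along `ev` for the field on `D`; the noise `υ` is
kept at the other events. -/
noncomputable def innov (θ : ℝ) (s : ℝ≥0) (D : Finset (Word d)) (a : Ix d → ℝ) (υ : UN d)
    (ev : List (Ix d)) : UN d :=
  (ev.foldl (fun p e => (Function.update p.1 e.1 (p.1 e.1 + a e),
    Function.update p.2 e (CC s (hf θ D p.1 e.1) (a e)))) ((0 : Word d → ℝ), υ)).2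

end Vale.Agent.Lib.P161
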