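import Mathlib

/-!
The limit in `L²` of a Cauchy sequence of bounded measurable functions, as a bounded measurable function.
-/

namespace Vale.Agent.Lib.P161

open MeasureTheory

lemma clip_sq_le {a b : ℝ} (ha : |a| ≤ 1) : (a - max (-1) (min 1 b)) ^ 2 ≤ (a - b) ^ 2 := by
  obtain ⟨h1, h2⟩ := abs_le.mp ha
  by_cases hb1 : 1 ≤ b
  · have e : max (-1) (min 1 b) = 1 := by
      rw [min_eq_left hb1, max_eq_right (by norm_num)]
    rw [e]
    nlinarith
  · by_cases hb2 : b ≤ -1
    · have e : max (-1) (min 1 b) = -1 := by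
        rw [min_eq_right (by linarith), max_eq_left hb2]
      rw [e]
      nlinarith
    · have e : max (-1) (min 1 b) = b := by
        rw [min_eq_right (by linarith), max_eq_right (by linarith)]
      rw [e]

/-- The limit. -/
theorem l2_limit {Ω : Type*} [MeasurableSpace Ω] {μ : Measure Ω} [IsProbabilityMeasure μ] {F : ℕ → Ω → ℝ}
    (hF : ∀ n, Measurable (F n)) (hb : ∀ n x, |F n x| ≤ 1) {b : ℕ → ℝ}
    (hb0 : Filter.Tendsto b Filter.atTop (nhds 0))
    (hC : ∀ n m, ∫ x, (F n x - F m x) ^ 2 ∂μ ≤ b n + b m) :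
    ∃ f : Ω → ℝ, Measurable f ∧ (∀ x, |f x| ≤ 1) ∧
      Filter.Tendsto (fun n => ∫ x, (F n x - f x) ^ 2 ∂μ) Filter.atTop (nhds 0) := by
  have hL : ∀ n, MemLp (F n) 2 μ := fun n =>
    MemLp.of_bound (hF n).aestronglyMeasurable 1 (Filter.Eventually.of_forall fun x => by
      simpa using hb n x)
  set G : ℕ → Lp ℝ 2 μ := fun n => (hL n).toLp (F n) with hG
  have hGae : ∀ n, G n =ᵐ[μ] F n := fun n => (hL n).coeFn_toLp
  have hnorm : ∀ X : Lp ℝ 2 μ, ‖X‖ ^ 2 = ∫ x, (X : Ω → ℝ) x ^ 2 ∂μ := by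
    intro X
    rw [← real_inner_self_eq_norm_sq, L2.inner_def]
    refine integral_congr_ae (Filter.Eventually.of_forall fun x => ?_)
    simp [pow_two]
  have hdist : ∀ n (X : Lp ℝ 2 μ), ‖G n - X‖ ^ 2 = ∫ x, (F n x - (X : Ω → ℝ) x) ^ 2 ∂μ := by
    intro n X
    rw [hnorm]
    refine integral_congr_ae ?_
    filter_upwards [Lp.coeFn_sub (G n) X, hGae n] with x h1 h2
    rw [h1]
    simp [h2]
  have hdist2 : ∀ n m, ‖G n - G m‖ ^ 2 = ∫ x, (F n x - F m x) ^ 2 ∂μ := by
    intro n m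
    rw [hdist]
    refine integral_congr_ae ?_
    filter_upwards [hGae m] with x h2
    rw [h2]
  have hCauchy : CauchySeq G := by
    rw [Metric.cauchySeq_iff]
    intro ε hε
    have hε2 : 0 < ε ^ 2 / 2 := by positivity
    obtain ⟨N, hN⟩ := Filter.eventually_atTop.mp (hb0.eventually (gt_mem_nhds hε2))
    refine ⟨N, fun n hn m hm => ?_⟩
    rw [dist_eq_norm]
    have h1 : ‖G n - G m‖ ^ 2 < ε ^ 2 := by
      rw [hdist2]
      have h2 := hN n hn
      have h3 := hN m hm
      have h4 := hC n m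
      linarith
    exact lt_of_pow_lt_pow_left₀ 2 hε.le h1
  obtain ⟨L, hLim⟩ := cauchySeq_tendsto_of_complete hCauchy
  have hmeas : Measurable (L : Ω → ℝ) := (Lp.stronglyMeasurable L).measurable
  refine ⟨fun x => max (-1) (min 1 ((L : Ω → ℝ) x)), by fun_prop, fun x => ?_, ?_⟩
  · rw [abs_le]
    refine ⟨le_max_left _ _, max_le (by norm_num) (min_le_left _ _)⟩
  · have hn : Filter.Tendsto (fun n => ‖G n - L‖ ^ 2) Filter.atTop (nhds 0) := by
      have h1 : Filter.Tendsto (fun n => ‖G n - L‖) Filter.atTop (nhds 0) := by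
        have := (hLim.sub_const L).norm
        simpa using this
      simpa using h1.pow 2
    refine squeeze_zero (fun n => integral_nonneg fun x => sq_nonneg _) (fun n => ?_) hn
    rw [hdist]
    refine integral_mono_of_nonneg (Filter.Eventually.of_forall fun x => sq_nonneg _) ?_
      (Filter.Eventually.of_forall fun x => clip_sq_le (hb n x))
    exact ((hL n).sub (Lp.memLp L)).integrable_sq

end Vale.Agent.Lib.P161
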