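import Vale.Agent.Lib.P161.SLPlant
import Vale.Agent.Lib.P161.SLLimit

/-!
The limit of the outputs of the runs as the domain and the number of sweeps grow, and the factor
map with the law of the Ising model.
-/

namespace Vale.Agent.Lib.P161

open MeasureTheory ProbabilityTheory
open scoped NNReal ENNReal

variable {d : ℕ}

lemma len_aut_le (γ : Aut d) (u : Word d) : len (γ u) ≤ len (γ root) + len u := by
  obtain ⟨l, hl⟩ := u
  induction l with
  | nil => exact Nat.le_add_right _ _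
  | cons a l ih =>
    have hadj : (treeGraph d).Adj (γ ⟨l, hl.tail⟩) (γ ⟨a :: l, hl⟩) :=
      γ.map_adj_iff.mpr (Or.inr ⟨by simp, rfl⟩)
    have h1 := ih hl.tail
    have h3 : len (⟨a :: l, hl⟩ : Word d) = len (⟨l, hl.tail⟩ : Word d) + 1 := by
      simp [len]
    rcases adj_len hadj with ⟨h2, _⟩ | ⟨h2, _⟩ <;> omega

lemma stab_symm {k : Aut d} (hk : k root = root) : k.symm root = root := by
  have := k.symm_apply_apply root
  rwa [hk] at this

lemma len_stab {k : Aut d} (hk : k root = root) (u : Word d) : len (k u) = len u := by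
  apply le_antisymm
  · have := len_aut_le k u
    rw [hk] at this
    simpa using this
  · have := len_aut_le k.symm (k u)
    rw [stab_symm hk, k.symm_apply_apply] at this
    simpa using this

lemma ball_map_stab {k : Aut d} (hk : k root = root) (R : ℕ) :
    (ball R : Finset (Word d)).map k.toEquiv.toEmbedding = ball R := by
  ext x
  simp only [Finset.mem_map, mem_ball]
  constructor
  · rintro ⟨y, hy, rfl⟩
    have : len (k y) = len y := len_stab hk y
    show len (k y) ≤ R
    omega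
  · intro hx
    refine ⟨k.symm x, ?_, k.apply_symm_apply x⟩
    rw [len_stab (stab_symm hk)]
    exact hx

lemma sp_decide {x : ℝ} (h : |x| = 1) : sp (decide (x < 0)) = x := by
  by_cases h0 : x < 0
  · rw [abs_of_neg h0] at h
    simp only [h0, decide_true, sp_true]
    linarith
  · have h1 : 0 ≤ x := not_lt.mp h0
    rw [abs_of_nonneg h1] at h
    rw [decide_eq_false h0, sp_false, h]

/-- The conditions on the parameters. -/
structure SLP (d : ℕ) (θ α : ℝ) (s : ℝ≥0) : Prop where
  hθ : θ < 1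
  hd : 2 ≤ d
  hα : θ < α
  hα' : ((d : ℝ) - 1) * θ * α < 1
  hα0 : 0 ≤ α
  hα1 : α ≤ 1
  hq : ((d : ℝ) - 1) * α ^ 2 < 1
  hs : s ≠ 0
  hs1 : s < 1
  hk0 : 0 ≤ kap d θ α
  hcκ : s / (1 - s) * kap d θ α < 1

section Integrals

variable {θ : ℝ} [Corr θ] {s : ℝ≥0}

lemma sq_bound {x y : ℝ} (hx : |x| ≤ 1) (hy : |y| ≤ 1) : (x - y) ^ 2 ≤ 4 := by
  have h1 := abs_le.mp hx
  have h2 := abs_le.mp hy
  nlinarith

lemma integrable_sq_diff {Ω : Type*} [MeasurableSpace Ω] {μ : Measure Ω} [IsProbabilityMeasure μ]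
    {f g : Ω → ℝ} (hf : Measurable f) (hg : Measurable g) (af : ∀ x, |f x| ≤ 1) (ag : ∀ x, |g x| ≤ 1) :
    Integrable (fun x => (f x - g x) ^ 2) μ := by
  refine integrable_bdd (C := 4) ((hf.sub hg).pow_const 2) fun x => ?_
  rw [abs_of_nonneg (sq_nonneg _)]
  exact sq_bound (af x) (ag x)

/-- Two runs with different numbers of sweeps, random order. -/
lemma FF_pair (hθ : θ < 1) (hs : s ≠ 0) {D : Finset (Word d)} {o : Word d} (ho : o ∈ D) {N N' : ℕ} (hN : 1 ≤ N)
    (hN' : 1 ≤ N') :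
    ∫ p, (FF θ s D N o p - FF θ s D N' o p) ^ 2 ∂(LX d) ≤ 2 * (1 / (N * s)) + 2 * (1 / (N' * s)) := by
  have i1 := integrable_sq_diff (μ := LX d) (measurable_FF θ s D N o) (measurable_FF θ s D N' o)
    (abs_FF_le θ s D N o) (abs_FF_le θ s D N' o)
  have e0 : ∫ p, (FF θ s D N o p - FF θ s D N' o p) ^ 2 ∂(LX d) =
      ∫ τ, ∫ u, (GS θ s D (lsort D τ) N o u - GS θ s D (lsort D τ) N' o u) ^ 2 ∂(unu d) ∂(LT d) :=
    integral_prod _ i1
  rw [e0]
  have h2 := integral_mono_of_nonneg (μ := LT d)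
    (f := fun τ => ∫ u, (GS θ s D (lsort D τ) N o u - GS θ s D (lsort D τ) N' o u) ^ 2 ∂(unu d))
    (Filter.Eventually.of_forall fun τ => integral_nonneg fun u => sq_nonneg _)
    (integrable_const (2 * (1 / ((N : ℝ) * s)) + 2 * (1 / ((N' : ℝ) * s))))
    (Filter.Eventually.of_forall fun τ => GS_pair hθ hs (lsort_nodup D τ) (fun v hv => mem_lsort.mp hv)
      (mem_lsort.mpr ho) hN hN')
  simpa using h2

/-- The output is nearly a sign, random order. -/
lemma FF_abs (hθ : θ < 1) (hs : s ≠ 0) {D : Finset (Word d)} {o : Word d} (ho : o ∈ D) {N : ℕ} (hN : 1 ≤ N) :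
    ∫ p, (|FF θ s D N o p| - 1) ^ 2 ∂(LX d) ≤ (1 : ℝ) / (N * s) := by
  have i1 : Integrable (fun p => (|FF θ s D N o p| - 1) ^ 2) (LX d) := by
    refine integrable_bdd (C := 4) (((measurable_FF θ s D N o).abs.sub measurable_const).pow_const 2) fun p => ?_
    rw [abs_of_nonneg (sq_nonneg _)]
    refine sq_bound ?_ (by simp)
    rw [abs_abs]
    exact abs_FF_le θ s D N o p
  have e0 : ∫ p, (|FF θ s D N o p| - 1) ^ 2 ∂(LX d) =
      ∫ τ, ∫ u, (|GS θ s D (lsort D τ) N o u| - 1) ^ 2 ∂(unu d) ∂(LT d) :=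
    integral_prod _ i1
  rw [e0]
  have h2 := integral_mono_of_nonneg (μ := LT d)
    (f := fun τ => ∫ u, (|GS θ s D (lsort D τ) N o u| - 1) ^ 2 ∂(unu d))
    (Filter.Eventually.of_forall fun τ => integral_nonneg fun u => sq_nonneg _)
    (integrable_const ((1 : ℝ) / (N * s)))
    (Filter.Eventually.of_forall fun τ => GS_abs hθ hs (lsort_nodup D τ) (fun v hv => mem_lsort.mp hv)
      (mem_lsort.mpr ho) hN)
  simpa using h2

lemma hab_sp (b : Bool) {y : ℝ} (hy : |y| ≤ 1) : |(1 + sp b * y) / 2| ≤ 1 := by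
  rw [abs_div, abs_two, div_le_iff₀ (by norm_num)]
  refine (abs_add_le _ _).trans ?_
  rw [abs_one, abs_mul, abs_sp, one_mul]
  linarith

/-- The mean of a product of the outputs against the Ising law, random order. -/
lemma FF_prod (hθ : θ < 1) (hs : s ≠ 0) {D : Finset (Word d)} {N : ℕ} (hN : 1 ≤ N) (D₁ : Finset (Word d))
    (hD₁ : D₁ ⊆ D) (η : Word d → Bool) {e : ℝ} (he : 0 ≤ e) (hee : 1 / (N * s) ≤ e ^ 2) :
    |∫ p, ∏ v ∈ D₁, ((1 + sp (η v) * FF θ s D N v p) / 2) ∂(LX d) - (isingLaw d θ).real (cyl D₁ η)| ≤ D₁.card * e := by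
  have mP : Measurable (fun p : Xi d => ∏ v ∈ D₁, ((1 + sp (η v) * FF θ s D N v p) / 2)) :=
    Finset.measurable_fun_prod _ fun v _ => (((measurable_FF θ s D N v).const_mul _).const_add _).div_const _
  have aP : ∀ p : Xi d, |∏ v ∈ D₁, ((1 + sp (η v) * FF θ s D N v p) / 2)| ≤ 1 := fun p => by
    rw [Finset.abs_prod]
    exact Finset.prod_le_one (fun _ _ => abs_nonneg _) fun v _ => hab_sp _ (abs_FF_le θ s D N v p)
  have i1 := integrable_bdd (μ := LX d) mP aP
  have e0 : ∫ p, ∏ v ∈ D₁, ((1 + sp (η v) * FF θ s D N v p) / 2) ∂(LX d) =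
      ∫ τ, ∫ u, ∏ v ∈ D₁, ((1 + sp (η v) * GS θ s D (lsort D τ) N v u) / 2) ∂(unu d) ∂(LT d) :=
    integral_prod _ i1
  rw [e0]
  set c := (isingLaw d θ).real (cyl D₁ η) with hc
  have i2 : Integrable (fun τ => ∫ u, ∏ v ∈ D₁, ((1 + sp (η v) * GS θ s D (lsort D τ) N v u) / 2) ∂(unu d)) (LT d) :=
    i1.integral_prod_left
  have e1 : ∫ τ, ∫ u, ∏ v ∈ D₁, ((1 + sp (η v) * GS θ s D (lsort D τ) N v u) / 2) ∂(unu d) ∂(LT d) - c =
      ∫ τ, ((∫ u, ∏ v ∈ D₁, ((1 + sp (η v) * GS θ s D (lsort D τ) N v u) / 2) ∂(unu d)) - c) ∂(LT d) := by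
    rw [integral_sub i2 (integrable_const _)]
    simp
  rw [e1]
  refine (abs_integral_le_integral_abs).trans ?_
  have h2 := integral_mono_of_nonneg (μ := LT d)
    (f := fun τ => |(∫ u, ∏ v ∈ D₁, ((1 + sp (η v) * GS θ s D (lsort D τ) N v u) / 2) ∂(unu d)) - c|)
    (Filter.Eventually.of_forall fun τ => abs_nonneg _)
    (integrable_const ((D₁.card : ℝ) * e))
    (Filter.Eventually.of_forall fun τ => GS_prod hθ hs (lsort_nodup D τ) (fun v hv => mem_lsort.mp hv)
      hN D₁ (fun v hv => mem_lsort.mpr (hD₁ hv)) η he hee)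
  simpa using h2

end Integrals

section Limit

variable {θ α : ℝ} [Corr θ] {s : ℝ≥0}

/-- The limit of the outputs at the root. -/
theorem exists_limit (P : SLP d θ α s) :
    ∃ f : Xi d → ℝ, Measurable f ∧ (∀ p, |f p| ≤ 1) ∧ ∀ δ : ℝ, 0 < δ → ∃ N : ℕ, 1 ≤ N ∧ (1 : ℝ) / (N * s) ≤ δ ∧
      ∃ R₀ : ℕ, ∀ D : Finset (Word d), ball R₀ ⊆ D →
        ∫ p, (f p - FF θ s D N root p) ^ 2 ∂(LX d) ≤ δ := by
  have hs' : (0 : ℝ) < s := by
    have := pos_iff_ne_zero.mpr P.hs
    exact_mod_cast this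
  have hc := fun n : ℕ => cauchy_FF P.hθ P.hd P.hα P.hα' P.hα0 P.hα1 P.hq P.hs P.hs1 P.hk0 P.hcκ
    (N := n + 1) (by omega) (ε := 1 / ((n : ℝ) + 1)) (by positivity)
  choose R hR using hc
  set F : ℕ → Xi d → ℝ := fun n => FF θ s (ball (R n)) (n + 1) root with hF
  set B : ℝ := 3 + 6 / s with hB
  have hB0 : 0 < B := by positivity
  set b : ℕ → ℝ := fun n => B / ((n : ℝ) + 1) with hb
  have hb0 : Filter.Tendsto b Filter.atTop (nhds 0) := by
    refine Filter.Tendsto.const_div_atTop ?_ B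
    exact Filter.tendsto_atTop_add_const_right _ _ tendsto_natCast_atTop_atTop
  have mF : ∀ n, Measurable (F n) := fun n => measurable_FF θ s _ _ _
  have aF : ∀ n x, |F n x| ≤ 1 := fun n x => abs_FF_le θ s _ _ _ x
  have hroot : ∀ r : ℕ, (root : Word d) ∈ (ball r : Finset (Word d)) := fun r => mem_ball.mpr (Nat.zero_le _)
  have hC : ∀ n m, ∫ x, (F n x - F m x) ^ 2 ∂(LX d) ≤ b n + b m := by
    intro n m
    set D : Finset (Word d) := ball (max (R n) (R m)) with hD
    set a' := FF θ s D (n + 1) root with ha'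
    set b' := FF θ s D (m + 1) root with hb'
    have ma' : Measurable a' := measurable_FF θ s _ _ _
    have mb' : Measurable b' := measurable_FF θ s _ _ _
    have aa' : ∀ x, |a' x| ≤ 1 := abs_FF_le θ s _ _ _
    have ab' : ∀ x, |b' x| ≤ 1 := abs_FF_le θ s _ _ _
    have c1 := hR n (ball (R n)) D (ball_connClosed _) (Finset.Subset.refl _) (ball_mono (le_max_left _ _))
    have c2 := hR m (ball (R m)) D (ball_connClosed _) (Finset.Subset.refl _) (ball_mono (le_max_right _ _))
    have c3 := FF_pair (θ := θ) P.hθ P.hs (hroot (max (R n) (R m))) (N := n + 1) (N' := m + 1) (by omega) (by omega)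
    have i1 := integrable_sq_diff (μ := LX d) ma' (mF n) aa' (aF n)
    have i2 := integrable_sq_diff (μ := LX d) ma' mb' aa' ab'
    have i3 := integrable_sq_diff (μ := LX d) mb' (mF m) ab' (aF m)
    have j1 := i1.const_mul 3
    have j2 := i2.const_mul 3
    have j3 := i3.const_mul 3
    have j12 : Integrable (fun x => 3 * (a' x - F n x) ^ 2 + 3 * (a' x - b' x) ^ 2) (LX d) := j1.add j2
    have j123 : Integrable (fun x => 3 * (a' x - F n x) ^ 2 + 3 * (a' x - b' x) ^ 2 + 3 * (b' x - F m x) ^ 2) (LX d) :=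
      j12.add j3
    have h1 := integral_mono_of_nonneg (μ := LX d) (f := fun x => (F n x - F m x) ^ 2)
      (Filter.Eventually.of_forall fun x => sq_nonneg _) j123 (Filter.Eventually.of_forall fun x => by
        show (F n x - F m x) ^ 2 ≤ 3 * (a' x - F n x) ^ 2 + 3 * (a' x - b' x) ^ 2 + 3 * (b' x - F m x) ^ 2
        nlinarith [sq_nonneg ((F n x - a' x) - (a' x - b' x)), sq_nonneg ((F n x - a' x) - (b' x - F m x)),
          sq_nonneg ((a' x - b' x) - (b' x - F m x))])
    refine h1.trans ?_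
    have e1 : ∫ x, (3 * (a' x - F n x) ^ 2 + 3 * (a' x - b' x) ^ 2 + 3 * (b' x - F m x) ^ 2) ∂(LX d) =
        3 * ∫ x, (a' x - F n x) ^ 2 ∂(LX d) + 3 * ∫ x, (a' x - b' x) ^ 2 ∂(LX d) + 3 * ∫ x, (b' x - F m x) ^ 2 ∂(LX d) := by
      rw [integral_add j12 j3, integral_add j1 j2, integral_const_mul, integral_const_mul, integral_const_mul]
    rw [e1]
    have c3' : ∫ x, (a' x - b' x) ^ 2 ∂(LX d) ≤ 2 * (1 / (((n + 1 : ℕ) : ℝ) * s)) + 2 * (1 / (((m + 1 : ℕ) : ℝ) * s)) := c3
    have c1' : ∫ x, (a' x - F n x) ^ 2 ∂(LX d) ≤ 1 / ((n : ℝ) + 1) := c1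
    have c2' : ∫ x, (b' x - F m x) ^ 2 ∂(LX d) ≤ 1 / ((m : ℝ) + 1) := c2
    have e2 : b n + b m = 3 * (1 / ((n : ℝ) + 1)) + 3 * (2 * (1 / (((n + 1 : ℕ) : ℝ) * s)) + 2 * (1 / (((m + 1 : ℕ) : ℝ) * s))) +
        3 * (1 / ((m : ℝ) + 1)) := by
      simp only [hb, hB]
      push_cast
      field_simp
      ring
    rw [e2]
    linarith
  obtain ⟨f, hf, af, hlim⟩ := l2_limit (μ := LX d) mF aF hb0 hC
  refine ⟨f, hf, af, fun δ hδ => ?_⟩
  have hδ4 : 0 < δ / 4 := by positivity
  have ev1 := hlim.eventually (gt_mem_nhds hδ4)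
  have ev2 := hb0.eventually (gt_mem_nhds hδ4)
  obtain ⟨n, hn1, hn2⟩ := (ev1.and ev2).exists
  have hn0 : (0 : ℝ) < (n : ℝ) + 1 := by positivity
  have hb2 : (1 : ℝ) / ((n : ℝ) + 1) ≤ b n := by
    simp only [hb]
    refine div_le_div_of_nonneg_right ?_ hn0.le
    rw [hB]
    have : 0 < 6 / (s : ℝ) := by positivity
    linarith
  refine ⟨n + 1, by omega, ?_, R n, fun D hD => ?_⟩
  · have hb3 : (1 : ℝ) / (((n + 1 : ℕ) : ℝ) * s) ≤ b n := by
      simp only [hb]
      push_cast
      rw [div_le_div_iff₀ (by positivity) hn0, hB]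
      have e3 : (3 + 6 / (s : ℝ)) * (((n : ℝ) + 1) * s) = 3 * (((n : ℝ) + 1) * s) + 6 * ((n : ℝ) + 1) := by
        field_simp
      rw [e3]
      have : 0 ≤ 3 * (((n : ℝ) + 1) * s) := by positivity
      linarith
    linarith
  · have c1 := hR n (ball (R n)) D (ball_connClosed _) (Finset.Subset.refl _) hD
    have mG := measurable_FF θ s D (n + 1) (root : Word d)
    have aG := abs_FF_le θ s D (n + 1) (root : Word d)
    have i1 := integrable_sq_diff (μ := LX d) (mF n) hf (aF n) af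
    have i2 := integrable_sq_diff (μ := LX d) mG (mF n) aG (aF n)
    have j1 := i1.const_mul 2
    have j2 := i2.const_mul 2
    have j12 : Integrable (fun x => 2 * (F n x - f x) ^ 2 + 2 * (FF θ s D (n + 1) root x - F n x) ^ 2) (LX d) := j1.add j2
    have h1 := integral_mono_of_nonneg (μ := LX d) (f := fun x => (f x - FF θ s D (n + 1) root x) ^ 2)
      (Filter.Eventually.of_forall fun x => sq_nonneg _) j12 (Filter.Eventually.of_forall fun x => by
        show (f x - FF θ s D (n + 1) root x) ^ 2 ≤ 2 * (F n x - f x) ^ 2 + 2 * (FF θ s D (n + 1) root x - F n x) ^ 2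
        nlinarith [sq_nonneg ((F n x - f x) - (FF θ s D (n + 1) root x - F n x))])
    refine h1.trans ?_
    rw [integral_add j1 j2, integral_const_mul, integral_const_mul]
    have c1' : ∫ x, (FF θ s D (n + 1) root x - F n x) ^ 2 ∂(LX d) ≤ 1 / ((n : ℝ) + 1) := c1
    have c2 : ∫ x, (F n x - f x) ^ 2 ∂(LX d) < δ / 4 := hn1
    linarith

/-- The limit is a sign. -/
lemma limit_abs (P : SLP d θ α s) {f : Xi d → ℝ} (hf : Measurable f) (af : ∀ p, |f p| ≤ 1)
    (hlim : ∀ δ : ℝ, 0 < δ → ∃ N : ℕ, 1 ≤ N ∧ (1 : ℝ) / (N * s) ≤ δ ∧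
      ∃ R₀ : ℕ, ∀ D : Finset (Word d), ball R₀ ⊆ D → ∫ p, (f p - FF θ s D N root p) ^ 2 ∂(LX d) ≤ δ) :
    ∀ᵐ p ∂(LX d), |f p| = 1 := by
  have i0 : Integrable (fun p => (|f p| - 1) ^ 2) (LX d) := by
    refine integrable_bdd (C := 4) ((hf.abs.sub measurable_const).pow_const 2) fun p => ?_
    rw [abs_of_nonneg (sq_nonneg _)]
    refine sq_bound ?_ (by simp)
    rw [abs_abs]
    exact af p
  have hsmall : ∀ δ : ℝ, 0 < δ → ∫ p, (|f p| - 1) ^ 2 ∂(LX d) ≤ 4 * δ := by
    intro δ hδ
    obtain ⟨N, hN, hNδ, R₀, hR₀⟩ := hlim δ hδ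
    set G := FF θ s (ball R₀) N (root : Word d) with hG
    have mG : Measurable G := measurable_FF θ s _ _ _
    have aG : ∀ p, |G p| ≤ 1 := abs_FF_le θ s _ _ _
    have c1 := hR₀ (ball R₀) (Finset.Subset.refl _)
    have c2 := FF_abs (d := d) (θ := θ) P.hθ P.hs (D := ball R₀) (o := root) (mem_ball.mpr (Nat.zero_le _)) hN
    have i1 := integrable_sq_diff (μ := LX d) hf mG af aG
    have i2 : Integrable (fun p => (|G p| - 1) ^ 2) (LX d) := by
      refine integrable_bdd (C := 4) ((mG.abs.sub measurable_const).pow_const 2) fun p => ?_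
      rw [abs_of_nonneg (sq_nonneg _)]
      refine sq_bound ?_ (by simp)
      rw [abs_abs]
      exact aG p
    have j1 := i1.const_mul 2
    have j2 := i2.const_mul 2
    have j12 : Integrable (fun p => 2 * (f p - G p) ^ 2 + 2 * (|G p| - 1) ^ 2) (LX d) := j1.add j2
    have h1 := integral_mono_of_nonneg (μ := LX d) (f := fun p => (|f p| - 1) ^ 2)
      (Filter.Eventually.of_forall fun p => sq_nonneg _) j12 (Filter.Eventually.of_forall fun p => by
        show (|f p| - 1) ^ 2 ≤ 2 * (f p - G p) ^ 2 + 2 * (|G p| - 1) ^ 2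
        have h3 := abs_abs_sub_abs_le_abs_sub (f p) (G p)
        have h4 : (|f p| - |G p|) ^ 2 ≤ (f p - G p) ^ 2 := by
          rw [← sq_abs (f p - G p), ← sq_abs (|f p| - |G p|)]
          exact pow_le_pow_left₀ (abs_nonneg _) h3 2
        nlinarith [sq_nonneg ((|f p| - |G p|) - (|G p| - 1))])
    refine h1.trans ?_
    rw [integral_add j1 j2, integral_const_mul, integral_const_mul]
    linarith
  have h0 : ∫ p, (|f p| - 1) ^ 2 ∂(LX d) = 0 := by
    apply le_antisymm
    · refine le_of_forall_pos_le_add fun ε hε => ?_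
      have := hsmall (ε / 4) (by positivity)
      linarith
    · exact integral_nonneg fun _ => sq_nonneg _
  have h1 := (integral_eq_zero_iff_of_nonneg (fun p => sq_nonneg _) i0).mp h0
  filter_upwards [h1] with p hp
  have h2 : (|f p| - 1) ^ 2 = 0 := hp
  have h3 := pow_eq_zero_iff (two_ne_zero) |>.mp h2
  linarith

/-- The limit is invariant under the stabiliser of the root. -/
lemma limit_inv (P : SLP d θ α s) {f : Xi d → ℝ} (hf : Measurable f) (af : ∀ p, |f p| ≤ 1)
    (hlim : ∀ δ : ℝ, 0 < δ → ∃ N : ℕ, 1 ≤ N ∧ (1 : ℝ) / (N * s) ≤ δ ∧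
      ∃ R₀ : ℕ, ∀ D : Finset (Word d), ball R₀ ⊆ D → ∫ p, (f p - FF θ s D N root p) ^ 2 ∂(LX d) ≤ δ)
    (k : Aut d) (hk : k root = root) : ∀ᵐ p ∂(LX d), f (actX k p) = f p := by
  have mk := mp_actX (d := d) k
  have mf2 : Measurable (fun p => f (actX k p)) := hf.comp mk.measurable
  have af2 : ∀ p, |f (actX k p)| ≤ 1 := fun p => af _
  have i0 := integrable_sq_diff (μ := LX d) mf2 hf af2 af
  have hsmall : ∀ δ : ℝ, 0 < δ → ∫ p, (f (actX k p) - f p) ^ 2 ∂(LX d) ≤ 4 * δ := by
    intro δ hδ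
    obtain ⟨N, hN, hNδ, R₀, hR₀⟩ := hlim δ hδ
    set G := FF θ s (ball R₀) N (root : Word d) with hG
    have mG : Measurable G := measurable_FF θ s _ _ _
    have aG : ∀ p, |G p| ≤ 1 := abs_FF_le θ s _ _ _
    have c1 := hR₀ (ball R₀) (Finset.Subset.refl _)
    have hcov : ∀ᵐ p ∂(LX d), G (actX k p) = G p := by
      filter_upwards [ae_inj_X] with p hp
      have := FF_act θ s k (ball R₀) N root hp
      rw [hk, ball_map_stab hk] at this
      exact this
    have i1 := integrable_sq_diff (μ := LX d) hf mG af aG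
    have i2 : Integrable (fun p => (f (actX k p) - G (actX k p)) ^ 2) (LX d) :=
      integrable_sq_diff (μ := LX d) mf2 (mG.comp mk.measurable) af2 (fun p => aG _)
    have e1 : ∫ p, (f (actX k p) - G (actX k p)) ^ 2 ∂(LX d) = ∫ p, (f p - G p) ^ 2 ∂(LX d) :=
      mp_integral mk (h := fun p => (f p - G p) ^ 2) ((hf.sub mG).pow_const 2).aestronglyMeasurable
    have j1 := i2.const_mul 2
    have j2 := i1.const_mul 2
    have j12 : Integrable (fun p => 2 * (f (actX k p) - G (actX k p)) ^ 2 + 2 * (f p - G p) ^ 2) (LX d) := j1.add j2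
    have h1 := integral_mono_of_nonneg (μ := LX d) (f := fun p => (f (actX k p) - f p) ^ 2)
      (Filter.Eventually.of_forall fun p => sq_nonneg _) j12 (by
        filter_upwards [hcov] with p hp
        show (f (actX k p) - f p) ^ 2 ≤ 2 * (f (actX k p) - G (actX k p)) ^ 2 + 2 * (f p - G p) ^ 2
        rw [hp]
        nlinarith [sq_nonneg ((f (actX k p) - G p) + (f p - G p))])
    refine h1.trans ?_
    rw [integral_add j1 j2, integral_const_mul, integral_const_mul, e1]
    linarith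
  have h0 : ∫ p, (f (actX k p) - f p) ^ 2 ∂(LX d) = 0 := by
    apply le_antisymm
    · refine le_of_forall_pos_le_add fun ε hε => ?_
      have := hsmall (ε / 4) (by positivity)
      linarith
    · exact integral_nonneg fun _ => sq_nonneg _
  have h1 := (integral_eq_zero_iff_of_nonneg (fun p => sq_nonneg _) i0).mp h0
  filter_upwards [h1] with p hp
  have h2 : (f (actX k p) - f p) ^ 2 = 0 := hp
  have h3 := pow_eq_zero_iff (two_ne_zero) |>.mp h2
  linarith

/-- The factor map on priorities and noise. -/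
noncomputable def PhiX (f : Xi d → ℝ) (p : Xi d) (v : Word d) : Bool :=
  open Classical in decide (f (actX (gm v).symm p) < 0)

lemma measurable_PhiX {f : Xi d → ℝ} (hf : Measurable f) : Measurable (PhiX f) := by
  classical
  refine measurable_pi_lambda _ fun v => measurable_to_bool ?_
  have : (fun p => PhiX f p v) ⁻¹' {true} = {p | f (actX (gm v).symm p) < 0} := by
    ext p
    simp [PhiX]
  rw [this]
  exact measurableSet_lt (hf.comp (measurable_actX _)) measurable_const

/-- Equivariance of the factor map. -/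
lemma equivariant_PhiX {f : Xi d → ℝ}
    (hinv : ∀ k : Aut d, k root = root → ∀ᵐ p ∂(LX d), f (actX k p) = f p) (g : Aut d) :
    ∀ᵐ p ∂(LX d), PhiX f (actX g p) = actS g (PhiX f p) := by
  have hall : ∀ v : Word d, ∀ᵐ p ∂(LX d), PhiX f (actX g p) v = actS g (PhiX f p) v := by
    intro v
    set h₂ : Aut d := (gm (g.symm v)).symm with hh₂
    set h₁ : Aut d := g.trans (gm v).symm with hh₁
    set k : Aut d := h₂.symm.trans h₁ with hk
    have hkroot : k root = root := by
      show (gm v).symm (g ((gm (g.symm v)) root)) = root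
      rw [gm_root]
      have e1 : g (g.symm v) = v := g.apply_symm_apply v
      rw [e1]
      have := (gm v).symm_apply_apply root
      rwa [gm_root] at this
    have h6 := (mp_actX h₂).quasiMeasurePreserving.ae (hinv k hkroot)
    filter_upwards [h6] with p hp
    show PhiX f (actX g p) v = PhiX f p (g.symm v)
    unfold PhiX
    have e4 : actX (gm v).symm (actX g p) = actX k (actX h₂ p) := by
      have e5 : ∀ x, g.symm ((gm v).symm.symm x) = h₂.symm (k.symm x) := by
        intro x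
        show g.symm (gm v x) = (gm (g.symm v)) ((gm (g.symm v)).symm (g.symm (gm v x)))
        simp
      refine Prod.ext ?_ ?_
      · funext x
        show p.1 (g.symm ((gm v).symm.symm x)) = p.1 (h₂.symm (k.symm x))
        rw [e5]
      · funext x
        show p.2 (g.symm ((gm v).symm.symm x.1), x.2) = p.2 (h₂.symm (k.symm x.1), x.2)
        rw [e5]
    rw [e4, hp]
  filter_upwards [ae_all_iff.mpr hall] with p hp
  funext v
  exact hp v

/-- The law of the factor map. -/
lemma law_PhiX (P : SLP d θ α s) {f : Xi d → ℝ} (hf : Measurable f) (af : ∀ p, |f p| ≤ 1)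
    (hlim : ∀ δ : ℝ, 0 < δ → ∃ N : ℕ, 1 ≤ N ∧ (1 : ℝ) / (N * s) ≤ δ ∧
      ∃ R₀ : ℕ, ∀ D : Finset (Word d), ball R₀ ⊆ D → ∫ p, (f p - FF θ s D N root p) ^ 2 ∂(LX d) ≤ δ)
    (D₁ : Finset (Word d)) (η : Word d → Bool) :
    (LX d) {p | ∀ v ∈ D₁, PhiX f p v = η v} = isingLaw d θ (cyl D₁ η) := by
  classical
  have habs := limit_abs P hf af hlim
  set S : Set (Xi d) := {p | ∀ v ∈ D₁, PhiX f p v = η v} with hS
  have mΦ := measurable_PhiX hf
  have hSm : MeasurableSet S := by
    have : S = ⋂ v ∈ D₁, (fun p => PhiX f p v) ⁻¹' {η v} := by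
      ext p
      simp [hS]
    rw [this]
    exact Finset.measurableSet_biInter _ fun v _ =>
      ((measurable_pi_apply v).comp mΦ) (measurableSet_singleton _)
  set fv : Word d → Xi d → ℝ := fun v p => f (actX (gm v).symm p) with hfv
  have mfv : ∀ v, Measurable (fv v) := fun v => hf.comp (measurable_actX _)
  have afv : ∀ v p, |fv v p| ≤ 1 := fun v p => af _
  have hsp : ∀ᵐ p ∂(LX d), ∀ v, sp (PhiX f p v) = fv v p := by
    rw [ae_all_iff]
    intro v
    filter_upwards [(mp_actX (d := d) (gm v).symm).quasiMeasurePreserving.ae habs] with p hp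
    exact sp_decide hp
  -- the measure as an integral
  have e1 : (LX d).real S = ∫ p, ∏ v ∈ D₁, ((1 + sp (η v) * fv v p) / 2) ∂(LX d) := by
    rw [← integral_indicator_one hSm]
    refine integral_congr_ae ?_
    filter_upwards [hsp] with p hp
    have h1 : S.indicator (1 : Xi d → ℝ) p = (cyl D₁ η).indicator (fun _ => (1 : ℝ)) (PhiX f p) := by
      by_cases hq : p ∈ S
      · rw [Set.indicator_of_mem hq, Set.indicator_of_mem (show PhiX f p ∈ cyl D₁ η from hq)]
        rfl
      · rw [Set.indicator_of_notMem hq, Set.indicator_of_notMem (show PhiX f p ∉ cyl D₁ η from hq)]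
    rw [h1, ← prod_sp_eq]
    refine Finset.prod_congr rfl fun v _ => ?_
    rw [hp v]
  -- the approximation
  have key : ∀ e : ℝ, 0 < e →
      |∫ p, ∏ v ∈ D₁, ((1 + sp (η v) * fv v p) / 2) ∂(LX d) - (isingLaw d θ).real (cyl D₁ η)| ≤ 2 * (D₁.card * e) := by
    intro e he
    obtain ⟨N, hN, hNδ, R₀, hR₀⟩ := hlim (e ^ 2) (by positivity)
    set n₁ := D₁.sup len with hn₁
    set Db : Finset (Word d) := ball (R₀ + n₁) with hDb
    have hD₁b : D₁ ⊆ Db := by
      intro v hv
      rw [hDb, mem_ball]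
      have : len v ≤ n₁ := Finset.le_sup (f := len) hv
      omega
    have hterm : ∀ v ∈ D₁, ∫ p, |fv v p - FF θ s Db N v p| ∂(LX d) ≤ e := by
      intro v hv
      set g : Aut d := (gm v).symm with hg
      have hcl : (ball R₀ : Finset (Word d)) ⊆ Db.map g.toEquiv.toEmbedding := by
        intro x hx
        refine Finset.mem_map.mpr ⟨gm v x, ?_, ?_⟩
        · rw [hDb, mem_ball]
          have h1 := len_aut_le (gm v) x
          rw [gm_root] at h1
          have h2 : len v ≤ n₁ := Finset.le_sup (f := len) hv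
          have h3 := mem_ball.mp hx
          omega
        · exact (gm v).symm_apply_apply x
      have c1 := hR₀ _ hcl
      have hcov : ∀ᵐ p ∂(LX d), FF θ s (Db.map g.toEquiv.toEmbedding) N root (actX g p) = FF θ s Db N v p := by
        filter_upwards [ae_inj_X] with p hp
        have := FF_act θ s g Db N v hp
        rw [hg, gm_symm_self, ← hg] at this
        exact this
      have mG := measurable_FF θ s (Db.map g.toEquiv.toEmbedding) N (root : Word d)
      have e2 : ∫ p, (fv v p - FF θ s Db N v p) ^ 2 ∂(LX d) =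
          ∫ p, (f p - FF θ s (Db.map g.toEquiv.toEmbedding) N root p) ^ 2 ∂(LX d) := by
        rw [← mp_integral (mp_actX g) (h := fun p => (f p - FF θ s (Db.map g.toEquiv.toEmbedding) N root p) ^ 2)
          ((hf.sub mG).pow_const 2).aestronglyMeasurable]
        refine integral_congr_ae ?_
        filter_upwards [hcov] with p hp
        show (f (actX g p) - FF θ s Db N v p) ^ 2 = (f (actX g p) - _) ^ 2
        rw [hp]
      refine abs_int_le (B := 2) ((mfv v).sub (measurable_FF θ s Db N v)) (fun p => ?_) he.le ?_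
      · refine (abs_sub _ _).trans ?_
        have h1 := afv v p
        have h2 := abs_FF_le θ s Db N v p
        linarith
      · exact (le_of_eq e2).trans c1
    have hprod := FF_prod (θ := θ) P.hθ P.hs (D := Db) hN D₁ hD₁b η he.le hNδ
    have mP1 : Measurable (fun p : Xi d => ∏ v ∈ D₁, ((1 + sp (η v) * fv v p) / 2)) :=
      Finset.measurable_fun_prod _ fun v _ => (((mfv v).const_mul _).const_add _).div_const _
    have mP2 : Measurable (fun p : Xi d => ∏ v ∈ D₁, ((1 + sp (η v) * FF θ s Db N v p) / 2)) :=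
      Finset.measurable_fun_prod _ fun v _ => (((measurable_FF θ s Db N v).const_mul _).const_add _).div_const _
    have a1 : ∀ p : Xi d, |∏ v ∈ D₁, ((1 + sp (η v) * fv v p) / 2)| ≤ 1 := fun p => by
      rw [Finset.abs_prod]
      exact Finset.prod_le_one (fun _ _ => abs_nonneg _) fun v _ => hab_sp _ (afv v p)
    have a2 : ∀ p : Xi d, |∏ v ∈ D₁, ((1 + sp (η v) * FF θ s Db N v p) / 2)| ≤ 1 := fun p => by
      rw [Finset.abs_prod]
      exact Finset.prod_le_one (fun _ _ => abs_nonneg _) fun v _ => hab_sp _ (abs_FF_le θ s Db N v p)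
    have i1 := integrable_bdd (μ := LX d) mP1 a1
    have i2 := integrable_bdd (μ := LX d) mP2 a2
    have hi3 : ∀ v : Word d, Integrable (fun p : Xi d => |fv v p - FF θ s Db N v p|) (LX d) := by
      intro v
      refine integrable_bdd (C := 2) ((mfv v).sub (measurable_FF θ s Db N v)).abs fun p => ?_
      rw [abs_abs]
      refine (abs_sub _ _).trans ?_
      have h1 := afv v p
      have h2 := abs_FF_le θ s Db N v p
      linarith
    have hsumint : Integrable (fun p : Xi d => ∑ v ∈ D₁, |fv v p - FF θ s Db N v p|) (LX d) :=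
      integrable_finsetSum _ fun v _ => hi3 v
    have h3 : |∫ p, ∏ v ∈ D₁, ((1 + sp (η v) * fv v p) / 2) ∂(LX d) -
        ∫ p, ∏ v ∈ D₁, ((1 + sp (η v) * FF θ s Db N v p) / 2) ∂(LX d)| ≤ D₁.card * e := by
      rw [← integral_sub i1 i2]
      refine (abs_integral_le_integral_abs).trans ?_
      have h4 := integral_mono_of_nonneg (μ := LX d) (f := fun p => |∏ v ∈ D₁, ((1 + sp (η v) * fv v p) / 2) -
          ∏ v ∈ D₁, ((1 + sp (η v) * FF θ s Db N v p) / 2)|)
        (Filter.Eventually.of_forall fun p => abs_nonneg _) hsumint (Filter.Eventually.of_forall fun p => by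
          refine (prod_diff D₁ _ _ (fun v _ => hab_sp _ (afv v p)) (fun v _ => hab_sp _ (abs_FF_le θ s Db N v p))).trans ?_
          refine Finset.sum_le_sum fun v _ => ?_
          have e5 : (1 + sp (η v) * fv v p) / 2 - (1 + sp (η v) * FF θ s Db N v p) / 2 =
              sp (η v) * (fv v p - FF θ s Db N v p) / 2 := by ring
          rw [e5, abs_div, abs_mul, abs_sp, one_mul, abs_two]
          linarith [abs_nonneg (fv v p - FF θ s Db N v p)])
      refine h4.trans ?_
      rw [integral_finsetSum _ fun v _ => hi3 v]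
      refine (Finset.sum_le_sum hterm).trans (le_of_eq ?_)
      simp
    have h5 := abs_sub_le (∫ p, ∏ v ∈ D₁, ((1 + sp (η v) * fv v p) / 2) ∂(LX d))
      (∫ p, ∏ v ∈ D₁, ((1 + sp (η v) * FF θ s Db N v p) / 2) ∂(LX d)) ((isingLaw d θ).real (cyl D₁ η))
    linarith
  have e3 : ∫ p, ∏ v ∈ D₁, ((1 + sp (η v) * fv v p) / 2) ∂(LX d) = (isingLaw d θ).real (cyl D₁ η) := by
    refine eq_of_abs_sub_le_all fun ε hε => ?_
    have hc : (0 : ℝ) ≤ D₁.card := Nat.cast_nonneg _
    have h2 := key (ε / (2 * D₁.card + 1)) (by positivity)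
    refine h2.trans ?_
    rw [← mul_assoc, ← mul_div_assoc, div_le_iff₀ (by positivity)]
    nlinarith
  have e4 : (LX d).real S = (isingLaw d θ).real (cyl D₁ η) := by rw [e1, e3]
  rw [← ofReal_measureReal (μ := LX d) (s := S), e4, ofReal_measureReal]

/-- The factor of priorities and noise with the law of the Ising model. -/
theorem exists_factor_X (P : SLP d θ α s) :
    ∃ Φ : Xi d → Word d → Bool, Measurable Φ ∧
      (∀ g : Aut d, ∀ᵐ p ∂(LX d), Φ (actX g p) = actS g (Φ p)) ∧
      ∀ (D : Finset (Word d)) (η : Word d → Bool),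
        (LX d) {p | ∀ v ∈ D, Φ p v = η v} = isingLaw d θ (cyl D η) := by
  obtain ⟨f, hf, af, hlim⟩ := exists_limit P
  exact ⟨PhiX f, measurable_PhiX hf, equivariant_PhiX (limit_inv P hf af hlim), law_PhiX P hf af hlim⟩

end Limit

end Vale.Agent.Lib.P161
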