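import Vale.Agent.Lib.P161.SLDefs

/-!
Properties of the observation kernel of the sequential observation scheme: the distribution function
`CC` and its quantile `OO`.
-/

namespace Vale.Agent.Lib.P161

open MeasureTheory ProbabilityTheory Set Filter Topology
open scoped NNReal ENNReal

lemma slk_tanh_measurable : Measurable Real.tanh := by
  have : Real.tanh = fun x => Real.sinh x / Real.cosh x := by
    funext x; exact Real.tanh_eq_sinh_div_cosh x
  rw [this]
  exact Real.continuous_sinh.measurable.div Real.continuous_cosh.measurable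

lemma slk_tanh_mono {a b : ℝ} (h : a ≤ b) : Real.tanh a ≤ Real.tanh b := by
  rw [Real.tanh_eq_sinh_div_cosh, Real.tanh_eq_sinh_div_cosh,
    div_le_div_iff₀ (Real.cosh_pos _) (Real.cosh_pos _)]
  have h1 : 0 ≤ Real.sinh (b - a) := Real.sinh_nonneg_iff.mpr (by linarith)
  rw [Real.sinh_sub] at h1
  linarith

lemma slk_gauss_shift (m : ℝ) (v : ℝ≥0) (h z : ℝ) :
    cdf (gaussianReal (m + h) v) (z + h) = cdf (gaussianReal m v) z := by
  rw [cdf_eq_real, cdf_eq_real, ← gaussianReal_map_add_const h, measureReal_def, measureReal_def,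
    Measure.map_apply (measurable_add_const _) measurableSet_Iic]
  congr 2
  ext x
  simp

lemma slk_cdf_site (s : ℝ≥0) (x w : ℝ) :
    cdf (siteKer s x) w = (1 + Real.tanh x) / 2 * cdf (gaussianReal (x + s) s) w +
      (1 - Real.tanh x) / 2 * cdf (gaussianReal (x - s) s) w := by
  rw [cdf_eq_real, cdf_eq_real, cdf_eq_real, measureReal_def, measureReal_def, measureReal_def]
  simp only [siteKer, Measure.coe_add, Measure.coe_smul, Pi.add_apply, Pi.smul_apply, smul_eq_mul]
  rw [ENNReal.toReal_add (by finiteness) (by finiteness), ENNReal.toReal_mul, ENNReal.toReal_mul,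
    ENNReal.toReal_ofReal (ker_c1 x), ENNReal.toReal_ofReal (ker_c2 x)]

lemma CC_coe (s : ℝ≥0) (h z : ℝ) : (CC s h z : ℝ) = cdf (siteKer s h) (z + h) := rfl

lemma CC_formula (s : ℝ≥0) (h z : ℝ) :
    (CC s h z : ℝ) = (1 + Real.tanh h) / 2 * cdf (gaussianReal s s) z +
      (1 - Real.tanh h) / 2 * cdf (gaussianReal (-(s : ℝ)) s) z := by
  rw [CC_coe, slk_cdf_site, add_comm h (s : ℝ), sub_eq_neg_add h (s : ℝ), slk_gauss_shift,
    slk_gauss_shift]

lemma CC_diff (s : ℝ≥0) (h h' z : ℝ) :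
    |(CC s h z : ℝ) - (CC s h' z : ℝ)| ≤ |Real.tanh h - Real.tanh h'| / 2 := by
  rw [CC_formula, CC_formula]
  set a := cdf (gaussianReal (s : ℝ) s) z
  set b := cdf (gaussianReal (-(s : ℝ)) s) z
  have ha0 : 0 ≤ a := cdf_nonneg _ _
  have ha1 : a ≤ 1 := cdf_le_one _ _
  have hb0 : 0 ≤ b := cdf_nonneg _ _
  have hb1 : b ≤ 1 := cdf_le_one _ _
  have e : (1 + Real.tanh h) / 2 * a + (1 - Real.tanh h) / 2 * b -
      ((1 + Real.tanh h') / 2 * a + (1 - Real.tanh h') / 2 * b) =
      (Real.tanh h - Real.tanh h') / 2 * (a - b) := by ring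
  rw [e, abs_mul, abs_div, abs_two]
  have hab : |a - b| ≤ 1 := by rw [abs_le]; constructor <;> linarith
  calc |Real.tanh h - Real.tanh h'| / 2 * |a - b| ≤ |Real.tanh h - Real.tanh h'| / 2 * 1 :=
        mul_le_mul_of_nonneg_left hab (by positivity)
    _ = _ := by ring

lemma slk_cdf_gauss_order (s : ℝ≥0) (z : ℝ) :
    cdf (gaussianReal (s : ℝ) s) z ≤ cdf (gaussianReal (-(s : ℝ)) s) z := by
  have h := slk_gauss_shift (-(s : ℝ)) s (2 * s) (z - 2 * s)
  rw [show -(s : ℝ) + 2 * s = s by ring, show z - 2 * s + 2 * s = z by ring] at h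
  rw [h]
  exact monotone_cdf _ (by
    have : (0 : ℝ) ≤ s := s.2
    linarith)

lemma CC_le_cdf_neg (s : ℝ≥0) (h z : ℝ) : (CC s h z : ℝ) ≤ cdf (gaussianReal (-(s : ℝ)) s) z := by
  rw [CC_formula]
  have := slk_cdf_gauss_order s z
  have h1 := ker_c1 h
  have h2 := ker_c2 h
  nlinarith

lemma cdf_pos_le_CC (s : ℝ≥0) (h z : ℝ) : cdf (gaussianReal (s : ℝ) s) z ≤ (CC s h z : ℝ) := by
  rw [CC_formula]
  have := slk_cdf_gauss_order s z
  have h1 := ker_c1 h
  have h2 := ker_c2 h
  nlinarith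

lemma CC_anti (s : ℝ≥0) {h h' : ℝ} (hh : h ≤ h') (z : ℝ) : (CC s h' z : ℝ) ≤ (CC s h z : ℝ) := by
  rw [CC_formula, CC_formula]
  have := slk_cdf_gauss_order s z
  have h1 := slk_tanh_mono hh
  nlinarith

/-- The key equivalence for the quantile `OO`. -/
lemma OO_le_iff (s : ℝ≥0) (h : ℝ) {u : unitInterval} (hu : ker_inn u) (z : ℝ) :
    OO s h u ≤ z ↔ (u : ℝ) ≤ (CC s h z : ℝ) := by
  rw [CC_coe, ← ker_q_le_iff _ hu]
  simp only [OO, hu, if_true]
  constructor <;> intro h' <;> linarith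

lemma slk_measurable_cdf_site (s : ℝ≥0) (z : ℝ) : Measurable (fun h => cdf (siteKer s h) z) := by
  have e : (fun h => cdf (siteKer s h) z) = fun h => ((CC s h (z - h) : unitInterval) : ℝ) := by
    funext h
    rw [CC_coe, sub_add_cancel]
  rw [e]
  simp_rw [CC_formula]
  have h1 : Measurable (cdf (gaussianReal (s : ℝ) s)) := (monotone_cdf _).measurable
  have h2 : Measurable (cdf (gaussianReal (-(s : ℝ)) s)) := (monotone_cdf _).measurable
  have ht := slk_tanh_measurable
  have hm : Measurable (fun h : ℝ => z - h) := measurable_const.sub measurable_id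
  exact (((measurable_const.add ht).div_const 2).mul (h1.comp hm)).add
    (((measurable_const.sub ht).div_const 2).mul (h2.comp hm))

lemma slk_measurable_inn : MeasurableSet {u : unitInterval | ker_inn u} := by
  have h1 : MeasurableSet {u : unitInterval | 0 < (u : ℝ)} :=
    measurableSet_lt measurable_const measurable_subtype_coe
  have h2 : MeasurableSet {u : unitInterval | (u : ℝ) < 1} :=
    measurableSet_lt measurable_subtype_coe measurable_const
  exact h1.inter h2

lemma slk_measurable_q (s : ℝ≥0) :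
    Measurable (fun p : ℝ × unitInterval => ker_q (siteKer s p.1) p.2) := by
  apply measurable_of_Iic
  intro z
  have hle : MeasurableSet {p : ℝ × unitInterval | (p.2 : ℝ) ≤ cdf (siteKer s p.1) z} :=
    measurableSet_le (measurable_subtype_coe.comp measurable_snd)
      ((slk_measurable_cdf_site s z).comp measurable_fst)
  have hinn : MeasurableSet {p : ℝ × unitInterval | ker_inn p.2} :=
    measurable_snd slk_measurable_inn
  have : (fun p : ℝ × unitInterval => ker_q (siteKer s p.1) p.2) ⁻¹' Iic z =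
      ({p : ℝ × unitInterval | ker_inn p.2} ∩ {p | (p.2 : ℝ) ≤ cdf (siteKer s p.1) z}) ∪
        ({p : ℝ × unitInterval | ker_inn p.2}ᶜ ∩ {_p | (0 : ℝ) ≤ z}) := by
    ext ⟨h, u⟩
    by_cases hu : ker_inn u
    · simp [hu, ker_q_le_iff _ hu z]
    · simp [hu, ker_q_of_not hu]
  rw [this]
  refine (hinn.inter hle).union (hinn.compl.inter ?_)
  by_cases hz : (0 : ℝ) ≤ z <;> simp [hz]

lemma measurable_OO (s : ℝ≥0) : Measurable (fun p : ℝ × unitInterval => OO s p.1 p.2) := by
  classical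
  unfold OO
  have hinn : MeasurableSet {p : ℝ × unitInterval | ker_inn p.2} :=
    measurable_snd slk_measurable_inn
  exact Measurable.ite hinn ((slk_measurable_q s).sub measurable_fst) measurable_const

lemma measurable_CC (s : ℝ≥0) : Measurable (fun p : ℝ × ℝ => CC s p.1 p.2) := by
  refine Measurable.subtype_mk ?_
  have e : (fun p : ℝ × ℝ => cdf (siteKer s p.1) (p.2 + p.1)) =
      fun p : ℝ × ℝ => (1 + Real.tanh p.1) / 2 * cdf (gaussianReal s s) p.2 +
      (1 - Real.tanh p.1) / 2 * cdf (gaussianReal (-(s : ℝ)) s) p.2 := by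
    funext p
    exact CC_formula s p.1 p.2
  change Measurable (fun p : ℝ × ℝ => cdf (siteKer s p.1) (p.2 + p.1))
  rw [e]
  have h1 : Measurable (cdf (gaussianReal (s : ℝ) s)) := (monotone_cdf _).measurable
  have h2 : Measurable (cdf (gaussianReal (-(s : ℝ)) s)) := (monotone_cdf _).measurable
  have ht : Measurable (fun p : ℝ × ℝ => Real.tanh p.1) := slk_tanh_measurable.comp measurable_fst
  exact (((measurable_const.add ht).div_const 2).mul (h1.comp measurable_snd)).add
    (((measurable_const.sub ht).div_const 2).mul (h2.comp measurable_snd))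

lemma slk_OO_mono (s : ℝ≥0) {h h' : ℝ} (hh : h ≤ h') (u : unitInterval) :
    OO s h u ≤ OO s h' u := by
  by_cases hu : ker_inn u
  · rw [OO_le_iff s h hu]
    refine le_trans ?_ (CC_anti s hh _)
    exact (OO_le_iff s h' hu _).mp le_rfl
  · simp [OO, hu]

lemma OO_lip {s : ℝ≥0} (hs : s ≠ 0) (hs1 : s < 1) (h h' : ℝ) (u : unitInterval) :
    |OO s h u - OO s h' u| ≤ s / (1 - s) * |h - h'| := by
  have hs1' : (s : ℝ) < 1 := by exact_mod_cast hs1
  have h1s : (0 : ℝ) < 1 - s := by linarith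
  have key : ∀ x y : ℝ, x ≤ y → |OO s x u - OO s y u| ≤ s / (1 - s) * |x - y| := by
    intro x y hxy
    by_cases hu : ker_inn u
    · have hm := slk_OO_mono s hxy u
      obtain ⟨-, h2⟩ := ker_q_step hs hs1 x (sub_nonneg.mpr hxy) u
      rw [add_sub_cancel] at h2
      rw [abs_sub_comm, abs_of_nonneg (sub_nonneg.mpr hm), abs_sub_comm,
        abs_of_nonneg (sub_nonneg.mpr hxy)]
      simp only [OO, hu, if_true]
      have e : (y - x) / (1 - (s : ℝ)) = (y - x) + (s : ℝ) / (1 - s) * (y - x) := by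
        field_simp
        ring
      rw [e] at h2
      linarith
    · simp only [OO, hu, if_false, sub_self, abs_zero]
      positivity
  rcases le_total h h' with hh | hh
  · exact key h h' hh
  · rw [abs_sub_comm, abs_sub_comm h h']
    exact key h' h hh

/-- Lower bound for the Gaussian density. -/
noncomputable def slk_phi (s : ℝ≥0) (R : ℝ) : ℝ :=
  (Real.sqrt (2 * Real.pi * s))⁻¹ * Real.exp (-(R + s) ^ 2 / (2 * s))

lemma slk_phi_pos {s : ℝ≥0} (hs : s ≠ 0) (R : ℝ) : 0 < slk_phi s R := by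
  have hs' : (0 : ℝ) < s := by
    have := pos_iff_ne_zero.mpr hs
    exact_mod_cast this
  have : 0 < Real.sqrt (2 * Real.pi * s) := Real.sqrt_pos.mpr (by positivity)
  unfold slk_phi
  positivity

lemma slk_gauss_Ioc (m : ℝ) (s : ℝ≥0) (a b : ℝ) :
    gaussianReal m s (Ioc a b) =
      ENNReal.ofReal (cdf (gaussianReal m s) b - cdf (gaussianReal m s) a) := by
  conv_lhs => rw [← measure_cdf (gaussianReal m s)]
  exact StieltjesFunction.measure_Ioc _ _ _

lemma slk_gauss_lower {s : ℝ≥0} (hs : s ≠ 0) {m R a b : ℝ} (hm : |m| ≤ s) (ha : -R ≤ a)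
    (hab : a ≤ b) (hb : b ≤ R) :
    slk_phi s R * (b - a) ≤ cdf (gaussianReal m s) b - cdf (gaussianReal m s) a := by
  have hs' : (0 : ℝ) < s := by
    have := pos_iff_ne_zero.mpr hs
    exact_mod_cast this
  have hphi := slk_phi_pos hs R
  have h0 : 0 ≤ cdf (gaussianReal m s) b - cdf (gaussianReal m s) a :=
    sub_nonneg.mpr (monotone_cdf _ hab)
  rw [← ENNReal.ofReal_le_ofReal_iff h0, ← slk_gauss_Ioc, gaussianReal_of_var_ne_zero _ hs,
    withDensity_apply _ measurableSet_Ioc, ENNReal.ofReal_mul hphi.le,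
    ← Real.volume_Ioc, ← setLIntegral_const]
  refine setLIntegral_mono' measurableSet_Ioc fun x hx => ?_
  rw [gaussianPDF, ENNReal.ofReal_le_ofReal_iff (gaussianPDFReal_nonneg _ _ _)]
  unfold slk_phi gaussianPDFReal
  refine mul_le_mul_of_nonneg_left ?_ (by positivity)
  apply Real.exp_le_exp.mpr
  apply div_le_div_of_nonneg_right _ (by positivity)
  have h1 : |x - m| ≤ R + s := by
    rw [abs_le] at hm ⊢
    constructor <;> linarith [hx.1, hx.2]
  have h2 := sq_le_sq' (abs_le.mp h1).1 (abs_le.mp h1).2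
  linarith

lemma slk_gauss_upper {s : ℝ≥0} (hs : s ≠ 0) {m a b : ℝ} (hab : a ≤ b) :
    cdf (gaussianReal m s) b - cdf (gaussianReal m s) a ≤
      (Real.sqrt (2 * Real.pi * s))⁻¹ * (b - a) := by
  have hs' : (0 : ℝ) < s := by
    have := pos_iff_ne_zero.mpr hs
    exact_mod_cast this
  have hM : 0 < (Real.sqrt (2 * Real.pi * s))⁻¹ :=
    inv_pos.mpr (Real.sqrt_pos.mpr (by positivity))
  have h0 : 0 ≤ (Real.sqrt (2 * Real.pi * s))⁻¹ * (b - a) :=
    mul_nonneg hM.le (sub_nonneg.mpr hab)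
  rw [← ENNReal.ofReal_le_ofReal_iff h0, ← slk_gauss_Ioc, gaussianReal_of_var_ne_zero _ hs,
    withDensity_apply _ measurableSet_Ioc, ENNReal.ofReal_mul hM.le,
    ← Real.volume_Ioc, ← setLIntegral_const]
  refine setLIntegral_mono' measurableSet_Ioc fun x _ => ?_
  rw [gaussianPDF, ENNReal.ofReal_le_ofReal_iff hM.le]
  unfold gaussianPDFReal
  have : Real.exp (-(x - m) ^ 2 / (2 * s)) ≤ 1 := by
    apply Real.exp_le_one_iff.mpr
    apply div_nonpos_of_nonpos_of_nonneg
    · nlinarith [sq_nonneg (x - m)]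
    · positivity
  calc _ ≤ (Real.sqrt (2 * Real.pi * s))⁻¹ * 1 := mul_le_mul_of_nonneg_left this hM.le
    _ = _ := mul_one _

lemma CC_lower {s : ℝ≥0} (hs : s ≠ 0) (h : ℝ) {R a b : ℝ} (ha : -R ≤ a) (hab : a ≤ b)
    (hb : b ≤ R) : slk_phi s R * (b - a) ≤ (CC s h b : ℝ) - (CC s h a : ℝ) := by
  rw [CC_formula, CC_formula]
  have hp : |(s : ℝ)| ≤ s := (abs_of_nonneg s.coe_nonneg).le
  have hn : |(-(s : ℝ))| ≤ s := by rw [abs_neg]; exact hp
  have h1 := slk_gauss_lower hs hp ha hab hb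
  have h2 := slk_gauss_lower hs hn ha hab hb
  have c1 := ker_c1 h
  have c2 := ker_c2 h
  have m1 := mul_le_mul_of_nonneg_left h1 c1
  have m2 := mul_le_mul_of_nonneg_left h2 c2
  nlinarith

lemma CC_upper {s : ℝ≥0} (hs : s ≠ 0) (h : ℝ) {a b : ℝ} (hab : a ≤ b) :
    (CC s h b : ℝ) - (CC s h a : ℝ) ≤ (Real.sqrt (2 * Real.pi * s))⁻¹ * (b - a) := by
  rw [CC_formula, CC_formula]
  have h1 := slk_gauss_upper (m := (s : ℝ)) hs hab
  have h2 := slk_gauss_upper (m := (-(s : ℝ))) hs hab
  have c1 := ker_c1 h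
  have c2 := ker_c2 h
  have m1 := mul_le_mul_of_nonneg_left h1 c1
  have m2 := mul_le_mul_of_nonneg_left h2 c2
  nlinarith

lemma CC_strictMono {s : ℝ≥0} (hs : s ≠ 0) (h : ℝ) {a b : ℝ} (hab : a < b) :
    (CC s h a : ℝ) < (CC s h b : ℝ) := by
  have hR1 : -(|a| + |b|) ≤ a := by
    have := neg_abs_le a
    have := abs_nonneg b
    linarith
  have hR2 : b ≤ |a| + |b| := by
    have := le_abs_self b
    have := abs_nonneg a
    linarith
  have := CC_lower hs h hR1 hab.le hR2
  have hphi := slk_phi_pos hs (|a| + |b|)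
  have : 0 < slk_phi s (|a| + |b|) * (b - a) := mul_pos hphi (sub_pos.mpr hab)
  linarith

lemma CC_inn {s : ℝ≥0} (hs : s ≠ 0) (h z : ℝ) : ker_inn (CC s h z) := by
  constructor
  · have h1 := CC_strictMono hs h (show z - 1 < z by linarith)
    have h2 := (CC s h (z - 1)).2.1
    linarith
  · have h1 := CC_strictMono hs h (show z < z + 1 by linarith)
    have h2 := (CC s h (z + 1)).2.2
    linarith

lemma OO_CC {s : ℝ≥0} (hs : s ≠ 0) (h z : ℝ) : OO s h (CC s h z) = z := by
  have hu := CC_inn hs h z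
  have h1 : OO s h (CC s h z) ≤ z := (OO_le_iff s h hu z).mpr le_rfl
  refine le_antisymm h1 ?_
  by_contra hlt
  push Not at hlt
  have h2 := CC_strictMono hs h hlt
  have h3 := (OO_le_iff s h hu _).mp (le_refl (OO s h (CC s h z)))
  linarith

lemma CC_OO {s : ℝ≥0} (hs : s ≠ 0) (h : ℝ) {u : unitInterval} (hu : ker_inn u) :
    ((CC s h (OO s h u) : unitInterval) : ℝ) = u := by
  have hs' : (0 : ℝ) < s := by
    have := pos_iff_ne_zero.mpr hs
    exact_mod_cast this
  have hM : 0 < (Real.sqrt (2 * Real.pi * s))⁻¹ :=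
    inv_pos.mpr (Real.sqrt_pos.mpr (by positivity))
  have h1 := (OO_le_iff s h hu _).mp (le_refl (OO s h u))
  refine le_antisymm ?_ h1
  refine le_of_forall_pos_le_add fun ε hε => ?_
  set δ := ε / (Real.sqrt (2 * Real.pi * s))⁻¹ with hδ
  have hδ0 : 0 < δ := div_pos hε hM
  have h2 : (CC s h (OO s h u - δ) : ℝ) < u := by
    by_contra hcon
    push Not at hcon
    have := (OO_le_iff s h hu _).mpr hcon
    linarith
  have h3 := CC_upper hs h (show OO s h u - δ ≤ OO s h u by linarith)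
  have h4 : (Real.sqrt (2 * Real.pi * s))⁻¹ * (OO s h u - (OO s h u - δ)) = ε := by
    rw [hδ]
    field_simp
    ring
  rw [h4] at h3
  linarith

lemma slk_map_gauss {s : ℝ≥0} (m : ℝ) :
    (gaussianReal 0 1).map (fun g => m + Real.sqrt s * g) = gaussianReal m s := by
  have h1 : (fun g => m + Real.sqrt s * g) = (fun x => m + x) ∘ (fun g => Real.sqrt s * g) := rfl
  have m1 : Measurable (fun x : ℝ => m + x) := measurable_const_add m
  have m2 : Measurable (fun g : ℝ => Real.sqrt s * g) := measurable_const_mul _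
  rw [h1, ← Measure.map_map m1 m2, gaussianReal_map_const_mul, gaussianReal_map_const_add]
  congr 1
  · ring
  · ext
    simp [Real.sq_sqrt]

lemma slk_integral_gauss {s : ℝ≥0} (m : ℝ) {F : ℝ → ℝ} (hF : Measurable F) :
    ∫ g, F (m + Real.sqrt s * g) ∂(gaussianReal 0 1) = ∫ z, F z ∂(gaussianReal m s) := by
  rw [← slk_map_gauss (s := s) m, integral_map (by fun_prop) hF.aestronglyMeasurable]

lemma slk_integral_shift (m h : ℝ) (v : ℝ≥0) {F : ℝ → ℝ} (hF : Measurable F) :
    ∫ w, F (w - h) ∂(gaussianReal (m + h) v) = ∫ z, F z ∂(gaussianReal m v) := by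
  have hF2 : Measurable (fun w => F (w - h)) := hF.comp (by fun_prop)
  rw [← gaussianReal_map_add_const h,
    integral_map (φ := fun x => x + h) (f := fun w => F (w - h)) (by fun_prop)
      hF2.aestronglyMeasurable]
  simp

lemma slk_int_bdd {G : ℝ → ℝ} (hG : Measurable G) {C : ℝ} (hC : ∀ x, |G x| ≤ C) (ν : Measure ℝ)
    [IsFiniteMeasure ν] : Integrable G ν := by
  refine Integrable.of_bound (C := C) hG.aestronglyMeasurable (ae_of_all _ fun x => ?_)
  rw [Real.norm_eq_abs]
  exact hC _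

lemma integral_CC {s : ℝ≥0} (hs : s ≠ 0) (h : ℝ) {f : unitInterval → ℝ} (hf : Measurable f) {C : ℝ}
    (hC : ∀ x, |f x| ≤ C) :
    (1 + Real.tanh h) / 2 * ∫ g, f (CC s h (s + √s * g)) ∂(gaussianReal 0 1) +
      (1 - Real.tanh h) / 2 * ∫ g, f (CC s h (-(s : ℝ) + √s * g)) ∂(gaussianReal 0 1) =
      ∫ u, f u := by
  have hCC : Measurable (fun z => CC s h z) := by
    have h1 : Measurable (fun z : ℝ => (h, z)) := measurable_const.prodMk measurable_id
    have h2 := (measurable_CC s).comp h1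
    exact h2
  have hF : Measurable (fun z => f (CC s h z)) := hf.comp hCC
  have hFt : Measurable (fun w => f (CC s h (w - h))) := hF.comp (by fun_prop)
  have hFb : ∀ w, |f (CC s h (w - h))| ≤ C := fun w => hC _
  have hint : ∀ m : ℝ, ∀ v : ℝ≥0, Integrable (fun w => f (CC s h (w - h))) (gaussianReal m v) := by
    intro m v
    exact slk_int_bdd hFt hFb _
  rw [slk_integral_gauss (s := s) (s : ℝ) hF, slk_integral_gauss (s := s) (-(s : ℝ)) hF,
    ← slk_integral_shift (s : ℝ) h s hF, ← slk_integral_shift (-(s : ℝ)) h s hF]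
  have hsite : ∫ w, f (CC s h (w - h)) ∂(siteKer s h) =
      (1 + Real.tanh h) / 2 * ∫ w, f (CC s h (w - h)) ∂(gaussianReal ((s : ℝ) + h) s) +
      (1 - Real.tanh h) / 2 * ∫ w, f (CC s h (w - h)) ∂(gaussianReal (-(s : ℝ) + h) s) := by
    unfold siteKer
    rw [integral_add_measure ((hint _ _).smul_measure ENNReal.ofReal_ne_top)
      ((hint _ _).smul_measure ENNReal.ofReal_ne_top), integral_smul_measure,
      integral_smul_measure, ENNReal.toReal_ofReal (ker_c1 h), ENNReal.toReal_ofReal (ker_c2 h),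
      add_comm h (s : ℝ), sub_eq_neg_add h (s : ℝ)]
    simp
  rw [← hsite]
  conv_lhs => rw [← ker_map_q (siteKer s h)]
  rw [integral_map (ker_measurable_q _).aemeasurable hFt.aestronglyMeasurable]
  refine integral_congr_ae ?_
  filter_upwards [ker_ae_inn] with u hu
  have e : ker_q (siteKer s h) u - h = OO s h u := by simp [OO, hu]
  rw [e]
  congr 1
  exact Subtype.ext (CC_OO hs h hu)

/-- The envelope of the observations. -/
noncomputable def OOb (s : ℝ≥0) (u : unitInterval) : ℝ :=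
  |ker_q (gaussianReal s s) u| + |ker_q (gaussianReal (-(s : ℝ)) s) u|

lemma measurable_OOb (s : ℝ≥0) : Measurable (OOb s) := by
  unfold OOb
  exact (ker_measurable_q _).abs.add (ker_measurable_q _).abs

lemma OO_le_OOb (s : ℝ≥0) (_hs : s ≠ 0) (h : ℝ) (u : unitInterval) : |OO s h u| ≤ OOb s u := by
  by_cases hu : ker_inn u
  · have h1 : OO s h u ≤ ker_q (gaussianReal s s) u := by
      rw [OO_le_iff s h hu]
      exact le_trans ((ker_q_le_iff _ hu _).mp le_rfl) (cdf_pos_le_CC s h _)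
    have h2 : ker_q (gaussianReal (-(s : ℝ)) s) u ≤ OO s h u := by
      rw [ker_q_le_iff _ hu]
      exact le_trans ((OO_le_iff s h hu _).mp le_rfl) (CC_le_cdf_neg s h _)
    unfold OOb
    have a1 := le_abs_self (ker_q (gaussianReal (s : ℝ) s) u)
    have a2 := neg_abs_le (ker_q (gaussianReal (-(s : ℝ)) s) u)
    have a3 := abs_nonneg (ker_q (gaussianReal (s : ℝ) s) u)
    have a4 := abs_nonneg (ker_q (gaussianReal (-(s : ℝ)) s) u)
    rw [abs_le]
    constructor <;> linarith
  · simp only [OO, hu, if_false, abs_zero]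
    unfold OOb
    positivity

lemma slk_integrable_q_sq (m : ℝ) (s : ℝ≥0) :
    Integrable (fun u => ker_q (gaussianReal m s) u ^ 2) (volume : Measure unitInterval) := by
  have hG : MemLp (id : ℝ → ℝ) 2 (gaussianReal m s) := memLp_id_gaussianReal' 2 (by simp)
  rw [← ker_map_q (gaussianReal m s)] at hG
  have := (memLp_map_measure_iff aestronglyMeasurable_id
      (ker_measurable_q _).aemeasurable).mp hG
  have h2 := (memLp_two_iff_integrable_sq (ker_measurable_q _).aestronglyMeasurable).mp this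
  exact h2

lemma integrable_OOb_sq (s : ℝ≥0) :
    Integrable (fun u => OOb s u ^ 2) (volume : Measure unitInterval) := by
  have h1 := slk_integrable_q_sq (s : ℝ) s
  have h2 := slk_integrable_q_sq (-(s : ℝ)) s
  refine Integrable.mono' ((h1.add h2).const_mul 2) ((measurable_OOb s).pow_const 2).aestronglyMeasurable
    (Filter.Eventually.of_forall fun u => ?_)
  rw [Real.norm_eq_abs, abs_of_nonneg (sq_nonneg _)]
  unfold OOb
  simp only [Pi.add_apply]
  have e1 := sq_abs (ker_q (gaussianReal (s : ℝ) s) u)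
  have e2 := sq_abs (ker_q (gaussianReal (-(s : ℝ)) s) u)
  nlinarith [sq_nonneg (|ker_q (gaussianReal (s : ℝ) s) u| - |ker_q (gaussianReal (-(s : ℝ)) s) u|)]

theorem OO_modulus {s : ℝ≥0} (hs : s ≠ 0) (R : ℝ) (_hR : 0 ≤ R) :
    ∃ K : ℝ, 0 ≤ K ∧ ∀ (h : ℝ) (a b : unitInterval), ker_inn a → ker_inn b → OOb s a ≤ R →
      OOb s b ≤ R → |OO s h a - OO s h b| ≤ K * |(a : ℝ) - (b : ℝ)| := by
  have hphi := slk_phi_pos hs R
  refine ⟨(slk_phi s R)⁻¹, (inv_pos.mpr hphi).le, ?_⟩
  have key : ∀ (h : ℝ) (a b : unitInterval), ker_inn a → ker_inn b → OOb s a ≤ R → OOb s b ≤ R →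
      OO s h a ≤ OO s h b → |OO s h a - OO s h b| ≤ (slk_phi s R)⁻¹ * |(a : ℝ) - (b : ℝ)| := by
    intro h a b ha hb hRa hRb hle
    have b1 := abs_le.mp ((OO_le_OOb s hs h a).trans hRa)
    have b2 := abs_le.mp ((OO_le_OOb s hs h b).trans hRb)
    have := CC_lower hs h b1.1 hle b2.2
    rw [CC_OO hs h ha, CC_OO hs h hb] at this
    rw [abs_sub_comm, abs_of_nonneg (sub_nonneg.mpr hle), abs_sub_comm]
    rw [← div_eq_inv_mul, le_div_iff₀ hphi, mul_comm]
    exact this.trans (le_abs_self _)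
  intro h a b ha hb hRa hRb
  rcases le_total (OO s h a) (OO s h b) with hle | hle
  · exact key h a b ha hb hRa hRb hle
  · rw [abs_sub_comm, abs_sub_comm (a : ℝ)]
    exact key h b a hb ha hRb hRa hle

end Vale.Agent.Lib.P161
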