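import Vale.Agent.Lib.P161.SLSpace
import Vale.Agent.Lib.P161.Kernel

/-!
Priorities and noise as a factor of one uniform label at each vertex.
-/

namespace Vale.Agent.Lib.P161

open MeasureTheory ProbabilityTheory

variable {d : ℕ}

/-- Joining priorities and noise into one array. -/
def joinZ (p : Xi d) : UN d := fun i => Nat.casesOn i.2 (p.1 i.1) (fun k => p.2 (i.1, k))

/-- Splitting one array into priorities and noise. -/
def splitZ (z : UN d) : Xi d := (fun v => z (v, 0), fun i => z (i.1, i.2 + 1))

lemma measurable_joinZ : Measurable (joinZ : Xi d → UN d) := by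
  refine measurable_pi_lambda _ fun i => ?_
  rcases i with ⟨v, k⟩
  cases k with
  | zero => exact (measurable_pi_apply v).comp measurable_fst
  | succ k => exact (measurable_pi_apply (v, k)).comp measurable_snd

lemma measurable_splitZ : Measurable (splitZ : UN d → Xi d) :=
  (measurable_pi_lambda _ fun _ => measurable_pi_apply _).prodMk
    (measurable_pi_lambda _ fun _ => measurable_pi_apply _)

lemma splitZ_joinZ (p : Xi d) : splitZ (joinZ p) = p := rfl

lemma mp_joinZ : MeasurePreserving (joinZ : Xi d → UN d) (LX d) (unu d) := by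
  classical
  refine ⟨measurable_joinZ, ?_⟩
  symm
  refine (Measure.eq_infinitePi _ ?_).symm
  intro s t ht
  rw [Measure.map_apply measurable_joinZ (MeasurableSet.pi (Finset.countable_toSet s) fun i _ => ht i)]
  set s₀ : Finset (Word d) := (s.filter (fun i => i.2 = 0)).image (fun i => i.1) with hs₀
  set s₁ : Finset (Ix d) := (s.filter (fun i => i.2 ≠ 0)).image (fun i => (i.1, i.2 - 1)) with hs₁
  have hset : joinZ ⁻¹' (Set.pi (s : Set (Ix d)) t) =
      (Set.pi (s₀ : Set (Word d)) (fun v => t (v, 0))) ×ˢ
        (Set.pi (s₁ : Set (Ix d)) (fun i => t (i.1, i.2 + 1))) := by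
    ext p
    simp only [Set.mem_preimage, Set.mem_pi, Finset.mem_coe, Set.mem_prod]
    constructor
    · intro h
      constructor
      · intro v hv
        obtain ⟨i, hi, rfl⟩ := Finset.mem_image.mp hv
        obtain ⟨hi1, hi2⟩ := Finset.mem_filter.mp hi
        have := h i hi1
        rcases i with ⟨v, k⟩
        simp only at hi2
        subst hi2
        exact this
      · intro j hj
        obtain ⟨i, hi, rfl⟩ := Finset.mem_image.mp hj
        obtain ⟨hi1, hi2⟩ := Finset.mem_filter.mp hi
        have := h i hi1
        rcases i with ⟨v, k⟩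
        cases k with
        | zero => exact absurd rfl hi2
        | succ k => exact this
    · rintro ⟨h0, h1⟩ i hi
      rcases i with ⟨v, k⟩
      cases k with
      | zero =>
        exact h0 v (Finset.mem_image.mpr ⟨(v, 0), Finset.mem_filter.mpr ⟨hi, rfl⟩, rfl⟩)
      | succ k =>
        exact h1 (v, k) (Finset.mem_image.mpr ⟨(v, k + 1), Finset.mem_filter.mpr ⟨hi, by simp⟩, rfl⟩)
  rw [hset]
  unfold LX LT unu
  rw [Measure.prod_prod, Measure.infinitePi_pi _ (fun v _ => ht _), Measure.infinitePi_pi _ (fun i _ => ht _)]
  have e0 : ∏ v ∈ s₀, (volume : Measure unitInterval) (t (v, 0)) =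
      ∏ i ∈ s.filter (fun i => i.2 = 0), (volume : Measure unitInterval) (t i) := by
    rw [hs₀, Finset.prod_image]
    · refine Finset.prod_congr rfl fun i hi => ?_
      have : i.2 = 0 := (Finset.mem_filter.mp hi).2
      rcases i with ⟨v, k⟩
      simp only at this
      subst this
      rfl
    · intro a ha b hb hab
      have h1 : a.2 = 0 := (Finset.mem_filter.mp (Finset.mem_coe.mp ha)).2
      have h2 : b.2 = 0 := (Finset.mem_filter.mp (Finset.mem_coe.mp hb)).2
      exact Prod.ext hab (h1.trans h2.symm)
  have e1 : ∏ i ∈ s₁, (volume : Measure unitInterval) (t (i.1, i.2 + 1)) =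
      ∏ i ∈ s.filter (fun i => i.2 ≠ 0), (volume : Measure unitInterval) (t i) := by
    rw [hs₁, Finset.prod_image]
    · refine Finset.prod_congr rfl fun i hi => ?_
      have h : i.2 ≠ 0 := (Finset.mem_filter.mp hi).2
      rcases i with ⟨v, k⟩
      cases k with
      | zero => exact absurd rfl h
      | succ k => rfl
    · intro a ha b hb hab
      have h1 : a.2 ≠ 0 := (Finset.mem_filter.mp (Finset.mem_coe.mp ha)).2
      have h2 : b.2 ≠ 0 := (Finset.mem_filter.mp (Finset.mem_coe.mp hb)).2
      have h3 := Prod.mk.inj hab
      refine Prod.ext h3.1 ?_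
      have h4 := h3.2
      omega
  rw [e0, e1, Finset.prod_filter_mul_prod_filter_not]

lemma mp_splitZ : MeasurePreserving (splitZ : UN d → Xi d) (unu d) (LX d) := by
  refine ⟨measurable_splitZ, ?_⟩
  rw [← mp_joinZ.map_eq, Measure.map_map measurable_splitZ measurable_joinZ]
  have : splitZ ∘ joinZ = (id : Xi d → Xi d) := funext splitZ_joinZ
  rw [this, Measure.map_id]

/-- Priorities and noise are a factor of i.i.d. uniform labels. -/
theorem exists_labelsX : ∃ lam : (Word d → unitInterval) → Xi d,
    MeasurePreserving lam (Measure.infinitePi fun _ : Word d => (volume : Measure unitInterval)) (LX d) ∧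
      ∀ (g : Aut d) (U : Word d → unitInterval), lam (fun v => U (g.symm v)) = actX g (lam U) := by
  obtain ⟨ι, hι, hι'⟩ := exists_param (Measure.infinitePi (fun _ : ℕ => (volume : Measure unitInterval)))
  have hz : MeasurePreserving (fun (U : Word d → unitInterval) (i : Ix d) => ι (U i.1) i.2)
      (Measure.infinitePi fun _ : Word d => (volume : Measure unitInterval)) (unu d) := by
    refine ⟨?_, ?_⟩
    · exact measurable_pi_lambda _ fun i =>
        (measurable_pi_apply i.2).comp (hι.comp (measurable_pi_apply i.1))
    · have e : (fun (U : Word d → unitInterval) (i : Ix d) => ι (U i.1) i.2) =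
          (MeasurableEquiv.curry (Word d) ℕ unitInterval).symm ∘ (fun U v => ι (U v)) := rfl
      have hm : Measurable (fun (U : Word d → unitInterval) (v : Word d) => ι (U v)) :=
        measurable_pi_lambda _ fun v => hι.comp (measurable_pi_apply v)
      rw [e, ← Measure.map_map (MeasurableEquiv.measurable _) hm]
      unfold unu
      rw [Measure.infinitePi_map_pi (μ := fun _ : Word d => (volume : Measure unitInterval))
        (f := fun _ => ι) (fun _ => hι)]
      simp only [hι']
      exact Measure.infinitePi_map_curry_symm (fun _ _ => (volume : Measure unitInterval))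
  exact ⟨splitZ ∘ fun U i => ι (U i.1) i.2, mp_splitZ.comp hz, fun g U => rfl⟩

end Vale.Agent.Lib.P161
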