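import Vale.Agent.Lib.P161.SLFinal
import Vale.Agent.Lib.P161.SLLabels

/-!
The free Ising measure on the `d`-regular tree is a factor of i.i.d. uniform labels for every
`β ≥ 0` with `tanh β * √(d - 1) < 1`.
-/

namespace Vale.Agent.Lib.P161

open MeasureTheory ProbabilityTheory
open scoped NNReal ENNReal

variable {d : ℕ}

lemma corr_tanh' {β : ℝ} (hβ : 0 ≤ β) : Corr (Real.tanh β) := by
  refine ⟨?_, (Real.tanh_lt_one β).le⟩
  rw [Real.tanh_eq_sinh_div_cosh]
  exact div_nonneg (Real.sinh_nonneg_iff.mpr hβ) (Real.cosh_pos β).le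

lemma tanh_nonneg' {β : ℝ} (hβ : 0 ≤ β) : 0 ≤ Real.tanh β := by
  rw [Real.tanh_eq_sinh_div_cosh]
  exact div_nonneg (Real.sinh_nonneg_iff.mpr hβ) (Real.cosh_pos β).le

/-- The parameters exist below the threshold. -/
lemma exists_params {θ : ℝ} (hθ0 : 0 ≤ θ) (hθ1 : θ < 1) (hd : 2 ≤ d) (h : θ * √((d : ℝ) - 1) < 1) :
    ∃ (α : ℝ) (s : ℝ≥0), SLP d θ α s := by
  have hd1 : (1 : ℝ) ≤ (d : ℝ) - 1 := by
    have : (2 : ℝ) ≤ d := by exact_mod_cast hd
    linarith
  set m := √((d : ℝ) - 1) with hmdef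
  have hm1 : 1 ≤ m := by
    rw [hmdef]
    exact Real.one_le_sqrt.mpr hd1
  have hm0 : 0 < m := by linarith
  have hm : m ^ 2 = (d : ℝ) - 1 := Real.sq_sqrt (by linarith)
  have hθm : θ < m⁻¹ := by
    rw [← one_div, lt_div_iff₀ hm0]
    exact h
  set α : ℝ := (θ + m⁻¹) / 2 with hα
  have hα1 : θ < α := by rw [hα]; linarith
  have hα2 : α < m⁻¹ := by rw [hα]; linarith
  have hα0 : 0 < α := by linarith
  have hinv : m⁻¹ ≤ 1 := inv_le_one_of_one_le₀ hm1
  have hαm : α * m < 1 := by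
    have := mul_lt_mul_of_pos_right hα2 hm0
    rwa [inv_mul_cancel₀ hm0.ne'] at this
  have hθm' : θ * m < 1 := h
  have hq : ((d : ℝ) - 1) * α ^ 2 < 1 := by
    rw [← hm]
    have h1 : 0 ≤ α * m := by positivity
    nlinarith
  have hθα : ((d : ℝ) - 1) * θ * α < 1 := by
    rw [← hm]
    have h1 : 0 ≤ α * m := by positivity
    have h2 : 0 ≤ θ * m := by positivity
    nlinarith
  have ha : 0 < (1 - ((d : ℝ) - 1) * θ * α)⁻¹ := inv_pos.mpr (by linarith)
  have hb : 0 < (1 - θ / α)⁻¹ := by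
    refine inv_pos.mpr ?_
    have : θ / α < 1 := (div_lt_one hα0).mpr hα1
    linarith
  have hκ : 0 ≤ kap d θ α := by
    unfold kap
    have hd0 : (0 : ℝ) ≤ d := Nat.cast_nonneg d
    positivity
  set κ := kap d θ α with hκdef
  set s₀ : ℝ := 1 / (4 * (κ + 1)) with hs₀
  have hs₀0 : 0 < s₀ := by positivity
  have hs₀1 : s₀ ≤ 1 / 4 := by
    rw [hs₀]
    apply one_div_le_one_div_of_le (by norm_num)
    nlinarith
  set s : ℝ≥0 := ⟨s₀, hs₀0.le⟩ with hs
  have hsc : (s : ℝ) = s₀ := rfl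
  refine ⟨α, s, hθ1, hd, hα1, hθα, hα0.le, by linarith, hq, ?_, ?_, hκ, ?_⟩
  · intro hs'
    have h1 : (s : ℝ) = 0 := by
      rw [hs']
      simp
    rw [hsc] at h1
    linarith
  · rw [← NNReal.coe_lt_coe, hsc]
    simp only [NNReal.coe_one]
    linarith
  · rw [hsc]
    have h1 : 0 < 1 - s₀ := by linarith
    rw [div_mul_eq_mul_div, div_lt_one h1]
    have h2 : s₀ * (κ + 1) = 1 / 4 := by
      rw [hs₀]
      field_simp
    nlinarith

/-- The main theorem: for `θ = tanh β` below the threshold the free Ising measure is a factor of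
i.i.d. uniform labels. -/
theorem main_factor_threshold {β : ℝ} (hβ : 0 ≤ β) (hd : 2 ≤ d) (h : Real.tanh β * √((d : ℝ) - 1) < 1) :
    ∃ Φ : (Word d → unitInterval) → Word d → Bool, Measurable Φ ∧
      (∀ g : Aut d, ∀ᵐ U ∂(Measure.infinitePi fun _ : Word d => (volume : Measure unitInterval)),
        Φ (fun v => U (g.symm v)) = fun v => Φ U (g.symm v)) ∧
      ∀ D : Finset (Word d), ((treeGraph d).induce (D : Set (Word d))).Connected →
        ∀ η : Word d → Bool, (Measure.infinitePi fun _ : Word d => (volume : Measure unitInterval))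
            {U | ∀ v ∈ D, Φ U v = η v} =
          ENNReal.ofReal (1 / 2 * ∏ e ∈ edgesIn D, eWt (Real.tanh β) η e) := by
  haveI := corr_tanh' hβ
  obtain ⟨α, s, P⟩ := exists_params (tanh_nonneg' hβ) (Real.tanh_lt_one β) hd h
  obtain ⟨Φ, hΦ, heq, hlaw⟩ := exists_factor_X P
  obtain ⟨τ, hτ, hτg⟩ := exists_labelsX (d := d)
  refine ⟨Φ ∘ τ, hΦ.comp hτ.measurable, fun g => ?_, fun D hD η => ?_⟩
  · filter_upwards [hτ.quasiMeasurePreserving.ae (heq g)] with U hU
    show Φ (τ (fun v => U (g.symm v))) = _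
    rw [hτg, hU]
    rfl
  · have hms : MeasurableSet {z : Xi d | ∀ v ∈ D, Φ z v = η v} := by
      have : {z : Xi d | ∀ v ∈ D, Φ z v = η v} =
          ⋂ v ∈ D, (fun z => Φ z v) ⁻¹' {η v} := by
        ext z
        simp
      rw [this]
      exact Finset.measurableSet_biInter _ fun v _ =>
        ((measurable_pi_apply v).comp hΦ) (measurableSet_singleton _)
    have e := hτ.measure_preimage hms.nullMeasurableSet
    rw [hlaw, isingLaw_cyl _ (connClosed_of_connected hD)] at e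
    exact e

end Vale.Agent.Lib.P161
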