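import Vale.Agent.Lib.P161.SLCov

/-!
The law of a run: it is the planted law, and the output at a vertex is close in `L²` to the spin.
-/

namespace Vale.Agent.Lib.P161

open MeasureTheory ProbabilityTheory
open scoped NNReal ENNReal

variable {d : ℕ}

lemma stL_append (a : Ix d → ℝ) (ev ev' : List (Ix d)) (x : Word d) :
    stL a (ev ++ ev') x = stL a ev x + stL a ev' x := by
  rw [stL_apply, stL_apply, stL_apply, List.filter_append, List.map_append, List.sum_append]

lemma stL_evS {l : List (Word d)} (hl : l.Nodup) {x : Word d} (hx : x ∈ l) (k : ℕ) (a : Ix d → ℝ) :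
    stL a (evS l k) x = a (x, k) := by
  rw [stL_apply]
  induction l with
  | nil => simp at hx
  | cons b l ih =>
    have hb : b ∉ l := (List.nodup_cons.mp hl).1
    by_cases hbx : b = x
    · subst hbx
      have hnil : (evS l k).filter (fun e => e.1 = b) = [] := by
        rw [List.filter_eq_nil_iff]
        intro e he
        obtain ⟨y, hy, rfl⟩ := List.mem_map.mp he
        simp only [decide_eq_true_eq]
        rintro rfl
        exact hb hy
      have e1 : evS (b :: l) k = (b, k) :: evS l k := rfl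
      rw [e1, List.filter_cons]
      simp [hnil]
    · have hx' : x ∈ l := by
        rcases List.mem_cons.mp hx with h | h
        · exact absurd h.symm hbx
        · exact h
      have e1 : evS (b :: l) k = (b, k) :: evS l k := rfl
      rw [e1, List.filter_cons]
      simp only [hbx, decide_false]
      exact ih (List.nodup_cons.mp hl).2 hx'

lemma stL_evL {l : List (Word d)} (hl : l.Nodup) {x : Word d} (hx : x ∈ l) (N : ℕ) (a : Ix d → ℝ) :
    stL a (evL l N) x = ∑ k ∈ Finset.range N, a (x, k) := by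
  induction N with
  | zero => simp [stL]
  | succ N ih => rw [evL_succ, stL_append, ih, stL_evS hl hx, Finset.sum_range_succ]

lemma stL_obA (s : ℝ≥0) (ω : OmP d) {l : List (Word d)} (hl : l.Nodup) {x : Word d} (hx : x ∈ l) (N : ℕ) :
    stL (obA s ω) (evL l N) x = N * s * sp (ω.1 x) + √s * ∑ k ∈ Finset.range N, ω.2 (x, k) := by
  rw [stL_evL hl hx]
  simp only [obA, Finset.sum_add_distrib, Finset.sum_const, Finset.card_range, nsmul_eq_mul, Finset.mul_sum]
  ring

/-- The second moment of a sum of independent standard Gaussian variables. -/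
lemma gam_sum_sq (x : Word d) (N : ℕ) :
    ∫ g, (∑ k ∈ Finset.range N, g (x, k)) ^ 2 ∂(gam d) = N := by
  have hmp : ∀ k : ℕ, MeasurePreserving (fun g : Ix d → ℝ => g (x, k)) (gam d) (gaussianReal 0 1) := fun k =>
    measurePreserving_eval_infinitePi _ (x, k)
  have hL : ∀ k : ℕ, MemLp (fun g : Ix d → ℝ => g (x, k)) 2 (gam d) := fun k => by
    have := (memLp_id_gaussianReal' (μ := 0) (v := 1) 2 (by simp)).comp_measurePreserving (hmp k)
    exact this
  have hind : iIndepFun (fun (k : ℕ) (g : Ix d → ℝ) => g (x, k)) (gam d) := by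
    have h1 := iIndepFun_infinitePi (P := fun _ : Ix d => gaussianReal 0 1) (X := fun _ ω => ω) (fun _ => measurable_id)
    exact h1.precomp (g := fun k : ℕ => ((x, k) : Ix d)) (fun a b h => (Prod.mk.inj h).2)
  have hvar := IndepFun.variance_sum (μ := gam d) (X := fun (k : ℕ) (g : Ix d → ℝ) => g (x, k))
    (s := Finset.range N) (fun k _ => hL k) (fun a _ b _ hab => hind.indepFun hab)
  have h0 : ∀ k : ℕ, ∫ g, g (x, k) ∂(gam d) = 0 := fun k => by
    have := mp_integral (hmp k) (h := fun y : ℝ => y) measurable_id.aestronglyMeasurable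
    rw [this]
    simp
  have hv1 : ∀ k : ℕ, variance (fun g : Ix d → ℝ => g (x, k)) (gam d) = 1 := fun k => by
    have hk0 : Measurable (fun g : Ix d → ℝ => g (x, k)) := measurable_pi_apply _
    have hk : AEMeasurable (fun g : Ix d → ℝ => g (x, k)) (gam d) := hk0.aemeasurable
    rw [variance_of_integral_eq_zero hk (h0 k)]
    have := mp_integral (hmp k) (h := fun y : ℝ => y ^ 2) (measurable_id.pow_const 2).aestronglyMeasurable
    rw [this]
    have h2 := variance_of_integral_eq_zero (μ := gaussianReal 0 1) (X := id) aemeasurable_id (by simp)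
    simp only [id] at h2
    rw [← h2]
    simp
  have hS : (∑ k ∈ Finset.range N, fun g : Ix d → ℝ => g (x, k)) = fun g => ∑ k ∈ Finset.range N, g (x, k) := by
    funext g
    simp
  have hm : AEMeasurable (∑ k ∈ Finset.range N, fun g : Ix d → ℝ => g (x, k)) (gam d) := by
    rw [hS]
    have hk1 : ∀ k ∈ Finset.range N, Measurable (fun g : Ix d → ℝ => g (x, k)) := fun k _ => measurable_pi_apply _
    have hk2 : Measurable (fun g : Ix d → ℝ => ∑ k ∈ Finset.range N, g (x, k)) := Finset.measurable_fun_sum _ hk1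
    exact hk2.aemeasurable
  have hint : ∫ g, (∑ k ∈ Finset.range N, fun g : Ix d → ℝ => g (x, k)) g ∂(gam d) = 0 := by
    rw [hS, integral_finsetSum _ fun k _ => (hL k).integrable (by norm_num)]
    simp [h0]
  have h3 := variance_of_integral_eq_zero hm hint
  rw [hS] at h3
  rw [← h3]
  rw [hS] at hvar
  rw [hvar]
  simp [hv1]

/-- A first moment is bounded by the second moment. -/
lemma abs_int_le {Ω : Type*} [MeasurableSpace Ω] {μ : Measure Ω} [IsProbabilityMeasure μ] {h : Ω → ℝ}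
    (hm : Measurable h) {B : ℝ} (hb : ∀ x, |h x| ≤ B) {e : ℝ} (he : 0 ≤ e) (h2 : ∫ x, h x ^ 2 ∂μ ≤ e ^ 2) :
    ∫ x, |h x| ∂μ ≤ e := by
  set c := ∫ x, |h x| ∂μ with hc
  have i1 : Integrable (fun x => |h x|) μ := integrable_bdd hm.abs (C := B) fun x => by
    rw [abs_abs]
    exact hb x
  have i2 : Integrable (fun x => h x ^ 2) μ := integrable_bdd (hm.pow_const 2) (C := B ^ 2) fun x => by
    rw [abs_of_nonneg (sq_nonneg _), ← sq_abs]
    exact pow_le_pow_left₀ (abs_nonneg _) (hb x) 2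
  have h3 : 0 ≤ ∫ x, (|h x| - c) ^ 2 ∂μ := integral_nonneg fun _ => sq_nonneg _
  have e1 : ∀ x, (|h x| - c) ^ 2 = h x ^ 2 - 2 * c * |h x| + c ^ 2 := fun x => by
    have := sq_abs (h x)
    nlinarith
  have i3 : Integrable (fun x => 2 * c * |h x|) μ := i1.const_mul _
  have i4 : Integrable (fun x => h x ^ 2 - 2 * c * |h x|) μ := i2.sub i3
  have e2 : ∫ x, (|h x| - c) ^ 2 ∂μ = ∫ x, h x ^ 2 ∂μ - c ^ 2 := by
    simp_rw [e1]
    have j1 : ∫ x, h x ^ 2 - 2 * c * |h x| + c ^ 2 ∂μ = ∫ x, h x ^ 2 - 2 * c * |h x| ∂μ + ∫ _, c ^ 2 ∂μ :=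
      integral_add i4 (integrable_const _)
    have j2 : ∫ x, h x ^ 2 - 2 * c * |h x| ∂μ = ∫ x, h x ^ 2 ∂μ - ∫ x, 2 * c * |h x| ∂μ := integral_sub i2 i3
    rw [j1, j2, integral_const_mul, ← hc, integral_const]
    simp
    ring
  rw [e2] at h3
  have h4 : c ^ 2 ≤ e ^ 2 := by linarith
  exact (le_abs_self c).trans (abs_le_of_sq_le_sq h4 he)

/-- Telescoping for products of numbers in `[-1, 1]`. -/
lemma prod_diff {ι : Type*} (S : Finset ι) (a b : ι → ℝ) (ha : ∀ i ∈ S, |a i| ≤ 1) (hb : ∀ i ∈ S, |b i| ≤ 1) :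
    |∏ i ∈ S, a i - ∏ i ∈ S, b i| ≤ ∑ i ∈ S, |a i - b i| := by
  classical
  induction S using Finset.induction_on with
  | empty => simp
  | insert i S hi ih =>
    rw [Finset.prod_insert hi, Finset.prod_insert hi, Finset.sum_insert hi]
    have h1 := ih (fun j hj => ha j (Finset.mem_insert_of_mem hj)) (fun j hj => hb j (Finset.mem_insert_of_mem hj))
    have h2 : |∏ j ∈ S, a j| ≤ 1 := by
      rw [Finset.abs_prod]
      exact Finset.prod_le_one (fun _ _ => abs_nonneg _) fun j hj => ha j (Finset.mem_insert_of_mem hj)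
    have h3 := hb i (Finset.mem_insert_self _ _)
    have e1 : a i * ∏ j ∈ S, a j - b i * ∏ j ∈ S, b j =
        (a i - b i) * ∏ j ∈ S, a j + b i * (∏ j ∈ S, a j - ∏ j ∈ S, b j) := by ring
    rw [e1]
    refine (abs_add_le _ _).trans (add_le_add ?_ ?_)
    · rw [abs_mul]
      exact mul_le_of_le_one_right (abs_nonneg _) h2
    · rw [abs_mul]
      calc |b i| * |∏ j ∈ S, a j - ∏ j ∈ S, b j| ≤ 1 * |∏ j ∈ S, a j - ∏ j ∈ S, b j| :=
            mul_le_mul_of_nonneg_right h3 (abs_nonneg _)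
        _ ≤ _ := by
          rw [one_mul]
          exact h1

section Close

variable {θ : ℝ} [Corr θ] {s : ℝ≥0}

/-- The observed average is close to the spin. -/
lemma cl_obA_close (hs : s ≠ 0) {l : List (Word d)} (hl : l.Nodup) {x : Word d} (hx : x ∈ l) {N : ℕ} (hN : 1 ≤ N)
    (ω : OmP d) :
    |cl (stL (obA s ω) (evL l N) x / (N * s)) - sp (ω.1 x)| ≤
      |√s * (∑ k ∈ Finset.range N, ω.2 (x, k)) / (N * s)| := by
  have hs' : (s : ℝ) ≠ 0 := by exact_mod_cast hs
  have hN' : (N : ℝ) ≠ 0 := by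
    have : (0 : ℝ) < N := by exact_mod_cast hN
    exact this.ne'
  have h1 : stL (obA s ω) (evL l N) x / (N * s) = sp (ω.1 x) + √s * (∑ k ∈ Finset.range N, ω.2 (x, k)) / (N * s) := by
    rw [stL_obA s ω hl hx]
    field_simp
  rw [h1]
  conv_lhs => rw [← cl_sp (ω.1 x)]
  refine (cl_lip _ _).trans (le_of_eq ?_)
  rw [cl_sp]
  congr 1
  ring

lemma planted_moment (hs : s ≠ 0) (x : Word d) {N : ℕ} (hN : 1 ≤ N) :
    ∫ ω, (√s * (∑ k ∈ Finset.range N, ω.2 (x, k)) / (N * s)) ^ 2 ∂(PL d θ) = 1 / (N * s) := by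
  have hs' : (s : ℝ) ≠ 0 := by exact_mod_cast hs
  have hN' : (N : ℝ) ≠ 0 := by
    have : (0 : ℝ) < N := by exact_mod_cast hN
    exact this.ne'
  have hm : Measurable (fun g : Ix d → ℝ => (√s * (∑ k ∈ Finset.range N, g (x, k)) / (N * s)) ^ 2) := by
    have hk1 : ∀ k ∈ Finset.range N, Measurable (fun g : Ix d → ℝ => g (x, k)) := fun k _ => measurable_pi_apply _
    have hk2 : Measurable (fun g : Ix d → ℝ => ∑ k ∈ Finset.range N, g (x, k)) := Finset.measurable_fun_sum _ hk1
    exact ((hk2.const_mul _).div_const _).pow_const 2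
  have h1 := mp_integral (measurePreserving_snd (μ := isingLaw d θ) (ν := gam d))
    (h := fun g : Ix d → ℝ => (√s * (∑ k ∈ Finset.range N, g (x, k)) / (N * s)) ^ 2) hm.aestronglyMeasurable
  have h2 : ∫ ω, (√s * (∑ k ∈ Finset.range N, ω.2 (x, k)) / (N * s)) ^ 2 ∂(PL d θ) =
      ∫ g, (√s * (∑ k ∈ Finset.range N, g (x, k)) / (N * s)) ^ 2 ∂(gam d) := h1
  rw [h2]
  have e1 : ∀ g : Ix d → ℝ, (√s * (∑ k ∈ Finset.range N, g (x, k)) / (N * s)) ^ 2 =
      (1 / (N ^ 2 * s)) * (∑ k ∈ Finset.range N, g (x, k)) ^ 2 := by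
    intro g
    rw [div_pow, mul_pow, Real.sq_sqrt (NNReal.coe_nonneg s)]
    field_simp
  simp_rw [e1]
  rw [integral_const_mul, gam_sum_sq]
  field_simp

/-- A run on a prefix of the events recovers the observations. -/
lemma GS_innov (θ : ℝ) (hs : s ≠ 0) {D : Finset (Word d)} {l : List (Word d)} (hl : l.Nodup) {N N₂ : ℕ} (h : N ≤ N₂)
    (x : Word d) (a : Ix d → ℝ) (υ : UN d) :
    GS θ s D l N x (innov θ s D a υ (evL l N₂)) = cl (stL a (evL l N) x / (N * s)) := by
  have h1 : GS θ s D l N x (innov θ s D a υ (evL l N₂)) = GS θ s D l N x (innov θ s D a υ (evL l N)) := by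
    refine GS_congr θ s D l N x ?_
    rintro ⟨v, k⟩ he
    obtain ⟨h2, h3⟩ := mem_evL.mp he
    rw [innov_evL θ s hl h2 (lt_of_lt_of_le h3 h), innov_evL θ s hl h2 h3]
  rw [h1]
  unfold GS
  rw [run_innov θ hs (evL_nodup hl N)]

/-- The planted space with the extra noise. -/
noncomputable def POm (d : ℕ) (θ : ℝ) : Measure (OmP d × UN d) := (PL d θ).prod (unu d)

instance : IsProbabilityMeasure (POm d θ) := by unfold POm; infer_instance

/-- The output of a run in the planted space is close to the spin. -/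
theorem GS_close (hs : s ≠ 0) {D : Finset (Word d)} {l : List (Word d)} (hl : l.Nodup) {x : Word d} (hx : x ∈ l)
    {N N₂ : ℕ} (hN : 1 ≤ N) (h : N ≤ N₂) :
    ∫ p, (GS θ s D l N x (innov θ s D (obA s p.1) p.2 (evL l N₂)) - sp (p.1.1 x)) ^ 2 ∂(POm d θ) ≤ 1 / (N * s) := by
  have hk1 : ∀ k ∈ Finset.range N, Measurable (fun g : OmP d => g.2 (x, k)) := fun k _ =>
    (measurable_pi_apply _).comp measurable_snd
  have hk2 : Measurable (fun g : OmP d => ∑ k ∈ Finset.range N, g.2 (x, k)) := Finset.measurable_fun_sum _ hk1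
  have hm : Measurable (fun ω : OmP d => (√s * (∑ k ∈ Finset.range N, ω.2 (x, k)) / (N * s)) ^ 2) :=
    ((hk2.const_mul _).div_const _).pow_const 2
  have h1 : ∫ p : OmP d × UN d, (√s * (∑ k ∈ Finset.range N, p.1.2 (x, k)) / (N * s)) ^ 2 ∂(POm d θ) = 1 / (N * s) := by
    rw [← planted_moment (θ := θ) hs x hN]
    exact mp_integral (measurePreserving_fst (μ := PL d θ) (ν := unu d))
      (h := fun ω : OmP d => (√s * (∑ k ∈ Finset.range N, ω.2 (x, k)) / (N * s)) ^ 2) hm.aestronglyMeasurable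
  have i1 : Integrable (fun ω : OmP d => (√s * (∑ k ∈ Finset.range N, ω.2 (x, k)) / (N * s)) ^ 2) (PL d θ) := by
    have hne : s ≠ 0 := hs
    by_contra hni
    have h0 := integral_undef hni
    rw [planted_moment (θ := θ) hs x hN] at h0
    have hN' : (0 : ℝ) < N := by exact_mod_cast hN
    have hs' : (0 : ℝ) < s := by
      have := pos_iff_ne_zero.mpr hs
      exact_mod_cast this
    have : (0 : ℝ) < 1 / (N * s) := by positivity
    linarith
  have i2 : Integrable (fun p : OmP d × UN d => (√s * (∑ k ∈ Finset.range N, p.1.2 (x, k)) / (N * s)) ^ 2) (POm d θ) :=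
    ((measurePreserving_fst (μ := PL d θ) (ν := unu d)).integrable_comp hm.aestronglyMeasurable).mpr i1
  rw [← h1]
  refine integral_mono_of_nonneg (Filter.Eventually.of_forall fun p => sq_nonneg _) i2
    (Filter.Eventually.of_forall fun p => ?_)
  show (GS θ s D l N x (innov θ s D (obA s p.1) p.2 (evL l N₂)) - sp (p.1.1 x)) ^ 2 ≤
    (√s * (∑ k ∈ Finset.range N, p.1.2 (x, k)) / (N * s)) ^ 2
  rw [GS_innov θ hs hl h, ← sq_abs, ← sq_abs (√s * _ / _)]
  exact pow_le_pow_left₀ (abs_nonneg _) (cl_obA_close hs hl hx hN p.1) 2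

lemma mp_POm (hθ : θ < 1) (hs : s ≠ 0) {D : Finset (Word d)} {l : List (Word d)} (hl : l.Nodup)
    (hlD : ∀ v ∈ l, v ∈ D) (N : ℕ) :
    MeasurePreserving (fun p : OmP d × UN d => innov θ s D (obA s p.1) p.2 (evL l N)) (POm d θ) (unu d) :=
  mp_innov θ hθ hs (evL_nodup hl N) (fun e he => hlD _ (mem_evL.mp he).1)

lemma measurable_sp1 (x : Word d) : Measurable (fun p : OmP d × UN d => sp (p.1.1 x)) :=
  (measurable_sp_at x).comp measurable_fst

/-- Two runs with different numbers of sweeps. -/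
theorem GS_pair (hθ : θ < 1) (hs : s ≠ 0) {D : Finset (Word d)} {l : List (Word d)} (hl : l.Nodup)
    (hlD : ∀ v ∈ l, v ∈ D) {x : Word d} (hx : x ∈ l) {N N' : ℕ} (hN : 1 ≤ N) (hN' : 1 ≤ N') :
    ∫ u, (GS θ s D l N x u - GS θ s D l N' x u) ^ 2 ∂(unu d) ≤ 2 * (1 / (N * s)) + 2 * (1 / (N' * s)) := by
  set N₂ := max N N' with hN₂
  have hmp := mp_POm (θ := θ) hθ hs hl hlD N₂
  set U : OmP d × UN d → UN d := fun p => innov θ s D (obA s p.1) p.2 (evL l N₂) with hU
  have mG : ∀ N₃, Measurable (GS θ s D l N₃ x) := fun N₃ => measurable_GS θ s D l N₃ x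
  have c1 := GS_close (θ := θ) hs (D := D) hl hx hN (le_max_left N N')
  have c2 := GS_close (θ := θ) hs (D := D) hl hx hN' (le_max_right N N')
  rw [← mp_integral hmp (h := fun u => (GS θ s D l N x u - GS θ s D l N' x u) ^ 2)
    (((mG N).sub (mG N')).pow_const 2).aestronglyMeasurable]
  have i : ∀ N₃, Integrable (fun p : OmP d × UN d => (GS θ s D l N₃ x (U p) - sp (p.1.1 x)) ^ 2) (POm d θ) := by
    intro N₃
    refine integrable_bdd (C := 4) ((((mG N₃).comp hmp.measurable).sub (measurable_sp1 x)).pow_const 2) fun p => ?_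
    rw [abs_of_nonneg (sq_nonneg _)]
    have h1 := abs_le.mp (abs_GS_le θ s D l N₃ x (U p))
    have h2 := abs_le.mp (le_of_eq (abs_sp (p.1.1 x)))
    nlinarith
  have j1 := (i N).const_mul 2
  have j2 := (i N').const_mul 2
  have j3 : Integrable (fun p : OmP d × UN d => 2 * (GS θ s D l N x (U p) - sp (p.1.1 x)) ^ 2 +
      2 * (GS θ s D l N' x (U p) - sp (p.1.1 x)) ^ 2) (POm d θ) := j1.add j2
  have h3 := integral_mono_of_nonneg (μ := POm d θ) (f := fun p => (GS θ s D l N x (U p) - GS θ s D l N' x (U p)) ^ 2)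
    (Filter.Eventually.of_forall fun p => sq_nonneg _) j3 (Filter.Eventually.of_forall fun p => by
      show (GS θ s D l N x (U p) - GS θ s D l N' x (U p)) ^ 2 ≤ 2 * (GS θ s D l N x (U p) - sp (p.1.1 x)) ^ 2 +
        2 * (GS θ s D l N' x (U p) - sp (p.1.1 x)) ^ 2
      nlinarith [sq_nonneg ((GS θ s D l N x (U p) - sp (p.1.1 x)) + (GS θ s D l N' x (U p) - sp (p.1.1 x)))])
  refine h3.trans ?_
  have e1 : ∫ p, (2 * (GS θ s D l N x (U p) - sp (p.1.1 x)) ^ 2 + 2 * (GS θ s D l N' x (U p) - sp (p.1.1 x)) ^ 2) ∂(POm d θ) =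
      2 * ∫ p, (GS θ s D l N x (U p) - sp (p.1.1 x)) ^ 2 ∂(POm d θ) +
      2 * ∫ p, (GS θ s D l N' x (U p) - sp (p.1.1 x)) ^ 2 ∂(POm d θ) := by
    rw [integral_add j1 j2, integral_const_mul, integral_const_mul]
  rw [e1]
  linarith

/-- The output of a run is nearly a sign. -/
theorem GS_abs (hθ : θ < 1) (hs : s ≠ 0) {D : Finset (Word d)} {l : List (Word d)} (hl : l.Nodup)
    (hlD : ∀ v ∈ l, v ∈ D) {x : Word d} (hx : x ∈ l) {N : ℕ} (hN : 1 ≤ N) :
    ∫ u, (|GS θ s D l N x u| - 1) ^ 2 ∂(unu d) ≤ (1 : ℝ) / (N * s) := by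
  have hmp := mp_POm (θ := θ) hθ hs hl hlD N
  set U : OmP d × UN d → UN d := fun p => innov θ s D (obA s p.1) p.2 (evL l N) with hU
  have mG : Measurable (GS θ s D l N x) := measurable_GS θ s D l N x
  rw [← mp_integral hmp (h := fun u => (|GS θ s D l N x u| - 1) ^ 2)
    ((mG.abs.sub measurable_const).pow_const 2).aestronglyMeasurable]
  have c1 := GS_close (θ := θ) hs (D := D) hl hx hN (le_refl N)
  refine le_trans ?_ c1
  have i1 : Integrable (fun p : OmP d × UN d => (GS θ s D l N x (U p) - sp (p.1.1 x)) ^ 2) (POm d θ) := by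
    refine integrable_bdd (C := 4) (((mG.comp hmp.measurable).sub (measurable_sp1 x)).pow_const 2) fun p => ?_
    rw [abs_of_nonneg (sq_nonneg _)]
    have h1 := abs_le.mp (abs_GS_le θ s D l N x (U p))
    have h2 := abs_le.mp (le_of_eq (abs_sp (p.1.1 x)))
    nlinarith
  refine integral_mono_of_nonneg (Filter.Eventually.of_forall fun p => sq_nonneg _) i1
    (Filter.Eventually.of_forall fun p => ?_)
  show (|GS θ s D l N x (U p)| - 1) ^ 2 ≤ (GS θ s D l N x (U p) - sp (p.1.1 x)) ^ 2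
  have h3 := abs_abs_sub_abs_le_abs_sub (GS θ s D l N x (U p)) (sp (p.1.1 x))
  rw [abs_sp] at h3
  rw [← sq_abs (GS θ s D l N x (U p) - sp (p.1.1 x)), ← sq_abs (|GS θ s D l N x (U p)| - 1)]
  exact pow_le_pow_left₀ (abs_nonneg _) h3 2

lemma prod_sp_eq (D₁ : Finset (Word d)) (η σ : Word d → Bool) :
    ∏ v ∈ D₁, ((1 + sp (η v) * sp (σ v)) / 2) = (cyl D₁ η).indicator (fun _ => (1 : ℝ)) σ := by
  classical
  by_cases h : σ ∈ cyl D₁ η
  · rw [Set.indicator_of_mem h]
    refine Finset.prod_eq_one fun v hv => ?_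
    rw [h v hv, sp_mul_self]
    norm_num
  · rw [Set.indicator_of_notMem h]
    have h' : ¬ ∀ v ∈ D₁, σ v = η v := h
    push Not at h'
    obtain ⟨v, hv, hne⟩ := h'
    refine Finset.prod_eq_zero hv ?_
    rcases Bool.eq_false_or_eq_true (η v) with h1 | h1 <;> rcases Bool.eq_false_or_eq_true (σ v) with h2 | h2 <;>
      simp_all

/-- The mean of a product over vertices of the output of a run, against the Ising law. -/
theorem GS_prod (hθ : θ < 1) (hs : s ≠ 0) {D : Finset (Word d)} {l : List (Word d)} (hl : l.Nodup)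
    (hlD : ∀ v ∈ l, v ∈ D) {N : ℕ} (hN : 1 ≤ N) (D₁ : Finset (Word d)) (hD₁ : ∀ v ∈ D₁, v ∈ l) (η : Word d → Bool)
    {e : ℝ} (he : 0 ≤ e) (hee : 1 / (N * s) ≤ e ^ 2) :
    |∫ u, ∏ v ∈ D₁, ((1 + sp (η v) * GS θ s D l N v u) / 2) ∂(unu d) - (isingLaw d θ).real (cyl D₁ η)| ≤ D₁.card * e := by
  classical
  have hmp := mp_POm (θ := θ) hθ hs hl hlD N
  set U : OmP d × UN d → UN d := fun p => innov θ s D (obA s p.1) p.2 (evL l N) with hU
  have mG : ∀ x, Measurable (GS θ s D l N x) := fun x => measurable_GS θ s D l N x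
  have mP : Measurable (fun u : UN d => ∏ v ∈ D₁, ((1 + sp (η v) * GS θ s D l N v u) / 2)) :=
    Finset.measurable_fun_prod _ fun v _ => (((mG v).const_mul _).const_add _).div_const _
  have mS : Measurable (fun p : OmP d × UN d => ∏ v ∈ D₁, ((1 + sp (η v) * sp (p.1.1 v)) / 2)) :=
    Finset.measurable_fun_prod _ fun v _ => (((measurable_sp1 v).const_mul _).const_add _).div_const _
  have hab : ∀ (b : Bool) {y : ℝ}, |y| ≤ 1 → |(1 + sp b * y) / 2| ≤ 1 := by
    intro b y hy
    rw [abs_div, abs_two, div_le_iff₀ (by norm_num)]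
    refine (abs_add_le _ _).trans ?_
    rw [abs_one, abs_mul, abs_sp, one_mul]
    linarith
  have aP : ∀ u : UN d, |∏ v ∈ D₁, ((1 + sp (η v) * GS θ s D l N v u) / 2)| ≤ 1 := fun u => by
    rw [Finset.abs_prod]
    exact Finset.prod_le_one (fun _ _ => abs_nonneg _) fun v _ => hab _ (abs_GS_le θ s D l N v u)
  have aS : ∀ p : OmP d × UN d, |∏ v ∈ D₁, ((1 + sp (η v) * sp (p.1.1 v)) / 2)| ≤ 1 := fun p => by
    rw [Finset.abs_prod]
    exact Finset.prod_le_one (fun _ _ => abs_nonneg _) fun v _ => hab _ (le_of_eq (abs_sp _))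
  have e1 := mp_integral hmp (h := fun u => ∏ v ∈ D₁, ((1 + sp (η v) * GS θ s D l N v u) / 2)) mP.aestronglyMeasurable
  have e2 : ∫ p : OmP d × UN d, ∏ v ∈ D₁, ((1 + sp (η v) * sp (p.1.1 v)) / 2) ∂(POm d θ) =
      (isingLaw d θ).real (cyl D₁ η) := by
    simp_rw [prod_sp_eq]
    have hmp2 : MeasurePreserving (fun p : OmP d × UN d => p.1.1) (POm d θ) (isingLaw d θ) :=
      (measurePreserving_fst (μ := isingLaw d θ) (ν := gam d)).comp (measurePreserving_fst (μ := PL d θ) (ν := unu d))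
    have hi : Measurable ((cyl D₁ η).indicator (fun _ => (1 : ℝ))) :=
      measurable_const.indicator (measurableSet_cyl D₁ η)
    have := mp_integral hmp2 (h := (cyl D₁ η).indicator (fun _ => (1 : ℝ))) hi.aestronglyMeasurable
    rw [this]
    exact integral_indicator_one (measurableSet_cyl D₁ η)
  rw [← e1, ← e2]
  have mP2 : Measurable (fun p : OmP d × UN d => ∏ v ∈ D₁, ((1 + sp (η v) * GS θ s D l N v (U p)) / 2)) :=
    mP.comp hmp.measurable
  have i1 := integrable_bdd (μ := POm d θ) mP2 fun p => aP (U p)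
  have i2 := integrable_bdd (μ := POm d θ) mS aS
  rw [← integral_sub i1 i2]
  refine (abs_integral_le_integral_abs).trans ?_
  have hterm : ∀ v ∈ D₁, ∫ p, |GS θ s D l N v (U p) - sp (p.1.1 v)| ∂(POm d θ) ≤ e := by
    intro v hv
    refine abs_int_le (B := 2) (((mG v).comp hmp.measurable).sub (measurable_sp1 v)) (fun p => ?_) he
      ((GS_close (θ := θ) hs (D := D) hl (hD₁ v hv) hN (le_refl N)).trans hee)
    refine (abs_sub _ _).trans ?_
    rw [abs_sp]
    have := abs_GS_le θ s D l N v (U p)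
    show |GS θ s D l N v (U p)| + 1 ≤ 2
    linarith
  have hi3 : ∀ v : Word d, Integrable (fun p : OmP d × UN d => |GS θ s D l N v (U p) - sp (p.1.1 v)|) (POm d θ) := by
    intro v
    refine integrable_bdd (C := 2) (((mG v).comp hmp.measurable).sub (measurable_sp1 v)).abs fun p => ?_
    rw [abs_abs]
    refine (abs_sub _ _).trans ?_
    rw [abs_sp]
    have := abs_GS_le θ s D l N v (U p)
    show |GS θ s D l N v (U p)| + 1 ≤ 2
    linarith
  have hsumint : Integrable (fun p : OmP d × UN d => ∑ v ∈ D₁, |GS θ s D l N v (U p) - sp (p.1.1 v)|) (POm d θ) :=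
    integrable_finsetSum _ fun v _ => hi3 v
  have h3 := integral_mono_of_nonneg (μ := POm d θ) (f := fun p => |∏ v ∈ D₁, ((1 + sp (η v) * GS θ s D l N v (U p)) / 2) -
      ∏ v ∈ D₁, ((1 + sp (η v) * sp (p.1.1 v)) / 2)|)
    (Filter.Eventually.of_forall fun p => abs_nonneg _) hsumint (Filter.Eventually.of_forall fun p => by
      refine (prod_diff D₁ _ _ (fun v _ => hab _ (abs_GS_le θ s D l N v (U p))) (fun v _ => hab _ (le_of_eq (abs_sp _)))).trans ?_
      refine Finset.sum_le_sum fun v _ => ?_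
      have e5 : (1 + sp (η v) * GS θ s D l N v (U p)) / 2 - (1 + sp (η v) * sp (p.1.1 v)) / 2 =
          sp (η v) * (GS θ s D l N v (U p) - sp (p.1.1 v)) / 2 := by ring
      rw [e5, abs_div, abs_mul, abs_sp, one_mul, abs_two]
      linarith [abs_nonneg (GS θ s D l N v (U p) - sp (p.1.1 v))])
  refine h3.trans ?_
  rw [integral_finsetSum _ fun v _ => hi3 v]
  refine (Finset.sum_le_sum hterm).trans (le_of_eq ?_)
  simp

end Close

end Vale.Agent.Lib.P161
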