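import Vale.Agent.Lib.P161.Tree

/-!
Extra facts on the `d`-regular tree: the stabiliser of the root is transitive on spheres,
the graph is a tree, and it is `d`-regular.
-/

namespace Vale.Agent.Lib.P161

open SimpleGraph

variable {d : ℕ}

/-- The relabelling of the descendants of `p` by a permutation `τ`: a list of the form `s ++ p` is
sent to `s.map τ ++ p`, all other lists are fixed. -/
def tr_actL (p : List (Fin d)) (τ : Equiv.Perm (Fin d)) (l : List (Fin d)) : List (Fin d) :=
  if p <:+ l then (l.take (l.length - p.length)).map τ ++ p else l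

lemma tr_actL_append (p s : List (Fin d)) (τ : Equiv.Perm (Fin d)) :
    tr_actL p τ (s ++ p) = s.map τ ++ p := by
  unfold tr_actL
  rw [if_pos (List.suffix_append s p)]
  simp

lemma tr_actL_not (p l : List (Fin d)) (τ : Equiv.Perm (Fin d)) (h : ¬ p <:+ l) :
    tr_actL p τ l = l := by
  unfold tr_actL
  rw [if_neg h]

lemma tr_actL_chain {p : List (Fin d)} {τ : Equiv.Perm (Fin d)}
    (hτ : ∀ a ∈ p.head?, τ a = a) {l : List (Fin d)} (hl : l.IsChain (· ≠ ·)) :
    (tr_actL p τ l).IsChain (· ≠ ·) := by
  by_cases h : p <:+ l
  · obtain ⟨s, rfl⟩ := h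
    rw [tr_actL_append]
    rw [List.isChain_append] at hl ⊢
    obtain ⟨h1, h2, h3⟩ := hl
    refine ⟨?_, h2, ?_⟩
    · rw [List.isChain_map]
      exact h1.imp (fun a b hab hc => hab (τ.injective hc))
    · intro x hx y hy
      rw [List.getLast?_map] at hx
      simp only [Option.mem_def, Option.map_eq_some_iff] at hx
      obtain ⟨z, hz, rfl⟩ := hx
      have h4 := h3 z hz y hy
      have h5 := hτ y hy
      intro hc
      apply h4
      apply τ.injective
      rw [hc, h5]
  · rw [tr_actL_not _ _ _ h]
    exact hl

lemma tr_actL_inv (p : List (Fin d)) (τ σ : Equiv.Perm (Fin d)) (h : ∀ a, σ (τ a) = a)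
    (l : List (Fin d)) : tr_actL p σ (tr_actL p τ l) = l := by
  by_cases h0 : p <:+ l
  · obtain ⟨s, rfl⟩ := h0
    rw [tr_actL_append, tr_actL_append, List.map_map]
    congr 1
    conv_rhs => rw [← List.map_id s]
    apply List.map_congr_left
    intro a _
    exact h a
  · rw [tr_actL_not _ _ _ h0, tr_actL_not _ _ _ h0]

lemma tr_actL_length (p : List (Fin d)) (τ : Equiv.Perm (Fin d)) (l : List (Fin d)) :
    (tr_actL p τ l).length = l.length := by
  by_cases h0 : p <:+ l
  · obtain ⟨s, rfl⟩ := h0
    rw [tr_actL_append]
    simp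
  · rw [tr_actL_not _ _ _ h0]

lemma tr_actL_tail (p : List (Fin d)) (τ : Equiv.Perm (Fin d)) {l : List (Fin d)} (hl : l ≠ []) :
    (tr_actL p τ l).tail = tr_actL p τ l.tail := by
  by_cases h0 : p <:+ l
  · obtain ⟨s, rfl⟩ := h0
    rw [tr_actL_append]
    cases s with
    | nil =>
      -- `l = p`, the tail of `p` is not a descendant of `p`
      simp only [List.nil_append, List.map_nil] at hl ⊢
      have : ¬ p <:+ p.tail := by
        intro h
        have h1 := h.length_le
        cases p with
        | nil => exact hl rfl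
        | cons a t => simp at h1
      rw [tr_actL_not _ _ _ this]
    | cons a s =>
      simp only [List.map_cons, List.cons_append, List.tail_cons]
      rw [tr_actL_append]
  · rw [tr_actL_not _ _ _ h0]
    have : ¬ p <:+ l.tail := fun h => h0 (h.trans (List.tail_suffix l))
    rw [tr_actL_not _ _ _ this]

lemma tr_actL_ne_nil (p : List (Fin d)) (τ : Equiv.Perm (Fin d)) {l : List (Fin d)} (hl : l ≠ []) :
    tr_actL p τ l ≠ [] := by
  intro h
  have := tr_actL_length p τ l
  rw [h] at this
  exact hl (List.length_eq_zero_iff.mp this.symm)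

/-- The vertex map of the relabelling. -/
def tr_actW (p : List (Fin d)) (τ : Equiv.Perm (Fin d)) (hτ : ∀ a ∈ p.head?, τ a = a)
    (v : Word d) : Word d :=
  ⟨tr_actL p τ v.1, tr_actL_chain hτ v.2⟩

lemma tr_actW_adj (p : List (Fin d)) (τ : Equiv.Perm (Fin d)) (hτ : ∀ a ∈ p.head?, τ a = a)
    {v w : Word d} (h : (treeGraph d).Adj v w) :
    (treeGraph d).Adj (tr_actW p τ hτ v) (tr_actW p τ hτ w) := by
  rcases h with ⟨h1, h2⟩ | ⟨h1, h2⟩
  · left
    refine ⟨tr_actL_ne_nil p τ h1, ?_⟩
    show (tr_actL p τ v.1).tail = tr_actL p τ w.1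
    rw [tr_actL_tail p τ h1, h2]
  · right
    refine ⟨tr_actL_ne_nil p τ h1, ?_⟩
    show (tr_actL p τ w.1).tail = tr_actL p τ v.1
    rw [tr_actL_tail p τ h1, h2]

/-- The swap of two children `a`, `b` of the vertex `p`, as a tree automorphism: all descendants
of `p` get relabelled by the transposition, all other vertices are fixed. -/
def tr_swapAut (p : List (Fin d)) (a b : Fin d) (ha : ∀ c ∈ p.head?, c ≠ a)
    (hb : ∀ c ∈ p.head?, c ≠ b) : Aut d :=
  have hτ : ∀ c ∈ p.head?, (Equiv.swap a b) c = c := fun c hc =>
    Equiv.swap_apply_of_ne_of_ne (ha c hc) (hb c hc)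
  have hinv : ∀ v : Word d, tr_actW p (Equiv.swap a b) hτ (tr_actW p (Equiv.swap a b) hτ v) = v :=
    fun v => Subtype.ext (tr_actL_inv p _ _ (fun c => Equiv.swap_apply_self a b c) v.1)
  { toFun := tr_actW p (Equiv.swap a b) hτ
    invFun := tr_actW p (Equiv.swap a b) hτ
    left_inv := hinv
    right_inv := hinv
    map_rel_iff' := by
      intro v w
      constructor
      · intro h
        have := tr_actW_adj p _ hτ h
        simpa [hinv] using this
      · exact tr_actW_adj p _ hτ }

lemma tr_swapAut_apply (p : List (Fin d)) (a b : Fin d) (ha : ∀ c ∈ p.head?, c ≠ a)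
    (hb : ∀ c ∈ p.head?, c ≠ b) (v : Word d) :
    (tr_swapAut p a b ha hb v).1 = tr_actL p (Equiv.swap a b) v.1 := rfl

lemma tr_swapAut_root (p : List (Fin d)) (a b : Fin d) (ha : ∀ c ∈ p.head?, c ≠ a)
    (hb : ∀ c ∈ p.head?, c ≠ b) : tr_swapAut p a b ha hb root = root := by
  apply Subtype.ext
  rw [tr_swapAut_apply]
  exact List.length_eq_zero_iff.mp (tr_actL_length _ _ _)

/-- The strengthened form of the transitivity on spheres: the automorphism also keeps lengths. -/
theorem tr_exists_stab (l : List (Fin d)) :
    ∀ (m : List (Fin d)) (hl : l.IsChain (· ≠ ·)) (hm : m.IsChain (· ≠ ·)),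
      l.length = m.length →
      ∃ k : Aut d, (∀ u, len (k u) = len u) ∧ k root = root ∧ k ⟨l, hl⟩ = ⟨m, hm⟩ := by
  induction l with
  | nil =>
    intro m hl hm h
    have : m = [] := List.length_eq_zero_iff.mp h.symm
    subst this
    exact ⟨Iso.refl, fun _ => rfl, rfl, rfl⟩
  | cons a l ih =>
    intro m hl hm h
    cases m with
    | nil => simp at h
    | cons b m =>
      have hlen : l.length = m.length := by simpa using h
      obtain ⟨k, hk1, hk2, hk3⟩ := ih m hl.tail hm.tail hlen
      -- the image of `a :: l` is a child of `m`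
      have hadj : (treeGraph d).Adj (k ⟨l, hl.tail⟩) (k ⟨a :: l, hl⟩) :=
        k.map_adj_iff.mpr (Or.inr ⟨by simp, rfl⟩)
      rw [hk3] at hadj
      have hlenk : len (k ⟨a :: l, hl⟩) = m.length + 1 := by
        rw [hk1]
        simp [len, hlen]
      obtain ⟨h1, h2⟩ | ⟨h1, h2⟩ := hadj
      · -- the image would be the parent of `m`: impossible by length
        exfalso
        have h3 := congrArg List.length h2
        have h4 : (k ⟨a :: l, hl⟩).1.length = m.length + 1 := hlenk
        rw [h4] at h3
        have h5 : (m.tail).length + 1 = m.length ∨ m = [] := by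
          cases m with
          | nil => right; rfl
          | cons x t => left; simp
        simp only at h3
        rcases h5 with h5 | h5
        · omega
        · subst h5
          simp at h3
      · -- so it is `c :: m`
        obtain ⟨c, t, ht⟩ := List.exists_cons_of_ne_nil h1
        rw [ht] at h2
        have htm : t = m := h2
        subst htm
        have hchain := (k ⟨a :: l, hl⟩).2
        rw [ht] at hchain
        have hca : ∀ x ∈ t.head?, x ≠ c := by
          intro x hx
          cases t with
          | nil => simp at hx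
          | cons y r =>
            have hx' : y = x := by simpa using hx
            subst hx'
            exact (List.isChain_cons_cons.mp hchain).1.symm
        have hba : ∀ x ∈ t.head?, x ≠ b := by
          intro x hx
          cases t with
          | nil => simp at hx
          | cons y r =>
            have hx' : y = x := by simpa using hx
            subst hx'
            exact (List.isChain_cons_cons.mp hm).1.symm
        refine ⟨k.trans (tr_swapAut t c b hca hba), ?_, ?_, ?_⟩
        · intro u
          show ((tr_swapAut t c b hca hba) (k u)).1.length = _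
          rw [tr_swapAut_apply, tr_actL_length]
          exact hk1 u
        · show tr_swapAut t c b hca hba (k root) = root
          rw [hk2, tr_swapAut_root]
        · show tr_swapAut t c b hca hba (k ⟨a :: l, hl⟩) = ⟨b :: t, hm⟩
          apply Subtype.ext
          rw [tr_swapAut_apply, ht]
          show tr_actL t (Equiv.swap c b) ([c] ++ t) = [b] ++ t
          rw [tr_actL_append]
          simp

theorem exists_stab {v w : Word d} (h : len v = len w) : ∃ k : Aut d, k root = root ∧ k v = w := by
  obtain ⟨k, _, h2, h3⟩ := tr_exists_stab v.1 w.1 v.2 w.2 h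
  exact ⟨k, h2, h3⟩

lemma tr_reachable_root (l : List (Fin d)) (hl : l.IsChain (· ≠ ·)) :
    (treeGraph d).Reachable root ⟨l, hl⟩ := by
  induction l with
  | nil => exact Reachable.refl _
  | cons a l ih =>
    refine (ih hl.tail).trans (Adj.reachable ?_)
    right
    exact ⟨by simp, rfl⟩

theorem tr_connected : (treeGraph d).Connected := by
  have : Nonempty (Word d) := ⟨root⟩
  refine ⟨fun v w => ?_⟩
  exact (tr_reachable_root v.1 v.2).symm.trans (tr_reachable_root w.1 w.2)

theorem tr_isAcyclic : (treeGraph d).IsAcyclic := by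
  classical
  intro v c hc
  obtain ⟨x, hx, hmax⟩ : ∃ x ∈ c.support, ∀ y ∈ c.support, len y ≤ len x := by
    have hne : c.support.toFinset.Nonempty := ⟨v, by simp⟩
    obtain ⟨x, hx, hm⟩ := c.support.toFinset.exists_max_image len hne
    exact ⟨x, by simpa using hx, fun y hy => hm y (by simpa using hy)⟩
  have hc' := hc.rotate hx
  have hsupp : ∀ y ∈ (c.rotate x hx).support, y ∈ c.support := by
    intro y hy
    exact (Walk.mem_support_rotate_iff c x hx).mp hy
  have hnil : ¬ (c.rotate x hx).Nil := hc'.not_nil
  have h1 := (c.rotate x hx).adj_snd hnil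
  have h2 := ((c.rotate x hx).adj_penultimate hnil).symm
  have h1m := hmax (c.rotate x hx).snd (hsupp _ (Walk.getVert_mem_support _ _))
  have h2m := hmax (c.rotate x hx).penultimate (hsupp _ (Walk.getVert_mem_support _ _))
  have key : ∀ y, (treeGraph d).Adj x y → len y ≤ len x → y = parent x := by
    intro y hy hle
    rcases adj_len hy with ⟨_, h⟩ | ⟨h, _⟩
    · exact h
    · omega
  exact hc'.snd_ne_penultimate ((key _ h1 h1m).trans (key _ h2 h2m).symm)

theorem treeGraph_isTree : (treeGraph d).IsTree := ⟨tr_connected, tr_isAcyclic⟩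

theorem treeGraph_degree (v : Word d) : Set.ncard ((treeGraph d).neighborSet v) = d := by
  have h : (treeGraph d).neighborSet v = Set.range (fun i : Fin d => gm v (letter i)) := by
    ext u
    rw [SimpleGraph.mem_neighborSet, Set.mem_range]
    conv_lhs => rw [← gm_root v]
    exact adj_aut_root_iff (gm v)
  rw [h, ← Set.image_univ, Set.ncard_image_of_injective _ (aut_letter_injective (gm v))]
  simp

end Vale.Agent.Lib.P161
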