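import Vale.Agent.Lib.P161.SLKernel
import Vale.Agent.Lib.P161.SLField
import Vale.Agent.Lib.P161.TreeExtra

/-!
Deterministic bounds for runs: a change of the noise at one event moves the state at `x` by at most
a constant times `α ^ ρ`, where `ρ` is the distance from the vertex of the event to `x`.
-/

namespace Vale.Agent.Lib.P161

open MeasureTheory ProbabilityTheory
open scoped NNReal ENNReal

variable {d : ℕ}

/-- The events of one sweep through the list `l`. -/
def evS (l : List (Word d)) (k : ℕ) : List (Ix d) := l.map (fun v => (v, k))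

/-- The events of `N` sweeps through the list `l`. -/
def evL (l : List (Word d)) : ℕ → List (Ix d)
  | 0 => []
  | N + 1 => evL l N ++ evS l N

@[simp] lemma evL_zero (l : List (Word d)) : evL l 0 = [] := rfl
lemma evL_succ (l : List (Word d)) (N : ℕ) : evL l (N + 1) = evL l N ++ evS l N := rfl

lemma mem_evL {l : List (Word d)} {N : ℕ} {e : Ix d} : e ∈ evL l N ↔ e.1 ∈ l ∧ e.2 < N := by
  induction N with
  | zero => simp
  | succ N ih =>
    rw [evL_succ, List.mem_append, ih]
    simp only [evS, List.mem_map]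
    constructor
    · rintro (⟨h1, h2⟩ | ⟨v, hv, rfl⟩)
      · exact ⟨h1, by omega⟩
      · exact ⟨hv, by simp⟩
    · rintro ⟨h1, h2⟩
      by_cases h : e.2 < N
      · exact Or.inl ⟨h1, h⟩
      · right
        refine ⟨e.1, h1, ?_⟩
        have : e.2 = N := by omega
        rw [← this]

lemma evL_nodup {l : List (Word d)} (hl : l.Nodup) (N : ℕ) : (evL l N).Nodup := by
  induction N with
  | zero => simp
  | succ N ih =>
    rw [evL_succ, List.nodup_append]
    refine ⟨ih, ?_, ?_⟩
    · refine hl.map ?_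
      intro a b h
      exact (Prod.mk.inj h).1
    · intro a ha b hb
      have h1 := (mem_evL.mp ha).2
      obtain ⟨v, _, rfl⟩ := List.mem_map.mp hb
      rintro rfl
      simp at h1

lemma evL_filter (l : List (Word d)) (P : Word d → Prop) [DecidablePred P] (N : ℕ) :
    (evL l N).filter (fun e => P e.1) = evL (l.filter P) N := by
  induction N with
  | zero => simp
  | succ N ih =>
    rw [evL_succ, evL_succ, List.filter_append, ih]
    congr 1
    simp only [evS, List.filter_map]
    rfl

/-- The state after a list, as a fold from an arbitrary state. -/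
lemma runSL_append (θ : ℝ) (s : ℝ≥0) (D : Finset (Word d)) (u : UN d) (ev₀ ev₁ : List (Ix d)) :
    runSL θ s D u (ev₀ ++ ev₁) = ev₁.foldl (stepSL θ s D u) (runSL θ s D u ev₀) := by
  simp [runSL, List.foldl_append]

lemma runSL_congr (θ : ℝ) (s : ℝ≥0) (D : Finset (Word d)) {u u' : UN d} {ev : List (Ix d)}
    (h : ∀ e ∈ ev, u e = u' e) : runSL θ s D u ev = runSL θ s D u' ev := by
  unfold runSL
  generalize (0 : Word d → ℝ) = y
  induction ev generalizing y with
  | nil => rfl
  | cons e ev ih =>
    simp only [List.foldl_cons]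
    have h1 : stepSL θ s D u y e = stepSL θ s D u' y e := by
      simp only [stepSL, h e (List.mem_cons_self)]
    rw [h1]
    exact ih (fun e' he' => h e' (List.mem_cons_of_mem _ he')) _

/-- The distance from `w` to `x`, through the automorphism moving the root to `w`. -/
noncomputable def rho (w x : Word d) : ℕ := len ((gm w).symm x)

lemma gm_symm_self (w : Word d) : (gm w).symm w = root := by
  have := (gm w).symm_apply_apply root
  rwa [gm_root] at this

@[simp] lemma rho_self (w : Word d) : rho w w = 0 := by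
  unfold rho
  rw [gm_symm_self]
  rfl

lemma len_aut_root_le (γ : Aut d) (u : Word d) : len (γ root) ≤ len u + len (γ u) := by
  have h := (drop_suffix_aut γ u).length_le
  simp only [List.length_drop] at h
  unfold len at *
  omega

lemma rho_root (w : Word d) : rho w root = len w := by
  unfold rho
  apply le_antisymm
  · have h := len_aut_root_le (gm w).symm w
    rw [gm_symm_self] at h
    simpa using h
  · have h := len_aut_root_le (gm w) ((gm w).symm root)
    rw [gm_root, (gm w).apply_symm_apply root] at h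
    simpa using h

section Field

variable {θ : ℝ} [Corr θ]

/-- The weighted Lipschitz bound, with weights centred at `w`. -/
lemma hf_weighted_at (hθ : θ < 1) (hd : 2 ≤ d) {α : ℝ} (hα : θ < α) (hα' : ((d : ℝ) - 1) * θ * α < 1)
    {D : Finset (Word d)} (hD : ConnClosed D) {v : Word d} (hv : v ∈ D) {y y' : Word d → ℝ} {t : ℝ}
    (w : Word d) (h : ∀ x ∈ D, |y x - y' x| ≤ t * α ^ rho w x) :
    |hf θ D y v - hf θ D y' v| ≤ kap d θ α * t * α ^ rho w v := by
  set g : Aut d := (gm w).symm with hg
  have h1 := hf_weighted θ hθ hd hα hα' (connClosed_image hD g) (v := g v)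
    (Finset.mem_map.mpr ⟨v, hv, rfl⟩) (y := actS g y) (y' := actS g y') (t := t) (by
      intro x hx
      obtain ⟨x', hx', rfl⟩ := Finset.mem_map.mp hx
      have := h x' hx'
      simpa [actS, rho] using this)
  rw [hf_map, hf_map] at h1
  exact h1

end Field

section Sweep

variable {θ : ℝ} [Corr θ] {s : ℝ≥0}

/-- The invariant of a sweep. -/
lemma sweep_aux (hθ : θ < 1) (hd : 2 ≤ d) {α : ℝ} (hα : θ < α) (hα' : ((d : ℝ) - 1) * θ * α < 1)
    (hα0 : 0 ≤ α) (hs : s ≠ 0) (hs1 : s < 1) {D : Finset (Word d)} (hD : ConnClosed D) {u u' : UN d}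
    {w : Word d} {k : ℕ} {t S T : ℝ} (ht : 0 ≤ t) (hS : 0 ≤ S) (hT : 0 ≤ T)
    (hkT : t + S + s / (1 - s) * (kap d θ α * T) ≤ T)
    (hk0 : 0 ≤ kap d θ α) :
    ∀ (l : List (Word d)), l.Nodup → (∀ v ∈ l, v ∈ D) →
      (∀ v ∈ l, ∀ h : ℝ, |OO s h (u (v, k)) - OO s h (u' (v, k))| ≤ if v = w then S else 0) →
      ∀ y y' : Word d → ℝ, (∀ x ∈ D, |y x - y' x| ≤ T * α ^ rho w x) →
        (∀ x ∈ l, |y x - y' x| ≤ t * α ^ rho w x) →
        ∀ x ∈ D, |(evS l k).foldl (stepSL θ s D u) y x - (evS l k).foldl (stepSL θ s D u') y' x| ≤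
          T * α ^ rho w x := by
  have hs' : (0 : ℝ) < s := by
    have := pos_iff_ne_zero.mpr hs
    exact_mod_cast this
  have hs1' : (s : ℝ) < 1 := by exact_mod_cast hs1
  have h1s : (0 : ℝ) < 1 - s := by linarith
  have hc : (0 : ℝ) ≤ s / (1 - s) := div_nonneg hs'.le h1s.le
  intro l
  induction l with
  | nil =>
    intro _ _ _ y y' h1 _ x hx
    exact h1 x hx
  | cons v l ih =>
    intro hnd hl hO y y' h1 h2 x hx
    have hvD : v ∈ D := hl v List.mem_cons_self
    have hvl : v ∉ l := (List.nodup_cons.mp hnd).1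
    simp only [evS, List.map_cons, List.foldl_cons]
    refine ih (List.nodup_cons.mp hnd).2 (fun a ha => hl a (List.mem_cons_of_mem _ ha))
      (fun a ha => hO a (List.mem_cons_of_mem _ ha)) _ _ ?_ ?_ x hx
    · intro z hz
      by_cases hzv : z = v
      · subst hzv
        simp only [stepSL, Function.update_self]
        have hf1 := hf_weighted_at hθ hd hα hα' hD hz (y := y) (y' := y') (t := T) w h1
        have hO1 := OO_lip hs hs1 (hf θ D y z) (hf θ D y' z) (u (z, k))
        have hO2 := hO z List.mem_cons_self (hf θ D y' z)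
        have hO1' : |OO s (hf θ D y z) (u (z, k)) - OO s (hf θ D y' z) (u (z, k))| ≤
            s / (1 - s) * (kap d θ α * T * α ^ rho w z) :=
          hO1.trans (mul_le_mul_of_nonneg_left hf1 hc)
        have h3 := h2 z List.mem_cons_self
        have hpow : 0 ≤ α ^ rho w z := pow_nonneg hα0 _
        have e1 : y z + OO s (hf θ D y z) (u (z, k)) - (y' z + OO s (hf θ D y' z) (u' (z, k))) =
            (y z - y' z) + (OO s (hf θ D y z) (u (z, k)) - OO s (hf θ D y' z) (u (z, k))) +
              (OO s (hf θ D y' z) (u (z, k)) - OO s (hf θ D y' z) (u' (z, k))) := by ring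
        rw [e1]
        refine (abs_add_three _ _ _).trans ?_
        by_cases hzw : z = w
        · subst hzw
          simp only [rho_self, pow_zero, mul_one, if_true] at h3 hO1' hO2 ⊢
          linarith
        · simp only [if_neg hzw] at hO2
          have h4 : t * α ^ rho w z + s / (1 - s) * (kap d θ α * T * α ^ rho w z) ≤ T * α ^ rho w z := by
            have e2 : t * α ^ rho w z + s / (1 - s) * (kap d θ α * T * α ^ rho w z) =
                (t + s / (1 - s) * (kap d θ α * T)) * α ^ rho w z := by ring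
            rw [e2]
            refine mul_le_mul_of_nonneg_right ?_ hpow
            linarith
          linarith
      · simp only [stepSL, Function.update_of_ne hzv]
        exact h1 z hz
    · intro z hz
      have hzv : z ≠ v := fun e => hvl (e ▸ hz)
      simp only [stepSL, Function.update_of_ne hzv]
      exact h2 z (List.mem_cons_of_mem _ hz)

/-- The growth of a sweep. -/
noncomputable def gma (d : ℕ) (θ α : ℝ) (s : ℝ≥0) : ℝ := (1 - s / (1 - s) * kap d θ α)⁻¹

/-- The effect of a change of the noise at one event. -/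
theorem run_single (hθ : θ < 1) (hd : 2 ≤ d) {α : ℝ} (hα : θ < α) (hα' : ((d : ℝ) - 1) * θ * α < 1)
    (hα0 : 0 ≤ α) (hs : s ≠ 0) (hs1 : s < 1) (hk0 : 0 ≤ kap d θ α)
    (hcκ : s / (1 - s) * kap d θ α < 1) {D : Finset (Word d)} (hD : ConnClosed D)
    {l : List (Word d)} (hl : l.Nodup) (hlD : ∀ v ∈ l, v ∈ D) {u u' : UN d} {e₀ : Ix d} {S : ℝ}
    (hS : 0 ≤ S) (hne : ∀ e, e ≠ e₀ → u e = u' e) (hO : ∀ h, |OO s h (u e₀) - OO s h (u' e₀)| ≤ S)
    (N : ℕ) : ∀ x ∈ D, |runSL θ s D u (evL l N) x - runSL θ s D u' (evL l N) x| ≤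
      (if e₀.2 < N then gma d θ α s ^ N * S else 0) * α ^ rho e₀.1 x := by
  have hs' : (0 : ℝ) < s := by
    have := pos_iff_ne_zero.mpr hs
    exact_mod_cast this
  have hs1' : (s : ℝ) < 1 := by exact_mod_cast hs1
  have h1s : (0 : ℝ) < 1 - s := by linarith
  have hc : (0 : ℝ) ≤ s / (1 - s) := div_nonneg hs'.le h1s.le
  have hck : 0 ≤ s / (1 - s) * kap d θ α := mul_nonneg hc hk0
  have hpos : 0 < 1 - s / (1 - s) * kap d θ α := by linarith
  have hΓ1 : 1 ≤ gma d θ α s := by
    unfold gma
    rw [one_le_inv₀ hpos]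
    linarith
  have hΓ0 : 0 ≤ gma d θ α s := by linarith
  have hΓe : gma d θ α s * (1 - s / (1 - s) * kap d θ α) = 1 := by
    unfold gma
    exact inv_mul_cancel₀ hpos.ne'
  induction N with
  | zero =>
    intro x _
    simp [runSL]
  | succ N ih =>
    intro x hx
    have ht0 : 0 ≤ (if e₀.2 < N then gma d θ α s ^ N * S else 0) := by
      split_ifs
      · positivity
      · exact le_rfl
    set t : ℝ := if e₀.2 < N then gma d θ α s ^ N * S else 0 with ht
    set S' : ℝ := if e₀.2 = N then S else 0 with hS'def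
    have hS'0 : 0 ≤ S' := by
      rw [hS'def]
      split_ifs
      · exact hS
      · exact le_rfl
    set T : ℝ := gma d θ α s * (t + S') with hT
    have hT0 : 0 ≤ T := mul_nonneg hΓ0 (add_nonneg ht0 hS'0)
    have htT : t ≤ T := by
      have : t ≤ t + S' := by linarith
      calc t ≤ t + S' := this
        _ = 1 * (t + S') := (one_mul _).symm
        _ ≤ T := mul_le_mul_of_nonneg_right hΓ1 (add_nonneg ht0 hS'0)
    have hkT : t + S' + s / (1 - s) * (kap d θ α * T) ≤ T := by
      have e : T * (1 - s / (1 - s) * kap d θ α) = t + S' := by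
        rw [hT]
        calc gma d θ α s * (t + S') * (1 - s / (1 - s) * kap d θ α)
            = (gma d θ α s * (1 - s / (1 - s) * kap d θ α)) * (t + S') := by ring
          _ = t + S' := by rw [hΓe, one_mul]
      have e2 : s / (1 - s) * (kap d θ α * T) = T - T * (1 - s / (1 - s) * kap d θ α) := by ring
      rw [e2, e]
      linarith
    have hrun : ∀ w : UN d, runSL θ s D w (evL l (N + 1)) =
        (evS l N).foldl (stepSL θ s D w) (runSL θ s D w (evL l N)) := fun w => by
      rw [evL_succ, runSL_append]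
    rw [hrun, hrun]
    have key := sweep_aux hθ hd hα hα' hα0 hs hs1 hD (u := u) (u' := u') (w := e₀.1) (k := N)
      ht0 hS'0 hT0 hkT hk0 l hl hlD ?_ (runSL θ s D u (evL l N)) (runSL θ s D u' (evL l N)) ?_ ?_ x hx
    · refine key.trans (mul_le_mul_of_nonneg_right ?_ (pow_nonneg hα0 _))
      rw [hT, ht, hS'def]
      by_cases h1 : e₀.2 < N
      · have h2 : e₀.2 ≠ N := by omega
        have h3 : e₀.2 < N + 1 := by omega
        rw [if_pos h1, if_neg h2, if_pos h3, add_zero, pow_succ]
        apply le_of_eq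
        ring
      · by_cases h2 : e₀.2 = N
        · have h3 : e₀.2 < N + 1 := by omega
          rw [if_neg h1, if_pos h2, if_pos h3, zero_add]
          refine mul_le_mul_of_nonneg_right ?_ hS
          calc gma d θ α s = gma d θ α s ^ 1 := (pow_one _).symm
            _ ≤ gma d θ α s ^ (N + 1) := pow_le_pow_right₀ hΓ1 (by omega)
        · have h3 : ¬ e₀.2 < N + 1 := by omega
          rw [if_neg h1, if_neg h2, if_neg h3]
          simp
    · intro v _ h
      by_cases he : ((v, N) : Ix d) = e₀
      · subst he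
        simp only [if_true, hS'def]
        exact hO h
      · rw [hne _ he, sub_self, abs_zero]
        split_ifs
        · exact hS'0
        · exact le_rfl
    · intro z hz
      refine (ih z hz).trans (mul_le_mul_of_nonneg_right htT (pow_nonneg hα0 _))
    · intro z hz
      exact ih z (hlD z hz)

end Sweep

/-- The clipping to `[-1, 1]`. -/
noncomputable def cl (x : ℝ) : ℝ := max (-1) (min 1 x)

lemma cl_lip (a b : ℝ) : |cl a - cl b| ≤ |a - b| := by
  unfold cl
  rw [max_comm (-1 : ℝ), max_comm (-1 : ℝ), min_comm (1 : ℝ), min_comm (1 : ℝ)]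
  have h1 := abs_max_sub_max_le_abs (min a 1) (min b 1) (-1 : ℝ)
  have h2 := abs_min_sub_min_le_max a (1 : ℝ) b 1
  simp only [sub_self, abs_zero] at h2
  have h3 : max |a - b| 0 = |a - b| := max_eq_left (abs_nonneg _)
  rw [h3] at h2
  exact h1.trans h2

lemma abs_cl_le (a : ℝ) : |cl a| ≤ 1 := by
  unfold cl
  rw [abs_le]
  constructor
  · exact le_max_left _ _
  · exact max_le (by norm_num) (min_le_left _ _)

lemma cl_sp (b : Bool) : cl (sp b) = sp b := by
  cases b <;> simp [cl]

lemma measurable_cl : Measurable cl := by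
  unfold cl
  fun_prop

/-- The output of a run on `D` with `N` sweeps through `l`, at the vertex `o`. -/
noncomputable def GS (θ : ℝ) (s : ℝ≥0) (D : Finset (Word d)) (l : List (Word d)) (N : ℕ) (o : Word d)
    (u : UN d) : ℝ :=
  cl (runSL θ s D u (evL l N) o / (N * s))

lemma abs_GS_le (θ : ℝ) (s : ℝ≥0) (D : Finset (Word d)) (l : List (Word d)) (N : ℕ) (o : Word d)
    (u : UN d) : |GS θ s D l N o u| ≤ 1 := abs_cl_le _

section Meas

variable (θ : ℝ) [Corr θ] (s : ℝ≥0) (D : Finset (Word d))

lemma measurable_step (e : Ix d) {Y : UN d → Word d → ℝ} (hY : Measurable Y) :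
    Measurable (fun u : UN d => stepSL θ s D u (Y u) e) := by
  refine measurable_pi_lambda _ fun x => ?_
  by_cases hx : x = e.1
  · subst hx
    simp only [stepSL, Function.update_self]
    refine ((measurable_pi_apply _).comp hY).add ?_
    exact (measurable_OO s).comp (((measurable_hf θ D e.1).comp hY).prodMk (measurable_pi_apply e))
  · simp only [stepSL, Function.update_of_ne hx]
    exact (measurable_pi_apply _).comp hY

lemma measurable_fold (ev : List (Ix d)) {Y : UN d → Word d → ℝ} (hY : Measurable Y) :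
    Measurable (fun u : UN d => ev.foldl (stepSL θ s D u) (Y u)) := by
  induction ev generalizing Y with
  | nil => exact hY
  | cons e ev ih =>
    simp only [List.foldl_cons]
    exact ih (measurable_step θ s D e hY)

lemma measurable_runSL (ev : List (Ix d)) : Measurable (fun u : UN d => runSL θ s D u ev) :=
  measurable_fold θ s D ev measurable_const

lemma measurable_GS (l : List (Word d)) (N : ℕ) (o : Word d) : Measurable (GS θ s D l N o) := by
  unfold GS
  exact measurable_cl.comp (((measurable_pi_apply o).comp (measurable_runSL θ s D _)).div_const _)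

end Meas

section Single

variable {θ : ℝ} [Corr θ] {s : ℝ≥0}

/-- The effect of one event on the output. -/
theorem GS_single (hθ : θ < 1) (hd : 2 ≤ d) {α : ℝ} (hα : θ < α) (hα' : ((d : ℝ) - 1) * θ * α < 1)
    (hα0 : 0 ≤ α) (hs : s ≠ 0) (hs1 : s < 1) (hk0 : 0 ≤ kap d θ α)
    (hcκ : s / (1 - s) * kap d θ α < 1) {D : Finset (Word d)} (hD : ConnClosed D)
    {l : List (Word d)} (hl : l.Nodup) (hlD : ∀ v ∈ l, v ∈ D) {u u' : UN d} {e₀ : Ix d} {S : ℝ}
    (hS : 0 ≤ S) (hne : ∀ e, e ≠ e₀ → u e = u' e) (hO : ∀ h, |OO s h (u e₀) - OO s h (u' e₀)| ≤ S)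
    {N : ℕ} (hN : 1 ≤ N) {o : Word d} (ho : o ∈ D) :
    |GS θ s D l N o u - GS θ s D l N o u'| ≤
      gma d θ α s ^ N / (N * s) * S * α ^ rho e₀.1 o := by
  have hs' : (0 : ℝ) < s := by
    have := pos_iff_ne_zero.mpr hs
    exact_mod_cast this
  have hNpos : (0 : ℝ) < N := by exact_mod_cast hN
  have hden : (0 : ℝ) < N * s := mul_pos hNpos hs'
  have hs1' : (s : ℝ) < 1 := by exact_mod_cast hs1
  have h1s : (0 : ℝ) < 1 - s := by linarith
  have hpos : 0 < 1 - s / (1 - s) * kap d θ α := by linarith
  have hΓ0 : 0 ≤ gma d θ α s := by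
    unfold gma
    exact (inv_pos.mpr hpos).le
  have h1 := run_single hθ hd hα hα' hα0 hs hs1 hk0 hcκ hD hl hlD hS hne hO N o ho
  refine (cl_lip _ _).trans ?_
  rw [← sub_div, abs_div, abs_of_pos hden, div_le_iff₀ hden]
  refine h1.trans ?_
  have hpow : 0 ≤ α ^ rho e₀.1 o := pow_nonneg hα0 _
  have hb : (if e₀.2 < N then gma d θ α s ^ N * S else 0) ≤ gma d θ α s ^ N * S := by
    split_ifs
    · exact le_rfl
    · positivity
  calc (if e₀.2 < N then gma d θ α s ^ N * S else 0) * α ^ rho e₀.1 o
      ≤ gma d θ α s ^ N * S * α ^ rho e₀.1 o := mul_le_mul_of_nonneg_right hb hpow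
    _ = gma d θ α s ^ N / (N * s) * S * α ^ rho e₀.1 o * (N * s) := by
      field_simp

lemma GS_congr (θ : ℝ) (s : ℝ≥0) (D : Finset (Word d)) (l : List (Word d)) (N : ℕ) (o : Word d)
    {u u' : UN d} (h : ∀ e ∈ evL l N, u e = u' e) : GS θ s D l N o u = GS θ s D l N o u' := by
  unfold GS
  rw [runSL_congr θ s D h]

/-- The effect of several events on the output. -/
theorem GS_multi (hθ : θ < 1) (hd : 2 ≤ d) {α : ℝ} (hα : θ < α) (hα' : ((d : ℝ) - 1) * θ * α < 1)
    (hα0 : 0 ≤ α) (hα1 : α ≤ 1) (hs : s ≠ 0) (hs1 : s < 1) (hk0 : 0 ≤ kap d θ α)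
    (hcκ : s / (1 - s) * kap d θ α < 1) {D : Finset (Word d)} (hD : ConnClosed D)
    {l : List (Word d)} (hl : l.Nodup) (hlD : ∀ v ∈ l, v ∈ D) {N : ℕ} (hN : 1 ≤ N) {o : Word d}
    (ho : o ∈ D) (F : Finset (Ix d)) {S : Ix d → ℝ} (hS : ∀ e, 0 ≤ S e) (u u' : UN d)
    (hne : ∀ e ∈ evL l N, e ∉ F → u e = u' e)
    (hO : ∀ e ∈ F, ∀ h, |OO s h (u e) - OO s h (u' e)| ≤ S e) :
    |GS θ s D l N o u - GS θ s D l N o u'| ≤ gma d θ α s ^ N / (N * s) * ∑ e ∈ F, S e := by
  classical
  have hs' : (0 : ℝ) < s := by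
    have := pos_iff_ne_zero.mpr hs
    exact_mod_cast this
  have hNpos : (0 : ℝ) < N := by exact_mod_cast hN
  have hden : (0 : ℝ) < N * s := mul_pos hNpos hs'
  have hs1' : (s : ℝ) < 1 := by exact_mod_cast hs1
  have h1s : (0 : ℝ) < 1 - s := by linarith
  have hpos : 0 < 1 - s / (1 - s) * kap d θ α := by linarith
  have hΓ0 : 0 ≤ gma d θ α s := by
    unfold gma
    exact (inv_pos.mpr hpos).le
  have hC : 0 ≤ gma d θ α s ^ N / (N * s) := by positivity
  induction F using Finset.induction_on generalizing u' with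
  | empty =>
    rw [GS_congr θ s D l N o (u := u) (u' := u') (fun e he => hne e he (by simp)), sub_self, abs_zero]
    simp
  | insert e₀ F he₀ ih =>
    set u₁ : UN d := Function.update u' e₀ (u e₀) with hu₁
    have h1 := ih u₁ (fun e he heF => by
      by_cases h : e = e₀
      · subst h
        simp [hu₁]
      · rw [hu₁, Function.update_of_ne h]
        exact hne e he (by simp [h, heF])) (fun e he h => by
      have hee : e ≠ e₀ := fun h' => he₀ (h' ▸ he)
      rw [hu₁, Function.update_of_ne hee]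
      exact hO e (Finset.mem_insert_of_mem he) h)
    have h2 := GS_single hθ hd hα hα' hα0 hs hs1 hk0 hcκ hD hl hlD (u := u₁) (u' := u') (e₀ := e₀)
      (hS e₀) (fun e he => by rw [hu₁, Function.update_of_ne he])
      (fun h => by
        rw [hu₁, Function.update_self]
        exact hO e₀ (Finset.mem_insert_self _ _) h) hN ho
    have hpow : α ^ rho e₀.1 o ≤ 1 := pow_le_one₀ hα0 hα1
    have h3 : gma d θ α s ^ N / (N * s) * S e₀ * α ^ rho e₀.1 o ≤ gma d θ α s ^ N / (N * s) * S e₀ := by
      have : 0 ≤ gma d θ α s ^ N / (N * s) * S e₀ := mul_nonneg hC (hS _)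
      exact mul_le_of_le_one_right this hpow
    rw [Finset.sum_insert he₀, mul_add]
    calc |GS θ s D l N o u - GS θ s D l N o u'|
        ≤ |GS θ s D l N o u - GS θ s D l N o u₁| + |GS θ s D l N o u₁ - GS θ s D l N o u'| :=
          abs_sub_le _ _ _
      _ ≤ _ := by linarith

end Single

end Vale.Agent.Lib.P161
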