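import Vale.Agent.Lib.P161.Fields
import Vale.Agent.Lib.P161.Gauss
import Vale.Agent.Lib.P161.TreeExtra

/-!
The shift of noise times, functions of the noise alone, and the Gaussian and spin coordinates.
-/

namespace Vale.Agent.Lib.P161

open MeasureTheory ProbabilityTheory
open scoped ENNReal NNReal InnerProductSpace

variable {d : ℕ}

/-- The shift of noise times. -/
def shfN (z : Noise d) : Noise d := fun i => z (i.1, i.2 + 1)

/-- The shift of noise times, on the sample space. -/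
def shf (ω : Om d) : Om d := (ω.1, shfN ω.2)

/-- The noise at time zero. -/
def z0 (z : Noise d) : Word d → Zv := fun v => z (v, 0)

/-- The law of the noise at time zero. -/
noncomputable def nu0 (d : ℕ) : Measure (Word d → Zv) := Measure.infinitePi (fun _ : Word d => mZ)

instance : IsProbabilityMeasure (nu0 d) := by unfold nu0; infer_instance

lemma measurable_shfN : Measurable (shfN : Noise d → Noise d) :=
  measurable_pi_lambda _ fun _ => measurable_pi_apply _

lemma measurable_z0 : Measurable (z0 : Noise d → _) :=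
  measurable_pi_lambda _ fun _ => measurable_pi_apply _

lemma mp_shfN : MeasurePreserving (shfN : Noise d → Noise d) (nu d) (nu d) := by
  refine ⟨measurable_shfN, ?_⟩
  have hinj : Function.Injective (fun i : Idx d => ((i.1, i.2 + 1) : Idx d)) := by
    rintro ⟨a, b⟩ ⟨c, e⟩ h
    simp only [Prod.mk.injEq, Nat.add_right_cancel_iff] at h
    rw [h.1, h.2]
  exact Measure.map_infinitePi_infinitePi_of_inj (P := fun _ : Idx d => mZ) hinj

lemma mp_z0 : MeasurePreserving (z0 : Noise d → _) (nu d) (nu0 d) := by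
  refine ⟨measurable_z0, ?_⟩
  have hinj : Function.Injective (fun v : Word d => ((v, 0) : Idx d)) := by
    intro a b h
    exact (Prod.mk.inj h).1
  exact Measure.map_infinitePi_infinitePi_of_inj (P := fun _ : Idx d => mZ) hinj

/-- Functions of disjoint sets of noise coordinates are independent. -/
lemma indepFun_noise {α β : Type*} [MeasurableSpace α] [MeasurableSpace β] {A B : Set (Idx d)}
    (h : Disjoint A B) {X : Noise d → α} {Y : Noise d → β}
    (hX : Measurable[noiseSigma A] X) (hY : Measurable[noiseSigma B] Y) : IndepFun X Y (nu d) := by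
  rw [IndepFun_iff_Indep]
  exact indep_of_indep_of_le_left (indep_of_indep_of_le_right (indep_noise h) hY.comap_le)
    hX.comap_le

/-- The noise splits into the future and the present. -/
lemma mp_splitN : MeasurePreserving (fun z : Noise d => (shfN z, z0 z)) (nu d) ((nu d).prod (nu0 d)) := by
  refine ⟨measurable_shfN.prodMk measurable_z0, ?_⟩
  have hA : Disjoint {i : Idx d | 1 ≤ i.2} {i : Idx d | i.2 = 0} := by
    rw [Set.disjoint_left]
    intro i h1 h2
    simp only [Set.mem_ofPred_eq] at h1 h2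
    omega
  have hX : Measurable[noiseSigma {i : Idx d | 1 ≤ i.2}] (shfN : Noise d → Noise d) := by
    refine @measurable_pi_lambda _ _ _ (noiseSigma _) _ _ fun i => ?_
    exact meas_noise (show 1 ≤ i.2 + 1 by omega)
  have hY : Measurable[noiseSigma {i : Idx d | i.2 = 0}] (z0 : Noise d → _) := by
    refine @measurable_pi_lambda _ _ _ (noiseSigma _) _ _ fun v => ?_
    exact meas_noise (show (0 : ℕ) = 0 from rfl)
  have hI := indepFun_noise hA hX hY
  have := (indepFun_iff_map_prod_eq_prod_map_map measurable_shfN.aemeasurable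
    measurable_z0.aemeasurable).mp hI
  rw [mp_shfN.map_eq, mp_z0.map_eq] at this
  exact this

section Hilbert

variable (θ : ℝ) [Corr θ]

lemma mp_shf : MeasurePreserving (shf : Om d → Om d) (PP d θ) (PP d θ) :=
  (MeasurePreserving.id _).prod mp_shfN

/-- The sample space splits into the future and the present. -/
lemma mp_split : MeasurePreserving (fun ω : Om d => (shf ω, z0 ω.2)) (PP d θ) ((PP d θ).prod (nu0 d)) := by
  have h1 : MeasurePreserving (fun ω : Om d => (ω.1, (shfN ω.2, z0 ω.2))) (PP d θ)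
      ((isingLaw d θ).prod ((nu d).prod (nu0 d))) :=
    (MeasurePreserving.id _).prod mp_splitN
  have h2 := (measurePreserving_prodAssoc (isingLaw d θ) (nu d) (nu0 d)).symm
  exact h2.comp h1

/-- The Koopman operator of the shift. -/
noncomputable def SS : HH d θ →ₗᵢ[ℝ] HH d θ :=
  Lp.compMeasurePreservingₗᵢ ℝ shf (mp_shf θ)

lemma SS_coe (ξ : HH d θ) : SS θ ξ =ᵐ[PP d θ] ξ ∘ shf :=
  Lp.coeFn_compMeasurePreserving ξ (mp_shf θ)

lemma SS_UU (g : Aut d) (ξ : HH d θ) : SS θ (UU θ g ξ) = UU θ g (SS θ ξ) := by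
  have e : act g.symm ∘ shf = shf ∘ act g.symm := by
    funext ω
    rfl
  show Lp.compMeasurePreserving _ _ (Lp.compMeasurePreserving _ _ ξ) =
    Lp.compMeasurePreserving _ _ (Lp.compMeasurePreserving _ _ ξ)
  rw [← Lp.compMeasurePreserving_comp_apply, ← Lp.compMeasurePreserving_comp_apply]
  exact compMP_congr θ e _ _ ξ

lemma SS_LL (ξ : HH d θ) : SS θ (LL θ ξ) = LL θ (SS θ ξ) := by
  rw [LL_apply, LL_apply, map_sum]
  exact Finset.sum_congr rfl fun i _ => SS_UU θ _ ξ

lemma inner_oneL_SS (ξ : HH d θ) : ⟪oneL θ, SS θ ξ⟫_ℝ = ⟪oneL θ, ξ⟫_ℝ := by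
  rw [← integral_eq_inner, ← integral_eq_inner, integral_congr_ae (SS_coe θ ξ)]
  exact mp_integral (mp_shf θ) (Lp.aestronglyMeasurable ξ)

lemma SS_mem {ξ : HH d θ} (hξ : ξ ∈ KK θ) : SS θ ξ ∈ KK θ := by
  refine ⟨by rw [inner_oneL_SS, hξ.1], fun k hk => ?_⟩
  rw [← SS_UU, hξ.2 k hk]

lemma fld_SS (ξ : HH d θ) (v : Word d) : fld θ (SS θ ξ) v = SS θ (fld θ ξ v) :=
  (SS_UU θ _ ξ).symm

lemma fmap_SS (ξ : HH d θ) : fmap θ (SS θ ξ) =ᵐ[PP d θ] fmap θ ξ ∘ shf := by
  have h : ∀ v : Word d, ∀ᵐ ω ∂(PP d θ), fmap θ (SS θ ξ) ω v = fmap θ ξ (shf ω) v := by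
    intro v
    filter_upwards [SS_coe θ (fld θ ξ v)] with ω h
    simp only [fmap]
    rw [fld_SS, h]
    rfl
  filter_upwards [ae_all_iff.mpr h] with ω h
  funext v
  exact h v

lemma flaw_SS (ξ : HH d θ) : flaw θ (SS θ ξ) = flaw θ ξ := by
  unfold flaw
  rw [Measure.map_congr (fmap_SS θ ξ), ← Measure.map_map (measurable_fmap θ ξ)
    (mp_shf θ).measurable, (mp_shf θ).map_eq]

end Hilbert

section KSpace

variable {θ : ℝ} [Corr θ]

variable (θ) in
/-- The shift on the invariant functions. -/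
noncomputable def SK : KS d θ →L[ℝ] KS d θ :=
  ContinuousLinearMap.codRestrict ((SS θ).toContinuousLinearMap.comp KS.vL) (KK θ) fun ξ => SS_mem θ ξ.2

@[simp] lemma SK_v (ξ : KS d θ) : (SK θ ξ).v = SS θ ξ.v := rfl

lemma SK_LK (ξ : KS d θ) : SK θ (LK θ ξ) = LK θ (SK θ ξ) := KS.ext (SS_LL θ ξ.v)

lemma norm_SK (ξ : KS d θ) : ‖SK θ ξ‖ = ‖ξ‖ := (SS θ).norm_map ξ.v

/-- The shift commutes with the algebra of the adjacency operator. -/
lemma SK_comm {T : KS d θ →L[ℝ] KS d θ} (hT : T ∈ alg (LK θ)) (x : KS d θ) : T (SK θ x) = SK θ (T x) := by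
  revert x
  refine alg_induction (LK θ) (P := fun T => ∀ x, T (SK θ x) = SK θ (T x)) ?_ ?_ ?_ ?_ ?_ hT
  · simp only [Set.ofPred_forall]
    refine isClosed_iInter fun x => isClosed_eq ?_ ?_
    · exact (ContinuousLinearMap.apply ℝ _ _).continuous
    · exact (SK θ).continuous.comp (ContinuousLinearMap.apply ℝ _ _).continuous
  · exact fun x => (SK_LK x).symm
  · intro r x
    simp [Algebra.algebraMap_eq_smul_one]
  · intro a b ha hb x
    simp [ha, hb]
  · intro a b ha hb x
    show a (b (SK θ x)) = SK θ (a (b x))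
    rw [hb, ha]

variable (θ) in
/-- Closed subspaces preserved by the adjacency operator are preserved by its algebra. -/
lemma alg_preserves {W : Submodule ℝ (HH d θ)} (hW : IsClosed (W : Set (HH d θ)))
    (hL : ∀ ξ ∈ KK θ, ξ ∈ W → LL θ ξ ∈ W) {T : KS d θ →L[ℝ] KS d θ} (hT : T ∈ alg (LK θ))
    (x : KS d θ) (hx : x.v ∈ W) : (T x).v ∈ W := by
  revert x
  refine alg_induction (LK θ) (P := fun T => ∀ x : KS d θ, x.v ∈ W → (T x).v ∈ W) ?_ ?_ ?_ ?_ ?_ hT
  · simp only [Set.ofPred_forall]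
    refine isClosed_iInter fun x => isClosed_iInter fun _ => hW.preimage ?_
    exact KS.vL.continuous.comp (ContinuousLinearMap.apply ℝ _ x).continuous
  · exact fun x hx => hL _ x.2 hx
  · intro r x hx
    have e : ((algebraMap ℝ (KS d θ →L[ℝ] KS d θ) r) x).v = r • x.v := by
      simp [Algebra.algebraMap_eq_smul_one]
    rw [e]
    exact W.smul_mem _ hx
  · intro a b ha hb x hx
    exact W.add_mem (ha x hx) (hb x hx)
  · intro a b ha hb x hx
    exact ha _ (hb x hx)

end KSpace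

section Noise

variable (θ : ℝ) [Corr θ]

lemma mp_snd : MeasurePreserving (Prod.snd : Om d → Noise d) (PP d θ) (nu d) := measurePreserving_snd

/-- Functions of the noise alone. -/
noncomputable def JJ : Lp ℝ 2 (nu d) →ₗᵢ[ℝ] HH d θ :=
  Lp.compMeasurePreservingₗᵢ ℝ Prod.snd (mp_snd θ)

lemma JJ_coe (f : Lp ℝ 2 (nu d)) : JJ θ f =ᵐ[PP d θ] f ∘ Prod.snd :=
  Lp.coeFn_compMeasurePreserving f (mp_snd θ)

/-- The subspace of functions of the noise alone. -/
noncomputable def NN : Submodule ℝ (HH d θ) := LinearMap.range (JJ θ).toLinearMap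

lemma NN_closed : IsClosed (NN (d := d) θ : Set (HH d θ)) := by
  have : (NN (d := d) θ : Set (HH d θ)) = Set.range (JJ θ) := LinearMap.coe_range _
  rw [this]
  exact (JJ θ).isometry.isClosedEmbedding.isClosed_range

lemma exists_rep {ξ : HH d θ} (hξ : ξ ∈ NN θ) :
    ∃ f : Noise d → ℝ, Measurable f ∧ ξ =ᵐ[PP d θ] f ∘ Prod.snd := by
  obtain ⟨f, rfl⟩ := hξ
  exact ⟨f, (Lp.stronglyMeasurable f).measurable, JJ_coe θ f⟩

lemma mem_NN_of_ae {ξ : HH d θ} {f : Noise d → ℝ} (hf : Measurable f)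
    (h : ξ =ᵐ[PP d θ] f ∘ Prod.snd) : ξ ∈ NN θ := by
  have h1 : MemLp (f ∘ Prod.snd) 2 (PP d θ) := (memLp_congr_ae h).mp (Lp.memLp ξ)
  have h2 : MemLp f 2 (nu d) := by
    rw [← (mp_snd θ).map_eq]
    exact (memLp_map_measure_iff hf.aestronglyMeasurable (mp_snd θ).measurable.aemeasurable).mpr h1
  refine ⟨h2.toLp f, ?_⟩
  apply Lp.ext
  refine (JJ_coe θ _).trans ?_
  refine Filter.EventuallyEq.trans ?_ h.symm
  exact (mp_snd θ).quasiMeasurePreserving.ae_eq_comp h2.coeFn_toLp

lemma UU_NN (g : Aut d) {ξ : HH d θ} (hξ : ξ ∈ NN θ) : UU θ g ξ ∈ NN θ := by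
  obtain ⟨f, hf, h⟩ := exists_rep θ hξ
  refine mem_NN_of_ae θ (f := f ∘ actN g.symm) (hf.comp (measurable_actN _)) ?_
  refine (UU_coe θ g ξ).trans ?_
  exact (mp_act θ g.symm).quasiMeasurePreserving.ae_eq_comp h

lemma LL_NN {ξ : HH d θ} (hξ : ξ ∈ NN θ) : LL θ ξ ∈ NN θ := by
  rw [LL_apply]
  exact Submodule.sum_mem _ fun i _ => UU_NN θ _ hξ

lemma SS_NN {ξ : HH d θ} (hξ : ξ ∈ NN θ) : SS θ ξ ∈ NN θ := by
  obtain ⟨f, hf, h⟩ := exists_rep θ hξ
  refine mem_NN_of_ae θ (f := f ∘ shfN) (hf.comp measurable_shfN) ?_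
  refine (SS_coe θ ξ).trans ?_
  exact (mp_shf θ).quasiMeasurePreserving.ae_eq_comp h

end Noise

end Vale.Agent.Lib.P161
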