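import Vale.Agent.Lib.P161.Decay

/-!
The probability space carrying an Ising configuration and independent noise at each vertex and time,
the action of automorphisms, its Koopman operators on `L²`, and the adjacency operator.
-/

namespace Vale.Agent.Lib.P161

open MeasureTheory ProbabilityTheory
open scoped ENNReal NNReal

variable {d : ℕ}

/-- Indices of noise variables: a vertex and a time. -/
abbrev Idx (d : ℕ) : Type := Word d × ℕ

/-- A noise variable: a real number and a point of the unit interval. -/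
abbrev Zv : Type := ℝ × unitInterval

/-- Law of a noise variable: standard Gaussian times uniform. -/
noncomputable def mZ : Measure Zv := (gaussianReal 0 1).prod volume

instance : IsProbabilityMeasure mZ := by unfold mZ; infer_instance

/-- The noise configurations. -/
abbrev Noise (d : ℕ) : Type := Idx d → Zv

/-- The law of the noise. -/
noncomputable def nu (d : ℕ) : Measure (Noise d) := Measure.infinitePi (fun _ : Idx d => mZ)

instance : IsProbabilityMeasure (nu d) := by unfold nu; infer_instance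

/-- The sample space. -/
abbrev Om (d : ℕ) : Type := (Word d → Bool) × Noise d

/-- The probability measure on the sample space. -/
noncomputable def PP (d : ℕ) (θ : ℝ) : Measure (Om d) := (isingLaw d θ).prod (nu d)

instance (θ : ℝ) [Corr θ] : IsProbabilityMeasure (PP d θ) := by unfold PP; infer_instance

/-- The action of automorphisms on noise. -/
def actN (g : Aut d) (z : Noise d) : Noise d := fun i => z (g.symm i.1, i.2)

/-- The action of automorphisms on the sample space. -/
def act (g : Aut d) (ω : Om d) : Om d := (actS g ω.1, actN g ω.2)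

lemma measurable_actN (g : Aut d) : Measurable (actN g) :=
  measurable_pi_lambda _ fun _ => measurable_pi_apply _

lemma mp_actN (g : Aut d) : MeasurePreserving (actN g) (nu d) (nu d) := by
  refine ⟨measurable_actN g, ?_⟩
  have hinj : Function.Injective (fun i : Idx d => ((g.symm i.1, i.2) : Idx d)) := by
    rintro ⟨a, b⟩ ⟨c, e⟩ h
    simp only [Prod.mk.injEq] at h
    have : a = c := g.symm.injective h.1
    rw [this, h.2]
  exact Measure.map_infinitePi_infinitePi_of_inj (P := fun _ : Idx d => mZ) hinj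

lemma mp_actS (θ : ℝ) [Corr θ] (g : Aut d) : MeasurePreserving (actS g) (isingLaw d θ) (isingLaw d θ) :=
  ⟨measurable_actS g, isingLaw_map_actS θ g⟩

lemma mp_act (θ : ℝ) [Corr θ] (g : Aut d) : MeasurePreserving (act g) (PP d θ) (PP d θ) :=
  (mp_actS θ g).prod (mp_actN g)

section Hilbert

variable (θ : ℝ) [Corr θ]

/-- The Hilbert space of square integrable functions on the sample space. -/
abbrev HH (d : ℕ) (θ : ℝ) : Type := Lp ℝ 2 (PP d θ)

/-- The Koopman operator of an automorphism: `(U g ξ) ω = ξ (g⁻¹ ω)`. -/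
noncomputable def UU (g : Aut d) : HH d θ →ₗᵢ[ℝ] HH d θ :=
  Lp.compMeasurePreservingₗᵢ ℝ (act g.symm) (mp_act θ g.symm)

lemma UU_coe (g : Aut d) (ξ : HH d θ) : UU θ g ξ =ᵐ[PP d θ] ξ ∘ act g.symm :=
  Lp.coeFn_compMeasurePreserving ξ (mp_act θ g.symm)

lemma compMP_congr {f₁ f₂ : Om d → Om d} (h : f₁ = f₂) (h₁ : MeasurePreserving f₁ (PP d θ) (PP d θ))
    (h₂ : MeasurePreserving f₂ (PP d θ) (PP d θ)) (ξ : HH d θ) :
    Lp.compMeasurePreserving f₁ h₁ ξ = Lp.compMeasurePreserving f₂ h₂ ξ := by
  subst h; rfl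

lemma UU_UU (g h : Aut d) (ξ : HH d θ) : UU θ g (UU θ h ξ) = UU θ (h.trans g) ξ := by
  have e : act h.symm ∘ act g.symm = act (h.trans g).symm := by
    funext ω
    rfl
  show Lp.compMeasurePreserving _ _ (Lp.compMeasurePreserving _ _ ξ) =
    Lp.compMeasurePreserving _ _ ξ
  rw [← Lp.compMeasurePreserving_comp_apply]
  exact compMP_congr θ e _ _ ξ

lemma UU_refl (ξ : HH d θ) : UU θ (SimpleGraph.Iso.refl) ξ = ξ := by
  have e : act (SimpleGraph.Iso.refl : Aut d).symm = id := by
    funext ω
    rfl
  show Lp.compMeasurePreserving _ _ ξ = ξ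
  rw [compMP_congr θ e _ (MeasurePreserving.id _) ξ]
  exact Lp.compMeasurePreserving_id_apply ξ

lemma flip_trans_flip (i : Fin d) : (flipAut i).trans (flipAut i) = SimpleGraph.Iso.refl :=
  RelIso.ext fun v => flipAut_flipAut i v

lemma UU_flip_flip (i : Fin d) (ξ : HH d θ) : UU θ (flipAut i) (UU θ (flipAut i) ξ) = ξ := by
  rw [UU_UU, flip_trans_flip, UU_refl]

lemma inner_UU_flip (i : Fin d) (ξ η : HH d θ) :
    inner ℝ (UU θ (flipAut i) ξ) η = inner ℝ ξ (UU θ (flipAut i) η) := by
  conv_lhs => rw [← UU_flip_flip θ i η]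
  exact (UU θ (flipAut i)).inner_map_map _ _

/-- The adjacency operator on `L²`. -/
noncomputable def LL : HH d θ →L[ℝ] HH d θ :=
  ∑ i : Fin d, (UU θ (flipAut i)).toContinuousLinearMap

lemma LL_apply (ξ : HH d θ) : LL θ ξ = ∑ i : Fin d, UU θ (flipAut i) ξ := by
  simp [LL]

lemma inner_LL (ξ η : HH d θ) : inner ℝ (LL θ ξ) η = inner ℝ ξ (LL θ η) := by
  rw [LL_apply, LL_apply, sum_inner, inner_sum]
  exact Finset.sum_congr rfl fun i _ => inner_UU_flip θ i ξ η

lemma UU_LL (g : Aut d) (ξ : HH d θ) :
    UU θ g (LL θ ξ) = ∑ i : Fin d, UU θ ((flipAut i).trans g) ξ := by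
  rw [LL_apply, map_sum]
  exact Finset.sum_congr rfl fun i _ => UU_UU θ g _ ξ

end Hilbert

/-- The weighted neighbour sum of the Schur function `q ^ len`. -/
lemma sum_phi_le (hd : 2 ≤ d) {m : ℝ} (hm0 : 0 < m) (hm : m ^ 2 = (d : ℝ) - 1) (γ : Aut d) :
    ∑ i : Fin d, (m⁻¹) ^ len (γ (letter i)) ≤ 2 * m * (m⁻¹) ^ len (γ root) := by
  classical
  set n := len (γ root) with hn
  set q := m⁻¹ with hq
  have hq0 : 0 < q := inv_pos.mpr hm0
  have hmq : m * q = 1 := mul_inv_cancel₀ hm0.ne'
  set S := Finset.univ.filter (fun i : Fin d => len (γ (letter i)) + 1 = n) with hS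
  have hterm : ∀ i : Fin d, q ^ len (γ (letter i)) = q ^ n * (if i ∈ S then m else q) := by
    intro i
    have hadj := (adj_aut_root_iff γ).mpr ⟨i, rfl⟩
    by_cases hi : i ∈ S
    · rw [if_pos hi]
      have h1 : len (γ (letter i)) + 1 = n := (Finset.mem_filter.mp hi).2
      rw [← h1, pow_succ, mul_assoc, mul_comm q m, hmq, mul_one]
    · rw [if_neg hi]
      have h1 : ¬ (len (γ (letter i)) + 1 = n) := fun h =>
        hi (Finset.mem_filter.mpr ⟨Finset.mem_univ _, h⟩)
      rcases adj_len hadj with ⟨h2, _⟩ | ⟨h2, _⟩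
      · exact absurd h2.symm h1
      · rw [h2, pow_succ]
  have hcard : S.card ≤ 1 := by
    rw [Finset.card_le_one]
    intro i hi j hj
    have hi1 := (Finset.mem_filter.mp hi).2
    have hj1 := (Finset.mem_filter.mp hj).2
    have hadi := (adj_aut_root_iff γ).mpr ⟨i, rfl⟩
    have hadj := (adj_aut_root_iff γ).mpr ⟨j, rfl⟩
    have pi : γ (letter i) = parent (γ root) := by
      rcases adj_len hadi with ⟨_, h⟩ | ⟨h, _⟩
      · exact h
      · omega
    have pj : γ (letter j) = parent (γ root) := by
      rcases adj_len hadj with ⟨_, h⟩ | ⟨h, _⟩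
      · exact h
      · omega
    exact aut_letter_injective γ (pi.trans pj.symm)
  have hsum : ∑ i : Fin d, (if i ∈ S then m else q) = S.card * m + ((d : ℝ) - S.card) * q := by
    have h : (Finset.univ \ S).card = d - S.card := by
      rw [Finset.card_sdiff_of_subset (Finset.subset_univ _)]; simp
    have h4 : S.card ≤ d := by
      simpa using Finset.card_le_univ S
    have : ∑ i : Fin d, (if i ∈ S then m else q) = ∑ i ∈ S, m + ∑ i ∈ Finset.univ \ S, q := by
      rw [← Finset.sum_sdiff (Finset.subset_univ S), add_comm]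
      congr 1
      · exact Finset.sum_congr rfl fun i hi => if_pos hi
      · exact Finset.sum_congr rfl fun i hi => if_neg (Finset.mem_sdiff.mp hi).2
    rw [this]
    simp only [Finset.sum_const, nsmul_eq_mul, h]
    rw [Nat.cast_sub h4]
  have hd' : (1 : ℝ) ≤ (d : ℝ) - 1 := by
    have : (2 : ℝ) ≤ d := by exact_mod_cast hd
    linarith
  have hm1 : 1 ≤ m := by
    by_contra hlt
    push Not at hlt
    nlinarith
  have hqm : q ≤ m := by
    have : q ≤ 1 := inv_le_one_of_one_le₀ hm1
    linarith
  have hdm : (d : ℝ) = m ^ 2 + 1 := by linarith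
  have hfin : S.card * m + ((d : ℝ) - S.card) * q ≤ 2 * m := by
    have hc : S.card = 0 ∨ S.card = 1 := by omega
    rcases hc with hc | hc
    · rw [hc, hdm]
      have : (m ^ 2 + 1) * q = m * (m * q) + q := by ring
      simp only [Nat.cast_zero, zero_mul, zero_add, sub_zero]
      rw [this, hmq]
      linarith
    · rw [hc, hdm]
      have : (m ^ 2 + 1 - ((1 : ℕ) : ℝ)) * q = m * (m * q) := by push_cast; ring
      rw [this, hmq]
      push_cast
      linarith
  calc ∑ i : Fin d, q ^ len (γ (letter i))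
      = ∑ i : Fin d, q ^ n * (if i ∈ S then m else q) := Finset.sum_congr rfl fun i _ => hterm i
    _ = q ^ n * ∑ i : Fin d, (if i ∈ S then m else q) := by rw [Finset.mul_sum]
    _ = q ^ n * (S.card * m + ((d : ℝ) - S.card) * q) := by rw [hsum]
    _ ≤ q ^ n * (2 * m) := mul_le_mul_of_nonneg_left hfin (pow_nonneg hq0.le _)
    _ = 2 * m * q ^ n := by ring

end Vale.Agent.Lib.P161
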