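import Vale.Agent.Lib.P161.Space

/-!
The tempered bound: on mean zero functions the adjacency operator has norm at most `2 √(d-1)`,
as soon as `θ ≤ 1 / √(d-1)`.
-/

namespace Vale.Agent.Lib.P161

open MeasureTheory ProbabilityTheory
open scoped ENNReal NNReal InnerProductSpace

variable {d : ℕ}

/-- The `σ`-algebra generated by the noise coordinates in a set. -/
def noiseSigma (A : Set (Idx d)) : MeasurableSpace (Noise d) :=
  ⨆ i ∈ A, MeasurableSpace.comap (fun z : Noise d => z i) inferInstance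

lemma noiseSigma_le (A : Set (Idx d)) : noiseSigma A ≤ MeasurableSpace.pi := by
  refine iSup₂_le fun v _ => ?_
  exact (measurable_pi_apply v).comap_le

lemma meas_noise {A : Set (Idx d)} {i : Idx d} (hi : i ∈ A) :
    Measurable[noiseSigma A] (fun z : Noise d => z i) :=
  measurable_iff_comap_le.mpr (le_iSup₂_of_le i hi le_rfl)

lemma indep_noise {A B : Set (Idx d)} (h : Disjoint A B) :
    Indep (noiseSigma A) (noiseSigma B) (nu d) := by
  have h1 : iIndepFun (fun (i : Idx d) (ω : Noise d) => (id : Zv → Zv) (ω i)) (nu d) :=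
    iIndepFun_infinitePi (P := fun _ : Idx d => mZ) (X := fun _ => id) (fun _ => measurable_id)
  have h2 := h1.iIndep
  exact indep_iSup_of_disjoint (fun v => (measurable_pi_apply v).comap_le) h2 h

lemma integral_mul_noise {A B : Set (Idx d)} (h : Disjoint A B) {X Y : Noise d → ℝ}
    (hX : Measurable[noiseSigma A] X) (hY : Measurable[noiseSigma B] Y) :
    ∫ t, X t * Y t ∂(nu d) = (∫ t, X t ∂(nu d)) * ∫ t, Y t ∂(nu d) := by
  have hI : IndepFun X Y (nu d) := by
    rw [IndepFun_iff_Indep]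
    exact indep_of_indep_of_le_left (indep_of_indep_of_le_right (indep_noise h) hY.comap_le)
      hX.comap_le
  exact hI.integral_fun_mul_eq_mul_integral
    ((hX.mono (noiseSigma_le A) le_rfl).aestronglyMeasurable)
    ((hY.mono (noiseSigma_le B) le_rfl).aestronglyMeasurable)

/-- The variables visible in the ball of radius `r`. -/
abbrev WR (d r : ℕ) : Type :=
  (↥(ball r : Finset (Word d)) → Bool) × ((↥(ball r : Finset (Word d)) × ℕ) → Zv)

/-- Restriction of noise to the ball of radius `r`. -/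
def resN (r : ℕ) (z : Noise d) : (↥(ball r : Finset (Word d)) × ℕ) → Zv := fun p => z (p.1.1, p.2)

/-- Restriction of spins to the ball of radius `r`. -/
def resS (r : ℕ) (σ : Word d → Bool) : ↥(ball r : Finset (Word d)) → Bool := fun u => σ u.1

/-- Restriction to the ball of radius `r`. -/
def res (r : ℕ) (ω : Om d) : WR d r := (resS r ω.1, resN r ω.2)

lemma measurable_resN (r : ℕ) : Measurable (resN r : Noise d → _) :=
  measurable_pi_lambda _ fun _ => measurable_pi_apply _

lemma measurable_resS (r : ℕ) : Measurable (resS r : (Word d → Bool) → _) :=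
  measurable_pi_lambda _ fun _ => measurable_pi_apply _

lemma measurable_res (r : ℕ) : Measurable (res r : Om d → _) :=
  ((measurable_resS r).comp measurable_fst).prodMk ((measurable_resN r).comp measurable_snd)

lemma len_aut_ge (γ : Aut d) (u : Word d) : len (γ root) ≤ len (γ u) + len u := by
  have h := (drop_suffix_aut γ u).length_le
  simp only [List.length_drop] at h
  unfold len at *
  omega

lemma mp_integral {α β : Type*} [MeasurableSpace α] [MeasurableSpace β] {μ : Measure α} {ν : Measure β}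
    {f : α → β} (hf : MeasurePreserving f μ ν) {h : β → ℝ} (hh : AEStronglyMeasurable h ν) :
    ∫ x, h (f x) ∂μ = ∫ y, h y ∂ν := by
  rw [← hf.map_eq] at hh ⊢
  exact (integral_map hf.measurable.aemeasurable hh).symm

section Local

variable (θ : ℝ) [Corr θ]

/-- The local mean of a bounded function. -/
noncomputable def avgN {r : ℕ} (f : WR d r → ℝ) (a : ↥(ball r : Finset (Word d)) → Bool) : ℝ :=
  ∫ z, f (a, resN r z) ∂(nu d)

lemma integrable_bdd_nu {X : Noise d → ℝ} (hm : Measurable X) {C : ℝ} (hb : ∀ x, |X x| ≤ C) :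
    Integrable X (nu d) :=
  Integrable.of_bound hm.aestronglyMeasurable C (Filter.Eventually.of_forall fun x => by
    simpa using hb x)

lemma integrable_bdd_PP {X : Om d → ℝ} (hm : Measurable X) {C : ℝ} (hb : ∀ x, |X x| ≤ C) :
    Integrable X (PP d θ) :=
  Integrable.of_bound hm.aestronglyMeasurable C (Filter.Eventually.of_forall fun x => by
    simpa using hb x)

lemma integrable_bdd_ising {X : (Word d → Bool) → ℝ} (hm : Measurable X) {C : ℝ}
    (hb : ∀ x, |X x| ≤ C) : Integrable X (isingLaw d θ) :=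
  Integrable.of_bound hm.aestronglyMeasurable C (Filter.Eventually.of_forall fun x => by
    simpa using hb x)

/-- Inner integral of the covariance of a shifted local function. -/
lemma inner_integral_local {r : ℕ} (γ : Aut d) (hn : 2 * r < len (γ root)) {f : WR d r → ℝ}
    (hf : Measurable f) (a₁ a₂ : ↥(ball r : Finset (Word d)) → Bool) :
    ∫ z, f (a₁, resN r (actN γ.symm z)) * f (a₂, resN r z) ∂(nu d) = avgN f a₁ * avgN f a₂ := by
  set A : Set (Idx d) := {i | ∃ p : ↥(ball r : Finset (Word d)) × ℕ, i = (γ p.1.1, p.2)} with hA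
  set B : Set (Idx d) := {i | ∃ p : ↥(ball r : Finset (Word d)) × ℕ, i = (p.1.1, p.2)} with hB
  have hdisj : Disjoint A B := by
    rw [Set.disjoint_left]
    rintro ⟨v, k⟩ ⟨p, hp⟩ ⟨q, hq⟩
    simp only [Prod.mk.injEq] at hp hq
    have h1 : v = γ p.1.1 := hp.1
    have h2 : v = q.1.1 := hq.1
    have h3 := len_aut_ge γ p.1.1
    have h4 : len p.1.1 ≤ r := mem_ball.mp p.1.2
    have h5 : len q.1.1 ≤ r := mem_ball.mp q.1.2
    rw [← h1, h2] at h3
    omega
  have hr1 : Measurable[noiseSigma A]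
      (fun z : Noise d => resN r (actN γ.symm z)) := by
    refine @measurable_pi_lambda _ _ _ (noiseSigma A) _ _ fun p => ?_
    exact meas_noise ⟨p, rfl⟩
  have hr2 : Measurable[noiseSigma B] (fun z : Noise d => resN r z) := by
    refine @measurable_pi_lambda _ _ _ (noiseSigma B) _ _ fun p => ?_
    exact meas_noise ⟨p, rfl⟩
  have hf1 : Measurable (fun x => f (a₁, x)) := hf.comp measurable_prodMk_left
  have hf2 : Measurable (fun x => f (a₂, x)) := hf.comp measurable_prodMk_left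
  have := integral_mul_noise (X := fun z => f (a₁, resN r (actN γ.symm z)))
    (Y := fun z => f (a₂, resN r z)) hdisj (hf1.comp hr1) (hf2.comp hr2)
  rw [this]
  congr 1
  unfold avgN
  exact mp_integral (mp_actN (d := d) γ.symm)
    ((hf1.comp (measurable_resN r)).aestronglyMeasurable)

/-- The square of a mean is at most the mean of the square, for the noise law. -/
lemma sq_avg_le {r : ℕ} {f : WR d r → ℝ} (hf : Measurable f) {C : ℝ} (hC : ∀ x, |f x| ≤ C)
    (a : ↥(ball r : Finset (Word d)) → Bool) :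
    (avgN f a) ^ 2 ≤ ∫ z, f (a, resN r z) ^ 2 ∂(nu d) := by
  have hm : Measurable (fun z : Noise d => f (a, resN r z)) :=
    (hf.comp measurable_prodMk_left).comp (measurable_resN r)
  have hZ : Integrable (fun z : Noise d => f (a, resN r z)) (nu d) :=
    integrable_bdd_nu hm (fun x => hC _)
  have hZ2 : Integrable (fun z : Noise d => f (a, resN r z) ^ 2) (nu d) :=
    integrable_bdd_nu (hm.pow_const 2) (C := C ^ 2) fun t => by
      rw [abs_pow]
      exact pow_le_pow_left₀ (abs_nonneg _) (hC _) 2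
  set b := avgN f a with hb
  have hb' : b = ∫ z, f (a, resN r z) ∂(nu d) := rfl
  have h0 : 0 ≤ ∫ z, (f (a, resN r z) - b) ^ 2 ∂(nu d) := integral_nonneg fun t => sq_nonneg _
  have h1 : ∀ t : Noise d, (f (a, resN r t) - b) ^ 2 = f (a, resN r t) ^ 2 - 2 * b * f (a, resN r t) + b ^ 2 :=
    fun t => by ring
  simp_rw [h1] at h0
  have hf' : Integrable (fun t : Noise d => f (a, resN r t) ^ 2 - 2 * b * f (a, resN r t)) (nu d) :=
    hZ2.sub (hZ.const_mul _)
  rw [integral_add hf' (integrable_const _),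
    integral_sub hZ2 (hZ.const_mul _), integral_const_mul, ← hb'] at h0
  simp only [integral_const, probReal_univ, one_smul] at h0
  nlinarith

/-- Decay of the matrix coefficients of a local function with mean zero. -/
lemma decay_local {r : ℕ} (γ : Aut d) (hn : 2 * r < len (γ root)) {f : WR d r → ℝ}
    (hf : Measurable f) {C : ℝ} (hC : ∀ x, |f x| ≤ C) {ξ : HH d θ}
    (hξ : ξ =ᵐ[PP d θ] f ∘ res r) (hmean : ∫ ω, ξ ω ∂(PP d θ) = 0) :
    |⟪UU θ γ ξ, ξ⟫_ℝ| ≤ θ ^ (len (γ root) - 2 * r) * ‖ξ‖ ^ 2 := by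
  have hC0 : 0 ≤ C := (abs_nonneg _).trans (hC (fun _ => false, fun _ => (0, 0)))
  -- the function as a function on the product
  have hfres : Measurable (f ∘ res r) := hf.comp (measurable_res r)
  have hU : UU θ γ ξ =ᵐ[PP d θ] (f ∘ res r) ∘ act γ.symm := by
    refine (UU_coe θ γ ξ).trans ?_
    exact (mp_act θ γ.symm).quasiMeasurePreserving.ae_eq_comp hξ
  -- formula for the inner product
  have hmeas2 : Measurable (fun ω : Om d => f (res r (act γ.symm ω)) * f (res r ω)) :=
    (hfres.comp (mp_act θ γ.symm).measurable).mul hfres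
  have hbd2 : ∀ ω : Om d, |f (res r (act γ.symm ω)) * f (res r ω)| ≤ C * C := fun ω => by
    rw [abs_mul]
    exact mul_le_mul (hC _) (hC _) (abs_nonneg _) hC0
  have hinner : ⟪UU θ γ ξ, ξ⟫_ℝ = ∫ ω, f (res r (act γ.symm ω)) * f (res r ω) ∂(PP d θ) := by
    rw [L2.inner_def]
    refine integral_congr_ae ?_
    filter_upwards [hU, hξ] with ω h1 h2
    simp only [RCLike.inner_apply, conj_trivial]
    rw [h1, h2]
    simp [mul_comm]
  -- Fubini
  set X : (Word d → Bool) → ℝ := fun σ => avgN f (resS r σ) with hX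
  set Y : (Word d → Bool) → ℝ := fun σ => avgN f (fun u => σ (γ u.1)) with hY
  have hinner2 : ⟪UU θ γ ξ, ξ⟫_ℝ = ∫ σ, X σ * Y σ ∂(isingLaw d θ) := by
    rw [hinner]
    unfold PP
    rw [integral_prod _ (integrable_bdd_PP θ hmeas2 hbd2)]
    refine integral_congr_ae (Filter.Eventually.of_forall fun σ => ?_)
    have := inner_integral_local γ hn hf (fun u => σ (γ u.1)) (resS r σ)
    show ∫ z, f (res r (act γ.symm (σ, z))) * f (res r (σ, z)) ∂(nu d) = X σ * Y σ
    rw [mul_comm (X σ)]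
    exact this
  have hcov : |∫ σ, X σ * Y σ ∂(isingLaw d θ) -
      (∫ σ, X σ ∂(isingLaw d θ)) * ∫ σ, Y σ ∂(isingLaw d θ)| ≤
      θ ^ (len (γ root) - 2 * r) *
        (√(∫ σ, X σ ^ 2 ∂(isingLaw d θ)) * √(∫ σ, Y σ ^ 2 ∂(isingLaw d θ))) :=
    cov_decay θ r γ hn (fun a => avgN f a) (fun a => avgN f a)
  have hmA : Measurable (avgN f : (↥(ball r : Finset (Word d)) → Bool) → ℝ) :=
    Measurable.of_discrete
  have hmX : Measurable X := hmA.comp (measurable_resS r)
  have hbA : ∀ a, |avgN f a| ≤ C := fun a => by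
    unfold avgN
    refine (abs_integral_le_integral_abs).trans ?_
    have hm : Measurable (fun z : Noise d => f (a, resN r z)) :=
      (hf.comp measurable_prodMk_left).comp (measurable_resN r)
    refine (integral_mono (integrable_bdd_nu hm.abs (C := C) fun t => by
      rw [abs_abs]; exact hC _) (integrable_const C) fun t => hC _).trans ?_
    simp
  have hmean2 : ∫ σ, X σ ∂(isingLaw d θ) = 0 := by
    rw [← hmean, integral_congr_ae hξ]
    unfold PP
    rw [integral_prod _ (integrable_bdd_PP θ hfres (C := C) fun x => hC _)]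
    rfl
  -- the square
  have hsq : ∫ σ, X σ ^ 2 ∂(isingLaw d θ) ≤ ‖ξ‖ ^ 2 := by
    have h1 : ‖ξ‖ ^ 2 = ∫ ω, f (res r ω) ^ 2 ∂(PP d θ) := by
      rw [← real_inner_self_eq_norm_sq, L2.inner_def]
      refine integral_congr_ae ?_
      filter_upwards [hξ] with ω h2
      simp only [RCLike.inner_apply, conj_trivial]
      rw [h2]
      simp [sq]
    have hmf2 : Measurable (fun ω : Om d => f (res r ω) ^ 2) := hfres.pow_const 2
    have hbf2 : ∀ ω : Om d, |f (res r ω) ^ 2| ≤ C ^ 2 := fun ω => by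
      rw [abs_pow]
      exact pow_le_pow_left₀ (abs_nonneg _) (hC _) 2
    rw [h1]
    unfold PP
    rw [integral_prod _ (integrable_bdd_PP θ hmf2 hbf2)]
    refine integral_mono (integrable_bdd_ising θ (hmX.pow_const 2) (C := C ^ 2) fun t => ?_) ?_ ?_
    · rw [abs_pow]
      exact pow_le_pow_left₀ (abs_nonneg _) (hbA _) 2
    · have := (integrable_bdd_PP θ hmf2 hbf2).integral_prod_left
      exact this
    · intro σ
      exact sq_avg_le hf hC (resS r σ)
  have hYeq : ∫ σ, Y σ ^ 2 ∂(isingLaw d θ) = ∫ σ, X σ ^ 2 ∂(isingLaw d θ) :=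
    mp_integral (mp_actS θ γ.symm) (f := actS γ.symm) (h := fun σ => X σ ^ 2)
      (hmX.pow_const 2).aestronglyMeasurable
  have hθ : 0 ≤ θ ^ (len (γ root) - 2 * r) := pow_nonneg Corr.nonneg _
  rw [hinner2]
  rw [hmean2, zero_mul, sub_zero] at hcov
  refine hcov.trans ?_
  rw [hYeq]
  refine mul_le_mul_of_nonneg_left ?_ hθ
  rw [Real.mul_self_sqrt (integral_nonneg fun σ => sq_nonneg _)]
  exact hsq

end Local

section Abstract

variable {H : Type*} [NormedAddCommGroup H] [InnerProductSpace ℝ H]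

lemma inner_pow_symm (L : H →L[ℝ] H) (hL : ∀ x y, ⟪L x, y⟫_ℝ = ⟪x, L y⟫_ℝ) (n : ℕ) (x y : H) :
    ⟪(L ^ n) x, y⟫_ℝ = ⟪x, (L ^ n) y⟫_ℝ := by
  induction n generalizing x y with
  | zero => simp
  | succ n ih =>
    have e1 : (L ^ (n + 1)) x = (L ^ n) (L x) := by rw [pow_succ]; rfl
    have e2 : (L ^ (n + 1)) y = L ((L ^ n) y) := by rw [pow_succ']; rfl
    rw [e1, ih, hL, e2]

/-- A spectral radius bound from the growth of the moments. -/
lemma norm_le_of_moments (L : H →L[ℝ] H) (hL : ∀ x y, ⟪L x, y⟫_ℝ = ⟪x, L y⟫_ℝ) {ρ C : ℝ}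
    (hρ : 0 < ρ) (ξ : H) (hC : ∀ n : ℕ, ⟪(L ^ n) ξ, ξ⟫_ℝ ≤ C * ρ ^ n) : ‖L ξ‖ ≤ ρ * ‖ξ‖ := by
  by_contra hcon
  push Not at hcon
  set a : ℕ → ℝ := fun n => ‖(L ^ n) ξ‖ with ha
  have ha0 : a 0 = ‖ξ‖ := by simp [ha]
  have ha1 : a 1 = ‖L ξ‖ := by simp [ha]
  have hsq : ∀ n, a n ^ 2 ≤ C * ρ ^ (n + n) := fun n => by
    have h1 : a n ^ 2 = ⟪(L ^ (n + n)) ξ, ξ⟫_ℝ := by
      rw [ha]
      simp only
      have e : (L ^ (n + n)) ξ = (L ^ n) ((L ^ n) ξ) := by rw [pow_add]; rfl
      rw [← real_inner_self_eq_norm_sq, e]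
      exact (inner_pow_symm L hL n _ _).symm
    rw [h1]
    exact hC _
  have hconv : ∀ n, a (n + 1) ^ 2 ≤ a (n + 2) * a n := fun n => by
    have h1 : a (n + 1) ^ 2 = ⟪(L ^ (n + 2)) ξ, (L ^ n) ξ⟫_ℝ := by
      rw [ha]
      simp only
      rw [← real_inner_self_eq_norm_sq]
      have e1 : (L ^ (n + 2)) ξ = L ((L ^ (n + 1)) ξ) := by rw [pow_succ' L (n + 1)]; rfl
      have e2 : (L ^ (n + 1)) ξ = L ((L ^ n) ξ) := by rw [pow_succ' L n]; rfl
      rw [e1, hL, ← e2]
    rw [h1]
    exact real_inner_le_norm _ _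
  have hpos0 : 0 < a 0 := by
    rw [ha0]
    rcases (norm_nonneg ξ).eq_or_lt with h | h
    · have hξ : ξ = 0 := norm_eq_zero.mp h.symm
      simp [hξ] at hcon
    · exact h
  set r := a 1 / a 0 with hr
  have hrρ : ρ < r := by
    rw [hr, lt_div_iff₀ hpos0, ha0, ha1]
    exact hcon
  have hr0 : 0 < r := hρ.trans hrρ
  have hstep : ∀ n, 0 < a n ∧ r * a n ≤ a (n + 1) := by
    intro n
    induction n with
    | zero =>
      refine ⟨hpos0, le_of_eq ?_⟩
      rw [hr]
      field_simp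
    | succ n ih =>
      obtain ⟨h1, h2⟩ := ih
      have h3 : 0 < a (n + 1) := lt_of_lt_of_le (mul_pos hr0 h1) h2
      refine ⟨h3, ?_⟩
      have h4 := hconv n
      have h5 : (r * a (n + 1)) * a n ≤ a (n + 2) * a n := by
        refine le_trans ?_ h4
        rw [sq, mul_assoc, mul_comm (a (n + 1)), ← mul_assoc]
        exact mul_le_mul_of_nonneg_right h2 h3.le
      exact le_of_mul_le_mul_right h5 h1
  have hgrow : ∀ n, r ^ n * a 0 ≤ a n := by
    intro n
    induction n with
    | zero => simp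
    | succ n ih =>
      rw [pow_succ]
      calc r ^ n * r * a 0 = r * (r ^ n * a 0) := by ring
        _ ≤ r * a n := mul_le_mul_of_nonneg_left ih hr0.le
        _ ≤ a (n + 1) := (hstep n).2
  -- contradiction with growth
  have hq : 1 < (r / ρ) ^ 2 := by
    have : 1 < r / ρ := (one_lt_div hρ).mpr hrρ
    nlinarith
  have htend := tendsto_pow_atTop_atTop_of_one_lt hq
  obtain ⟨n, hn⟩ := (htend.eventually (Filter.eventually_gt_atTop (C / a 0 ^ 2))).exists
  have h1 := hsq n
  have h2 : (r ^ n * a 0) ^ 2 ≤ a n ^ 2 := by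
    refine pow_le_pow_left₀ ?_ (hgrow n) 2
    positivity
  have h3 : (r ^ n * a 0) ^ 2 ≤ C * ρ ^ (n + n) := h2.trans h1
  rw [div_lt_iff₀ (by positivity)] at hn
  have h4 : ((r / ρ) ^ 2) ^ n * a 0 ^ 2 * ρ ^ (n + n) = (r ^ n * a 0) ^ 2 := by
    rw [div_pow, div_pow, pow_add]
    field_simp
    ring
  have h5 : 0 < ρ ^ (n + n) := by positivity
  nlinarith [mul_lt_mul_of_pos_right hn h5]

end Abstract

section Moments

variable (θ : ℝ) [Corr θ]

/-- The bound for the matrix coefficients of powers of the adjacency operator. -/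
lemma coeff_bound (hd : 2 ≤ d) {m : ℝ} (hm0 : 0 < m) (hm : m ^ 2 = (d : ℝ) - 1) {C : ℝ} (hC0 : 0 ≤ C)
    {ξ η : HH d θ} (hbase : ∀ γ : Aut d, |⟪UU θ γ ξ, η⟫_ℝ| ≤ C * (m⁻¹) ^ len (γ root)) (n : ℕ) :
    ∀ γ : Aut d, |⟪UU θ γ ((LL θ ^ n) ξ), η⟫_ℝ| ≤ C * (2 * m) ^ n * (m⁻¹) ^ len (γ root) := by
  induction n with
  | zero =>
    intro γ
    simpa using hbase γ
  | succ n ih =>
    intro γ
    have e : (LL θ ^ (n + 1)) ξ = LL θ ((LL θ ^ n) ξ) := by rw [pow_succ']; rfl
    rw [e, UU_LL, sum_inner]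
    refine (Finset.abs_sum_le_sum_abs _ _).trans ?_
    calc ∑ i : Fin d, |⟪UU θ ((flipAut i).trans γ) ((LL θ ^ n) ξ), η⟫_ℝ|
        ≤ ∑ i : Fin d, C * (2 * m) ^ n * (m⁻¹) ^ len (γ (letter i)) :=
          Finset.sum_le_sum fun i _ => ih _
      _ = C * (2 * m) ^ n * ∑ i : Fin d, (m⁻¹) ^ len (γ (letter i)) := by rw [Finset.mul_sum]
      _ ≤ C * (2 * m) ^ n * (2 * m * (m⁻¹) ^ len (γ root)) :=
          mul_le_mul_of_nonneg_left (sum_phi_le hd hm0 hm γ) (by positivity)
      _ = C * (2 * m) ^ (n + 1) * (m⁻¹) ^ len (γ root) := by ring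

/-- A local function of mean zero satisfies the tempered bound. -/
lemma tempered_local (hd : 2 ≤ d) {m : ℝ} (hm0 : 0 < m) (hm : m ^ 2 = (d : ℝ) - 1) (hθ : θ ≤ m⁻¹)
    {r : ℕ} {f : WR d r → ℝ} (hf : Measurable f) {C : ℝ} (hC : ∀ x, |f x| ≤ C) {ξ : HH d θ}
    (hξ : ξ =ᵐ[PP d θ] f ∘ res r) (hmean : ∫ ω, ξ ω ∂(PP d θ) = 0) :
    ‖LL θ ξ‖ ≤ 2 * m * ‖ξ‖ := by
  have hd' : (1 : ℝ) ≤ (d : ℝ) - 1 := by
    have : (2 : ℝ) ≤ d := by exact_mod_cast hd
    linarith
  have hm1 : 1 ≤ m := by
    by_contra hlt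
    push Not at hlt
    nlinarith
  have hθ0 : 0 ≤ θ := Corr.nonneg
  have hmi : 0 < m⁻¹ := inv_pos.mpr hm0
  have hbase : ∀ γ : Aut d, |⟪UU θ γ ξ, ξ⟫_ℝ| ≤ (‖ξ‖ ^ 2 * m ^ (2 * r)) * (m⁻¹) ^ len (γ root) := by
    intro γ
    by_cases hn : 2 * r < len (γ root)
    · refine (decay_local θ γ hn hf hC hξ hmean).trans ?_
      have h1 : θ ^ (len (γ root) - 2 * r) ≤ (m⁻¹) ^ (len (γ root) - 2 * r) :=
        pow_le_pow_left₀ hθ0 hθ _
      have h2 : (m⁻¹) ^ (len (γ root) - 2 * r) = m ^ (2 * r) * (m⁻¹) ^ len (γ root) := by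
        have e : len (γ root) = (len (γ root) - 2 * r) + 2 * r := by omega
        conv_rhs => rw [e, pow_add (m⁻¹), mul_comm ((m⁻¹) ^ _), ← mul_assoc, ← mul_pow,
          mul_inv_cancel₀ hm0.ne', one_pow, one_mul]
      rw [h2] at h1
      calc θ ^ (len (γ root) - 2 * r) * ‖ξ‖ ^ 2
          ≤ (m ^ (2 * r) * (m⁻¹) ^ len (γ root)) * ‖ξ‖ ^ 2 :=
            mul_le_mul_of_nonneg_right h1 (by positivity)
        _ = _ := by ring
    · push Not at hn
      have h1 : |⟪UU θ γ ξ, ξ⟫_ℝ| ≤ ‖ξ‖ ^ 2 := by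
        refine (abs_real_inner_le_norm _ _).trans ?_
        rw [(UU θ γ).norm_map, sq]
      refine h1.trans ?_
      have h2 : 1 ≤ m ^ (2 * r) * (m⁻¹) ^ len (γ root) := by
        have e : 2 * r = (2 * r - len (γ root)) + len (γ root) := by omega
        rw [e, pow_add, mul_assoc, ← mul_pow, mul_inv_cancel₀ hm0.ne', one_pow, mul_one]
        exact one_le_pow₀ hm1
      calc ‖ξ‖ ^ 2 = ‖ξ‖ ^ 2 * 1 := by ring
        _ ≤ ‖ξ‖ ^ 2 * (m ^ (2 * r) * (m⁻¹) ^ len (γ root)) :=
            mul_le_mul_of_nonneg_left h2 (by positivity)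
        _ = _ := by ring
  have hC0 : (0 : ℝ) ≤ ‖ξ‖ ^ 2 * m ^ (2 * r) := by positivity
  refine norm_le_of_moments (LL θ) (inner_LL θ) (ρ := 2 * m) (C := ‖ξ‖ ^ 2 * m ^ (2 * r))
    (by positivity) ξ fun n => ?_
  have h := coeff_bound θ hd hm0 hm hC0 hbase n SimpleGraph.Iso.refl
  rw [UU_refl] at h
  have h2 : len ((SimpleGraph.Iso.refl : Aut d) root) = 0 := rfl
  rw [h2, pow_zero, mul_one] at h
  exact (le_abs_self _).trans h

/-- Functions of the variables in some ball. -/
def IsLoc (r : ℕ) (ξ : HH d θ) : Prop :=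
  ∃ f : WR d r → ℝ, Measurable f ∧ (∃ C, ∀ x, |f x| ≤ C) ∧ ξ =ᵐ[PP d θ] f ∘ res r

/-- Restriction between balls. -/
def resTo {r r' : ℕ} (h : r ≤ r') (w : WR d r') : WR d r :=
  (fun u => w.1 ⟨u.1, mem_ball.mpr ((mem_ball.mp u.2).trans h)⟩,
   fun p => w.2 (⟨p.1.1, mem_ball.mpr ((mem_ball.mp p.1.2).trans h)⟩, p.2))

lemma measurable_resTo {r r' : ℕ} (h : r ≤ r') : Measurable (resTo (d := d) h) := by
  refine Measurable.prodMk ?_ ?_
  · exact measurable_pi_lambda _ fun u => (measurable_pi_apply _).comp measurable_fst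
  · exact measurable_pi_lambda _ fun u => (measurable_pi_apply _).comp measurable_snd

lemma IsLoc.mono {r r' : ℕ} (h : r ≤ r') {ξ : HH d θ} (hξ : IsLoc θ r ξ) : IsLoc θ r' ξ := by
  obtain ⟨f, hf, ⟨C, hC⟩, hξ⟩ := hξ
  exact ⟨f ∘ resTo h, hf.comp (measurable_resTo h), ⟨C, fun x => hC _⟩, hξ⟩

/-- The subspace of local functions. -/
def locSub : Submodule ℝ (HH d θ) where
  carrier := {ξ | ∃ r, IsLoc θ r ξ}
  add_mem' := by
    rintro ξ η ⟨r, hr⟩ ⟨r', hr'⟩
    obtain ⟨f, hf, ⟨C, hC⟩, hξ⟩ := hr.mono θ (le_max_left r r')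
    obtain ⟨f', hf', ⟨C', hC'⟩, hη⟩ := hr'.mono θ (le_max_right r r')
    refine ⟨max r r', fun x => f x + f' x, hf.add hf', ⟨C + C', fun x => ?_⟩, ?_⟩
    · exact (abs_add_le _ _).trans (add_le_add (hC x) (hC' x))
    · filter_upwards [Lp.coeFn_add ξ η, hξ, hη] with ω h1 h2 h3
      rw [h1, Pi.add_apply, h2, h3]
      rfl
  zero_mem' := by
    refine ⟨0, fun _ => 0, measurable_const, ⟨0, fun x => by simp⟩, ?_⟩
    exact Lp.coeFn_zero _ _ _
  smul_mem' := by
    rintro c ξ ⟨r, f, hf, ⟨C, hC⟩, hξ⟩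
    refine ⟨r, fun x => c * f x, hf.const_mul c, ⟨|c| * C, fun x => ?_⟩, ?_⟩
    · rw [abs_mul]
      exact mul_le_mul_of_nonneg_left (hC x) (abs_nonneg _)
    · filter_upwards [Lp.coeFn_smul c ξ, hξ] with ω h1 h2
      rw [h1, Pi.smul_apply, h2]
      rfl

/-- The cylinder sets. -/
def cylSets (d : ℕ) : Set (Set (Om d)) := {A | ∃ r, ∃ A' : Set (WR d r), MeasurableSet A' ∧ A = res r ⁻¹' A'}

omit [Corr θ] in
lemma cylSets_pi : IsPiSystem (cylSets d) := by
  rintro A ⟨r, A', hA', rfl⟩ B ⟨r', B', hB', rfl⟩ _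
  refine ⟨max r r', resTo (le_max_left r r') ⁻¹' A' ∩ resTo (le_max_right r r') ⁻¹' B', ?_, rfl⟩
  exact (measurable_resTo _ hA').inter (measurable_resTo _ hB')

omit [Corr θ] in
lemma cylSets_generate : (inferInstance : MeasurableSpace (Om d)) = MeasurableSpace.generateFrom (cylSets d) := by
  apply le_antisymm
  · set m := MeasurableSpace.generateFrom (cylSets d) with hm
    have hres : ∀ r, @Measurable _ _ m _ (res r : Om d → WR d r) := fun r A' hA' =>
      MeasurableSpace.measurableSet_generateFrom ⟨r, A', hA', rfl⟩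
    have h1 : @Measurable _ _ m _ (fun ω : Om d => ω.1) := by
      refine @measurable_pi_lambda _ _ _ m _ _ fun v => ?_
      have hv : v ∈ (ball (len v) : Finset (Word d)) := mem_ball.mpr le_rfl
      have : Measurable (fun w : WR d (len v) => w.1 ⟨v, hv⟩) :=
        (measurable_pi_apply _).comp measurable_fst
      exact this.comp (hres (len v))
    have h2 : @Measurable _ _ m _ (fun ω : Om d => ω.2) := by
      refine @measurable_pi_lambda _ _ _ m _ _ fun i => ?_
      have hv : i.1 ∈ (ball (len i.1) : Finset (Word d)) := mem_ball.mpr le_rfl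
      have : Measurable (fun w : WR d (len i.1) => w.2 (⟨i.1, hv⟩, i.2)) :=
        (measurable_pi_apply _).comp measurable_snd
      exact this.comp (hres (len i.1))
    have h3 : @Measurable _ _ m Prod.instMeasurableSpace (fun ω : Om d => (ω.1, ω.2)) := h1.prodMk h2
    exact fun s hs => h3 hs
  · refine MeasurableSpace.generateFrom_le ?_
    rintro A ⟨r, A', hA', rfl⟩
    exact measurable_res r hA'

/-- The indicator of a measurable set in `L²`. -/
noncomputable def ind {s : Set (Om d)} (hs : MeasurableSet s) : HH d θ :=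
  indicatorConstLp 2 hs (measure_ne_top _ _) (1 : ℝ)

lemma ind_coe {s : Set (Om d)} (hs : MeasurableSet s) :
    ind θ hs =ᵐ[PP d θ] s.indicator fun _ => (1 : ℝ) := indicatorConstLp_coeFn

lemma ind_mem {s : Set (Om d)} (hs : MeasurableSet s) : ind θ hs ∈ (locSub θ).topologicalClosure := by
  induction s, hs using MeasurableSpace.induction_on_inter (cylSets_generate (d := d)) cylSets_pi with
  | empty =>
    have : ind θ (MeasurableSet.empty : MeasurableSet (∅ : Set (Om d))) = 0 := indicatorConstLp_empty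
    rw [this]
    exact Submodule.zero_mem _
  | basic A hA =>
    obtain ⟨r, A', hA', rfl⟩ := hA
    apply Submodule.le_topologicalClosure
    refine ⟨r, A'.indicator fun _ => 1, measurable_const.indicator hA', ⟨1, fun x => ?_⟩, ?_⟩
    · by_cases hx : x ∈ A' <;> simp [hx]
    · exact ind_coe θ _
  | compl A hA ih =>
    have h1 : ind θ hA.compl = ind θ MeasurableSet.univ - ind θ hA := by
      apply Lp.ext
      filter_upwards [ind_coe θ hA.compl, ind_coe θ MeasurableSet.univ, ind_coe θ hA,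
        Lp.coeFn_sub (ind θ MeasurableSet.univ) (ind θ hA)] with ω h1 h2 h3 h4
      rw [h4, Pi.sub_apply, h1, h2, h3]
      by_cases hω : ω ∈ A <;> simp [hω]
    rw [h1]
    refine Submodule.sub_mem _ ?_ ih
    apply Submodule.le_topologicalClosure
    refine ⟨0, fun _ => 1, measurable_const, ⟨1, fun x => by simp⟩, ?_⟩
    filter_upwards [ind_coe θ MeasurableSet.univ] with ω h2
    rw [h2]
    simp
  | iUnion f hdisj hf ih =>
    set t : ℕ → Set (Om d) := fun n => ⋃ i ∈ Finset.range n, f i with ht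
    have hmt : ∀ n, MeasurableSet (t n) := fun n =>
      Finset.measurableSet_biUnion _ fun i _ => hf i
    have hmem : ∀ n, ind θ (hmt n) ∈ (locSub θ).topologicalClosure := by
      intro n
      induction n with
      | zero =>
        have h0 : t 0 = ∅ := by simp [ht]
        have : ind θ (hmt 0) = 0 := by
          apply Lp.ext
          filter_upwards [ind_coe θ (hmt 0), Lp.coeFn_zero ℝ 2 (PP d θ)] with ω h1 h2
          rw [h1, h2, h0]
          simp
        rw [this]
        exact Submodule.zero_mem _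
      | succ n ih' =>
        have hdisj' : ∀ ω, ω ∈ t n → ω ∉ f n := by
          intro ω hω hω'
          simp only [ht, Set.mem_iUnion, Finset.mem_range] at hω
          obtain ⟨i, hi, hωi⟩ := hω
          exact Set.disjoint_left.mp (hdisj (by omega : i ≠ n)) hωi hω'
        have h1 : ind θ (hmt (n + 1)) = ind θ (hmt n) + ind θ (hf n) := by
          apply Lp.ext
          filter_upwards [ind_coe θ (hmt (n + 1)), ind_coe θ (hmt n), ind_coe θ (hf n),
            Lp.coeFn_add (ind θ (hmt n)) (ind θ (hf n))] with ω h1 h2 h3 h4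
          rw [h4, Pi.add_apply, h1, h2, h3]
          have e : ω ∈ t (n + 1) ↔ ω ∈ t n ∨ ω ∈ f n := by
            simp only [ht, Set.mem_iUnion, Finset.mem_range, exists_prop]
            constructor
            · rintro ⟨i, hi, hωi⟩
              by_cases h : i = n
              · right; rw [← h]; exact hωi
              · left; exact ⟨i, by omega, hωi⟩
            · rintro (⟨i, hi, hωi⟩ | hω)
              · exact ⟨i, by omega, hωi⟩
              · exact ⟨n, by omega, hω⟩
          by_cases h5 : ω ∈ t n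
          · have h6 := hdisj' ω h5
            have h7 : ω ∈ t (n + 1) := e.mpr (Or.inl h5)
            simp [h5, h6, h7]
          · by_cases h6 : ω ∈ f n
            · have h7 : ω ∈ t (n + 1) := e.mpr (Or.inr h6)
              simp [h5, h6, h7]
            · have h7 : ω ∉ t (n + 1) := fun h => (e.mp h).elim h5 h6
              simp [h5, h6, h7]
        rw [h1]
        exact Submodule.add_mem _ ih' (ih n)
    have hU : MeasurableSet (⋃ i, f i) := MeasurableSet.iUnion hf
    have htend : Filter.Tendsto (fun n => ind θ (hmt n)) Filter.atTop (nhds (ind θ hU)) := by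
      refine tendsto_indicatorConstLp_set (by simp) ?_
      have hsd : ∀ n, symmDiff (t n) (⋃ i, f i) = (⋃ i, f i) \ t n := by
        intro n
        have hsub : t n ⊆ ⋃ i, f i := by
          intro ω hω
          simp only [ht, Set.mem_iUnion, Finset.mem_range] at hω
          obtain ⟨i, _, hωi⟩ := hω
          exact Set.mem_iUnion.mpr ⟨i, hωi⟩
        rw [Set.symmDiff_def, Set.sdiff_eq_empty.mpr hsub, Set.empty_union]
      simp_rw [hsd]
      have hanti : Antitone (fun n => (⋃ i, f i) \ t n) := by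
        intro a b hab
        refine Set.sdiff_subset_sdiff_right ?_
        intro ω hω
        simp only [ht, Set.mem_iUnion, Finset.mem_range, exists_prop] at hω ⊢
        obtain ⟨i, hi, hωi⟩ := hω
        exact ⟨i, by omega, hωi⟩
      have h0 := tendsto_measure_iInter_atTop (μ := PP d θ)
        (fun n => (hU.diff (hmt n)).nullMeasurableSet) hanti ⟨0, measure_ne_top _ _⟩
      have h1 : (⋂ n, (⋃ i, f i) \ t n) = ∅ := by
        ext ω
        simp only [Set.mem_iInter, Set.mem_sdiff, Set.mem_empty_iff_false, iff_false, not_forall]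
        by_cases hω : ω ∈ ⋃ i, f i
        · obtain ⟨i, hi⟩ := Set.mem_iUnion.mp hω
          refine ⟨i + 1, fun h => h.2 ?_⟩
          simp only [ht, Set.mem_iUnion, Finset.mem_range, exists_prop]
          exact ⟨i, by omega, hi⟩
        · exact ⟨0, fun h => hω h.1⟩
      rw [h1, measure_empty] at h0
      exact h0
    exact (locSub θ).isClosed_topologicalClosure.mem_of_tendsto htend
      (Filter.Eventually.of_forall hmem)

lemma loc_dense (ξ : HH d θ) : ξ ∈ (locSub θ).topologicalClosure := by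
  have h2 : (2 : ℝ≥0∞) ≠ ∞ := by simp
  induction ξ using Lp.induction h2 with
  | @indicatorConst c s hs hμs =>
    have h : ((Lp.simpleFunc.indicatorConst 2 hs hμs.ne c : Lp.simpleFunc ℝ 2 (PP d θ)) : HH d θ) =
        c • ind θ hs := by
      rw [Lp.simpleFunc.coe_indicatorConst]
      apply Lp.ext
      filter_upwards [indicatorConstLp_coeFn (p := 2) (hs := hs) (hμs := hμs.ne) (c := c),
        Lp.coeFn_smul c (ind θ hs), ind_coe θ hs] with ω h1 h2 h3
      rw [h2, Pi.smul_apply, h3, h1]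
      by_cases hω : ω ∈ s <;> simp [hω]
    rw [h]
    exact Submodule.smul_mem _ _ (ind_mem θ hs)
  | add hf hg _ h1 h2 => exact Submodule.add_mem _ h1 h2
  | isClosed => exact (locSub θ).isClosed_topologicalClosure

/-- The constant function one. -/
noncomputable def oneL : HH d θ := ind θ MeasurableSet.univ

lemma oneL_coe : oneL θ =ᵐ[PP d θ] fun _ => (1 : ℝ) := by
  filter_upwards [ind_coe θ (MeasurableSet.univ : MeasurableSet (Set.univ : Set (Om d)))] with ω h
  rw [oneL, h]
  simp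

lemma integral_eq_inner (ξ : HH d θ) : ∫ ω, ξ ω ∂(PP d θ) = ⟪oneL θ, ξ⟫_ℝ := by
  rw [L2.inner_def]
  refine integral_congr_ae ?_
  filter_upwards [oneL_coe θ] with ω h
  rw [h]
  simp

lemma inner_oneL_self : ⟪oneL θ, (oneL θ : HH d θ)⟫_ℝ = 1 := by
  rw [← integral_eq_inner, integral_congr_ae (oneL_coe θ)]
  simp

/-- The bound for all functions of mean zero. -/
theorem tempered (hd : 2 ≤ d) {m : ℝ} (hm0 : 0 < m) (hm : m ^ 2 = (d : ℝ) - 1) (hθ : θ ≤ m⁻¹)
    (ξ : HH d θ) (hmean : ∫ ω, ξ ω ∂(PP d θ) = 0) : ‖LL θ ξ‖ ≤ 2 * m * ‖ξ‖ := by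
  set P : HH d θ → HH d θ := fun η => η - ⟪oneL θ, η⟫_ℝ • oneL θ with hP
  have hPc : Continuous P := by
    have h1 : Continuous (fun η : HH d θ => ⟪oneL θ, η⟫_ℝ) := continuous_const.inner continuous_id
    exact continuous_id.sub (h1.smul continuous_const)
  have hclosed : IsClosed {η : HH d θ | ‖LL θ (P η)‖ ≤ 2 * m * ‖P η‖} :=
    isClosed_le ((LL θ).continuous.comp hPc).norm (continuous_const.mul hPc.norm)
  have hloc : ((locSub θ : Submodule ℝ (HH d θ)) : Set (HH d θ)) ⊆
      {η : HH d θ | ‖LL θ (P η)‖ ≤ 2 * m * ‖P η‖} := by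
    rintro η ⟨r, f, hf, ⟨C, hC⟩, hη⟩
    set c := ⟪oneL θ, η⟫_ℝ with hc
    have hrep : P η =ᵐ[PP d θ] (fun x => f x - c) ∘ res r := by
      filter_upwards [Lp.coeFn_sub η (c • oneL θ), Lp.coeFn_smul c (oneL θ), oneL_coe θ, hη] with
        ω h1 h2 h3 h4
      show (η - c • oneL θ : HH d θ) ω = _
      rw [h1, Pi.sub_apply, h2, Pi.smul_apply, h3, h4]
      simp
    have hm0' : ∫ ω, (P η) ω ∂(PP d θ) = 0 := by
      rw [integral_eq_inner]
      simp only [hP, inner_sub_right, inner_smul_right, inner_oneL_self]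
      simp
    exact tempered_local θ hd hm0 hm hθ (hf.sub_const c) (C := C + |c|)
      (fun x => (abs_sub _ _).trans (add_le_add (hC x) le_rfl)) hrep hm0'
  have hall : ξ ∈ {η : HH d θ | ‖LL θ (P η)‖ ≤ 2 * m * ‖P η‖} :=
    closure_minimal hloc hclosed (loc_dense θ ξ)
  have hPξ : P ξ = ξ := by
    simp only [hP]
    rw [← integral_eq_inner, hmean, zero_smul, sub_zero]
  simpa [hPξ] using hall

end Moments

end Vale.Agent.Lib.P161
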