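import Vale.Agent.Lib.P161.Defs

/-!
The `d`-regular tree as the graph of reduced words over `Fin d`, with explicit automorphisms.
A vertex is a reduced word, its head is the letter added last, and its parent is its tail.
-/

namespace Vale.Agent.Lib.P161

open SimpleGraph

variable {d : ℕ}

/-- The empty word. -/
def root : Word d := ⟨[], List.isChain_nil⟩

/-- The parent of a vertex (the root is its own parent). -/
def parent (v : Word d) : Word d := ⟨v.1.tail, v.2.tail⟩

/-- The length of a word: the distance to the root. -/
def len (v : Word d) : ℕ := v.1.length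

/-- The one letter word. -/
def letter (i : Fin d) : Word d := ⟨[i], List.isChain_singleton i⟩

@[simp] lemma len_root : len (root : Word d) = 0 := rfl

@[simp] lemma len_letter (i : Fin d) : len (letter i) = 1 := rfl

lemma len_eq_zero {v : Word d} (h : len v = 0) : v = root := by
  apply Subtype.ext
  exact List.length_eq_zero_iff.mp h

lemma adj_iff {v w : Word d} :
    (treeGraph d).Adj v w ↔ (v.1 ≠ [] ∧ v.1.tail = w.1) ∨ (w.1 ≠ [] ∧ w.1.tail = v.1) := Iff.rfl

lemma adj_parent {v : Word d} (h : v ≠ root) : (treeGraph d).Adj v (parent v) := by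
  left
  refine ⟨fun h0 => h (Subtype.ext h0), rfl⟩

lemma len_parent {v : Word d} (h : v ≠ root) : len (parent v) + 1 = len v := by
  have h0 : v.1 ≠ [] := fun h0 => h (Subtype.ext h0)
  obtain ⟨a, l, hl⟩ := List.exists_cons_of_ne_nil h0
  simp [len, parent, hl]

lemma adj_len {v w : Word d} (h : (treeGraph d).Adj v w) :
    (len v = len w + 1 ∧ w = parent v) ∨ (len w = len v + 1 ∧ v = parent w) := by
  rcases h with ⟨h1, h2⟩ | ⟨h1, h2⟩
  · left
    obtain ⟨a, l, hl⟩ := List.exists_cons_of_ne_nil h1
    refine ⟨?_, Subtype.ext h2.symm⟩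
    have := congrArg List.length h2
    simp [hl] at this
    simp [len, hl, ← this]
  · right
    obtain ⟨a, l, hl⟩ := List.exists_cons_of_ne_nil h1
    refine ⟨?_, Subtype.ext h2.symm⟩
    have := congrArg List.length h2
    simp [hl] at this
    simp [len, hl, ← this]

lemma adj_root_iff {w : Word d} : (treeGraph d).Adj root w ↔ ∃ i, w = letter i := by
  constructor
  · intro h
    rcases h with ⟨h1, _⟩ | ⟨h1, h2⟩
    · exact absurd rfl h1
    · obtain ⟨a, l, hl⟩ := List.exists_cons_of_ne_nil h1
      rw [hl] at h2
      have : l = [] := h2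
      subst this
      exact ⟨a, Subtype.ext hl⟩
  · rintro ⟨i, rfl⟩
    right
    exact ⟨by simp [letter], rfl⟩

/-- The word surgery behind the involution that swaps the root with the letter `i`. -/
def flipL (i : Fin d) : List (Fin d) → List (Fin d)
  | [] => [i]
  | [j] => if j = i then [] else [j, i]
  | j :: k :: w => j :: flipL i (k :: w)

lemma flipL_cons_aux (i k : Fin d) (w : List (Fin d)) :
    flipL i (k :: w) = [] ∨ ∃ r, flipL i (k :: w) = k :: r := by
  cases w with
  | nil =>
    by_cases h : k = i
    · left; simp [flipL, h]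
    · right; exact ⟨[i], by simp [flipL, h]⟩
  | cons a w => right; exact ⟨_, rfl⟩

lemma flipL_chain (i : Fin d) : ∀ l : List (Fin d), l.IsChain (· ≠ ·) → (flipL i l).IsChain (· ≠ ·)
  | [], _ => List.isChain_singleton i
  | [j], _ => by
    by_cases h : j = i
    · simp [flipL, h]
    · simp [flipL, h]
  | j :: k :: w, hl => by
    have h1 := List.isChain_cons_cons.mp hl
    have ih := flipL_chain i (k :: w) h1.2
    show (j :: flipL i (k :: w)).IsChain _
    rcases flipL_cons_aux i k w with h | ⟨r, h⟩
    · rw [h]; exact List.isChain_singleton j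
    · rw [h] at ih ⊢
      exact List.isChain_cons_cons.mpr ⟨h1.1, ih⟩

lemma flipL_flipL (i : Fin d) : ∀ l : List (Fin d), l.IsChain (· ≠ ·) → flipL i (flipL i l) = l
  | [], _ => by simp [flipL]
  | [j], _ => by
    by_cases h : j = i
    · simp [flipL, h]
    · simp [flipL, h]
  | j :: k :: w, hl => by
    have h1 := List.isChain_cons_cons.mp hl
    have ih := flipL_flipL i (k :: w) h1.2
    show flipL i (j :: flipL i (k :: w)) = j :: k :: w
    rcases flipL_cons_aux i k w with h | ⟨r, h⟩
    · rw [h]
      have hw : w = [] ∧ k = i := by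
        cases w with
        | nil =>
          refine ⟨rfl, ?_⟩
          by_contra hk
          simp [flipL, hk] at h
        | cons a w => simp [flipL] at h
      obtain ⟨rfl, rfl⟩ := hw
      simp [flipL, h1.1]
    · rw [h] at ih ⊢
      show j :: flipL i (k :: r) = j :: k :: w
      rw [ih]

/-- The involution of the vertex set swapping the root with the letter `i`. -/
def flipW (i : Fin d) (v : Word d) : Word d := ⟨flipL i v.1, flipL_chain i v.1 v.2⟩

lemma flipW_flipW (i : Fin d) (v : Word d) : flipW i (flipW i v) = v :=
  Subtype.ext (flipL_flipL i v.1 v.2)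

lemma flipW_adj_aux (i : Fin d) {v w : Word d} (h1 : v.1 ≠ []) (h2 : v.1.tail = w.1) :
    (treeGraph d).Adj (flipW i v) (flipW i w) := by
  obtain ⟨a, l, hl⟩ := List.exists_cons_of_ne_nil h1
  rw [hl] at h2
  have hl' : l = w.1 := h2
  cases hw : w.1 with
  | nil =>
    have : l = [] := by rw [hl', hw]
    subst this
    by_cases h : a = i
    · right
      simp [flipW, hw, hl, flipL, h]
    · left
      simp [flipW, hw, hl, flipL, h]
  | cons b r =>
    left
    rw [hw] at hl'
    subst hl'
    simp [flipW, hl, hw, flipL]

lemma flipW_adj (i : Fin d) {v w : Word d} (h : (treeGraph d).Adj v w) :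
    (treeGraph d).Adj (flipW i v) (flipW i w) := by
  rcases h with ⟨h1, h2⟩ | ⟨h1, h2⟩
  · exact flipW_adj_aux i h1 h2
  · exact (flipW_adj_aux i h1 h2).symm

/-- The automorphism swapping the root with the letter `i`. -/
def flipAut (i : Fin d) : Aut d where
  toFun := flipW i
  invFun := flipW i
  left_inv := flipW_flipW i
  right_inv := flipW_flipW i
  map_rel_iff' := by
    intro v w
    constructor
    · intro h
      have := flipW_adj i h
      simpa [flipW_flipW] using this
    · exact flipW_adj i

@[simp] lemma flipAut_root (i : Fin d) : flipAut i root = letter i := rfl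

@[simp] lemma flipAut_flipAut (i : Fin d) (v : Word d) : flipAut i (flipAut i v) = v :=
  flipW_flipW i v

@[simp] lemma flipAut_letter (i : Fin d) : flipAut i (letter i) = root := by
  rw [← flipAut_root i, flipAut_flipAut]

/-- Neighbours of the image of the root under an automorphism. -/
lemma adj_aut_root_iff (γ : Aut d) {u : Word d} :
    (treeGraph d).Adj (γ root) u ↔ ∃ i, γ (letter i) = u := by
  constructor
  · intro h
    have h' : (treeGraph d).Adj root (γ.symm u) := by
      have := γ.symm.map_adj_iff.mpr (by simpa using h : (treeGraph d).Adj (γ root) u)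
      simpa using this
    obtain ⟨i, hi⟩ := adj_root_iff.mp h'
    exact ⟨i, by rw [← hi]; simp⟩
  · rintro ⟨i, rfl⟩
    exact γ.map_adj_iff.mpr (adj_root_iff.mpr ⟨i, rfl⟩)

lemma aut_letter_injective (γ : Aut d) : Function.Injective (fun i : Fin d => γ (letter i)) := by
  intro i j h
  have := γ.injective h
  have h2 : [i] = [j] := congrArg Subtype.val this
  simpa using h2

/-- The automorphisms act transitively. -/
lemma exists_aut (v : Word d) : ∃ γ : Aut d, γ root = v := by
  obtain ⟨l, hl⟩ := v
  induction l with
  | nil => exact ⟨Iso.refl, rfl⟩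
  | cons a l ih =>
    obtain ⟨γ, hγ⟩ := ih hl.tail
    have hadj : (treeGraph d).Adj (γ root) ⟨a :: l, hl⟩ := by
      rw [hγ]
      right
      exact ⟨by simp, rfl⟩
    obtain ⟨i, hi⟩ := (adj_aut_root_iff γ).mp hadj
    refine ⟨(flipAut i).trans γ, ?_⟩
    show γ (flipAut i root) = _
    rw [flipAut_root, hi]

/-- A chosen automorphism moving the root to `v`. -/
noncomputable def gm (v : Word d) : Aut d := (exists_aut v).choose

@[simp] lemma gm_root (v : Word d) : gm v root = v := (exists_aut v).choose_spec

/-- All vertices at distance at most `r` from the root. -/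
lemma finite_ball (r : ℕ) : {v : Word d | len v ≤ r}.Finite := by
  have h := List.finite_length_le (Fin d) r
  exact (h.preimage (Subtype.val_injective.injOn)).subset (fun v hv => hv)

/-- The ball of radius `r` around the root. -/
noncomputable def ball (r : ℕ) : Finset (Word d) := (finite_ball r).toFinset

@[simp] lemma mem_ball {r : ℕ} {v : Word d} : v ∈ ball r ↔ len v ≤ r := by
  simp [ball]

lemma exists_ball_superset (F : Finset (Word d)) : ∃ r, F ⊆ ball r := by
  refine ⟨F.sup len, fun v hv => ?_⟩
  rw [mem_ball]
  exact Finset.le_sup (f := len) hv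

lemma suffix_tail {α : Type*} {X Y : List α} (h : X <:+ Y) : X.tail <:+ Y.tail := by
  obtain ⟨t, rfl⟩ := h
  cases t with
  | nil => simp
  | cons a t =>
    simp only [List.cons_append, List.tail_cons]
    exact (List.tail_suffix X).trans (List.suffix_append t X)

/-- The list of an image of a vertex under an automorphism has the `len`-fold ancestor of the
image of the root as a suffix. -/
lemma drop_suffix_aut (γ : Aut d) (u : Word d) : ((γ root).1.drop (len u)) <:+ (γ u).1 := by
  obtain ⟨l, hl⟩ := u
  induction l with
  | nil => simp [len, root]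
  | cons a l ih =>
    have ih' := ih hl.tail
    have hadj : (treeGraph d).Adj (γ ⟨l, hl.tail⟩) (γ ⟨a :: l, hl⟩) := by
      apply γ.map_adj_iff.mpr
      right
      exact ⟨by simp, rfl⟩
    simp only [len, List.length_cons] at ih' ⊢
    have hd : (γ root).1.drop (l.length + 1) = ((γ root).1.drop l.length).tail := by
      rw [List.tail_drop]
    rw [hd]
    rcases hadj with ⟨h1, h2⟩ | ⟨h1, h2⟩
    · rw [← h2]
      exact suffix_tail ih'
    · have h3 : (γ ⟨l, hl.tail⟩).1 <:+ (γ ⟨a :: l, hl⟩).1 := by
        rw [← h2]; exact List.tail_suffix _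
      exact (List.tail_suffix _).trans (ih'.trans h3)

end Vale.Agent.Lib.P161
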