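import Vale.Agent.Lib.P161.Ops
import Vale.Agent.Lib.P161.HS
import Vale.Agent.Lib.P161.Mix

/-!
The upward step of the chain: applying the site kernel at each vertex, through a quantile coupling
with fresh uniform noise. Also the explicit form of the starting fields.
-/

namespace Vale.Agent.Lib.P161

open MeasureTheory ProbabilityTheory
open scoped ENNReal NNReal InnerProductSpace

variable {d : ℕ}

section Rep

variable {θ : ℝ} [Corr θ]

lemma fld_mem_GJ {W : HH d θ} (hW : W ∈ GJ θ) (v : Word d) : fld θ W v ∈ GJ θ := UU_GJ θ _ hW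

/-- The value of a Gaussian field at a vertex, as a function of the noise. -/
noncomputable def gRep (W : HH d θ) (hW : W ∈ GJ θ) (v : Word d) : Lp ℝ 2 (nu d) :=
  (fld_mem_GJ hW v).choose

lemma gRep_mem (W : HH d θ) (hW : W ∈ GJ θ) (v : Word d) : gRep W hW v ∈ GG d :=
  (fld_mem_GJ hW v).choose_spec.1

lemma gRep_eq (W : HH d θ) (hW : W ∈ GJ θ) (v : Word d) : JJ θ (gRep W hW v) = fld θ W v :=
  (fld_mem_GJ hW v).choose_spec.2

lemma fmap_gRep (W : HH d θ) (hW : W ∈ GJ θ) :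
    ∀ᵐ ω ∂(PP d θ), ∀ v, fmap θ W ω v = gRep W hW v ω.2 := by
  rw [ae_all_iff]
  intro v
  filter_upwards [JJ_coe θ (gRep W hW v)] with ω h
  simp only [fmap]
  rw [← gRep_eq W hW v, h]
  rfl

lemma inner_gRep (W W' : HH d θ) (hW : W ∈ GJ θ) (hW' : W' ∈ GJ θ) (v w : Word d) :
    ⟪gRep W hW v, gRep W' hW' w⟫_ℝ = ⟪fld θ W v, fld θ W' w⟫_ℝ := by
  rw [← gRep_eq W hW, ← gRep_eq W' hW', LinearIsometry.inner_map_map]

variable {β c s : ℝ} (O : Ops d θ β c s)

lemma T_g_GJ {T : KS d θ →L[ℝ] KS d θ} (hT : T ∈ alg (LK θ)) (k : ℕ) : (T (gK θ k)).v ∈ GJ θ :=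
  WW_le_GJ θ k (T_g_WW hT k)

lemma GK_mem : (GK O).v ∈ GJ θ := T_g_GJ O.hSq 0

lemma XiK_mem : (XiK O).v ∈ GJ θ :=
  (GJ θ).add_mem (T_g_GJ (TSq_mem O) 1) (T_g_GJ O.hE 0)

lemma XK_mem : (XK O).v ∈ GJ θ := by
  unfold XK
  rw [SK_XiK]
  exact (GJ θ).add_mem ((GJ θ).add_mem (T_g_GJ (TSq_mem O) 2) (T_g_GJ O.hE 1))
    ((GJ θ).smul_mem _ (gL_mem_GJ θ root 0))

/-- The spin field. -/
lemma fmap_so : ∀ᵐ ω ∂(PP d θ), ∀ v, fmap θ (soK θ : KS d θ).v ω v = sp (ω.1 v) := by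
  rw [ae_all_iff]
  intro v
  filter_upwards [spL_coe θ v] with ω h
  simp only [fmap]
  rw [fld_so, h]

/-- The field `a σ + β L σ`. -/
lemma fmap_Qso (a β : ℝ) :
    ∀ᵐ ω ∂(PP d θ), ∀ v, fmap θ (QQ θ a β (soK θ : KS d θ)).v ω v = locF a β ω.1 v := by
  have e : (QQ θ a β (soK θ : KS d θ)).v = a • (soK θ : KS d θ).v + β • LL θ (soK θ : KS d θ).v := rfl
  rw [e]
  filter_upwards [fmap_add θ (a • (soK θ : KS d θ).v) (β • LL θ (soK θ : KS d θ).v),
    fmap_smul θ a (soK θ : KS d θ).v, fmap_smul θ β (LL θ (soK θ : KS d θ).v),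
    fmap_LL θ (KS.mem (soK θ : KS d θ)), fmap_so] with ω h1 h2 h3 h4 h5 v
  have h6 : fmap θ (LL θ (soK θ : KS d θ).v) ω v = ∑ i, sp (ω.1 (nb v i)) := by
    rw [h4]
    exact Finset.sum_congr rfl fun i _ => h5 _
  rw [h1, Pi.add_apply, h2, h3]
  simp only [Pi.add_apply, Pi.smul_apply, smul_eq_mul, locF]
  rw [h5, h6]

/-- The starting field. -/
noncomputable def x0K : KS d θ := QQ θ c β (soK θ) + GK O

/-- The field after the downward step from the starting field. -/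
noncomputable def y0K : KS d θ := QQ θ (c - s) β (soK θ) + XiK O

lemma T_S_x0 : O.T (SK θ (x0K O)) + O.E (gK θ 0) = y0K O := by
  unfold x0K y0K XiK GK
  rw [map_add, map_add, ← SK_comm (QQ_mem c β), SK_so, ← SK_comm O.hSq, SK_g]
  have h1 : O.T (QQ θ c β (soK θ)) = QQ θ (c - s) β (soK θ) := by
    rw [← T_mul_Q O]
    rfl
  have h2 : O.T (O.Sq (gK θ (0 + 1))) = (O.T * O.Sq) (gK θ 1) := rfl
  rw [h1, h2, add_assoc]

lemma fmap_x0 : ∀ᵐ ω ∂(PP d θ), ∀ v, fmap θ (x0K O).v ω v =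
    locF c β ω.1 v + gRep (GK O).v (GK_mem O) v ω.2 := by
  have e : (x0K O).v = (QQ θ c β (soK θ : KS d θ)).v + (GK O).v := rfl
  rw [e]
  filter_upwards [fmap_add θ (QQ θ c β (soK θ : KS d θ)).v (GK O).v, fmap_Qso c β,
    fmap_gRep (GK O).v (GK_mem O)] with ω h1 h2 h3 v
  rw [h1]
  simp only [Pi.add_apply]
  rw [h2, h3]

lemma fmap_y0 : ∀ᵐ ω ∂(PP d θ), ∀ v, fmap θ (y0K O).v ω v =
    locF (c - s) β ω.1 v + gRep (XiK O).v (XiK_mem O) v ω.2 := by
  have e : (y0K O).v = (QQ θ (c - s) β (soK θ : KS d θ)).v + (XiK O).v := rfl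
  rw [e]
  filter_upwards [fmap_add θ (QQ θ (c - s) β (soK θ : KS d θ)).v (XiK O).v, fmap_Qso (c - s) β,
    fmap_gRep (XiK O).v (XiK_mem O)] with ω h1 h2 h3 v
  rw [h1]
  simp only [Pi.add_apply]
  rw [h2, h3]

lemma fmap_XK : ∀ᵐ ω ∂(PP d θ), ∀ v, gRep (XK O).v (XK_mem O) v ω.2 =
    gRep (XiK O).v (XiK_mem O) v (shf ω).2 + √s * (ω.2 (v, 0)).1 := by
  have e : (XK O).v = SS θ (XiK O).v + √s • gL θ root 0 := rfl
  have hg : ∀ᵐ ω ∂(PP d θ), ∀ v, fmap θ (gL θ root 0) ω v = (ω.2 (v, 0)).1 := by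
    rw [ae_all_iff]
    intro v
    filter_upwards [gL_coe θ v 0] with ω h
    simp only [fmap]
    have : fld θ (gL θ root 0) v = gL θ v 0 := fld_g θ 0 v
    rw [this, h]
  have h4 := (mp_shf θ).quasiMeasurePreserving.ae (fmap_gRep (XiK O).v (XiK_mem O))
  filter_upwards [fmap_gRep (XK O).v (XK_mem O), fmap_add θ (SS θ (XiK O).v) (√s • gL θ root 0),
    fmap_SS θ (XiK O).v, fmap_smul θ √s (gL θ root 0), hg, h4] with ω h1 h2 h3 h5 h6 h7 v
  rw [← h1, e, h2]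
  simp only [Pi.add_apply]
  rw [h3, h5]
  simp only [Function.comp_apply, Pi.smul_apply, smul_eq_mul]
  rw [h6, h7]

end Rep

section Up

/-- A monotone coupling of the site kernels. -/
structure SiteF (s : ℝ≥0) where
  F : ℝ → unitInterval → ℝ
  meas : Measurable (Function.uncurry F)
  law : ∀ x, Measure.map (F x) (volume : Measure unitInterval) = siteKer s x
  lip : ∀ᵐ u ∂(volume : Measure unitInterval), ∀ x y, |F x u - F y u| ≤ |x - y| / (1 - s)
  mem0 : MemLp (F 0) 2 (volume : Measure unitInterval)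

variable {s : ℝ≥0} (K : SiteF s) (θ : ℝ) [Corr θ]

/-- The uniform noise at time zero. -/
def u0 (v : Word d) (ω : Om d) : unitInterval := (ω.2 (v, 0)).2

lemma mp_u0 (v : Word d) : MeasurePreserving (u0 v : Om d → _) (PP d θ) volume := by
  have h1 : MeasurePreserving (fun z : Noise d => z (v, 0)) (nu d) mZ :=
    measurePreserving_eval_infinitePi (fun _ : Idx d => mZ) (v, 0)
  have h2 : MeasurePreserving (Prod.snd : Zv → unitInterval) mZ volume := by
    unfold mZ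
    exact measurePreserving_snd
  exact h2.comp (h1.comp (mp_snd θ))

/-- The upward step, as a function. -/
noncomputable def upF (y : HH d θ) (ω : Om d) : ℝ := K.F (y (shf ω)) (u0 root ω)

lemma measurable_upF (y : HH d θ) : Measurable (upF K θ y) := by
  have h1 : Measurable (fun ω : Om d => (y (shf ω), u0 root ω)) :=
    ((measurable_coe θ y).comp (mp_shf θ).measurable).prodMk (mp_u0 θ root).measurable
  exact K.meas.comp h1

lemma ae_lip (v : Word d) : ∀ᵐ ω ∂(PP d θ), ∀ x y, |K.F x (u0 v ω) - K.F y (u0 v ω)| ≤ |x - y| / (1 - s) :=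
  (mp_u0 θ v).quasiMeasurePreserving.ae K.lip

lemma memLp_upF (hs : s < 1) (y : HH d θ) : MemLp (upF K θ y) 2 (PP d θ) := by
  have hs' : (0 : ℝ) < 1 - s := by
    have : (s : ℝ) < 1 := by exact_mod_cast hs
    linarith
  have h1 : MemLp (fun ω : Om d => K.F 0 (u0 root ω)) 2 (PP d θ) :=
    K.mem0.comp_measurePreserving (mp_u0 θ root)
  have h2 : MemLp (fun ω : Om d => y (shf ω)) 2 (PP d θ) :=
    (Lp.memLp y).comp_measurePreserving (mp_shf θ)
  have h3 : MemLp (fun ω => |K.F 0 (u0 root ω)| + (1 - s : ℝ)⁻¹ * |y (shf ω)|) 2 (PP d θ) :=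
    MemLp.add h1.abs (MemLp.const_mul h2.abs _)
  refine h3.mono' (measurable_upF K θ y).aestronglyMeasurable ?_
  filter_upwards [ae_lip K θ root] with ω h
  have h4 := h (y (shf ω)) 0
  rw [sub_zero, div_eq_inv_mul] at h4
  have h5 : |upF K θ y ω| ≤ |K.F 0 (u0 root ω)| + |K.F (y (shf ω)) (u0 root ω) - K.F 0 (u0 root ω)| := by
    have := abs_sub_abs_le_abs_sub (K.F (y (shf ω)) (u0 root ω)) (K.F 0 (u0 root ω))
    unfold upF
    linarith
  rw [Real.norm_eq_abs]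
  linarith

/-- The upward step. -/
noncomputable def UpL (hs : s < 1) (y : HH d θ) : HH d θ := (memLp_upF K θ hs y).toLp _

lemma UpL_coe (hs : s < 1) (y : HH d θ) : UpL K θ hs y =ᵐ[PP d θ] upF K θ y :=
  (memLp_upF K θ hs y).coeFn_toLp

lemma UpL_lip (hs : s < 1) (y y' : HH d θ) :
    ‖UpL K θ hs y - UpL K θ hs y'‖ ≤ (1 - s : ℝ)⁻¹ * ‖y - y'‖ := by
  have hs' : (0 : ℝ) < 1 - s := by
    have : (s : ℝ) < 1 := by exact_mod_cast hs
    linarith
  have h : ‖UpL K θ hs y - UpL K θ hs y'‖ ≤ (1 - s : ℝ)⁻¹ * ‖SS θ (y - y')‖ := by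
    refine Lp.norm_le_mul_norm_of_ae_le_mul ?_
    have h6 := (mp_shf θ).quasiMeasurePreserving.ae (Lp.coeFn_sub y y')
    filter_upwards [Lp.coeFn_sub (UpL K θ hs y) (UpL K θ hs y'), UpL_coe K θ hs y, UpL_coe K θ hs y',
      ae_lip K θ root, SS_coe θ (y - y'), h6] with ω h1 h2 h3 h4 h5 h7
    rw [h1, Pi.sub_apply, h2, h3, h5]
    simp only [Function.comp_apply, Real.norm_eq_abs]
    rw [h7, Pi.sub_apply]
    refine (h4 _ _).trans (le_of_eq ?_)
    rw [div_eq_inv_mul]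
  rwa [(SS θ).norm_map] at h

/-- The upward step and automorphisms. -/
lemma UU_UpL (hs : s < 1) (g : Aut d) (y : HH d θ) :
    UU θ g (UpL K θ hs y) =ᵐ[PP d θ] fun ω => K.F ((UU θ g y : HH d θ) (shf ω)) (u0 (g root) ω) := by
  have h1 := (mp_act θ g.symm).quasiMeasurePreserving.ae (UpL_coe K θ hs y)
  have h2 := (mp_shf θ).quasiMeasurePreserving.ae (UU_coe θ g y)
  filter_upwards [UU_coe θ g (UpL K θ hs y), h1, h2] with ω h3 h4 h5
  rw [h3]
  simp only [Function.comp_apply]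
  rw [h4, h5]
  simp only [upF, Function.comp_apply]
  rfl

/-- The field of an upward step. -/
lemma fmap_UpL (hs : s < 1) (y : HH d θ) :
    ∀ᵐ ω ∂(PP d θ), ∀ v, fmap θ (UpL K θ hs y) ω v = K.F (fmap θ y (shf ω) v) (u0 v ω) := by
  rw [ae_all_iff]
  intro v
  filter_upwards [UU_UpL K θ hs (gm v) y] with ω h
  simp only [fmap, fld]
  rw [h, gm_root]

lemma UpL_stab (hs : s < 1) {y : HH d θ} (hy : y ∈ KK θ) {k : Aut d} (hk : k root = root) :
    UU θ k (UpL K θ hs y) = UpL K θ hs y := by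
  apply Lp.ext
  filter_upwards [UU_UpL K θ hs k y, UpL_coe K θ hs y] with ω h1 h2
  rw [h1, h2, hy.2 k hk, hk]
  rfl

lemma UpL_NN (hs : s < 1) {y : HH d θ} (hy : y ∈ NN θ) : UpL K θ hs y ∈ NN θ := by
  obtain ⟨f, hf, h⟩ := exists_rep θ hy
  have h1 : Measurable (fun z : Noise d => K.F (f (shfN z)) (z (root, 0)).2) := by
    refine K.meas.comp ((hf.comp measurable_shfN).prodMk ?_)
    exact measurable_snd.comp (measurable_pi_apply _)
  refine mem_NN_of_ae θ h1 ?_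
  have h2 := (mp_shf θ).quasiMeasurePreserving.ae h
  filter_upwards [UpL_coe K θ hs y, h2] with ω h3 h4
  rw [h3]
  simp only [upF, Function.comp_apply] at h4 ⊢
  rw [h4]
  rfl

end Up

end Vale.Agent.Lib.P161
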